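import Vale.Agent.P252b.Defs

/-!
Parallelotopes of maximal volume; linear changes of variables.
-/

open MeasureTheory Metric Set Filter Topology Matrix
open scoped ENNReal ContDiff

noncomputable section

namespace Vale.Agent.P252b

variable {n : ℕ}

theorem volume_image_affine (M : Matrix (Fin n) (Fin n) ℝ) (b : E n) (S : Set (E n)) :
    volume ((fun ξ => b + M *ᵥ ξ) '' S) = ENNReal.ofReal |M.det| * volume S := by
  have h1 : (fun ξ => b + M *ᵥ ξ) '' S = (fun z => b + z) '' (Matrix.toLin' M '' S) := by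
    rw [Set.image_image]; rfl
  rw [h1, Set.image_add_left, measure_preimage_add, Measure.addHaar_image_linearMap,
    LinearMap.det_toLin']

theorem volume_closedBall_eq {r : ℝ} (hr : 0 ≤ r) (c : E n) :
    volume (closedBall c r) = ENNReal.ofReal ((2 * r) ^ n) := by
  rw [Real.volume_pi_closedBall c hr, Fintype.card_fin]

theorem volume_closedBall_one :
    volume (closedBall (0 : E n) 1) = ENNReal.ofReal (2 ^ n) := by
  rw [volume_closedBall_eq zero_le_one, mul_one]

/-- A set of positive volume contains `n` points whose differences with `y₀` are independent. -/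
theorem maxdet_exists_ne {S : Set (E n)} (y₀ : E n) (hpos : 0 < volume S) :
    ∃ M : Matrix (Fin n) (Fin n) ℝ, M.det ≠ 0 ∧ ∀ i, y₀ + (fun k => M k i) ∈ S := by
  classical
  set T : Set (E n) := (fun z => y₀ + z) ⁻¹' S with hT
  have hTv : volume T = volume S := measure_preimage_add _ _ _
  have hspan : Submodule.span ℝ T = ⊤ := by
    by_contra hne
    have h0 := Measure.addHaar_submodule (volume : Measure (E n)) _ hne
    have h1 : volume T ≤ volume (Submodule.span ℝ T : Set (E n)) :=
      measure_mono Submodule.subset_span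
    rw [h0, hTv] at h1
    exact absurd h1 (not_le.2 hpos)
  obtain ⟨b, hbT, hbs, hbi⟩ := exists_linearIndependent ℝ T
  rw [hspan] at hbs
  have hbsp : ⊤ ≤ Submodule.span ℝ (Set.range ((↑) : b → E n)) := by
    rw [Subtype.range_coe, hbs]
  let B : Module.Basis b ℝ (E n) := Module.Basis.mk hbi hbsp
  let e : b ≃ Fin n := B.indexEquiv (Pi.basisFun ℝ (Fin n))
  refine ⟨Matrix.of fun k i => ((e.symm i : b) : E n) k, ?_, fun i => hbT (e.symm i).2⟩
  have hli : LinearIndependent ℝ (fun i : Fin n => ((e.symm i : b) : E n)) :=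
    hbi.comp e.symm e.symm.injective
  have hu : IsUnit (Matrix.of fun k i => ((e.symm i : b) : E n) k) :=
    Matrix.linearIndependent_cols_iff_isUnit.1 hli
  exact ((Matrix.isUnit_iff_isUnit_det _).1 hu).ne_zero

theorem maxdet_cramer {M : Matrix (Fin n) (Fin n) ℝ} (hM : M.det ≠ 0) (v : E n) (i : Fin n) :
    M.det * (M⁻¹ *ᵥ v) i = (M.updateCol i v).det := by
  have h := Matrix.det_smul_inv_mulVec_eq_cramer M v (Ne.isUnit hM)
  have h2 := congrFun h i
  rw [Matrix.cramer_apply] at h2
  exact h2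

theorem maxdet_compact {S : Set (E n)} (hS : IsCompact S) (y₀ : E n) :
    IsCompact {M : Matrix (Fin n) (Fin n) ℝ | ∀ i, y₀ + (fun k => M k i) ∈ S} := by
  have hT : IsCompact ((fun z => -y₀ + z) '' S) := hS.image (by fun_prop)
  have h1 : IsCompact (Set.pi univ fun _ : Fin n => (fun z => -y₀ + z) '' S) :=
    isCompact_univ_pi fun _ => hT
  have hc : Continuous (fun c : Fin n → E n => (Matrix.of fun k i => c i k)) :=
    continuous_pi fun k => continuous_pi fun i => (continuous_apply k).comp (continuous_apply i)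
  have h2 := h1.image hc
  have h3 : {M : Matrix (Fin n) (Fin n) ℝ | ∀ i, y₀ + (fun k => M k i) ∈ S} =
      (fun c : Fin n → E n => (Matrix.of fun k i => c i k)) ''
        (Set.pi univ fun _ : Fin n => (fun z => -y₀ + z) '' S) := by
    ext M
    constructor
    · intro hM
      refine ⟨fun i k => M k i, fun i _ => ⟨_, hM i, ?_⟩, rfl⟩
      simp only [neg_add_cancel_left]
    · rintro ⟨c, hc, rfl⟩ i
      obtain ⟨z, hz, hzc⟩ := hc i (mem_univ i)
      have : y₀ + (fun k => (Matrix.of fun k i => c i k) k i) = z := by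
        have h4 : (fun k => (Matrix.of fun k i => c i k) k i) = c i := rfl
        rw [h4, ← hzc]
        simp only [add_neg_cancel_left]
      rw [this]; exact hz
  rw [h3]; exact h2

theorem maxdet_mem (hn : 1 ≤ n) {S : Set (E n)} (hc : Convex ℝ S) {y₀ : E n} (hy : y₀ ∈ S)
    {M : Matrix (Fin n) (Fin n) ℝ} (hM : ∀ i, y₀ + (fun k => M k i) ∈ S) {ξ : E n}
    (hξ : ξ ∈ Set.Icc (0 : E n) (fun _ => (n : ℝ)⁻¹)) : y₀ + M *ᵥ ξ ∈ S := by
  have hn0 : (0 : ℝ) < n := by exact_mod_cast hn
  have h1 : ∀ i : Fin n, y₀ + ((n : ℝ) * ξ i) • (fun k => M k i) ∈ S := by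
    intro i
    have h0 : 0 ≤ ξ i := hξ.1 i
    have h2 : ξ i ≤ (n : ℝ)⁻¹ := hξ.2 i
    have h3 : (n : ℝ) * ξ i ≤ 1 := by
      have := mul_le_mul_of_nonneg_left h2 hn0.le
      rwa [mul_inv_cancel₀ hn0.ne'] at this
    exact hc.add_smul_mem hy (hM i) ⟨by positivity, h3⟩
  have h2 := hc.sum_mem (t := Finset.univ) (w := fun _ : Fin n => (n : ℝ)⁻¹)
    (z := fun i => y₀ + ((n : ℝ) * ξ i) • (fun k => M k i))
    (fun _ _ => by positivity) (by simp [hn0.ne']) (fun i _ => h1 i)
  have h3 : ∑ i : Fin n, (n : ℝ)⁻¹ • (y₀ + ((n : ℝ) * ξ i) • (fun k => M k i)) =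
      y₀ + M *ᵥ ξ := by
    funext k
    simp only [Finset.sum_apply, Pi.smul_apply, Pi.add_apply, smul_eq_mul, Matrix.mulVec,
      dotProduct, mul_add, Finset.sum_add_distrib, Finset.sum_const, Finset.card_univ,
      Fintype.card_fin, nsmul_eq_mul]
    congr 1
    · field_simp
    · refine Finset.sum_congr rfl fun i _ => ?_
      field_simp
  rwa [h3] at h2

/-- Maximise `|det M|` over the compact set of matrices whose columns lie in `S - y₀`. By Cramer's
rule (`Matrix.cramer`, `Matrix.det_updateCol`-type lemmas, `Matrix.mulVec_cramer`) the `i`-th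
coordinate of `M⁻¹ (x - y₀)` is a quotient of two such determinants. If the maximum were zero,
`S - y₀` would span a proper subspace (choose a basis of the span inside the set,
`exists_linearIndependent`), of measure zero (`Measure.addHaar_submodule`). The lower bound:
`y₀ + M ξ ∈ S` for `ξ ∈ [0, 1/n]ⁿ` by convexity. -/
theorem exists_maxdet (hn : 1 ≤ n) {S : Set (E n)} (hS : IsCompact S) (hc : Convex ℝ S)
    {y₀ : E n} (hy : y₀ ∈ S) (hpos : 0 < volume S) :
    ∃ M : Matrix (Fin n) (Fin n) ℝ, M.det ≠ 0 ∧ (∀ i, y₀ + (fun k => M k i) ∈ S) ∧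
      (∀ x ∈ S, ‖M⁻¹ *ᵥ (x - y₀)‖ ≤ 1) ∧
      volume.real S ≤ 2 ^ n * |M.det| ∧ |M.det| ≤ (n : ℝ) ^ n * volume.real S := by
  have hn0 : (0 : ℝ) < n := by exact_mod_cast hn
  obtain ⟨M₀, hM₀, hM₀S⟩ := maxdet_exists_ne y₀ hpos
  have hcont : Continuous (fun M : Matrix (Fin n) (Fin n) ℝ => |M.det|) :=
    (Continuous.matrix_det continuous_id).abs
  obtain ⟨M, hMS, hmax⟩ := (maxdet_compact hS y₀).exists_isMaxOn ⟨M₀, hM₀S⟩ hcont.continuousOn
  have hpos0 : 0 < |M.det| := (abs_pos.2 hM₀).trans_le (hmax hM₀S)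
  have hM : M.det ≠ 0 := abs_pos.1 hpos0
  have hU : IsUnit M.det := Ne.isUnit hM
  have hb : ∀ x ∈ S, ‖M⁻¹ *ᵥ (x - y₀)‖ ≤ 1 := by
    intro x hx
    refine (pi_norm_le_iff_of_nonneg zero_le_one).2 fun i => ?_
    have h1 := maxdet_cramer hM (x - y₀) i
    have h2 : (M.updateCol i (x - y₀)) ∈
        {M : Matrix (Fin n) (Fin n) ℝ | ∀ i, y₀ + (fun k => M k i) ∈ S} := by
      intro j
      by_cases hj : j = i
      · subst hj
        have : (fun k => M.updateCol j (x - y₀) k j) = x - y₀ := by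
          funext k; rw [Matrix.updateCol_self]
        rw [this, add_sub_cancel]; exact hx
      · have : (fun k => M.updateCol i (x - y₀) k j) = fun k => M k j := by
          funext k; rw [Matrix.updateCol_ne hj]
        rw [this]; exact hMS j
    have h3 : |(M.updateCol i (x - y₀)).det| ≤ |M.det| := hmax h2
    rw [← h1, abs_mul] at h3
    rw [Real.norm_eq_abs]
    by_contra hlt
    push Not at hlt
    nlinarith
  refine ⟨M, hM, hMS, hb, ?_, ?_⟩
  · have hsub : S ⊆ (fun ξ => y₀ + M *ᵥ ξ) '' closedBall (0 : E n) 1 := by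
      intro x hx
      refine ⟨M⁻¹ *ᵥ (x - y₀), mem_closedBall_zero_iff.2 (hb x hx), ?_⟩
      simp only [Matrix.mulVec_mulVec, Matrix.mul_nonsing_inv M hU, Matrix.one_mulVec,
        add_sub_cancel]
    have h1 := measure_mono (μ := volume) hsub
    rw [volume_image_affine, volume_closedBall_one, ← ENNReal.ofReal_mul (abs_nonneg _)] at h1
    have h2 := ENNReal.toReal_le_of_le_ofReal (by positivity) h1
    rw [mul_comm]; exact h2
  · have hsub : (fun ξ => y₀ + M *ᵥ ξ) '' Set.Icc (0 : E n) (fun _ => (n : ℝ)⁻¹) ⊆ S := by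
      rintro _ ⟨ξ, hξ, rfl⟩
      exact maxdet_mem hn hc hy hMS hξ
    have h1 := measure_mono (μ := volume) hsub
    rw [volume_image_affine, Real.volume_Icc_pi] at h1
    simp only [Pi.zero_apply, sub_zero, Finset.prod_const, Finset.card_univ,
      Fintype.card_fin] at h1
    rw [← ENNReal.ofReal_pow (by positivity), ← ENNReal.ofReal_mul (abs_nonneg _)] at h1
    have h2 : |M.det| * ((n : ℝ)⁻¹) ^ n ≤ volume.real S :=
      (ENNReal.ofReal_le_iff_le_toReal hS.measure_lt_top.ne).1 h1
    have h3 : (0 : ℝ) < (n : ℝ) ^ n := by positivity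
    rw [inv_pow, ← div_eq_mul_inv, div_le_iff₀ h3] at h2
    linarith

end Vale.Agent.P252b
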