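import Vale.Agent.P252b.Jac

/-!
Piola identity, divergence form of the affine maximal equation, and the action of `u^{ij}∂_{ij}`
on the standard auxiliary functions.
-/

open MeasureTheory Metric Set Filter Topology Matrix
open scoped ENNReal ContDiff

noncomputable section

namespace Vale.Agent.P252b

variable {n : ℕ}

section
variable {u : E n → ℝ} {x : E n}

theorem piola_pd (f : E n → ℝ) (i : Fin n) (x : E n) :
    pd f i x = grad f x ⬝ᵥ Pi.single i 1 := by
  rw [dotProduct_single, mul_one]; rfl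

theorem piola_Tm (hu : ContDiffAt ℝ ∞ u x) (i a b : Fin n) :
    Tm u (Pi.single i 1) x a b = Tm u (Pi.single b 1) x a i := by
  have h := congrFun (Tm_swap hu (Pi.single i 1) (Pi.single b 1)) a
  simpa [mulVec_single_one] using h

theorem piola_div (hu : ContDiffAt ℝ ∞ u x) (h : (Hs u x).PosDef) (j : Fin n) :
    ∑ i, pd (fun y => Gm u y i j) i x =
      -∑ b, grad (fun y => Real.log (Dt u y)) x b * Gm u x b j := by
  have h1 : ∀ b, grad (fun y => Real.log (Dt u y)) x b =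
      ∑ i, ∑ a, Gm u x i a * Tm u (Pi.single i 1) x a b := fun b => by
    have h2 := grad_logDt hu h (Pi.single b 1)
    rw [dotProduct_single, mul_one] at h2
    rw [h2]
    simp only [Matrix.trace, Matrix.diag, Matrix.mul_apply]
    exact Finset.sum_congr rfl fun i _ => Finset.sum_congr rfl fun a _ => by
      rw [piola_Tm hu i a b]
  simp only [piola_pd, grad_Gm hu h, h1, Finset.sum_mul]
  rw [Finset.sum_neg_distrib, Finset.sum_comm]
  simp only [Matrix.mul_apply, Finset.sum_mul]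

theorem piola_gq_smul (c : ℝ) (v w : E n) : gq u x (c • v) w = c * gq u x v w := by
  unfold gq
  rw [smul_dotProduct, smul_eq_mul]

theorem piola_Lnd_congr {F G : E n → ℝ} (h : F =ᶠ[𝓝 x] G) : Lnd u F x = Lnd u G x := by
  unfold Lnd
  rw [Hs_congr h]

theorem piola_Lnd_sum {ι : Type} (s : Finset ι) {f : ι → E n → ℝ}
    (hf : ∀ i ∈ s, ContDiffAt ℝ ∞ (f i) x) :
    Lnd u (fun y => ∑ i ∈ s, f i y) x = ∑ i ∈ s, Lnd u (f i) x := by
  unfold Lnd
  rw [Hs_sum s hf, Finset.mul_sum, Matrix.trace_sum]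

theorem piola_Lnd_comp {F : E n → ℝ} {φ φ' : ℝ → ℝ} {φ'' : ℝ} (hF : ContDiffAt ℝ ∞ F x)
    (h1 : ∀ᶠ t in 𝓝 (F x), HasDerivAt φ (φ' t) t) (h2 : HasDerivAt φ' φ'' (F x)) :
    Lnd u (fun y => φ (F y)) x =
      φ' (F x) * Lnd u F x + φ'' * gq u x (grad F x) (grad F x) := by
  unfold Lnd gq
  rw [Hs_comp hF h1 h2, Matrix.mul_add, Matrix.mul_smul, Matrix.mul_smul, Matrix.trace_add,
    Matrix.trace_smul, Matrix.trace_smul, trace_mul_vecMulVec, smul_eq_mul, smul_eq_mul]

theorem piola_contDiffAt_dot (hu : ContDiffAt ℝ ∞ u x) (v : E n) :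
    ContDiffAt ℝ ∞ (fun y => grad u y ⬝ᵥ v) x := by
  have h := (contDiff_dot v).contDiffAt.comp x (contDiffAt_grad hu)
  refine h.congr_of_eventuallyEq (Eventually.of_forall fun y => ?_)
  exact dotProduct_comm _ _

/-- `∂_i G^{ij} = - G^{ia} u_{iab} G^{bj} = - ∂_b log D G^{bj}` by `grad_Gm`, `Tm_swap`,
`grad_logDt`. -/
theorem Lop_eq (hu : ContDiffAt ℝ ∞ u x) (h : (Hs u x).PosDef) {F : E n → ℝ}
    (hF : ContDiffAt ℝ ∞ F x) :
    Lop u F x = Lnd u F x - gq u x (grad (fun y => Real.log (Dt u y)) x) (grad F x) := by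
  have hd : ∀ i j, DifferentiableAt ℝ (fun y => Gm u y i j) x := fun i j =>
    (contDiffAt_Gm hu h i j).differentiableAt (by simp)
  have hp : ∀ j, DifferentiableAt ℝ (pd F j) x := fun j =>
    (contDiffAt_pd hF j).differentiableAt (by simp)
  have h1 : ∀ i, pd (fun y => (Gm u y *ᵥ grad F y) i) i x =
      ∑ j, (Gm u x i j * Hs F x j i + pd F j x * pd (fun y => Gm u y i j) i x) := fun i => by
    have h2 : (fun y => (Gm u y *ᵥ grad F y) i) = fun y => ∑ j, Gm u y i j * pd F j y := rfl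
    have h3 := congrFun (grad_sum Finset.univ (f := fun j y => Gm u y i j * pd F j y) (x := x)
      fun j _ => (hd i j).mul (hp j)) i
    rw [h2]
    refine h3.trans ?_
    rw [Finset.sum_apply]
    refine Finset.sum_congr rfl fun j _ => ?_
    rw [grad_mul (hd i j) (hp j), grad_pd]
    have h4 : Hs F x j i = Hs F x i j := congrFun (congrFun (Hs_symm hF) i) j
    rw [h4]
    rfl
  unfold Lop dv
  simp only [h1, Finset.sum_add_distrib]
  have h5 : ∑ i, ∑ j, pd F j x * pd (fun y => Gm u y i j) i x =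
      -gq u x (grad (fun y => Real.log (Dt u y)) x) (grad F x) := by
    rw [Finset.sum_comm]
    simp only [← Finset.mul_sum, piola_div hu h]
    unfold gq
    simp only [dotProduct, mulVec, Finset.mul_sum, mul_neg, Finset.sum_neg_distrib]
    rw [Finset.sum_comm]
    refine congrArg Neg.neg (Finset.sum_congr rfl fun b _ => Finset.sum_congr rfl fun j _ => ?_)
    show pd F j x * _ = _ * (_ * pd F j x)
    ring
  rw [h5, sub_eq_add_neg]
  rfl

theorem grad_logDt_ff (hu : ContDiffAt ℝ ∞ u x) (h : (Hs u x).PosDef) :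
    grad (fun y => Real.log (Dt u y)) x = (((n : ℝ) + 2) * (ff u x)⁻¹) • grad (ff u) x := by
  have hn : (0 : ℝ) < (n : ℝ) + 2 := by positivity
  have h1 : (fun y => Real.log (Dt u y)) =ᶠ[𝓝 x] fun y => ((n : ℝ) + 2) * Real.log (ff u y) := by
    filter_upwards [eventually_det_ne hu h] with y hy
    unfold ff
    rw [Real.log_rpow hy]
    field_simp
  have hf : DifferentiableAt ℝ (ff u) x := (contDiffAt_ff hu h).differentiableAt (by simp)
  rw [grad_congr h1, grad_const_mul _ (hf.log (ff_pos h).ne'), grad_log hf (ff_pos h).ne',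
    smul_smul]

theorem grad_logDt_ww (hu : ContDiffAt ℝ ∞ u x) (h : (Hs u x).PosDef) :
    grad (fun y => Real.log (Dt u y)) x =
      (-(((n : ℝ) + 2) / ((n : ℝ) + 1)) * (ww u x)⁻¹) • grad (ww u) x := by
  have hn : (0 : ℝ) < (n : ℝ) + 2 := by positivity
  have hn' : (0 : ℝ) < (n : ℝ) + 1 := by positivity
  have h1 : (fun y => Real.log (Dt u y)) =ᶠ[𝓝 x]
      fun y => -(((n : ℝ) + 2) / ((n : ℝ) + 1)) * Real.log (ww u y) := by
    filter_upwards [eventually_det_ne hu h] with y hy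
    unfold ww
    rw [Real.log_rpow hy]
    field_simp
  have hf : DifferentiableAt ℝ (ww u) x := (contDiffAt_ww hu h).differentiableAt (by simp)
  rw [grad_congr h1, grad_const_mul _ (hf.log (ww_pos h).ne'), grad_log hf (ww_pos h).ne',
    smul_smul]

/-- Near `x` we have `ww u = (ff u) ^ (-(n+1))`; by `Hs_comp` the equation `Lnd u (ww u) x = 0`
says `Lnd u f x = (n+2) |∇f|² / f`, which is `Lop u f x = 0` by `Lop_eq`. -/
theorem Lop_ff (hu : ContDiffAt ℝ ∞ u x) (h : (Hs u x).PosDef) (ham : Lnd u (ww u) x = 0) :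
    Lop u (ff u) x = 0 := by
  have hn : (0 : ℝ) < (n : ℝ) + 2 := by positivity
  have hn' : (0 : ℝ) < (n : ℝ) + 1 := by positivity
  have hf := ff_pos h
  have h1 : ww u =ᶠ[𝓝 x] fun y => ff u y ^ (-((n : ℝ) + 1)) := by
    filter_upwards [eventually_det_ne hu h] with y hy
    unfold ww ff
    rw [← Real.rpow_mul hy.le]
    refine congrArg _ ?_
    field_simp
  have h2 : ∀ᶠ t in 𝓝 (ff u x), HasDerivAt (fun t : ℝ => t ^ (-((n : ℝ) + 1)))
      (-((n : ℝ) + 1) * t ^ (-((n : ℝ) + 1) - 1)) t := by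
    filter_upwards [eventually_gt_nhds hf] with t ht
    exact Real.hasDerivAt_rpow_const (Or.inl ht.ne')
  have h3 : HasDerivAt (fun t : ℝ => -((n : ℝ) + 1) * t ^ (-((n : ℝ) + 1) - 1))
      (-((n : ℝ) + 1) * ((-((n : ℝ) + 1) - 1) * ff u x ^ (-((n : ℝ) + 1) - 1 - 1))) (ff u x) :=
    (Real.hasDerivAt_rpow_const (Or.inl hf.ne')).const_mul _
  rw [piola_Lnd_congr h1, piola_Lnd_comp (contDiffAt_ff hu h) h2 h3,
    Real.rpow_sub_one hf.ne' (-((n : ℝ) + 1) - 1)] at ham
  have hp : 0 < ff u x ^ (-((n : ℝ) + 1) - 1) := Real.rpow_pos_of_pos hf _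
  rw [Lop_eq hu h (contDiffAt_ff hu h), grad_logDt_ff hu h, piola_gq_smul]
  have h4 : -((n : ℝ) + 1) * ff u x ^ (-((n : ℝ) + 1) - 1) * (Lnd u (ff u) x -
      ((n : ℝ) + 2) * (ff u x)⁻¹ * gq u x (grad (ff u) x) (grad (ff u) x)) = 0 := by
    rw [← ham, div_eq_mul_inv]
    ring
  rcases mul_eq_zero.1 h4 with h5 | h5
  · exact absurd h5 (mul_ne_zero (neg_ne_zero.2 hn'.ne') hp.ne')
  · exact h5

theorem Lnd_self (h : (Hs u x).PosDef) : Lnd u u x = n := by
  unfold Lnd
  rw [Gm_mul_Hs h, Matrix.trace_one, Fintype.card_fin]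

theorem Lnd_add {F G : E n → ℝ} (hF : ContDiffAt ℝ ∞ F x) (hG : ContDiffAt ℝ ∞ G x) :
    Lnd u (fun y => F y + G y) x = Lnd u F x + Lnd u G x := by
  unfold Lnd
  rw [Hs_add hF hG, Matrix.mul_add, Matrix.trace_add]

theorem Lnd_const_mul {F : E n → ℝ} (c : ℝ) (hF : ContDiffAt ℝ ∞ F x) :
    Lnd u (fun y => c * F y) x = c * Lnd u F x := by
  unfold Lnd
  rw [Hs_const_mul c hF, Matrix.mul_smul, Matrix.trace_smul, smul_eq_mul]

theorem Lnd_const_sub (F : E n → ℝ) (c : ℝ) : Lnd u (fun y => c - F y) x = -Lnd u F x := by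
  unfold Lnd
  rw [Hs_const_sub, Matrix.mul_neg, Matrix.trace_neg]

theorem Lnd_log {F : E n → ℝ} (hF : ContDiffAt ℝ ∞ F x) (h0 : F x ≠ 0) :
    Lnd u (fun y => Real.log (F y)) x =
      Lnd u F x / F x - gq u x (grad F x) (grad F x) / F x ^ 2 := by
  unfold Lnd gq
  rw [Hs_log hF h0, Matrix.mul_sub, Matrix.mul_smul, Matrix.mul_smul, Matrix.trace_sub,
    Matrix.trace_smul, Matrix.trace_smul, trace_mul_vecMulVec, smul_eq_mul, smul_eq_mul,
    div_eq_inv_mul, div_eq_inv_mul]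

theorem Lnd_sq {F : E n → ℝ} (hF : ContDiffAt ℝ ∞ F x) :
    Lnd u (fun y => F y ^ 2) x = 2 * F x * Lnd u F x + 2 * gq u x (grad F x) (grad F x) := by
  have h1 : ∀ᶠ t in 𝓝 (F x), HasDerivAt (fun t : ℝ => t ^ 2) (2 * t) t :=
    Eventually.of_forall fun t => by simpa using hasDerivAt_pow 2 t
  have h2 : HasDerivAt (fun t : ℝ => 2 * t) 2 (F x) := by
    simpa using (hasDerivAt_id (F x)).const_mul 2
  exact piola_Lnd_comp (φ := fun t : ℝ => t ^ 2) (φ' := fun t : ℝ => 2 * t) hF h1 h2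

theorem Lnd_grad_dot (hu : ContDiffAt ℝ ∞ u x) (h : (Hs u x).PosDef) (v : E n) :
    Lnd u (fun y => grad u y ⬝ᵥ v) x = grad (fun y => Real.log (Dt u y)) x ⬝ᵥ v := by
  unfold Lnd
  rw [Hs_grad_dot hu, grad_logDt hu h]

theorem grad_normsq (hu : ContDiffAt ℝ ∞ u x) :
    grad (fun y => grad u y ⬝ᵥ grad u y) x = (2 : ℝ) • (Hs u x *ᵥ grad u x) := by
  have hp : ∀ k, DifferentiableAt ℝ (pd u k) x := fun k =>
    (contDiffAt_pd hu k).differentiableAt (by simp)
  have h1 : (fun y => grad u y ⬝ᵥ grad u y) = fun y => ∑ k, pd u k y * pd u k y := rfl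
  rw [h1, grad_sum Finset.univ (f := fun k y => pd u k y * pd u k y) fun k _ => (hp k).mul (hp k)]
  funext i
  rw [Finset.sum_apply]
  simp only [grad_mul (hp _) (hp _), grad_pd, Pi.add_apply, Pi.smul_apply, smul_eq_mul, mulVec,
    dotProduct, Finset.mul_sum]
  refine Finset.sum_congr rfl fun k _ => ?_
  show _ = 2 * (_ * pd u k x)
  ring

/-- Sum over `k` of `Lnd_sq` for `pd u k`, with `Lnd_grad_dot` for the basis vectors. -/
theorem Lnd_normsq (hu : ContDiffAt ℝ ∞ u x) (h : (Hs u x).PosDef) :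
    Lnd u (fun y => grad u y ⬝ᵥ grad u y) x =
      2 * (Hs u x).trace + 2 * (grad (fun y => Real.log (Dt u y)) x ⬝ᵥ grad u x) := by
  have h1 : (fun y => grad u y ⬝ᵥ grad u y) = fun y => ∑ k, pd u k y ^ 2 := by
    funext y
    simp only [sq]
    rfl
  have h2 : ∀ k, pd u k = fun y => grad u y ⬝ᵥ Pi.single k 1 := fun k =>
    funext fun y => piola_pd u k y
  have h3 : ∀ k, Lnd u (pd u k) x = grad (fun y => Real.log (Dt u y)) x k := fun k => by
    rw [h2 k, Lnd_grad_dot hu h, dotProduct_single, mul_one]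
  have h4 : ∀ k, gq u x (grad (pd u k) x) (grad (pd u k) x) = Hs u x k k := fun k => by
    have h5 : grad (pd u k) x = Hs u x *ᵥ Pi.single k 1 := by
      rw [h2 k, grad_grad_dot hu]
    rw [h5, gq_Hs h, dotProduct_single, mul_one, mulVec_single_one]
    rfl
  rw [h1, piola_Lnd_sum Finset.univ (f := fun k y => pd u k y ^ 2)
    fun k _ => (contDiffAt_pd hu k).pow 2]
  simp only [Lnd_sq (contDiffAt_pd hu _), h3, h4, Finset.sum_add_distrib, Matrix.trace,
    Matrix.diag, dotProduct, Finset.mul_sum]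
  rw [add_comm]
  refine congrArg _ (Finset.sum_congr rfl fun k _ => ?_)
  show _ = 2 * (_ * pd u k x)
  ring

/-- At a local maximum `u^{ij} F_{ij} ≤ 0`. -/
theorem Lnd_nonpos_of_isLocalMax (h : (Hs u x).PosDef) {F : E n → ℝ} (hF : ContDiffAt ℝ ∞ F x)
    (hmax : IsLocalMax F x) : Lnd u F x ≤ 0 := by
  have h1 := trace_mul_nonneg (Gm_posDef h).posSemidef (posSemidef_neg_of_isLocalMax hF hmax)
  rw [Matrix.mul_neg, Matrix.trace_neg] at h1
  unfold Lnd
  linarith

theorem Lop_const_sub {F : E n → ℝ} (hu : ContDiffAt ℝ ∞ u x) (h : (Hs u x).PosDef)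
    (hF : ContDiffAt ℝ ∞ F x) (c : ℝ) : Lop u (fun y => c - F y) x = -Lop u F x := by
  rw [Lop_eq hu h hF, Lop_eq hu h (contDiffAt_const.sub hF), Lnd_const_sub, grad_const_sub]
  unfold gq
  rw [mulVec_neg, dotProduct_neg]
  ring

theorem Lop_add_const (F : E n → ℝ) (c : ℝ) : Lop u (fun y => F y + c) x = Lop u F x := by
  unfold Lop
  simp only [grad_add_const]

/-- Constant determinant: `trace (G(y) T_v(y)) = 0` for all `y` by `grad_logDt`; differentiate
in the direction `v` with `grad_Gm`; the derivative of `Tm u v` in the direction `v` is the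
Hessian of `y ↦ v·H(y)v` (symmetry of fourth derivatives: with `g = grad u · v` one has
`Tm u v = Hs g`, `v·H v = grad g · v`, so `Hs_grad_dot` for `g` gives
`Hs (v·Hv) = Tm g v`). -/
theorem Lnd_Hs_quad (hu : ContDiff ℝ ∞ u) (h : ∀ y, (Hs u y).PosDef)
    (hD : ∀ y z, Dt u y = Dt u z) (v : E n) :
    Lnd u (fun y => v ⬝ᵥ (Hs u y *ᵥ v)) x =
      (Gm u x * Tm u v x * Gm u x * Tm u v x).trace := by
  have hg : ∀ y, ContDiffAt ℝ ∞ (fun z => grad u z ⬝ᵥ v) y := fun y =>
    piola_contDiffAt_dot hu.contDiffAt v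
  have hT : ∀ y, Tm u v y = Hs (fun z => grad u z ⬝ᵥ v) y := fun y =>
    (Hs_grad_dot hu.contDiffAt v).symm
  have h0 : ∀ y, ∑ i, ∑ j, Gm u y i j * Hs (fun z => grad u z ⬝ᵥ v) y j i = 0 := fun y => by
    have h1 := grad_logDt hu.contDiffAt (h y) v
    have h2 : (fun z => Real.log (Dt u z)) = fun _ => Real.log (Dt u y) :=
      funext fun z => by rw [hD z y]
    rw [h2, grad_const, zero_dotProduct, hT] at h1
    exact h1.symm
  have hd : ∀ i j, DifferentiableAt ℝ (fun y => Gm u y i j) x := fun i j =>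
    (contDiffAt_Gm hu.contDiffAt (h x) i j).differentiableAt (by simp)
  have hd' : ∀ i j, DifferentiableAt ℝ (fun y => Hs (fun z => grad u z ⬝ᵥ v) y i j) x :=
    fun i j => (contDiffAt_Hs (hg x) i j).differentiableAt (by simp)
  have h3 : grad (fun y => ∑ i, ∑ j, Gm u y i j * Hs (fun z => grad u z ⬝ᵥ v) y j i) x ⬝ᵥ v
      = 0 := by
    simp only [h0]
    rw [grad_const, zero_dotProduct]
  have h4 : ∀ i, grad (fun y => ∑ j, Gm u y i j * Hs (fun z => grad u z ⬝ᵥ v) y j i) x ⬝ᵥ v =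
      ∑ j, (Gm u x i j * Tm (fun z => grad u z ⬝ᵥ v) v x j i -
        (Gm u x * Tm u v x * Gm u x) i j * Tm u v x j i) := fun i => by
    rw [grad_sum Finset.univ
      (f := fun j y => Gm u y i j * Hs (fun z => grad u z ⬝ᵥ v) y j i)
      fun j _ => (hd i j).mul (hd' j i), sum_dotProduct]
    refine Finset.sum_congr rfl fun j _ => ?_
    rw [grad_mul (hd i j) (hd' j i), add_dotProduct, smul_dotProduct, smul_dotProduct,
      grad_Gm hu.contDiffAt (h x), ← hT, smul_eq_mul, smul_eq_mul]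
    show Gm u x i j * Tm (fun z => grad u z ⬝ᵥ v) v x j i + _ = _
    ring
  rw [grad_sum Finset.univ
    (f := fun i y => ∑ j, Gm u y i j * Hs (fun z => grad u z ⬝ᵥ v) y j i)
    fun i _ => DifferentiableAt.fun_sum fun j _ => (hd i j).mul (hd' j i), sum_dotProduct] at h3
  simp only [h4, Finset.sum_sub_distrib] at h3
  have h5 : (fun y => v ⬝ᵥ (Hs u y *ᵥ v)) =
      fun y => grad (fun z => grad u z ⬝ᵥ v) y ⬝ᵥ v := funext fun y => by
    rw [grad_grad_dot hu.contDiffAt, dotProduct_comm]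
  unfold Lnd
  rw [h5, Hs_grad_dot (hg x)]
  exact sub_eq_zero.1 h3

end

end Vale.Agent.P252b
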