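import Vale.Agent.P252b.NrmGeo
import Vale.Agent.P252b.Piola
import Vale.Agent.P252b.MaxDet

/-!
Alexandrov-Bakelman-Pucci type measure estimate for positive supersolutions.
-/

open MeasureTheory Metric Set Filter Topology Matrix
open scoped ENNReal ContDiff

noncomputable section

namespace Vale.Agent.P252b

variable {n : ℕ}

/-- `c₀ = 1/(16Λ²)`, `θ₀ = c₀/32`, `θ = θ₀/(nΛ)`. For `‖y‖ ≤ θ` write `y = θ₀ y'` with
`u y' ≤ 1`; `Br u x y' ≥ 0` gives `y'·∇u(x) ≤ 1 + u*(x)`, so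
`Br u x y ≥ u* - θ₀ (1 + u*) ≥ c₀/2` when `u x = 1`. -/
theorem abp_far (hn : 1 ≤ n) {u : E n → ℝ} {Λ : ℝ} (h : Nrm u Λ) {x y : E n} (hx : u x = 1)
    (hy : ‖y‖ ≤ (512 * Λ ^ 2)⁻¹ * (n * Λ)⁻¹) : (32 * Λ ^ 2)⁻¹ ≤ Br u x y := by
  have hΛ := h.one_le
  have hΛ2 : 1 ≤ Λ ^ 2 := one_le_pow₀ hΛ
  set t : ℝ := (512 * Λ ^ 2)⁻¹ with ht
  have ht0 : 0 < t := by positivity
  have ht1 : t ≤ 1 / 512 := by
    rw [ht, one_div]
    exact inv_anti₀ (by norm_num) (by linarith)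
  have hy' : ‖t⁻¹ • y‖ ≤ (n * Λ)⁻¹ := by
    rw [norm_smul, norm_inv, Real.norm_of_nonneg ht0.le, inv_mul_le_iff₀ ht0]
    exact hy
  have h1 := h.inner _ hy'
  have h2 := h.cvx.Br_nonneg (mem_univ x) (mem_univ (t⁻¹ • y))
  have h3 := h.ustar_lower x
  have h4 := h.ustar x
  have h5 := h.nonneg y
  simp only [Br, tg, dotProduct_sub, dotProduct_smul, smul_eq_mul] at h2
  have h6 : Br u x y = u y - u x - (grad u x ⬝ᵥ y - grad u x ⬝ᵥ x) := by
    simp only [Br, tg, dotProduct_sub]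
  have h7 : grad u x ⬝ᵥ y ≤ t * (1 + Br u x 0) := by
    have : t⁻¹ * (grad u x ⬝ᵥ y) ≤ 1 + Br u x 0 := by linarith
    rwa [inv_mul_le_iff₀ ht0] at this
  have h8 : 32 * t ≤ Br u x 0 := by
    have e : 32 * t = (16 * Λ ^ 2)⁻¹ := by
      rw [ht]
      field_simp
      norm_num
    rw [e, inv_le_iff_one_le_mul₀ (by positivity)]
    linarith
  have e2 : (32 * Λ ^ 2)⁻¹ = 16 * t := by
    rw [ht]
    field_simp
    norm_num
  rw [e2, h6]
  nlinarith

/-- `Br u x y + Br u x (2x - y) = u y + u (2x - y) - 2 u x`, and `le_norm`. -/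
theorem abp_near (hn : 1 ≤ n) {u : E n → ℝ} {Λ : ℝ} (h : Nrm u Λ) {x y : E n}
    (hx : ‖x‖ ≤ (512 * Λ ^ 2)⁻¹ * (n * Λ)⁻¹) (hy : ‖y‖ ≤ (512 * Λ ^ 2)⁻¹ * (n * Λ)⁻¹) :
    Br u x y ≤ (128 * Λ ^ 2)⁻¹ := by
  have hΛ := h.one_le
  have hΛ2 : 1 ≤ Λ ^ 2 := one_le_pow₀ hΛ
  have hn' : (1 : ℝ) ≤ n := by exact_mod_cast hn
  set t : ℝ := (512 * Λ ^ 2)⁻¹ with ht
  have ht0 : 0 < t := by positivity
  have ht1 : t ≤ 1 / 512 := by
    rw [ht, one_div]
    exact inv_anti₀ (by norm_num) (by linarith)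
  have hp : 0 < (n : ℝ) * Λ := by positivity
  set r : ℝ := ((n : ℝ) * Λ)⁻¹ with hr
  have hr0 : 0 < r := by positivity
  have hr1 : (n : ℝ) * Λ * r = 1 := mul_inv_cancel₀ hp.ne'
  have hz : ‖x + x - y‖ ≤ 3 * (t * r) := by
    have := norm_sub_le (x + x) y
    have := norm_add_le x x
    linarith
  have h1 := h.le_norm hn (x := y) (hy.trans (by nlinarith))
  have h2 := h.le_norm hn (x := x + x - y) (hz.trans (by nlinarith))
  have h3 := h.cvx.Br_nonneg (mem_univ x) (mem_univ (x + x - y))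
  have h4 := h.nonneg x
  simp only [Br, tg, dotProduct_sub, dotProduct_add] at h3 ⊢
  have h5 : (n : ℝ) * Λ * ‖y‖ ≤ t := by
    calc (n : ℝ) * Λ * ‖y‖ ≤ n * Λ * (t * r) := by gcongr
      _ = t * (n * Λ * r) := by ring
      _ = t := by rw [hr1, mul_one]
  have h6 : (n : ℝ) * Λ * ‖x + x - y‖ ≤ 3 * t := by
    calc (n : ℝ) * Λ * ‖x + x - y‖ ≤ n * Λ * (3 * (t * r)) := by gcongr
      _ = 3 * t * (n * Λ * r) := by ring
      _ = 3 * t := by rw [hr1, mul_one]
  have e2 : (128 * Λ ^ 2)⁻¹ = 4 * t := by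
    rw [ht]
    field_simp
    norm_num
  rw [e2]
  linarith

theorem abp_mulVec_deriv {M : E n → Matrix (Fin n) (Fin n) ℝ} {V : E n → E n} {x : E n}
    {S : Matrix (Fin n) (Fin n) ℝ} (hM : ∀ i j, DifferentiableAt ℝ (fun z => M z i j) x)
    (hV : HasFDerivAt V (LinearMap.toContinuousLinearMap (Matrix.toLin' S)) x) (h0 : V x = 0) :
    HasFDerivAt (fun z => M z *ᵥ V z)
      (LinearMap.toContinuousLinearMap (Matrix.toLin' (M x * S))) x := by
  rw [hasFDerivAt_pi']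
  intro i
  have h1 : ∀ j, HasFDerivAt (fun z => M z i j * V z j)
      (M x i j • (ContinuousLinearMap.proj j).comp
        (LinearMap.toContinuousLinearMap (Matrix.toLin' S))) x := by
    intro j
    have h2 := (hM i j).hasFDerivAt.mul ((hasFDerivAt_pi'.1 hV) j)
    simp only [h0, Pi.zero_apply, zero_smul, add_zero] at h2
    exact h2
  have h3 := HasFDerivAt.fun_sum (u := Finset.univ) fun j _ => h1 j
  refine HasFDerivAt.congr_fderiv h3 ?_
  ext v
  simp only [Matrix.mul_apply, Matrix.mulVec, dotProduct, Finset.sum_mul, Finset.mul_sum, mul_assoc,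
    FunLike.coe_sum, Finset.sum_apply, _root_.smul_apply,
    ContinuousLinearMap.comp_apply, ContinuousLinearMap.proj_apply, smul_eq_mul,
    LinearMap.coe_toContinuousLinearMap', Matrix.toLin'_apply]
  exact Finset.sum_comm

theorem abp_contDiffAt {u F : E n → ℝ} (h : Cvx univ u) (hF : Sup u F) (A : ℝ) (x : E n) :
    ContDiffAt ℝ ∞ (fun z => z + A⁻¹ • (Gm u z *ᵥ grad F z)) x :=
  contDiffAt_id.add ((contDiffAt_Gm_mulVec (h.contDiffAt (mem_univ x)) (h.posDef x (mem_univ x))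
    (contDiffAt_grad hF.smooth.contDiffAt)).const_smul A⁻¹)

/-- At a local minimum `x` of `Ψ = F + A Br u · y`: `∇Ψ(z) = A H(z) (Θ(z) - y)` for all `z`, where
`Θ(z) = z + A⁻¹ G(z) ∇F(z)` (`grad_tg`). So `Θ(x) = y`, and differentiating,
`Hs Ψ x = A H(x) Θ'(x)`; thus the matrix of `Θ'(x)` is `G (A⁻¹ Hs Ψ x)`, with trace
`n + A⁻¹ Lop F ≤ n` (`dv_eq_trace`); `det_mul_le`. -/
theorem abp_contact (hn : 1 ≤ n) {u F : E n → ℝ} (h : Cvx univ u) (hF : Sup u F) {A : ℝ}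
    (hA : 0 < A) {x y : E n} (hmin : IsLocalMin (fun z => F z + A * Br u z y) x) :
    x + A⁻¹ • (Gm u x *ᵥ grad F x) = y ∧
      |(fderiv ℝ (fun z => z + A⁻¹ • (Gm u z *ᵥ grad F z)) x).det| ≤ 1 := by
  have hn' : (0 : ℝ) < n := by exact_mod_cast hn
  set Ψ : E n → ℝ := fun z => F z + A * Br u z y with hΨ
  have hu : ∀ z, ContDiffAt ℝ ∞ u z := fun z => h.contDiffAt (mem_univ z)
  have hH : ∀ z, (Hs u z).PosDef := fun z => h.posDef z (mem_univ z)
  have hB : ∀ z, ContDiffAt ℝ ∞ (fun z => Br u z y) z := fun z => contDiffAt_tg (hu z) (y, u y)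
  have hΨc : ∀ z, ContDiffAt ℝ ∞ Ψ z := fun z =>
    hF.smooth.contDiffAt.add (contDiffAt_const.mul (hB z))
  have hg : ∀ z, grad Ψ z = grad F z + A • (Hs u z *ᵥ (z - y)) := by
    intro z
    rw [hΨ, grad_add (hF.smooth.contDiffAt.differentiableAt (by simp))
      ((contDiffAt_const.mul (hB z)).differentiableAt (by simp)),
      grad_const_mul A ((hB z).differentiableAt (by simp))]
    exact congrArg (fun w => grad F z + A • w) (grad_tg (hu z) (y, u y))
  have hΘ : (fun z => z + A⁻¹ • (Gm u z *ᵥ grad F z)) =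
      fun z => y + A⁻¹ • (Gm u z *ᵥ grad Ψ z) := by
    funext z
    rw [hg, mulVec_add, mulVec_smul, Gm_mulVec_Hs (hH z), smul_add, smul_smul,
      inv_mul_cancel₀ hA.ne', one_smul]
    abel
  have h0 : grad Ψ x = 0 := grad_eq_zero_of_isLocalMin hmin
  have hP : (Hs Ψ x).PosSemidef := posSemidef_of_isLocalMin (hΨc x) hmin
  refine ⟨?_, ?_⟩
  · have := congrFun hΘ x
    simp only [h0, mulVec_zero, smul_zero, add_zero] at this
    exact this
  have hd := ((abp_mulVec_deriv (M := Gm u)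
    (fun i j => (contDiffAt_Gm (hu x) (hH x) i j).differentiableAt (by simp))
    (hasFDerivAt_grad' (hΨc x)) h0).const_smul A⁻¹).const_add y
  have hd2 : fderiv ℝ (fun z => z + A⁻¹ • (Gm u z *ᵥ grad F z)) x =
      LinearMap.toContinuousLinearMap (Matrix.toLin' (Gm u x * (A⁻¹ • Hs Ψ x))) := by
    rw [hΘ, Matrix.mul_smul, map_smul, map_smul]
    exact hd.fderiv
  have hGV : DifferentiableAt ℝ (fun z => Gm u z *ᵥ grad F z) x :=
    (contDiffAt_Gm_mulVec (hu x) (hH x) (contDiffAt_grad hF.smooth.contDiffAt)).differentiableAt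
      (by simp)
  have htr : (Gm u x * (A⁻¹ • Hs Ψ x)).trace ≤ n := by
    have h1 := dv_eq_trace ((abp_contDiffAt h hF A x).differentiableAt (by simp))
    rw [hd2, LinearMap.coe_toContinuousLinearMap, LinearMap.toMatrix'_toLin'] at h1
    have h2 := dv_add (V := fun z : E n => z) (W := fun z => A⁻¹ • (Gm u z *ᵥ grad F z))
      differentiableAt_id (hGV.const_smul A⁻¹)
    have h3 := dv_sub_const (0 : E n) x
    simp only [sub_zero] at h3
    rw [h3, dv_const_smul _ hGV] at h2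
    have h4 : A⁻¹ * Lop u F x ≤ 0 :=
      mul_nonpos_of_nonneg_of_nonpos (inv_nonneg.2 hA.le) (hF.sup x)
    rw [← h1, h2]
    unfold Lop at h4
    linarith
  have hP' : (A⁻¹ • Hs Ψ x).PosSemidef := hP.smul (inv_nonneg.2 hA.le)
  have hG := (Gm_posDef (hH x)).posSemidef
  obtain ⟨h5, h6⟩ := det_mul_le hn hG hP'
  have h7 := trace_mul_nonneg hG hP'
  rw [hd2, ContinuousLinearMap.det, LinearMap.coe_toContinuousLinearMap, LinearMap.det_toLin',
    abs_of_nonneg h5]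
  refine h6.trans (pow_le_one₀ (by positivity) ?_)
  rwa [div_le_one hn']

/-- `A = 64 Λ² F x₀`. For `‖y‖ ≤ θ` minimise `Ψ` over the compact set `{u ≤ 1}`:
`Ψ(x₀) ≤ 3/2 F x₀ < 2 F x₀ ≤ Ψ` on `{u = 1}`, so the minimum point has `u < 1` and is a local
minimum with `F x ≤ 2 F x₀`. Hence the ball of radius `θ` lies in `Θ '' S` for the measurable set
`S = {‖x‖ ≤ 1 ∧ F x ≤ 2 F x₀ ∧ |det Θ'(x)| ≤ 1}`; `addHaar_image_le_lintegral_abs_det_fderiv`. -/
theorem abp (hn : 1 ≤ n) {Λ : ℝ} (hΛ : 1 ≤ Λ) : ∃ θ c : ℝ, 0 < θ ∧ 0 < c ∧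
    ∀ u F : E n → ℝ, Nrm u Λ → Sup u F → ∀ x₀ : E n, ‖x₀‖ ≤ θ →
      ENNReal.ofReal c ≤ volume {x : E n | ‖x‖ ≤ 1 ∧ F x ≤ 2 * F x₀} := by
  have hΛ2 : 1 ≤ Λ ^ 2 := one_le_pow₀ hΛ
  have hn' : (1 : ℝ) ≤ n := by exact_mod_cast hn
  set θ : ℝ := (512 * Λ ^ 2)⁻¹ * (n * Λ)⁻¹ with hθ
  have hθ0 : 0 < θ := by positivity
  refine ⟨θ, (2 * θ) ^ n, hθ0, by positivity, fun u F h hF x₀ hx₀ => ?_⟩
  have hF0 := hF.pos x₀
  set A : ℝ := 64 * Λ ^ 2 * F x₀ with hA
  have hA0 : 0 < A := by positivity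
  set Θ : E n → E n := fun z => z + A⁻¹ • (Gm u z *ᵥ grad F z) with hΘ
  have hΘc : ContDiff ℝ ∞ Θ := contDiff_iff_contDiffAt.2 fun x => abp_contDiffAt h.cvx hF A x
  set S : Set (E n) := {x | ‖x‖ ≤ 1 ∧ F x ≤ 2 * F x₀ ∧ |(fderiv ℝ Θ x).det| ≤ 1} with hS
  have hSc : IsClosed S := by
    have h1 : Continuous fun x => |(fderiv ℝ Θ x).det| :=
      (ContinuousLinearMap.continuous_det.comp (hΘc.continuous_fderiv (by simp))).abs
    exact (isClosed_le continuous_norm continuous_const).inter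
      ((isClosed_le hF.smooth.continuous continuous_const).inter
        (isClosed_le h1 continuous_const))
  have hsub : closedBall (0 : E n) θ ⊆ Θ '' S := by
    intro y hy
    rw [mem_closedBall, dist_zero_right] at hy
    have hB : Continuous fun z => Br u z y := continuous_iff_continuousAt.2 fun z =>
      (contDiffAt_tg (h.cvx.contDiffAt (mem_univ z)) (y, u y)).continuousAt
    have hΨ : Continuous fun z => F z + A * Br u z y :=
      hF.smooth.continuous.add (continuous_const.mul hB)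
    have hx₀K : x₀ ∈ {x | u x ≤ 1} := by
      refine h.inner _ (hx₀.trans ?_)
      have h1 : (512 * Λ ^ 2)⁻¹ ≤ 1 := inv_le_one_of_one_le₀ (by linarith)
      exact mul_le_of_le_one_left (by positivity) h1
    obtain ⟨x, hxK, hmin⟩ := (h.isCompact_le 1).exists_isMinOn ⟨x₀, hx₀K⟩ hΨ.continuousOn
    have h2 : F x + A * Br u x y ≤ F x₀ + A * Br u x₀ y := hmin hx₀K
    have h3 : A * Br u x₀ y ≤ F x₀ / 2 := by
      calc A * Br u x₀ y ≤ A * (128 * Λ ^ 2)⁻¹ :=
            mul_le_mul_of_nonneg_left (abp_near hn h hx₀ hy) hA0.le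
        _ = F x₀ / 2 := by
            rw [hA]
            field_simp
            norm_num
    have h4 : u x < 1 := by
      refine lt_of_le_of_ne hxK fun he => ?_
      have h5 : 2 * F x₀ ≤ A * Br u x y := by
        calc 2 * F x₀ = A * (32 * Λ ^ 2)⁻¹ := by
              rw [hA]
              field_simp
              norm_num
          _ ≤ A * Br u x y := mul_le_mul_of_nonneg_left (abp_far hn h he hy) hA0.le
      have := hF.pos x
      linarith
    have hloc : IsLocalMin (fun z => F z + A * Br u z y) x :=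
      hmin.isLocalMin (mem_of_superset
        ((isOpen_lt h.contDiff.continuous continuous_const).mem_nhds h4) fun z (hz : u z < 1) =>
          (hz.le : u z ≤ 1))
    obtain ⟨h6, h7⟩ := abp_contact hn h.cvx hF hA0 hloc
    have h8 := mul_nonneg hA0.le (h.cvx.Br_nonneg (mem_univ x) (mem_univ y))
    exact ⟨x, ⟨h.outer x hxK, by linarith, h7⟩, h6⟩
  calc ENNReal.ofReal ((2 * θ) ^ n) = volume (closedBall (0 : E n) θ) :=
        (volume_closedBall_eq hθ0.le 0).symm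
    _ ≤ volume (Θ '' S) := measure_mono hsub
    _ ≤ ∫⁻ x in S, ENNReal.ofReal |(fderiv ℝ Θ x).det| :=
        addHaar_image_le_lintegral_abs_det_fderiv volume hSc.measurableSet fun x _ =>
          (hΘc.differentiable (by simp) x).hasFDerivAt.hasFDerivWithinAt
    _ ≤ ∫⁻ _ in S, 1 := setLIntegral_mono' hSc.measurableSet fun x hx =>
        ENNReal.ofReal_le_one.2 hx.2.2
    _ = volume S := by simp
    _ ≤ volume {x : E n | ‖x‖ ≤ 1 ∧ F x ≤ 2 * F x₀} :=
        measure_mono fun x hx => And.intro hx.1 hx.2.1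

end Vale.Agent.P252b
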