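import Vale.Agent.P252b.ConvB

/-!
Geometric form of the balance property.
-/

open MeasureTheory Metric Set Filter Topology Matrix
open scoped ENNReal ContDiff

noncomputable section

namespace Vale.Agent.P252b

variable {n : ℕ}

/-- Let `t = Br u x y > 0`, `v = y - x`, `S = {z ∈ Ω | Br u x z ≤ t}` (compact). If
`x - Λ⁻¹ v ∉ S`, let `s` be the largest number in `[0, Λ⁻¹]` with `x' = x - s v ∈ S`; then
`0 < s < Λ⁻¹` and `Br u x x' = t` (otherwise one could go further, `Ω` is open). The points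
`(x', u x')`, `X = (x, u x + t)`, `W = (y, u y)` are collinear:
`X = W' + (s/(1+s)) (W - W')`. With `l = tgA u x'`: `l(W') = 0`, `l(X) > 0`, so
`l(W) = (1 + 1/s) l(X) > Λ l(X)`. -/
theorem reflect_mem {Ω : Set (E n)} {u : E n → ℝ} (h : Cvx Ω u) {Λ : ℝ} (hΛ : 1 ≤ Λ)
    (hb : ∀ x ∈ Ω, ∀ t : ℝ, 0 < t → ∀ l : Af n, NN Ω u l → ∀ W ∈ epi Ω u, tg u x W ≤ 2 * t →
      l.ev W ≤ Λ * l.ev (x, u x + t)) {x y : E n} (hx : x ∈ Ω) (hy : y ∈ Ω) :
    x - Λ⁻¹ • (y - x) ∈ Ω ∧ Br u x (x - Λ⁻¹ • (y - x)) ≤ Br u x y := by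
  by_cases hxy : x = y
  · subst hxy
    rw [sub_self, smul_zero, sub_zero]
    exact ⟨hx, le_rfl⟩
  have hΛ0 : 0 < Λ := by linarith
  have hi : 0 < Λ⁻¹ := inv_pos.mpr hΛ0
  have ht := h.Br_pos hx hy hxy
  generalize hv : y - x = v
  generalize ht' : Br u x y = t at ht
  by_contra hcon
  have hc : Continuous fun s : ℝ => x - s • v := by fun_prop
  have hI : IsCompact (Icc 0 Λ⁻¹ ∩ (fun s : ℝ => x - s • v) ⁻¹' {z | z ∈ Ω ∧ Br u x z ≤ t}) :=
    isCompact_Icc.inter_right ((h.isCompact_Br hx t).isClosed.preimage hc)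
  obtain ⟨s, ⟨⟨hs0, hs1⟩, hsΩ, hsB⟩, hmax⟩ := hI.exists_isGreatest
    ⟨0, ⟨le_rfl, hi.le⟩, by
      simp only [mem_preimage, zero_smul, sub_zero]
      exact ⟨hx, by rw [Br_self]; exact ht.le⟩⟩
  have hs2 : s < Λ⁻¹ := lt_of_le_of_ne hs1 fun e => hcon (e ▸ ⟨hsΩ, hsB⟩)
  have hs3 : Br u x (x - s • v) = t := by
    by_contra hne
    have hlt := lt_of_le_of_ne hsB hne
    have e1 : ∀ᶠ r in 𝓝 s, x - r • v ∈ Ω := hc.continuousAt.eventually (h.isOpen.mem_nhds hsΩ)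
    have e2 : ContinuousAt (fun r : ℝ => Br u x (x - r • v)) s :=
      ContinuousAt.comp (f := fun r : ℝ => x - r • v)
        (contDiffAt_Br (h.contDiffAt hsΩ) x).continuousAt hc.continuousAt
    have e3 : ∀ᶠ r in 𝓝 s, Br u x (x - r • v) < t := e2.eventually (gt_mem_nhds hlt)
    have e4 : ∀ᶠ r in 𝓝[>] s, r ∈ Ioo s Λ⁻¹ := Ioo_mem_nhdsGT hs2
    obtain ⟨r, ⟨hr1, hr2⟩, hr3⟩ := (((e1.and e3).filter_mono nhdsWithin_le_nhds).and e4).exists
    exact absurd (hmax ⟨⟨hs0.trans hr3.1.le, hr3.2.le⟩, hr1, hr2.le⟩) (not_le.mpr hr3.1)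
  have hs4 : 0 < s := by
    refine lt_of_le_of_ne hs0 fun e => ?_
    rw [← e, zero_smul, sub_zero, Br_self] at hs3
    exact ht.ne hs3
  have hX : (x, u x + t) ∈ epi0 Ω u := ⟨hx, by simpa using ht⟩
  have h1 := h.tg_pos hsΩ hX
  have h2 := hb x hx t ht (tgA u (x - s • v)) (h.nn_tgA hsΩ) (y, u y) (graph_mem_epi hy)
    (by change Br u x y ≤ 2 * t; linarith)
  rw [tgA_ev, tgA_ev] at h2
  have e1 : x - s • v - x = (-s) • v := by rw [neg_smul]; abel
  have e2 : x - (x - s • v) = s • v := by abel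
  have e3 : y - (x - s • v) = (1 + s) • v := by rw [add_smul, one_smul, ← hv]; abel
  simp only [Br, tg] at hs3 ht' h1 h2
  rw [e1, dotProduct_smul, smul_eq_mul] at hs3
  rw [hv] at ht'
  rw [e2, dotProduct_smul, smul_eq_mul] at h1 h2
  rw [e3, dotProduct_smul, smul_eq_mul] at h2
  have h3 : Λ * s < 1 := by
    have := mul_lt_mul_of_pos_left hs2 hΛ0
    rwa [mul_inv_cancel₀ hΛ0.ne'] at this
  generalize grad u x ⬝ᵥ v = g at hs3 ht'
  generalize grad u (x - s • v) ⬝ᵥ v = g' at h1 h2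
  have a1 : u x + t - u (x - s • v) - s * g' = s * (g - g') := by linarith
  have a2 : u y - u (x - s • v) - (1 + s) * g' = (1 + s) * (g - g') := by linarith
  rw [a1] at h1 h2
  rw [a2] at h2
  have a3 : 0 < g - g' := (mul_pos_iff_of_pos_left hs4).mp h1
  nlinarith

/-- For `y ∈ Ω` and any `z`, the set of `s ≥ 0` with `y + s (z - y) ∈ Ω` contains a small
positive number and is stable under multiplication by `1 + Λ⁻¹`; convexity gives `s = 1`. -/
theorem bal_geo {Ω : Set (E n)} {u : E n → ℝ} (h : Cvx Ω u) (hne : Ω.Nonempty) {Λ : ℝ}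
    (hΛ : 1 ≤ Λ)
    (hb : ∀ x ∈ Ω, ∀ t : ℝ, 0 < t → ∀ l : Af n, NN Ω u l → ∀ W ∈ epi Ω u, tg u x W ≤ 2 * t →
      l.ev W ≤ Λ * l.ev (x, u x + t)) : Ω = univ ∧ Bal u Λ := by
  have hall : ∀ z, z ∈ Ω := by
    obtain ⟨y, hy⟩ := hne
    intro z
    have hi : 0 < Λ⁻¹ := inv_pos.mpr (by linarith)
    have hc : Continuous fun s : ℝ => y + s • (z - y) := by fun_prop
    have e1 : ∀ᶠ s in 𝓝 (0 : ℝ), y + s • (z - y) ∈ Ω :=
      hc.continuousAt.eventually (h.isOpen.mem_nhds (by simpa using hy))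
    obtain ⟨s, hs1, hs2⟩ := ((e1.filter_mono nhdsWithin_le_nhds).and
      (self_mem_nhdsWithin (s := Ioi (0 : ℝ)))).exists
    have hs : 0 < s := hs2
    have hk : ∀ k : ℕ, y + ((1 + Λ⁻¹) ^ k * s) • (z - y) ∈ Ω := by
      intro k
      induction k with
      | zero => simpa using hs1
      | succ k ih =>
        have h1 := (reflect_mem h hΛ hb ih hy).1
        have e : y + ((1 + Λ⁻¹) ^ k * s) • (z - y) -
            Λ⁻¹ • (y - (y + ((1 + Λ⁻¹) ^ k * s) • (z - y))) =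
            y + ((1 + Λ⁻¹) ^ (k + 1) * s) • (z - y) := by
          ext i
          simp only [Pi.add_apply, Pi.sub_apply, Pi.smul_apply, smul_eq_mul]
          ring
        rwa [e] at h1
    obtain ⟨k, hk1⟩ := pow_unbounded_of_one_lt s⁻¹ (show (1 : ℝ) < 1 + Λ⁻¹ by linarith)
    have hS : 1 < (1 + Λ⁻¹) ^ k * s := by
      have := mul_lt_mul_of_pos_right hk1 hs
      rwa [inv_mul_cancel₀ hs.ne'] at this
    have h1 := hk k
    generalize (1 + Λ⁻¹) ^ k * s = S at hS h1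
    have hS0 : 0 < S := by linarith
    have h2 := h.convex.add_smul_mem hy h1 (t := S⁻¹)
      ⟨(inv_pos.mpr hS0).le, inv_le_one_of_one_le₀ hS.le⟩
    rwa [smul_smul, inv_mul_cancel₀ hS0.ne', one_smul, add_sub_cancel] at h2
  exact ⟨eq_univ_of_forall hall, fun x y => (reflect_mem h hΛ hb (hall x) (hall y)).2⟩

end Vale.Agent.P252b
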