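import Vale.Agent.P252b.BalanceA

/-!
Sections of solutions are uniformly balanced (analytic form).
-/

open MeasureTheory Metric Set Filter Topology Matrix
open scoped ENNReal ContDiff

noncomputable section

namespace Vale.Agent.P252b

variable {n : ℕ}

theorem bal_one_le {Ω : Set (E n)} {u : E n → ℝ} (h : Cvx Ω u) {x y : E n} (hx : x ∈ Ω)
    (hy : y ∈ Ω) {t : ℝ} (ht : 0 < t) : 1 ≤ (balA u x t).on u y := by
  rw [Af.on, balA_ev]
  have : 0 ≤ t⁻¹ * tg u x (y, u y) :=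
    mul_nonneg (by positivity) (h.tg_nonneg hx (graph_mem_epi hy))
  linarith

theorem bal_wt_le {Ω : Set (E n)} {u : E n → ℝ} (h : Cvx Ω u) {X Y : E n × ℝ}
    (hX : X ∈ epi0 Ω u) (hY : Y ∈ epi Ω u) {a : Af n} {H η κ : ℝ} (hη : 0 ≤ η) (hH : 0 ≤ H)
    {y : E n} (hy : y ∈ Ω) (ha : 0 ≤ a.on u y) (hκ : a.on u y * (3 + a.on u y * al u X Y y) ≤ κ) :
    wt u X Y a H 3 η y ≤ H ^ 3 * κ ^ η * md u X y := by
  have hal : 0 ≤ al u X Y y := div_nonneg (h.tg_nonneg hy hY) (h.tg_pos hy hX).le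
  unfold wt
  refine mul_le_mul_of_nonneg_right ?_ (h.md_pos hX hy).le
  exact mul_le_mul (pow_le_pow_left₀ (le_max_right _ _) (max_le (by linarith) hH) 3)
    (Real.rpow_le_rpow (by positivity) hκ hη) (by positivity) (by positivity)

theorem bal_rhs {Ω : Set (E n)} {u : E n → ℝ} (h : Cvx Ω u) {x : E n} (hx : x ∈ Ω) {t : ℝ}
    (ht : 0 < t) {η s Λ C m : ℝ} (hη : 0 ≤ η) (hs : 1 ≤ s) (hΛ : 1 ≤ Λ) (hC : 0 < C) (hm : 0 ≤ m)
    (hPhi : ∀ X ∈ epi0 Ω u, ∀ T : ℝ, 1 ≤ T →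
      mass u X (Mac Ω u X T) ≤ ENNReal.ofReal (C * T ^ m))
    (hT : ∀ l : Af n, NN Ω u l → ∀ W ∈ epi Ω u, tg u x W ≤ 2 * t →
      l.ev W ≤ s ^ 2 * l.ev (x, u x + t))
    {G : E n × ℝ} (hG : G ∈ epi Ω u) (hG2 : tg u x G ≤ 2 * t)
    (hGc : ∀ l : Af n, NN Ω u l → ∀ W ∈ epi Ω u, tg u x W ≤ 2 * t → l.ev W ≤ (n + 2) * l.ev G)
    {Y : E n × ℝ} (hYdef : Y = (x, u x + t) + (1 / 2 : ℝ) • (G - (x, u x + t))) :
    ∫⁻ y in {y | y ∈ Ω ∧ ((balA u x t).on u y ≤ Λ * (balA u x t).ev (x, u x + t) ∨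
        (balA u x t).on u y * al u (x, u x + t) Y y ≤ Λ * 3 ∨ al u (x, u x + t) Y y ≤ Λ)},
        ENNReal.ofReal (wt u (x, u x + t) Y (balA u x t) (2 * s + 2) 3 η y) ≤
      ENNReal.ofReal ((2 * s + 2) ^ 3 * (10 * Λ ^ 2 * s ^ 2) ^ η * (C * (2 * Λ * s ^ 2) ^ m) +
        (2 * s + 2) ^ 3 * (96 * Λ * s ^ 2) ^ η *
          ((3 * Λ) ^ ((n : ℝ) / 2) * (C * (8 * (n + 2) * s) ^ m))) := by
  set X : E n × ℝ := (x, u x + t) with hXdef
  set a := balA u x t with ha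
  have hX : X ∈ epi0 Ω u := bal_mem0 hx ht
  have hY0 : Y ∈ epi0 Ω u := hYdef ▸ h.seg_mem_epi0 hX hG (by norm_num) (by norm_num)
  have hY : Y ∈ epi Ω u := epi0_subset hY0
  have haX : a.ev X = 2 := by
    rw [ha, balA_ev, hXdef, bal_tg_vert, inv_mul_cancel₀ ht.ne']; norm_num
  have hY2 : tg u x Y ≤ 2 * t := by
    rw [hYdef, tg_seg, hXdef, bal_tg_vert]; linarith
  have hs2 : 1 ≤ s ^ 2 := one_le_pow₀ hs
  set B1 := sec Ω u a (2 * Λ) with hB1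
  set B2 := {y | y ∈ sec Ω u a (2 * s + 2) ∧ al u X Y y ≤ 3 * Λ} with hB2
  set Z := {y | 2 * s + 2 ≤ a.on u y} with hZ
  have hB1m : MeasurableSet B1 := h.measurableSet_sec _ _
  have hB2m : MeasurableSet B2 := (h.measurableSet_sec _ _).inter
    (measurableSet_le (measurable_al h.meas X Y) measurable_const)
  have hZm : MeasurableSet Z := measurableSet_le measurable_const (measurable_on h.meas a)
  have hsub : {y | y ∈ Ω ∧ (a.on u y ≤ Λ * a.ev X ∨ a.on u y * al u X Y y ≤ Λ * 3 ∨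
      al u X Y y ≤ Λ)} ⊆ (B1 ∪ B2) ∪ Z := by
    rintro y ⟨hy, hy'⟩
    by_cases hz : 2 * s + 2 ≤ a.on u y
    · exact Or.inr hz
    have h1 : 1 ≤ a.on u y := bal_one_le h hx hy ht
    have hal : 0 ≤ al u X Y y := div_nonneg (h.tg_nonneg hy hY) (h.tg_pos hy hX).le
    rcases hy' with h2 | h2 | h2
    · exact Or.inl (Or.inl ⟨hy, by rw [haX] at h2; linarith⟩)
    · refine Or.inl (Or.inr ⟨⟨hy, by linarith⟩, ?_⟩)
      have := mul_le_mul_of_nonneg_right h1 hal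
      linarith
    · exact Or.inl (Or.inr ⟨⟨hy, by linarith⟩, by linarith⟩)
  have hZ0 : ∫⁻ y in Z, ENNReal.ofReal (wt u X Y a (2 * s + 2) 3 η y) = 0 := by
    refine le_antisymm ((setLIntegral_mono' (g := fun _ => 0) hZm fun y hy => ?_).trans
      (by simp)) (by simp)
    have : max (2 * s + 2 - a.on u y) 0 = 0 := max_eq_right (by have : 2 * s + 2 ≤ _ := hy; linarith)
    simp [wt, this]
  have h1 : ∫⁻ y in B1, ENNReal.ofReal (wt u X Y a (2 * s + 2) 3 η y) ≤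
      ENNReal.ofReal ((2 * s + 2) ^ 3 * (10 * Λ ^ 2 * s ^ 2) ^ η * (C * (2 * Λ * s ^ 2) ^ m)) := by
    rw [ENNReal.ofReal_mul (by positivity)]
    refine (bal_up (X := X) h.meas (by positivity) hB1m fun y hy => ?_).trans
      (mul_le_mul_right ((mass_mono X fun y hy => ?_).trans (hPhi X hX _ (by nlinarith))) _)
    · have h1 : 1 ≤ a.on u y := bal_one_le h hx hy.1 ht
      refine bal_wt_le h hX hY hη (by linarith) hy.1 (by linarith) ?_
      have hal0 : 0 ≤ al u X Y y := div_nonneg (h.tg_nonneg hy.1 hY) (h.tg_pos hy.1 hX).le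
      have hal : al u X Y y ≤ s ^ 2 := by
        rw [al, div_le_iff₀ (h.tg_pos hy.1 hX), ← tgA_ev, ← tgA_ev]
        exact hT _ (h.nn_tgA hy.1) Y hY hY2
      have h2 : a.on u y ≤ 2 * Λ := hy.2
      have h3 : a.on u y * al u X Y y ≤ 2 * Λ * s ^ 2 := mul_le_mul h2 hal hal0 (by linarith)
      have h4 : 1 ≤ Λ * s ^ 2 := by nlinarith
      have h5 : a.on u y * (3 + a.on u y * al u X Y y) ≤ 2 * Λ * (5 * (Λ * s ^ 2)) :=
        mul_le_mul h2 (by linarith) (by positivity) (by linarith)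
      linarith
    · refine ⟨hy.1, fun l hl => ?_⟩
      obtain ⟨W, hW, hW2, hW3⟩ := bal_shrink h hx hy.1 ht (by linarith : 1 ≤ 2 * Λ) hy.2 hl
      have := mul_le_mul_of_nonneg_left (hT l hl W hW hW2) (by linarith : 0 ≤ 2 * Λ)
      linarith
  have h2 : ∫⁻ y in B2, ENNReal.ofReal (wt u X Y a (2 * s + 2) 3 η y) ≤
      ENNReal.ofReal ((2 * s + 2) ^ 3 * (96 * Λ * s ^ 2) ^ η *
        ((3 * Λ) ^ ((n : ℝ) / 2) * (C * (8 * (n + 2) * s) ^ m))) := by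
    rw [ENNReal.ofReal_mul (by positivity)]
    refine (bal_up (X := X) h.meas (by positivity) hB2m fun y hy => ?_).trans
      (mul_le_mul_right ?_ _)
    · have h1 : 1 ≤ a.on u y := bal_one_le h hx hy.1.1 ht
      refine bal_wt_le h hX hY hη (by linarith) hy.1.1 (by linarith) ?_
      have hal0 : 0 ≤ al u X Y y := div_nonneg (h.tg_nonneg hy.1.1 hY) (h.tg_pos hy.1.1 hX).le
      have h2 : a.on u y ≤ 4 * s := by have := hy.1.2; linarith
      have h3 : a.on u y * al u X Y y ≤ 4 * s * (3 * Λ) := mul_le_mul h2 hy.2 hal0 (by linarith)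
      have h4 : 1 ≤ Λ * s := by nlinarith
      have h5 : a.on u y * (3 + a.on u y * al u X Y y) ≤ 4 * s * (24 * (Λ * s)) :=
        mul_le_mul h2 (by linarith) (by positivity) (by linarith)
      linarith
    · rw [ENNReal.ofReal_mul (by positivity)]
      refine (h.mass_le_of_tg hX hY0 hB2m (fun y hy => hy.1.1) (by linarith : 0 < 3 * Λ)
        fun y hy => ?_).trans (mul_le_mul_right
          ((mass_mono Y fun y hy => ?_).trans (hPhi Y hY0 _ ?_)) _)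
      · have := hy.2
        rwa [al, div_le_iff₀ (h.tg_pos hy.1.1 hX)] at this
      · refine ⟨hy.1.1, fun l hl => ?_⟩
        obtain ⟨W, hW, hW2, hW3⟩ := bal_shrink h hx hy.1.1 ht (by linarith : 1 ≤ 4 * s)
          (by have := hy.1.2; linarith) hl
        have e1 := hGc l hl W hW hW2
        have e2 : l.ev G ≤ 2 * l.ev Y := by
          have := hl X (epi0_subset hX)
          rw [hYdef, Af.ev_seg]; linarith
        have e3 : ((n : ℝ) + 2) * l.ev G ≤ (n + 2) * (2 * l.ev Y) :=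
          mul_le_mul_of_nonneg_left e2 (by positivity)
        have e4 := mul_le_mul_of_nonneg_left (e1.trans e3) (by linarith : 0 ≤ 4 * s)
        linarith
      · have : (0 : ℝ) ≤ n := Nat.cast_nonneg n
        nlinarith
  rw [ENNReal.ofReal_add (by positivity) (by positivity)]
  refine (lintegral_mono_set hsub).trans ((lintegral_union_le _ _ _).trans ?_)
  rw [hZ0, add_zero]
  exact (lintegral_union_le _ _ _).trans (add_le_add h1 h2)

theorem bal_real {η s δ c C C' Λ N P : ℝ} (hη : 0 < η) (hs : 1 ≤ s) (hδ : 0 < δ) (hc : 0 < c)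
    (hC : 0 < C) (hC' : 0 < C') (hΛ : 1 ≤ Λ) (hN : 0 < N) (hP : 0 ≤ P)
    (h : (s + 1) ^ 3 * (δ ^ 3 * s ^ 3 / (8 * N)) ^ η * c ≤
      C * ((2 * s + 2) ^ 3 * (10 * Λ ^ 2 * s ^ 2) ^ η * (C' * (2 * Λ * s ^ 2) ^ (η / 4)) +
        (2 * s + 2) ^ 3 * (96 * Λ * s ^ 2) ^ η * (P * (C' * (8 * N * s) ^ (η / 4))))) :
    s ^ (η / 2) ≤ 8 * C * ((10 * Λ ^ 2) ^ η * (C' * (2 * Λ) ^ (η / 4)) +
      (96 * Λ) ^ η * (P * (C' * (8 * N) ^ (η / 4)))) / ((δ ^ 3 / (8 * N)) ^ η * c) := by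
  have hs0 : 0 < s := by linarith
  set σ := s ^ (η / 4) with hσ
  have hσ1 : 1 ≤ σ := Real.one_le_rpow hs (by positivity)
  have hpow : ∀ (k j : ℕ) (p : ℝ), (k : ℝ) * p = η / 4 * j → (s ^ k) ^ p = σ ^ j := by
    intro k j p hk
    rw [hσ, ← Real.rpow_natCast s k, ← Real.rpow_mul hs0.le, ← Real.rpow_natCast,
      ← Real.rpow_mul hs0.le, hk]
  have e1 : (δ ^ 3 * s ^ 3 / (8 * N)) ^ η = (δ ^ 3 / (8 * N)) ^ η * σ ^ 12 := by
    rw [← hpow 3 12 η (by push_cast; ring), ← Real.mul_rpow (by positivity) (by positivity)]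
    congr 1; ring
  have e2 : (10 * Λ ^ 2 * s ^ 2) ^ η = (10 * Λ ^ 2) ^ η * σ ^ 8 := by
    rw [← hpow 2 8 η (by push_cast; ring), ← Real.mul_rpow (by positivity) (by positivity)]
  have e3 : (2 * Λ * s ^ 2) ^ (η / 4) = (2 * Λ) ^ (η / 4) * σ ^ 2 := by
    rw [← hpow 2 2 (η / 4) (by push_cast; ring), ← Real.mul_rpow (by positivity) (by positivity)]
  have e4 : (96 * Λ * s ^ 2) ^ η = (96 * Λ) ^ η * σ ^ 8 := by
    rw [← hpow 2 8 η (by push_cast; ring), ← Real.mul_rpow (by positivity) (by positivity)]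
  have e5 : (8 * N * s) ^ (η / 4) = (8 * N) ^ (η / 4) * σ := by
    rw [hσ, ← Real.mul_rpow (by positivity) (by positivity)]
  have e6 : s ^ (η / 2) = σ ^ 2 := by
    rw [← hpow 1 2 (η / 2) (by push_cast; ring), pow_one]
  rw [e1, e2, e3, e4, e5] at h
  rw [e6, le_div_iff₀ (by positivity)]
  set k₁ := (δ ^ 3 / (8 * N)) ^ η * c with hk₁
  set k₂ := (10 * Λ ^ 2) ^ η * (C' * (2 * Λ) ^ (η / 4)) with hk₂
  set k₃ := (96 * Λ) ^ η * (P * (C' * (8 * N) ^ (η / 4))) with hk₃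
  have hk3 : 0 ≤ k₃ := by positivity
  have h' : ((s + 1) ^ 3 * σ ^ 10) * (σ ^ 2 * k₁) ≤
      (s + 1) ^ 3 * σ ^ 10 * (8 * C * k₂) + ((s + 1) ^ 3 * σ ^ 9 * (8 * C * k₃)) := by
    refine le_trans (le_of_eq ?_) (h.trans (le_of_eq ?_))
    · rw [hk₁]; ring
    · rw [hk₂, hk₃]; ring
  have h9 : σ ^ 9 ≤ σ ^ 10 := pow_le_pow_right₀ hσ1 (by norm_num)
  have h'' : (s + 1) ^ 3 * σ ^ 9 * (8 * C * k₃) ≤ (s + 1) ^ 3 * σ ^ 10 * (8 * C * k₃) :=
    mul_le_mul_of_nonneg_right (mul_le_mul_of_nonneg_left h9 (by positivity)) (by positivity)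
  refine le_of_mul_le_mul_left ?_ (by positivity : 0 < (s + 1) ^ 3 * σ ^ 10)
  linarith

/-- Improvement step. -/
theorem balance_step (h3 : 3 ≤ n) (h9 : n ≤ 9) : ∃ T₀ : ℝ, 1 ≤ T₀ ∧
    ∀ (Ω : Set (E n)) (u : E n → ℝ), Sol Ω u → ∀ x ∈ Ω, ∀ t : ℝ, 0 < t → ∀ T : ℝ, T₀ ≤ T →
    (∀ l : Af n, NN Ω u l → ∀ W ∈ epi Ω u, tg u x W ≤ 2 * t →
      l.ev W ≤ T * l.ev (x, u x + t)) →
    ∀ l : Af n, NN Ω u l → ∀ W ∈ epi Ω u, tg u x W ≤ 2 * t →
      l.ev W ≤ T / 2 * l.ev (x, u x + t) := by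
  obtain ⟨η, Λ, C, hη, hΛ, hC, hmain⟩ := main_int h3 h9
  obtain ⟨δ, c, hδ, hδ1, hc, hcen⟩ := central (n := n) (by omega)
  obtain ⟨C', hC', hPhi⟩ := phi_all h3 h9 (by positivity : 0 < η / 4)
  obtain ⟨s₁, hs₁⟩ := eventually_atTop.1 ((tendsto_rpow_atTop (by positivity : 0 < η / 2)).eventually
    (eventually_gt_atTop (8 * C * ((10 * Λ ^ 2) ^ η * (C' * (2 * Λ) ^ (η / 4)) +
      (96 * Λ) ^ η * ((3 * Λ) ^ ((n : ℝ) / 2) * (C' * (8 * (n + 2)) ^ (η / 4)))) /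
        ((δ ^ 3 / (8 * (n + 2))) ^ η * c))))
  set s₀ := max s₁ (16 * (n + 2) / δ + 4 + Λ) with hs₀
  have hd : 0 ≤ 16 * ((n : ℝ) + 2) / δ := by positivity
  have hs₀1 : 1 ≤ s₀ := le_max_of_le_right (by linarith)
  refine ⟨s₀ ^ 2, one_le_pow₀ hs₀1, fun Ω u h x hx t ht T hT hb l hl W hW hW2 => ?_⟩
  by_contra hcon
  push Not at hcon
  have hc' := h.toCvx
  have hX : (x, u x + t) ∈ epi0 Ω u := bal_mem0 hx ht
  have hT0 : 0 ≤ T := le_trans (by positivity) hT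
  obtain ⟨s, hs, rfl⟩ : ∃ s, s₀ ≤ s ∧ T = s ^ 2 :=
    ⟨√T, Real.le_sqrt_of_sq_le hT, (Real.sq_sqrt hT0).symm⟩
  have hs' : 16 * (n + 2) / δ + 4 + Λ ≤ s := (le_max_right _ _).trans hs
  have hlX : 0 < l.ev (x, u x + t) := by
    refine lt_of_le_of_ne (hl _ (epi0_subset hX)) fun h0 => ?_
    have := hb l hl W hW hW2
    rw [← h0] at this hcon
    linarith
  set l' : Af n := Af.comb (l.ev (x, u x + t))⁻¹ l 0 l 0 with hl'
  have hl'ev : ∀ V, l'.ev V = (l.ev (x, u x + t))⁻¹ * l.ev V := fun V => by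
    rw [hl', Af.ev_comb]; ring
  have hl'n : NN Ω u l' := fun V hV => by
    rw [hl'ev]; exact mul_nonneg (by positivity) (hl V hV)
  obtain ⟨G, hG, hGc⟩ := cap_center ((hc'.capF_tgA hx).isCompact_cap hc' (2 * t))
    (hc'.convex_cap _ _) ⟨_, epi0_subset hX, by rw [tgA_ev, bal_tg_vert]; linarith⟩
  have hG2 : tg u x G ≤ 2 * t := by have := hG.2; rwa [tgA_ev] at this
  have hGc' : ∀ l : Af n, NN Ω u l → ∀ W ∈ epi Ω u, tg u x W ≤ 2 * t →
      l.ev W ≤ (n + 2) * l.ev G := fun l hl W hW hW2 =>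
    hGc l (fun V hV => hl V hV.1) W ⟨hW, by rwa [tgA_ev]⟩
  have hlG : s ^ 2 / (2 * (n + 2)) ≤ l'.ev G := by
    have e1 := hGc' l' hl'n W hW hW2
    have e2 : s ^ 2 / 2 ≤ l'.ev W := by
      rw [hl'ev, le_inv_mul_iff₀ hlX]; linarith
    rw [div_le_iff₀ (by positivity)]; linarith
  have haF : CapF Ω u (balA u x t) := CapF.comb hc' ⟨x, hx⟩ (hc'.capF_tgA hx) (hc'.nn_tgA hx)
    (by positivity) le_rfl zero_le_one
  have haX : (balA u x t).ev (x, u x + t) = 2 := by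
    rw [balA_ev, bal_tg_vert, inv_mul_cancel₀ ht.ne']; norm_num
  have hset : Setup Ω u (x, u x + t) ((x, u x + t) + (1 / 2 : ℝ) • (G - (x, u x + t)))
      (balA u x t) 3 := by
    refine ⟨h, hX, fun y hy => ?_, haF, by rw [haX]; norm_num, fun y hy => ?_, ?_, by norm_num⟩
    · rw [tg_seg]
      have := hc'.tg_nonneg hy hG.1
      linarith
    · rw [haX]
      have e1 := bal_one_le hc' hx hy ht
      have e2 : (0 : ℝ) ≤ n := Nat.cast_nonneg n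
      nlinarith
    · rw [Af.ev_seg, haX, balA_ev]
      have : t⁻¹ * tg u x G ≤ 2 := by rw [inv_mul_le_iff₀ ht]; linarith
      linarith
  have k1 := bal_lhs h hx ht hδ hδ1 hc hη.le (hcen Ω u h) hl'n
    (by rw [hl'ev, inv_mul_cancel₀ hlX.ne']) hG.1 hlG (by linarith)
  have k2 := hmain Ω u _ _ _ (2 * s + 2) 3 η hset hη.le le_rfl (by rw [haX]; linarith)
  have k3 := bal_rhs hc' hx ht hη.le (by linarith : 1 ≤ s) hΛ hC' (by positivity : 0 ≤ η / 4)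
    (hPhi Ω u h) hb hG.1 hG2 hGc' rfl
  have k4 := k1.trans (k2.trans (mul_le_mul_right k3 _))
  rw [← ENNReal.ofReal_mul hC.le, ENNReal.ofReal_le_ofReal_iff (by
    have : 0 < s := by linarith
    positivity)] at k4
  have k5 := bal_real hη (by linarith) hδ hc hC hC' hΛ (by positivity) (by positivity) k4
  exact absurd (hs₁ s ((le_max_left _ _).trans hs)) (not_lt.2 k5)

theorem balance (h3 : 3 ≤ n) (h9 : n ≤ 9) : ∃ Λ : ℝ, 1 ≤ Λ ∧
    ∀ (Ω : Set (E n)) (u : E n → ℝ), Sol Ω u → ∀ x ∈ Ω, ∀ t : ℝ, 0 < t →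
    ∀ l : Af n, NN Ω u l → ∀ W ∈ epi Ω u, tg u x W ≤ 2 * t →
      l.ev W ≤ Λ * l.ev (x, u x + t) := by
  obtain ⟨T₀, hT₀, hstep⟩ := balance_step h3 h9
  refine ⟨T₀, hT₀, fun Ω u h x hx t ht => ?_⟩
  have hc' := h.toCvx
  have hX : (x, u x + t) ∈ epi0 Ω u := bal_mem0 hx ht
  have hdown : ∀ k : ℕ, (∀ l : Af n, NN Ω u l → ∀ W ∈ epi Ω u, tg u x W ≤ 2 * t →
      l.ev W ≤ T₀ * 2 ^ k * l.ev (x, u x + t)) → ∀ l : Af n, NN Ω u l → ∀ W ∈ epi Ω u,
      tg u x W ≤ 2 * t → l.ev W ≤ T₀ * l.ev (x, u x + t) := by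
    intro k
    induction k with
    | zero => intro hk; simpa using hk
    | succ k ih =>
      intro hk
      refine ih fun l hl W hW hW2 => ?_
      have h1 : (1 : ℝ) ≤ 2 ^ (k + 1) := one_le_pow₀ (by norm_num)
      have := hstep Ω u h x hx t ht _ (by nlinarith) hk l hl W hW hW2
      refine this.trans (le_of_eq ?_)
      ring
  obtain ⟨a, -, -, ha⟩ := polar_center hc' hX
  obtain ⟨B, hB⟩ := ((hc'.capF_tgA hx).isCompact_cap hc' (2 * t)).bddAbove_image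
    a.continuous_ev.continuousOn
  obtain ⟨k, hk⟩ := pow_unbounded_of_one_lt (((n : ℝ) + 2) * B) (by norm_num : (1 : ℝ) < 2)
  refine hdown k fun l hl W hW hW2 => (ha l hl W hW).trans ?_
  refine mul_le_mul_of_nonneg_right ?_ (hl _ (epi0_subset hX))
  have h1 : a.ev W ≤ B := hB ⟨W, ⟨hW, by rwa [tgA_ev]⟩, rfl⟩
  have h2 : ((n : ℝ) + 2) * a.ev W ≤ (n + 2) * B := mul_le_mul_of_nonneg_left h1 (by positivity)
  have h4 : (0 : ℝ) < 2 ^ k := by positivity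
  nlinarith

end Vale.Agent.P252b
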