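import Vale.Agent.P252b.CalcA

/-!
The divergence theorem for compactly supported fields, and powers of the positive part.
-/

open MeasureTheory Metric Set Filter Topology Matrix
open scoped ENNReal ContDiff

noncomputable section

namespace Vale.Agent.P252b

variable {n : ℕ}

theorem divthm_pp (k : ℕ) (t : ℝ) :
    HasDerivAt (fun s : ℝ => (max s 0) ^ (k + 2)) ((k + 2 : ℝ) * (max t 0) ^ (k + 1)) t := by
  rcases lt_trichotomy t 0 with ht | rfl | ht
  · have h : (fun s : ℝ => (max s 0) ^ (k + 2)) =ᶠ[𝓝 t] fun _ => 0 := by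
      filter_upwards [Iio_mem_nhds ht] with s hs
      rw [max_eq_right (le_of_lt hs)]; simp
    rw [max_eq_right ht.le, zero_pow (Nat.succ_ne_zero k), mul_zero]
    exact (hasDerivAt_const t (0 : ℝ)).congr_of_eventuallyEq h
  · rw [max_self, zero_pow (Nat.succ_ne_zero k), mul_zero, hasDerivAt_iff_isLittleO_nhds_zero]
    have h1 : (fun s : ℝ => s ^ (k + 2)) =o[𝓝 0] fun s : ℝ => s :=
      Asymptotics.isLittleO_pow_id (by omega)
    refine Asymptotics.IsBigO.trans_isLittleO (Asymptotics.IsBigO.of_bound' ?_) h1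
    refine Eventually.of_forall fun s => ?_
    simp only [zero_add, max_self, smul_zero, sub_zero, zero_pow (Nat.succ_ne_zero (k + 1)),
      norm_pow, Real.norm_eq_abs]
    refine pow_le_pow_left₀ (abs_nonneg _) ?_ _
    rcases le_total s 0 with hs | hs
    · rw [max_eq_right hs, abs_zero]; exact abs_nonneg s
    · rw [max_eq_left hs]
  · have h : (fun s : ℝ => (max s 0) ^ (k + 2)) =ᶠ[𝓝 t] fun s => s ^ (k + 2) := by
      filter_upwards [Ioi_mem_nhds ht] with s hs
      rw [max_eq_left (le_of_lt hs)]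
    rw [max_eq_left ht.le]
    have h2 := hasDerivAt_pow (k + 2) t
    rw [show ((k + 2 : ℕ) : ℝ) = (k + 2 : ℝ) by push_cast; ring,
      show k + 2 - 1 = k + 1 by omega] at h2
    exact h2.congr_of_eventuallyEq h

theorem hasDerivAt_pp2 (t : ℝ) : HasDerivAt (fun s : ℝ => (max s 0) ^ 2) (2 * max t 0) t := by
  have h := divthm_pp 0 t
  simpa using h

theorem hasDerivAt_pp3 (t : ℝ) :
    HasDerivAt (fun s : ℝ => (max s 0) ^ 3) (3 * (max t 0) ^ 2) t := by
  have h := divthm_pp 1 t
  rw [show ((1 : ℕ) : ℝ) + 2 = 3 by norm_num] at h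
  exact h

/-- `contDiff_one_iff_deriv`. -/
theorem contDiff_pp2 : ContDiff ℝ 1 (fun s : ℝ => (max s 0) ^ 2) := by
  rw [contDiff_one_iff_deriv]
  refine ⟨fun t => (hasDerivAt_pp2 t).differentiableAt, ?_⟩
  have : deriv (fun s : ℝ => (max s 0) ^ 2) = fun t => 2 * max t 0 :=
    funext fun t => (hasDerivAt_pp2 t).deriv
  rw [this]; fun_prop

theorem contDiff_pp3 : ContDiff ℝ 1 (fun s : ℝ => (max s 0) ^ 3) := by
  rw [contDiff_one_iff_deriv]
  refine ⟨fun t => (hasDerivAt_pp3 t).differentiableAt, ?_⟩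
  have : deriv (fun s : ℝ => (max s 0) ^ 3) = fun t => 3 * (max t 0) ^ 2 :=
    funext fun t => (hasDerivAt_pp3 t).deriv
  rw [this]; fun_prop

theorem contDiffAt_pp2 {f : E n → ℝ} {x : E n} (hf : ContDiffAt ℝ ∞ f x) :
    ContDiffAt ℝ 1 (fun y => (max (f y) 0) ^ 2) x :=
  contDiff_pp2.contDiffAt.comp x (hf.of_le (by exact_mod_cast le_top))

theorem contDiffAt_pp3 {f : E n → ℝ} {x : E n} (hf : ContDiffAt ℝ ∞ f x) :
    ContDiffAt ℝ 1 (fun y => (max (f y) 0) ^ 3) x :=
  contDiff_pp3.contDiffAt.comp x (hf.of_le (by exact_mod_cast le_top))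

theorem grad_pp2 {f : E n → ℝ} {x : E n} (hf : DifferentiableAt ℝ f x) :
    grad (fun y => (max (f y) 0) ^ 2) x = (2 * max (f x) 0) • grad f x := by
  have h := (hasDerivAt_pp2 (f x)).comp_hasFDerivAt x hf.hasFDerivAt
  funext i
  exact congrArg (fun T : E n →L[ℝ] ℝ => T (Pi.single i 1)) h.fderiv

theorem grad_pp3 {f : E n → ℝ} {x : E n} (hf : DifferentiableAt ℝ f x) :
    grad (fun y => (max (f y) 0) ^ 3) x = (3 * (max (f x) 0) ^ 2) • grad f x := by
  have h := (hasDerivAt_pp3 (f x)).comp_hasFDerivAt x hf.hasFDerivAt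
  funext i
  exact congrArg (fun T : E n →L[ℝ] ℝ => T (Pi.single i 1)) h.fderiv

/-- A function continuous on an open set and vanishing there outside a compact subset is
integrable. -/
theorem integrableOn_of_cpt {O K : Set (E n)} (hO : IsOpen O) (hK : IsCompact K) (hKO : K ⊆ O)
    {g : E n → ℝ} (hg : ∀ x ∈ O, ContinuousAt g x) (h0 : ∀ x ∈ O, x ∉ K → g x = 0) :
    IntegrableOn g O := by
  have h1 : IntegrableOn g K :=
    ContinuousOn.integrableOn_compact hK fun x hx => (hg x (hKO hx)).continuousWithinAt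
  exact h1.of_forall_diff_eq_zero hO.measurableSet fun x hx => h0 x hx.1 hx.2

theorem divthm_pd_zero {O K : Set (E n)} (hO : IsOpen O) (hK : IsCompact K)
    {V : E n → E n} (h0 : ∀ x ∈ O, x ∉ K → V x = 0) (i : Fin n) :
    ∀ x ∈ O, x ∉ K → pd (fun y => V y i) i x = 0 := by
  intro x hx hxK
  have h : (fun y => V y i) =ᶠ[𝓝 x] fun _ => 0 := by
    filter_upwards [hO.mem_nhds hx, hK.isClosed.isOpen_compl.mem_nhds hxK] with y hy hyK
    rw [h0 y hy hyK]; rfl
  rw [pd, h.fderiv_eq]; simp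

theorem divthm_pd_cont {V : E n → E n} {x : E n} (hV : ContDiffAt ℝ 1 V x) (i : Fin n) :
    ContinuousAt (pd (fun y => V y i) i) x := by
  have h1 : ContDiffAt ℝ 1 (fun y => V y i) x := contDiffAt_pi.1 hV i
  have h2 : ContDiffAt ℝ 0 (fderiv ℝ fun y => V y i) x := h1.fderiv_right (by simp)
  exact h2.continuousAt.clm_apply continuousAt_const

theorem divthm_int {O K : Set (E n)} (hO : IsOpen O) (hK : IsCompact K) (hKO : K ⊆ O)
    {V : E n → E n} (hV : ∀ x ∈ O, ContDiffAt ℝ 1 V x) (h0 : ∀ x ∈ O, x ∉ K → V x = 0)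
    (i : Fin n) : IntegrableOn (pd (fun y => V y i) i) O :=
  integrableOn_of_cpt hO hK hKO (fun x hx => divthm_pd_cont (hV x hx) i) (divthm_pd_zero hO hK h0 i)

theorem integrableOn_dv {O K : Set (E n)} (hO : IsOpen O) (hK : IsCompact K) (hKO : K ⊆ O)
    {V : E n → E n} (hV : ∀ x ∈ O, ContDiffAt ℝ 1 V x) (h0 : ∀ x ∈ O, x ∉ K → V x = 0) :
    IntegrableOn (dv V) O :=
  integrable_finset_sum _ fun i _ => divthm_int hO hK hKO hV h0 i

theorem divthm_scalar {O K : Set (E n)} (hO : IsOpen O) (hK : IsCompact K) (hKO : K ⊆ O)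
    {g : E n → ℝ} (hg : ∀ x ∈ O, ContDiffAt ℝ 1 g x) (h0 : ∀ x ∈ O, x ∉ K → g x = 0)
    (v : E n) : ∫ x in O, fderiv ℝ g x v = 0 := by
  have hout : ∀ x, x ∉ K → O.indicator g x = 0 := by
    intro x hx
    by_cases hxO : x ∈ O
    · rw [indicator_of_mem hxO, h0 x hxO hx]
    · exact indicator_of_notMem hxO g
  have hin : ∀ x ∈ O, O.indicator g =ᶠ[𝓝 x] g := by
    intro x hx
    filter_upwards [hO.mem_nhds hx] with y hy
    exact indicator_of_mem hy g
  have hev : ∀ x, x ∉ K → O.indicator g =ᶠ[𝓝 x] fun _ => 0 := by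
    intro x hx
    filter_upwards [hK.isClosed.isOpen_compl.mem_nhds hx] with y hy
    exact hout y hy
  have hG : ContDiff ℝ 1 (O.indicator g) := by
    rw [contDiff_iff_contDiffAt]
    intro x
    by_cases hx : x ∈ K
    · exact (hg x (hKO hx)).congr_of_eventuallyEq (hin x (hKO hx))
    · exact contDiffAt_const.congr_of_eventuallyEq (hev x hx)
  have hsupp : HasCompactSupport (O.indicator g) := HasCompactSupport.intro hK hout
  have hi1 : Integrable (O.indicator g) := hG.continuous.integrable_of_hasCompactSupport hsupp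
  have hi2 : Integrable fun x => fderiv ℝ (O.indicator g) x v := by
    refine Continuous.integrable_of_hasCompactSupport
      ((hG.continuous_fderiv (by simp)).clm_apply continuous_const) ?_
    exact hsupp.fderiv_apply ℝ v
  have h1 := integral_mul_fderiv_eq_neg_fderiv_mul_of_integrable (μ := (volume : Measure (E n)))
    (f := fun _ => (1 : ℝ)) (g := O.indicator g) (v := v) (by simp) (by simpa using hi2)
    (by simpa using hi1) (fun x _ => differentiableAt_const _)
    (fun x _ => hG.differentiable (by simp) x)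
  have h2 : ∫ x, fderiv ℝ (O.indicator g) x v = 0 := by simpa using h1
  rw [← h2, ← setIntegral_eq_integral_of_forall_compl_eq_zero (s := O)
    (f := fun x => fderiv ℝ (O.indicator g) x v)]
  · refine setIntegral_congr_fun hO.measurableSet fun x hx => ?_
    show fderiv ℝ g x v = fderiv ℝ (O.indicator g) x v
    rw [(hin x hx).fderiv_eq]
  · intro x hx
    rw [(hev x fun h => hx (hKO h)).fderiv_eq]; simp

/-- The extension by zero is of class one on the whole space with compact support, so the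
integral of each coordinate derivative vanishes. -/
theorem div_zero {O K : Set (E n)} (hO : IsOpen O) (hK : IsCompact K) (hKO : K ⊆ O)
    {V : E n → E n} (hV : ∀ x ∈ O, ContDiffAt ℝ 1 V x) (h0 : ∀ x ∈ O, x ∉ K → V x = 0) :
    ∫ x in O, dv V x = 0 := by
  unfold dv
  rw [integral_finset_sum _ fun i _ => divthm_int hO hK hKO hV h0 i]
  refine Finset.sum_eq_zero fun i _ => ?_
  exact divthm_scalar hO hK hKO (fun x hx => contDiffAt_pi.1 (hV x hx) i)
    (fun x hx hxK => by rw [h0 x hx hxK]; rfl) _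

/-- The form in which the theorem is used: if `g ≤ div V + h` on `O`, with `g, h ≥ 0` and `h`
measurable, then `∫ g ≤ ∫ h` as lower integrals. -/
theorem lintegral_le_of_dv {O K : Set (E n)} (hO : IsOpen O) (hK : IsCompact K) (hKO : K ⊆ O)
    {V : E n → E n} (hV : ∀ x ∈ O, ContDiffAt ℝ 1 V x) (h0 : ∀ x ∈ O, x ∉ K → V x = 0)
    {g h : E n → ℝ} (hm : Measurable h) (hg : ∀ x ∈ O, 0 ≤ g x) (hh : ∀ x ∈ O, 0 ≤ h x)
    (hle : ∀ x ∈ O, g x ≤ dv V x + h x) :
    ∫⁻ x in O, ENNReal.ofReal (g x) ≤ ∫⁻ x in O, ENNReal.ofReal (h x) := by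
  by_cases htop : ∫⁻ x in O, ENNReal.ofReal (h x) = ⊤
  · rw [htop]; exact le_top
  have hh' : 0 ≤ᵐ[volume.restrict O] h :=
    (ae_restrict_iff' hO.measurableSet).2 (Eventually.of_forall hh)
  have hi : IntegrableOn h O :=
    (lintegral_ofReal_ne_top_iff_integrable hm.aestronglyMeasurable hh').1 htop
  have hd := integrableOn_dv hO hK hKO hV h0
  have hs : 0 ≤ᵐ[volume.restrict O] fun x => dv V x + h x :=
    (ae_restrict_iff' hO.measurableSet).2
      (Eventually.of_forall fun x hx => (hg x hx).trans (hle x hx))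
  calc ∫⁻ x in O, ENNReal.ofReal (g x) ≤ ∫⁻ x in O, ENNReal.ofReal (dv V x + h x) :=
        setLIntegral_mono' hO.measurableSet fun x hx => ENNReal.ofReal_le_ofReal (hle x hx)
    _ = ENNReal.ofReal (∫ x in O, dv V x + h x) :=
        (ofReal_integral_eq_lintegral_ofReal (hd.add hi) hs).symm
    _ = ENNReal.ofReal (∫ x in O, h x) := by
        rw [integral_add hd hi, div_zero hO hK hKO hV h0, zero_add]
    _ = ∫⁻ x in O, ENNReal.ofReal (h x) := ofReal_integral_eq_lintegral_ofReal hi hh'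

end Vale.Agent.P252b
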