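import Vale.Agent.P252b.ConvB
import Vale.Agent.P252b.Piola
import Vale.Agent.P252b.DivThm
import Vale.Agent.P252b.MaxDet

/-!
Non-collapsing: lower bound for the affine area of a section of a solution.
-/

open MeasureTheory Metric Set Filter Topology Matrix
open scoped ENNReal ContDiff

noncomputable section

namespace Vale.Agent.P252b

variable {n : ℕ}

theorem nc_alg (hn : 1 ≤ n) {f β s t dq : ℝ} (hf : 0 < f) (hβ : 0 < β) (hs : 0 < s) (ht : 0 ≤ t)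
    (h1 : dq / f ^ (n + 2) ≤ (t / n) ^ n) (h2 : β ^ (n + 2) * s ^ n ≤ 2 ^ n * dq) :
    n * s * β ≤ 2 * f * t + n * s * f := by
  have hn' : (0 : ℝ) < n := by exact_mod_cast hn
  rcases le_or_gt β f with hle | hlt
  · have : n * s * β ≤ n * s * f := by gcongr
    have : 0 ≤ 2 * f * t := by positivity
    linarith
  · have h3 : (s * β) ^ n ≤ (2 * f * (t / n)) ^ n := by
      have e1 : (2 * f * (t / n)) ^ n = 2 ^ n * f ^ n * (t / n) ^ n := by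
        rw [mul_pow, mul_pow]
      have e2 : 2 ^ n * f ^ n * (dq / f ^ (n + 2)) = 2 ^ n * dq / f ^ 2 := by
        rw [pow_add]; field_simp
      have e3 : (s * β) ^ n = β ^ (n + 2) * s ^ n / β ^ 2 := by
        rw [pow_add, mul_pow]; field_simp
      have h4 : β ^ (n + 2) * s ^ n / β ^ 2 ≤ β ^ (n + 2) * s ^ n / f ^ 2 := by
        gcongr
      have h5 : β ^ (n + 2) * s ^ n / f ^ 2 ≤ 2 ^ n * dq / f ^ 2 := by gcongr
      have h6 : 2 ^ n * f ^ n * (dq / f ^ (n + 2)) ≤ 2 ^ n * f ^ n * (t / n) ^ n := by gcongr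
      rw [e1, e3]
      linarith
    have h7 : s * β ≤ 2 * f * (t / n) :=
      le_of_pow_le_pow_left₀ (by omega) (by positivity) h3
    have h8 : n * (s * β) ≤ n * (2 * f * (t / n)) := by gcongr
    have e4 : n * (2 * f * (t / n)) = 2 * f * t := by field_simp
    have : 0 ≤ n * s * f := by positivity
    nlinarith

theorem nc_one_le : (1 : WithTop ℕ∞) ≤ ((⊤ : ℕ∞) : WithTop ℕ∞) := by exact_mod_cast le_top

/-- The test field. -/
def ncV (u Θ : E n → ℝ) (y : E n) : E n :=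
  ((max (Θ y) 0) ^ 2 * ff u y) • (Gm u y *ᵥ grad Θ y) +
    (((n : ℝ) + 1) / 3 * (max (Θ y) 0) ^ 3) • (Gm u y *ᵥ grad (ff u) y)

theorem nc_contDiffAt {u Θ : E n → ℝ} {x : E n} (hu : ContDiffAt ℝ ∞ u x)
    (hp : (Hs u x).PosDef) (hΘ : ContDiffAt ℝ ∞ Θ x) : ContDiffAt ℝ 1 (ncV u Θ) x := by
  have cf := contDiffAt_ff hu hp
  have c1 := (contDiffAt_Gm_mulVec hu hp (contDiffAt_grad hΘ)).of_le nc_one_le
  have c2 := (contDiffAt_Gm_mulVec hu hp (contDiffAt_grad cf)).of_le nc_one_le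
  exact (((contDiffAt_pp2 hΘ).mul (cf.of_le nc_one_le)).smul c1).add
    ((contDiffAt_const.mul (contDiffAt_pp3 hΘ)).smul c2)

theorem nc_dv {u Θ : E n → ℝ} {x : E n} (hu : ContDiffAt ℝ ∞ u x)
    (hp : (Hs u x).PosDef) (ham : Lnd u (ww u) x = 0) (hΘ : ContDiffAt ℝ ∞ Θ x) :
    dv (ncV u Θ) x = (max (Θ x) 0) ^ 2 * ff u x * Lnd u Θ x +
      2 * max (Θ x) 0 * ff u x * gq u x (grad Θ x) (grad Θ x) := by
  have cf := contDiffAt_ff hu hp
  have hf := ff_pos hp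
  have df : DifferentiableAt ℝ (ff u) x := cf.differentiableAt (by simp)
  have dΘ : DifferentiableAt ℝ Θ x := hΘ.differentiableAt (by simp)
  have d1 : DifferentiableAt ℝ (fun y => Gm u y *ᵥ grad Θ y) x :=
    (contDiffAt_Gm_mulVec hu hp (contDiffAt_grad hΘ)).differentiableAt (by simp)
  have d2 : DifferentiableAt ℝ (fun y => Gm u y *ᵥ grad (ff u) y) x :=
    (contDiffAt_Gm_mulVec hu hp (contDiffAt_grad cf)).differentiableAt (by simp)
  have p2 : DifferentiableAt ℝ (fun y => (max (Θ y) 0) ^ 2) x :=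
    (contDiffAt_pp2 hΘ).differentiableAt (by simp)
  have p3 : DifferentiableAt ℝ (fun y => (max (Θ y) 0) ^ 3) x :=
    (contDiffAt_pp3 hΘ).differentiableAt (by simp)
  have q2 : DifferentiableAt ℝ (fun y => (max (Θ y) 0) ^ 2 * ff u y) x := p2.mul df
  have q3 : DifferentiableAt ℝ (fun y => ((n : ℝ) + 1) / 3 * (max (Θ y) 0) ^ 3) x :=
    p3.const_mul _
  have r2 : DifferentiableAt ℝ
      (fun y => ((max (Θ y) 0) ^ 2 * ff u y) • (Gm u y *ᵥ grad Θ y)) x := q2.smul d1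
  have r3 : DifferentiableAt ℝ (fun y => (((n : ℝ) + 1) / 3 * (max (Θ y) 0) ^ 3) •
      (Gm u y *ᵥ grad (ff u) y)) x := q3.smul d2
  have e : ncV u Θ = fun y => ((max (Θ y) 0) ^ 2 * ff u y) • (Gm u y *ᵥ grad Θ y) +
    (((n : ℝ) + 1) / 3 * (max (Θ y) 0) ^ 3) • (Gm u y *ᵥ grad (ff u) y) := rfl
  have l1 : dv (fun y => Gm u y *ᵥ grad Θ y) x = _ := Lop_eq hu hp hΘ
  have l2 : dv (fun y => Gm u y *ᵥ grad (ff u) y) x = 0 := Lop_ff hu hp ham
  have hc := gq_comm hp (grad Θ x) (grad (ff u) x)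
  rw [e, dv_add r2 r3, dv_smul q2 d1, dv_smul q3 d2, l1, l2, grad_mul p2 df,
    grad_const_mul _ p3, grad_pp2 dΘ, grad_pp3 dΘ, grad_logDt_ff hu hp]
  unfold gq at hc ⊢
  simp only [add_dotProduct, smul_dotProduct, smul_eq_mul]
  rw [hc]
  field_simp
  ring

theorem nc_quad (N : Matrix (Fin n) (Fin n) ℝ) (c : ℝ) (v : E n) :
    v ⬝ᵥ ((c • (Nᵀ * N)) *ᵥ v) = c * ((N *ᵥ v) ⬝ᵥ (N *ᵥ v)) := by
  rw [Matrix.smul_mulVec, dotProduct_smul, smul_eq_mul, ← Matrix.mulVec_mulVec,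
    Matrix.dotProduct_mulVec, Matrix.vecMul_transpose]

theorem nc_symm (N : Matrix (Fin n) (Fin n) ℝ) (c : ℝ) : (c • (Nᵀ * N))ᵀ = c • (Nᵀ * N) := by
  rw [Matrix.transpose_smul, Matrix.transpose_mul, Matrix.transpose_transpose]

theorem nc_dot_self_nonneg (v : E n) : 0 ≤ v ⬝ᵥ v :=
  Finset.sum_nonneg fun i _ => mul_self_nonneg (v i)

theorem nc_ff_pow {u : E n → ℝ} {x : E n} (hp : (Hs u x).PosDef) :
    ff u x ^ (n + 2) = Dt u x := by
  have hD := Dt_pos hp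
  have hn : ((n : ℝ) + 2) ≠ 0 := by positivity
  unfold ff
  rw [← Real.rpow_natCast, ← Real.rpow_mul hD.le]
  have : 1 / ((n : ℝ) + 2) * ((n + 2 : ℕ) : ℝ) = 1 := by
    push_cast
    field_simp
  rw [this, Real.rpow_one]

/-- The integral inequality for a general quadratic form `Q`. -/
theorem nc_int (hn : 1 ≤ n) {Ω : Set (E n)} {u : E n → ℝ} (h : Sol Ω u) {a : Af n}
    (ha : CapF Ω u a) {Q : Matrix (Fin n) (Fin n) ℝ} (hQ : Q.PosSemidef) {y₀ : E n}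
    (hq : ∀ y ∈ sec Ω u a 1, (y - y₀) ⬝ᵥ (Q *ᵥ (y - y₀)) ≤ 1 / 8) {β : ℝ} (hβ : 0 < β)
    (hβQ : β ^ (n + 2) * a.s ^ n ≤ 2 ^ n * Q.det) :
    ENNReal.ofReal (n * a.s * β / 64) * volume (sec Ω u a (5 / 8)) ≤
      ENNReal.ofReal (2 * n * a.s) * area u (sec Ω u a 1) := by
  have hc := h.toCvx
  have hs := ha.spos
  have hn' : (0 : ℝ) < n := by exact_mod_cast hn
  set Θ : E n → ℝ := fun y => (y - y₀) ⬝ᵥ (Q *ᵥ (y - y₀)) + (3 / 4 - a.on u y) with hΘ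
  set O : Set (E n) := {x | x ∈ Ω ∧ a.on u x < 1} with hOdef
  have hO : IsOpen O := by
    have hcont : ContinuousOn (a.on u) Ω := fun x hx =>
      (contDiffAt_on (hc.contDiffAt hx) a).continuousAt.continuousWithinAt
    exact hcont.isOpen_inter_preimage hc.isOpen (isOpen_Iio (a := (1 : ℝ)))
  have hOS : O ⊆ sec Ω u a 1 := fun x hx => ⟨hx.1, hx.2.le⟩
  have hKO : sec Ω u a (7 / 8) ⊆ O := fun x hx => ⟨hx.1, by have := hx.2; linarith⟩
  have hK5 : sec Ω u a (5 / 8) ⊆ O := fun x hx => ⟨hx.1, by have := hx.2; linarith⟩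
  have cq : ∀ x, ContDiffAt ℝ ∞ (fun y : E n => (y - y₀) ⬝ᵥ (Q *ᵥ (y - y₀))) x := fun x =>
    (contDiff_quad Q y₀).contDiffAt
  have cb : ∀ x ∈ Ω, ContDiffAt ℝ ∞ (fun y => 3 / 4 - a.on u y) x := fun x hx =>
    contDiffAt_const.sub (contDiffAt_on (hc.contDiffAt hx) a)
  have cΘ : ∀ x ∈ Ω, ContDiffAt ℝ ∞ Θ x := fun x hx => (cq x).add (cb x hx)
  have key := lintegral_le_of_dv (V := ncV u Θ) hO (ha.cpt (7 / 8)) hKO
    (fun x hx => nc_contDiffAt (hc.contDiffAt hx.1) (hc.posDef x hx.1) (cΘ x hx.1))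
    (fun x hx hxK => by
      have h1 : 7 / 8 < a.on u x := by
        by_contra hcon
        exact hxK ⟨hx.1, not_lt.mp hcon⟩
      have h2 := hq x (hOS hx)
      have h3 : max (Θ x) 0 = 0 := max_eq_right (by simp only [hΘ]; linarith)
      unfold ncV
      rw [h3]
      simp)
    (g := fun x => n * a.s * β * (max (Θ x) 0) ^ 2) (h := fun x => 2 * n * a.s * ff u x)
    ((measurable_ff u).const_mul _) (fun x _ => by positivity)
    (fun x hx => by have := ff_pos (hc.posDef x hx.1); positivity)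
    (fun x hx => by
      have hu := hc.contDiffAt hx.1
      have hp := hc.posDef x hx.1
      have hf := ff_pos hp
      have hG := (Gm_posDef hp).posSemidef
      have hL : Lnd u Θ x = 2 * (Gm u x * Q).trace - n * a.s := by
        rw [hΘ, Lnd_add (cq x) (cb x hx.1), Lnd_const_sub]
        unfold Lnd
        rw [Hs_quad (psd_transpose hQ), Hs_on hu, Matrix.mul_smul, Matrix.mul_smul, Gm_mul_Hs hp,
          Matrix.trace_smul, Matrix.trace_smul, Matrix.trace_one]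
        simp only [smul_eq_mul, Fintype.card_fin]
        ring
      have ht := trace_mul_nonneg hG hQ
      have hd := (det_mul_le hn hG hQ).2
      have hdet : (Gm u x * Q).det = Q.det / ff u x ^ (n + 2) := by
        rw [Matrix.det_mul, nc_ff_pow hp]
        unfold Gm Dt
        rw [Matrix.det_nonsing_inv, Ring.inverse_eq_inv', div_eq_mul_inv, mul_comm]
      rw [hdet] at hd
      have hal := nc_alg hn hf hβ hs ht hd hβQ
      have hnn : 0 ≤ a.on u x := ha.nn _ (graph_mem_epi hx.1)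
      have h2 := hq x (hOS hx)
      have hm0 : 0 ≤ max (Θ x) 0 := le_max_right _ _
      have hm1 : max (Θ x) 0 ≤ 1 := max_le (by simp only [hΘ]; linarith) zero_le_one
      have hm2 : (max (Θ x) 0) ^ 2 ≤ 1 := pow_le_one₀ hm0 hm1
      have hg := gq_nonneg hp (grad Θ x)
      rw [nc_dv hu hp (h.am x hx.1) (cΘ x hx.1), hL]
      have a1 : 0 ≤ 2 * max (Θ x) 0 * ff u x * gq u x (grad Θ x) (grad Θ x) := by positivity
      have a2 : (max (Θ x) 0) ^ 2 * (n * a.s * β) ≤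
          (max (Θ x) 0) ^ 2 * (2 * ff u x * (Gm u x * Q).trace + n * a.s * ff u x) := by gcongr
      have a3 : (max (Θ x) 0) ^ 2 * (2 * n * a.s * ff u x) ≤ 1 * (2 * n * a.s * ff u x) := by
        gcongr
      nlinarith)
  calc ENNReal.ofReal (n * a.s * β / 64) * volume (sec Ω u a (5 / 8))
      = ∫⁻ _ in sec Ω u a (5 / 8), ENNReal.ofReal (n * a.s * β / 64) := by
        rw [setLIntegral_const]
    _ ≤ ∫⁻ x in sec Ω u a (5 / 8), ENNReal.ofReal (n * a.s * β * (max (Θ x) 0) ^ 2) := by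
        refine setLIntegral_mono' (hc.measurableSet_sec a _) fun x hx => ?_
        apply ENNReal.ofReal_le_ofReal
        have h0 := psd_dot_nonneg hQ (x - y₀)
        have h1 : 1 / 8 ≤ max (Θ x) 0 :=
          le_max_of_le_left (by have := hx.2; simp only [hΘ]; linarith)
        have h2 : (1 / 8 : ℝ) ^ 2 ≤ (max (Θ x) 0) ^ 2 := by gcongr
        have h3 : n * a.s * β * (1 / 8 : ℝ) ^ 2 ≤ n * a.s * β * (max (Θ x) 0) ^ 2 := by gcongr
        linarith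
    _ ≤ ∫⁻ x in O, ENNReal.ofReal (n * a.s * β * (max (Θ x) 0) ^ 2) := lintegral_mono_set hK5
    _ ≤ ∫⁻ x in O, ENNReal.ofReal (2 * n * a.s * ff u x) := key
    _ ≤ ∫⁻ x in sec Ω u a 1, ENNReal.ofReal (2 * n * a.s * ff u x) := lintegral_mono_set hOS
    _ = ENNReal.ofReal (2 * n * a.s) * area u (sec Ω u a 1) := by
        unfold area
        rw [← lintegral_const_mul' _ _ ENNReal.ofReal_ne_top]
        refine lintegral_congr fun x => ?_
        rw [ENNReal.ofReal_mul (by positivity)]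

theorem nc_beta (hn : 1 ≤ n) {v s d : ℝ} (hv : 0 < v) (hs : 0 < s) (hd : d ≠ 0)
    (hdv : |d| ≤ (n : ℝ) ^ n * v) :
    ((4 * (n : ℝ) ^ 3)⁻¹ * (v / s) ^ ((n : ℝ) / (n + 2)) / v) ^ (n + 2) * s ^ n ≤
      2 ^ n * (((8 * (n : ℝ))⁻¹) ^ n * (d⁻¹ * d⁻¹)) := by
  have hn' : (1 : ℝ) ≤ n := by exact_mod_cast hn
  have hn0 : (0 : ℝ) < n := by linarith
  have e1 : ((v / s) ^ ((n : ℝ) / (n + 2))) ^ (n + 2) = (v / s) ^ n := by
    rw [← Real.rpow_natCast, ← Real.rpow_mul (by positivity)]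
    have : (n : ℝ) / (n + 2) * ((n + 2 : ℕ) : ℝ) = (n : ℝ) := by
      push_cast
      field_simp
    rw [this, Real.rpow_natCast]
  set c : ℝ := (4 * (n : ℝ) ^ 3)⁻¹ with hcdef
  have hc0 : 0 < c := by positivity
  have hc1 : c ≤ 1 := inv_le_one_of_one_le₀ (by nlinarith [one_le_pow₀ (n := 3) hn'])
  have e2 : (c * (v / s) ^ ((n : ℝ) / (n + 2)) / v) ^ (n + 2) * s ^ n = c ^ (n + 2) / v ^ 2 := by
    rw [div_pow, mul_pow, e1, div_pow, pow_add v]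
    field_simp
  have h3 : c ^ (n + 2) ≤ c ^ n := pow_le_pow_of_le_one hc0.le hc1 (by omega)
  have hd2 : d ^ 2 ≤ ((n : ℝ) ^ n * v) ^ 2 := by
    rw [← sq_abs]
    gcongr
  have hd0 : 0 < d ^ 2 := by positivity
  have e4 : (2 : ℝ) ^ n * (((8 * (n : ℝ))⁻¹) ^ n * (d⁻¹ * d⁻¹)) = ((4 * (n : ℝ))⁻¹) ^ n / d ^ 2 := by
    have : (4 * (n : ℝ))⁻¹ = 2 * (8 * (n : ℝ))⁻¹ := by
      field_simp
      norm_num
    rw [this, mul_pow]
    field_simp
  have e5 : c ^ n / v ^ 2 = ((4 * (n : ℝ))⁻¹) ^ n / ((n : ℝ) ^ n * v) ^ 2 := by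
    have : (4 * (n : ℝ))⁻¹ = c * n * n := by
      rw [hcdef]
      field_simp
    rw [this, mul_pow, mul_pow]
    field_simp
  rw [e2, e4]
  calc c ^ (n + 2) / v ^ 2 ≤ c ^ n / v ^ 2 := by gcongr
    _ = ((4 * (n : ℝ))⁻¹) ^ n / ((n : ℝ) ^ n * v) ^ 2 := e5
    _ ≤ ((4 * (n : ℝ))⁻¹) ^ n / d ^ 2 := by gcongr

/-- Let `φ = a.on u`, `S = sec 1`, `M, y₀ = X.1` from `exists_maxdet` for `S`,
`Q = (8n)⁻¹ • (M⁻¹)ᵀ * M⁻¹`, `Θ = 3/4 + (y - y₀)·Q(y - y₀) - φ`, so `Θ ≤ 7/8 - φ` on `S`. On the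
open set `O = {x ∈ Ω | φ < 1}` with `K = sec (7/8)` use the field
`V = (Θ₊² f) • G∇Θ + ((n+1)/3 Θ₊³) • G∇f`, `f = ff u`. By `dv_smul`, `Lop_eq`, `grad_logDt_ff`,
`Lop_ff`: `div V = 2 Θ₊ f |∇Θ|² + Θ₊² f Lnd Θ` and `Lnd u Θ = 2 trace (G Q) - n a.s`.
By `det_mul_le`, `trace (G Q) ≥ n κ f^(-(n+2)/n)` with `κ = (det Q)^(1/n)`. With
`κ₀ = 2κ / a.s` one has pointwise `f + κ₀ f^(-2/n) ≥ κ₀^(n/(n+2))`, hence
`n a.s κ₀^(n/(n+2)) Θ₊² ≤ div V + 2 n a.s Θ₊² f`; `lintegral_le_of_dv`. Finally `Θ₊ ≤ 1`,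
`Θ ≥ 1/8` on `sec (5/8)`, whose volume is at least `4⁻ⁿ vol S` (`volume_sec_scale`), and
`|det M| ≤ nⁿ vol S`. -/
theorem area_lower (hn : 1 ≤ n) : ∃ c : ℝ, 0 < c ∧ ∀ (Ω : Set (E n)) (u : E n → ℝ), Sol Ω u →
    ∀ a : Af n, CapF Ω u a → (∃ X ∈ epi Ω u, a.ev X ≤ 1 / 2) →
    ENNReal.ofReal (c * (volume.real (sec Ω u a 1) / a.s) ^ ((n : ℝ) / (n + 2))) ≤
      area u (sec Ω u a 1) := by
  have hn0 : (0 : ℝ) < n := by exact_mod_cast hn
  refine ⟨(4 * (n : ℝ) ^ 3)⁻¹ / (128 * 4 ^ n), by positivity, ?_⟩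
  rintro Ω u h a ha ⟨X, hX, hXa⟩
  have hc := h.toCvx
  have hs := ha.spos
  have hy : X.1 ∈ sec Ω u a 1 := ⟨hX.1, by have := ha.on_le_ev hX; linarith⟩
  have hpos : 0 < volume (sec Ω u a 1) := ha.volume_sec_pos hc hX (by linarith)
  have hfin := ha.volume_sec_lt_top 1
  have hfin' := ha.volume_sec_lt_top (5 / 8)
  obtain ⟨M, hM, -, hMx, -, hMv⟩ := exists_maxdet hn (ha.cpt 1) (ha.convex_sec hc 1) hy hpos
  set v := volume.real (sec Ω u a 1) with hvdef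
  have hv : 0 < v := ENNReal.toReal_pos hpos.ne' hfin.ne
  set Q : Matrix (Fin n) (Fin n) ℝ := (8 * (n : ℝ))⁻¹ • ((M⁻¹)ᵀ * M⁻¹) with hQdef
  have hQ : Q.PosSemidef := psd_of_dot (nc_symm _ _) fun w => by
    rw [hQdef, nc_quad]
    have := nc_dot_self_nonneg (M⁻¹ *ᵥ w)
    positivity
  have hq : ∀ y ∈ sec Ω u a 1, (y - X.1) ⬝ᵥ (Q *ᵥ (y - X.1)) ≤ 1 / 8 := fun y hy => by
    rw [hQdef, nc_quad]
    have h1 := hMx y hy
    have h2 := abs_dot_le (M⁻¹ *ᵥ (y - X.1)) (M⁻¹ *ᵥ (y - X.1))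
    have h3 : (n : ℝ) * ‖M⁻¹ *ᵥ (y - X.1)‖ * ‖M⁻¹ *ᵥ (y - X.1)‖ ≤ n * 1 * 1 := by gcongr
    have h4 : (M⁻¹ *ᵥ (y - X.1)) ⬝ᵥ (M⁻¹ *ᵥ (y - X.1)) ≤ n := by
      have := le_abs_self ((M⁻¹ *ᵥ (y - X.1)) ⬝ᵥ (M⁻¹ *ᵥ (y - X.1)))
      linarith
    calc (8 * (n : ℝ))⁻¹ * ((M⁻¹ *ᵥ (y - X.1)) ⬝ᵥ (M⁻¹ *ᵥ (y - X.1))) ≤ (8 * (n : ℝ))⁻¹ * n := by
          gcongr
      _ = 1 / 8 := by field_simp
  have hdet : Q.det = ((8 * (n : ℝ))⁻¹) ^ n * (M.det⁻¹ * M.det⁻¹) := by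
    rw [hQdef, Matrix.det_smul, Matrix.det_mul, Matrix.det_transpose, Matrix.det_nonsing_inv,
      Ring.inverse_eq_inv', Fintype.card_fin]
  set r : ℝ := (v / a.s) ^ ((n : ℝ) / (n + 2)) with hr
  have hr0 : 0 < r := Real.rpow_pos_of_pos (by positivity) _
  have hβQ := nc_beta hn hv hs hM hMv
  rw [← hdet, ← hr] at hβQ
  have key := nc_int hn h ha hQ hq (by positivity) hβQ
  have hsc := ha.volume_sec_scale hc hX (k := 4) (s := 5 / 8) (s' := 1) (by norm_num)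
    (by linarith)
  have hv' : v ≤ 4 ^ n * volume.real (sec Ω u a (5 / 8)) := by
    have := ENNReal.toReal_mono (ENNReal.mul_ne_top ENNReal.ofReal_ne_top hfin'.ne) hsc
    rwa [ENNReal.toReal_mul, ENNReal.toReal_ofReal (by positivity)] at this
  have hw : volume (sec Ω u a (5 / 8)) = ENNReal.ofReal (volume.real (sec Ω u a (5 / 8))) :=
    (ofReal_measureReal hfin'.ne).symm
  rw [hw, ← ENNReal.ofReal_mul (by positivity)] at key
  have h2 : ENNReal.ofReal (2 * n * a.s) ≠ 0 := by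
    rw [Ne, ENNReal.ofReal_eq_zero, not_le]
    positivity
  refine (ENNReal.mul_le_mul_iff_right h2 ENNReal.ofReal_ne_top).mp (le_trans ?_ key)
  rw [← ENNReal.ofReal_mul (by positivity)]
  apply ENNReal.ofReal_le_ofReal
  calc 2 * n * a.s * ((4 * (n : ℝ) ^ 3)⁻¹ / (128 * 4 ^ n) * r)
      = n * a.s * ((4 * (n : ℝ) ^ 3)⁻¹ * r / v) / 64 * (v / 4 ^ n) := by
        field_simp
        norm_num
    _ ≤ n * a.s * ((4 * (n : ℝ) ^ 3)⁻¹ * r / v) / 64 * volume.real (sec Ω u a (5 / 8)) := by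
        gcongr
        rw [div_le_iff₀ (by positivity)]
        linarith

end Vale.Agent.P252b
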