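import Vale.Agent.P252b.Cone
import Vale.Agent.P252b.NC

/-!
A definite amount of mass lies away from a wall and from a thin polar slab.
-/

open MeasureTheory Metric Set Filter Topology Matrix
open scoped ENNReal ContDiff

noncomputable section

namespace Vale.Agent.P252b

variable {n : ℕ}

theorem central_delta {p q A B c : ℝ} (hp : 0 < p) (hq : 0 < q) (hc : 0 < c) :
    ∃ δ : ℝ, 0 < δ ∧ δ ≤ 1 ∧ A * δ ^ p + B * δ ^ q ≤ c := by
  have k : ∀ r : ℝ, 0 < r → Tendsto (fun δ : ℝ => δ ^ r) (𝓝 0) (𝓝 0) := fun r hr => by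
    have := (Real.continuousAt_rpow_const 0 r (Or.inr hr.le)).tendsto
    rwa [Real.zero_rpow hr.ne'] at this
  have h1 : Tendsto (fun δ : ℝ => A * δ ^ p + B * δ ^ q) (𝓝 0) (𝓝 (A * 0 + B * 0)) :=
    ((k p hp).const_mul A).add ((k q hq).const_mul B)
  rw [mul_zero, mul_zero, add_zero] at h1
  have h2 : ∀ᶠ δ : ℝ in 𝓝[>] 0, A * δ ^ p + B * δ ^ q < c :=
    (h1.eventually (gt_mem_nhds hc)).filter_mono nhdsWithin_le_nhds
  have h3 : ∀ᶠ δ : ℝ in 𝓝[>] 0, δ < 1 :=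
    (gt_mem_nhds one_pos : ∀ᶠ δ : ℝ in 𝓝 0, δ < 1).filter_mono nhdsWithin_le_nhds
  obtain ⟨δ, ⟨a1, a2⟩, a3⟩ := ((h2.and h3).and self_mem_nhdsWithin).exists
  exact ⟨δ, a3, a2.le, a1.le⟩

theorem central_union (u : E n → ℝ) {S A B R : Set (E n)} (h : S ⊆ A ∪ B ∪ R) :
    area u S ≤ area u A + area u B + area u R := by
  refine (area_mono h).trans ?_
  unfold area
  exact (lintegral_union_le _ _ _).trans (add_le_add_left (lintegral_union_le _ _ _) _)

theorem central_vol {Ω : Set (E n)} {u : E n → ℝ} (h : Cvx Ω u) {a : Af n} (ha : CapF Ω u a)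
    {X : E n × ℝ} (hX : X ∈ epi Ω u) (h2 : a.ev X ≤ 1 / 2) {S : Set (E n)}
    (hS : S ⊆ sec Ω u a 4) : volume.real S ≤ 7 ^ n * volume.real (sec Ω u a 1) := by
  have k := ha.volume_sec_scale h hX (k := 7) (s := 1) (s' := 4) (by norm_num) (by linarith)
  have k2 := (measure_mono hS).trans k
  have k3 := ENNReal.toReal_mono
    (ENNReal.mul_ne_top ENNReal.ofReal_ne_top (ha.volume_sec_lt_top 1).ne) k2
  rwa [ENNReal.toReal_mul, ENNReal.toReal_ofReal (by positivity)] at k3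

theorem central_final {c K v r : ℝ} {m I : ℝ≥0∞} {p : ℝ} (hc : 0 < c) (hK : 0 < K) (hv : 0 < v)
    (hp : 0 < p) (hr : 0 < r) (hI : I ≤ ENNReal.ofReal (K * v))
    (h : ENNReal.ofReal (c * v ^ p) ≤ I ^ p * m ^ r) :
    ENNReal.ofReal ((c / K ^ p) ^ r⁻¹) ≤ m := by
  have hKp : 0 < K ^ p := Real.rpow_pos_of_pos hK p
  have hvp : 0 < v ^ p := Real.rpow_pos_of_pos hv p
  have h1 : I ^ p ≤ ENNReal.ofReal (K ^ p * v ^ p) := by
    rw [← Real.mul_rpow hK.le hv.le, ← ENNReal.ofReal_rpow_of_pos (by positivity)]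
    exact ENNReal.rpow_le_rpow hI hp.le
  have h2 : ENNReal.ofReal (K ^ p * v ^ p) * ENNReal.ofReal (c / K ^ p) ≤
      ENNReal.ofReal (K ^ p * v ^ p) * m ^ r := by
    rw [← ENNReal.ofReal_mul (by positivity)]
    have e : K ^ p * v ^ p * (c / K ^ p) = c * v ^ p := by field_simp
    rw [e]
    exact h.trans (mul_le_mul_left h1 _)
  have h3 : ENNReal.ofReal (c / K ^ p) ≤ m ^ r :=
    (ENNReal.mul_le_mul_iff_right (ENNReal.ofReal_pos.2 (by positivity)).ne'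
      ENNReal.ofReal_ne_top).1 h2
  rw [← ENNReal.ofReal_rpow_of_pos (by positivity)]
  have h4 := ENNReal.rpow_le_rpow h3 (inv_pos.2 hr).le
  rwa [← ENNReal.rpow_mul, mul_inv_cancel₀ hr.ne', ENNReal.rpow_one] at h4

/-- Write `v = (vol (sec a 1) / a.s)^(n/(n+2)) > 0`. `area_lower` gives `area (sec a 1) ≥ c₀ v`.
The set `E_a = {β < δ}` lies in `sec a' 1` for `a' = a/2 + β/(2δ)` (`CapF.comb`), with
`sec a' 2 ⊆ sec a 4`, `a'.s ≥ a.s/(4δ)`, `vol (sec a 4) ≤ 7ⁿ vol (sec a 1)` (`volume_sec_scale`);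
so `area_upper'` gives `area E_a ≤ C (4 δ 7ⁿ)^(n/(n+2)) v`. On `E_b = {lin e < δ tg}` we have
`|lin e| ≤ δ tg u x X` with `X ∈ cap a 2`, so `area_upper` gives
`area E_b ≤ C δ^(1/(n+2)) (7ⁿ)^(n/(n+2)) v`. For small `δ` the rest has area `≥ c₀ v / 2`;
`holder_low` and `cone_bound` convert this into mass. -/
theorem central (hn : 1 ≤ n) : ∃ δ c : ℝ, 0 < δ ∧ δ ≤ 1 ∧ 0 < c ∧
    ∀ (Ω : Set (E n)) (u : E n → ℝ), Sol Ω u → ∀ a : Af n, CapF Ω u a →
    ∀ X ∈ epi0 Ω u, a.ev X ≤ 1 / 2 → ∀ β : Af n, NN Ω u β → a.s / 2 ≤ β.s →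
    ∀ e : E n × ℝ, a.lin e = 1 → (∀ x ∈ Ω, -(δ * tg u x X) ≤ (tgA u x).lin e) →
    ENNReal.ofReal c ≤ mass u X
      {x | x ∈ sec Ω u a 1 ∧ δ ≤ β.on u x ∧ δ * tg u x X ≤ (tgA u x).lin e} := by
  obtain ⟨c₀, hc₀, hlow⟩ := area_lower hn
  obtain ⟨C₁, hC₁, hup1⟩ := area_upper' hn
  obtain ⟨C₂, hC₂, hup2⟩ := area_upper hn
  have hn0 : (0 : ℝ) < n := by exact_mod_cast hn
  have hp : (0 : ℝ) < (n : ℝ) / (n + 2) := by positivity
  have hq : (0 : ℝ) < 1 / ((n : ℝ) + 2) := by positivity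
  have hr : (0 : ℝ) < 2 / ((n : ℝ) + 2) := by positivity
  generalize hpe : (n : ℝ) / (n + 2) = p at *
  obtain ⟨δ, hδ, hδ1, hsm⟩ := central_delta (A := C₁ * (4 * 7 ^ n) ^ p) (B := C₂ * (7 ^ n) ^ p)
    hp hq (half_pos hc₀)
  have hK : (0 : ℝ) < 2 * (n + 2) * 7 ^ n := by positivity
  refine ⟨δ, (c₀ / 2 / (2 * (n + 2) * 7 ^ n) ^ p) ^ (2 / ((n : ℝ) + 2))⁻¹, hδ, hδ1,
    by positivity, fun Ω u hs a ha X hX haX β hβ hβs e he hlin => ?_⟩
  have h := hs.toCvx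
  have hX' : X ∈ epi Ω u := epi0_subset hX
  have hσ := ha.spos
  have hV : 0 < volume.real (sec Ω u a 1) :=
    ENNReal.toReal_pos (ha.volume_sec_pos h hX' (by linarith)).ne' (ha.volume_sec_lt_top 1).ne
  have hw : 0 < volume.real (sec Ω u a 1) / a.s := div_pos hV hσ
  have h24 : sec Ω u a 2 ⊆ sec Ω u a 4 := fun x hx => ⟨hx.1, hx.2.trans (by norm_num)⟩
  have h12 : sec Ω u a 1 ⊆ sec Ω u a 2 := fun x hx => ⟨hx.1, hx.2.trans (by norm_num)⟩
  have hV2 : volume.real (sec Ω u a 2) / a.s ≤ 7 ^ n * (volume.real (sec Ω u a 1) / a.s) := by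
    rw [← mul_div_assoc]
    exact div_le_div_of_nonneg_right (central_vol h ha hX' haX h24) hσ.le
  have hXc : X ∈ cap Ω u a 2 := ⟨hX', by linarith⟩
  have ha' : CapF Ω u (Af.comb (1 / 2) a (1 / (2 * δ)) β 0) :=
    ha.comb h ⟨X.1, hX.1⟩ hβ (by norm_num) (by positivity) le_rfl
  have hon : ∀ x, (Af.comb (1 / 2) a (1 / (2 * δ)) β 0).on u x =
      1 / 2 * a.on u x + 1 / (2 * δ) * β.on u x := fun x => by
    simp only [Af.on, Af.ev_comb, add_zero]
  have hsub : sec Ω u (Af.comb (1 / 2) a (1 / (2 * δ)) β 0) 2 ⊆ sec Ω u a 4 := fun x hx => by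
    refine ⟨hx.1, ?_⟩
    have k1 := hx.2
    rw [hon] at k1
    have k2 : 0 ≤ 1 / (2 * δ) * β.on u x :=
      mul_nonneg (by positivity) (hβ _ (graph_mem_epi hx.1))
    linarith
  have hs' : a.s / (4 * δ) ≤ (Af.comb (1 / 2) a (1 / (2 * δ)) β 0).s := by
    change a.s / (4 * δ) ≤ 1 / 2 * a.s + 1 / (2 * δ) * β.s
    have k1 : 1 / (2 * δ) * (a.s / 2) ≤ 1 / (2 * δ) * β.s :=
      mul_le_mul_of_nonneg_left hβs (by positivity)
    have k2 : 1 / (2 * δ) * (a.s / 2) = a.s / (4 * δ) := by field_simp; norm_num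
    linarith
  have hVa : volume.real (sec Ω u (Af.comb (1 / 2) a (1 / (2 * δ)) β 0) 2) /
      (Af.comb (1 / 2) a (1 / (2 * δ)) β 0).s ≤
      4 * 7 ^ n * δ * (volume.real (sec Ω u a 1) / a.s) := by
    refine (div_le_div₀ (by positivity) (central_vol h ha hX' haX hsub) (by positivity)
      hs').trans (le_of_eq ?_)
    field_simp
  have hlo := hlow Ω u hs a ha ⟨X, hX', haX⟩
  have hA := hup1 Ω u h _ ha'
  have mB : MeasurableSet {x | x ∈ sec Ω u a 1 ∧ (tgA u x).lin e < δ * tg u x X} :=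
    (h.measurableSet_sec a 1).inter (measurableSet_lt (measurable_tgA_lin u e)
      ((measurable_tg h.meas X).const_mul δ))
  have hB := hup2 Ω u h a ha e he δ hδ _ mB (fun x hx => hx.1)
    fun x hx => ⟨X, hXc, abs_le.2 ⟨hlin x hx.1.1, hx.2.le⟩⟩
  have mR : MeasurableSet
      {x | x ∈ sec Ω u a 1 ∧ δ ≤ β.on u x ∧ δ * tg u x X ≤ (tgA u x).lin e} :=
    (h.measurableSet_sec a 1).inter ((measurableSet_le measurable_const
      (measurable_on h.meas β)).inter (measurableSet_le ((measurable_tg h.meas X).const_mul δ)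
        (measurable_tgA_lin u e)))
  have hU := central_union u (S := sec Ω u a 1)
    (A := sec Ω u (Af.comb (1 / 2) a (1 / (2 * δ)) β 0) 1)
    (B := {x | x ∈ sec Ω u a 1 ∧ (tgA u x).lin e < δ * tg u x X})
    (R := {x | x ∈ sec Ω u a 1 ∧ δ ≤ β.on u x ∧ δ * tg u x X ≤ (tgA u x).lin e}) fun x hx => by
      by_cases k1 : δ ≤ β.on u x
      · by_cases k2 : δ * tg u x X ≤ (tgA u x).lin e
        · exact Or.inr ⟨hx, k1, k2⟩
        · exact Or.inl (Or.inr ⟨hx, not_le.1 k2⟩)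
      · refine Or.inl (Or.inl ⟨hx.1, ?_⟩)
        rw [hon]
        have k3 : 1 / (2 * δ) * β.on u x ≤ 1 / (2 * δ) * δ :=
          mul_le_mul_of_nonneg_left (not_le.1 k1).le (by positivity)
        have k4 : 1 / (2 * δ) * δ = 1 / 2 := by field_simp
        have k5 := hx.2
        linarith
  have hH := holder_low h mR (fun x hx => hx.1.1) hX
  rw [hpe] at hH
  have hcone := cone_bound h ha hXc
  generalize volume.real (sec Ω u a 1) / a.s = w at *
  have hwp : 0 < w ^ p := Real.rpow_pos_of_pos hw p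
  have bA : area u (sec Ω u (Af.comb (1 / 2) a (1 / (2 * δ)) β 0) 1) ≤
      ENNReal.ofReal (C₁ * (4 * 7 ^ n) ^ p * δ ^ p * w ^ p) := by
    refine hA.trans (ENNReal.ofReal_le_ofReal ?_)
    rw [mul_assoc, mul_assoc, ← mul_assoc (((4 : ℝ) * 7 ^ n) ^ p),
      ← Real.mul_rpow (by positivity) hδ.le, ← Real.mul_rpow (by positivity) hw.le]
    exact mul_le_mul_of_nonneg_left (Real.rpow_le_rpow
      (div_nonneg measureReal_nonneg ha'.spos.le) hVa hp.le) hC₁.le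
  have bB : area u {x | x ∈ sec Ω u a 1 ∧ (tgA u x).lin e < δ * tg u x X} ≤
      ENNReal.ofReal (C₂ * (7 ^ n) ^ p * δ ^ (1 / ((n : ℝ) + 2)) * w ^ p) := by
    refine hB.trans (ENNReal.ofReal_le_ofReal ?_)
    have k1 := Real.rpow_le_rpow (div_nonneg measureReal_nonneg hσ.le) hV2 hp.le
    rw [Real.mul_rpow (by positivity) hw.le] at k1
    have k2 := mul_le_mul_of_nonneg_left k1
      (show 0 ≤ C₂ * δ ^ (1 / ((n : ℝ) + 2)) by positivity)
    linarith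
  have bAB : area u (sec Ω u (Af.comb (1 / 2) a (1 / (2 * δ)) β 0) 1) +
      area u {x | x ∈ sec Ω u a 1 ∧ (tgA u x).lin e < δ * tg u x X} ≤
      ENNReal.ofReal (c₀ / 2 * w ^ p) := by
    refine (add_le_add bA bB).trans ?_
    rw [← ENNReal.ofReal_add (by positivity) (by positivity), ← add_mul]
    exact ENNReal.ofReal_le_ofReal (mul_le_mul_of_nonneg_right hsm hwp.le)
  have bR : ENNReal.ofReal (c₀ / 2 * w ^ p) ≤
      area u {x | x ∈ sec Ω u a 1 ∧ δ ≤ β.on u x ∧ δ * tg u x X ≤ (tgA u x).lin e} := by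
    have k1 := hlo.trans (hU.trans (add_le_add_left bAB _))
    have e1 : c₀ * w ^ p = c₀ / 2 * w ^ p + c₀ / 2 * w ^ p := by ring
    rw [e1, ENNReal.ofReal_add (by positivity) (by positivity)] at k1
    exact (ENNReal.add_le_add_iff_left ENNReal.ofReal_ne_top).1 k1
  refine central_final (half_pos hc₀) hK hw hp hr ?_ (bR.trans hH)
  refine (lintegral_mono_set fun x hx => hx.1).trans (hcone.trans (ENNReal.ofReal_le_ofReal ?_))
  rw [mul_div_assoc, mul_assoc (2 * ((n : ℝ) + 2))]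
  exact mul_le_mul_of_nonneg_left hV2 (by positivity)

end Vale.Agent.P252b
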