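import Vale.Agent.P252b.Boot
import Vale.Agent.P252b.Central

/-!
The two sides of the main inequality in the balance argument.
-/

open MeasureTheory Metric Set Filter Topology Matrix
open scoped ENNReal ContDiff

noncomputable section

namespace Vale.Agent.P252b

variable {n : ℕ} {Ω : Set (E n)} {u : E n → ℝ}

theorem bal_up (hu : Measurable u) {X : E n × ℝ} {S : Set (E n)} {g : E n → ℝ} {κ : ℝ}
    (hκ : 0 ≤ κ) (hS : MeasurableSet S) (h : ∀ x ∈ S, g x ≤ κ * md u X x) :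
    ∫⁻ x in S, ENNReal.ofReal (g x) ≤ ENNReal.ofReal κ * mass u X S := by
  unfold mass
  rw [← lintegral_const_mul _ (measurable_md hu X).ennreal_ofReal]
  refine setLIntegral_mono' hS fun x hx => ?_
  rw [← ENNReal.ofReal_mul hκ]
  exact ENNReal.ofReal_le_ofReal (h x hx)

theorem bal_low (hu : Measurable u) {X : E n × ℝ} {S : Set (E n)} {g : E n → ℝ} {κ : ℝ}
    (hκ : 0 ≤ κ) (hS : MeasurableSet S) (h : ∀ x ∈ S, κ * md u X x ≤ g x) :
    ENNReal.ofReal κ * mass u X S ≤ ∫⁻ x in S, ENNReal.ofReal (g x) := by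
  unfold mass
  rw [← lintegral_const_mul _ (measurable_md hu X).ennreal_ofReal]
  refine setLIntegral_mono' hS fun x hx => ?_
  rw [← ENNReal.ofReal_mul hκ]
  exact ENNReal.ofReal_le_ofReal (h x hx)

/-- The height function `tg / t + 1`. -/
def balA (u : E n → ℝ) (x : E n) (t : ℝ) : Af n := Af.comb t⁻¹ (tgA u x) 0 (tgA u x) 1

theorem balA_ev (u : E n → ℝ) (x : E n) (t : ℝ) (W : E n × ℝ) :
    (balA u x t).ev W = t⁻¹ * tg u x W + 1 := by
  rw [balA, Af.ev_comb, tgA_ev]; ring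

theorem bal_tg_vert (u : E n → ℝ) (x : E n) (t : ℝ) : tg u x (x, u x + t) = t := by
  simp [tg]

theorem bal_tg_zero (u : E n → ℝ) (x : E n) : tg u x (x, u x) = 0 := by
  simp [tg]

theorem bal_mem0 {x : E n} (hx : x ∈ Ω) {t : ℝ} (ht : 0 < t) : (x, u x + t) ∈ epi0 Ω u :=
  ⟨hx, by simpa using ht⟩

theorem bal_shrink (h : Cvx Ω u) {x y : E n} (hx : x ∈ Ω) (hy : y ∈ Ω) {t k : ℝ} (ht : 0 < t)
    (hk : 1 ≤ k) (hyk : (balA u x t).on u y ≤ k) {l : Af n} (hl : NN Ω u l) :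
    ∃ W ∈ epi Ω u, tg u x W ≤ 2 * t ∧ l.on u y ≤ k * l.ev W := by
  have hk0 : 0 < k := by linarith
  have hki : k⁻¹ ≤ 1 := inv_le_one_of_one_le₀ hk
  refine ⟨(x, u x) + k⁻¹ • ((y, u y) - (x, u x)),
    h.seg_mem_epi (graph_mem_epi hx) (graph_mem_epi hy) (by positivity) hki, ?_, ?_⟩
  · rw [tg_seg, bal_tg_zero]
    rw [Af.on, balA_ev] at hyk
    have h1 : tg u x (y, u y) ≤ k * t := by
      have : t⁻¹ * tg u x (y, u y) ≤ k := by linarith
      rwa [inv_mul_le_iff₀ ht, mul_comm] at this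
    have h2 : k⁻¹ * tg u x (y, u y) ≤ t := by
      rwa [inv_mul_le_iff₀ hk0]
    linarith
  · rw [Af.ev_seg]
    have h1 := hl _ (graph_mem_epi (u := u) hx)
    have h2 : 0 ≤ k * ((1 - k⁻¹) * l.ev (x, u x)) := mul_nonneg hk0.le (mul_nonneg (by linarith) h1)
    have h3 : k * (k⁻¹ * l.ev (y, u y)) = l.ev (y, u y) := by field_simp
    rw [mul_add, h3]
    unfold Af.on
    linarith

theorem bal_lhs (h : Sol Ω u) {x : E n} (hx : x ∈ Ω) {t : ℝ} (ht : 0 < t) {δ c η s : ℝ}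
    (hδ : 0 < δ) (hδ1 : δ ≤ 1) (hc : 0 < c) (hη : 0 ≤ η)
    (hcen : ∀ a : Af n, CapF Ω u a → ∀ X ∈ epi0 Ω u, a.ev X ≤ 1 / 2 → ∀ β : Af n, NN Ω u β →
      a.s / 2 ≤ β.s → ∀ e : E n × ℝ, a.lin e = 1 →
      (∀ x ∈ Ω, -(δ * tg u x X) ≤ (tgA u x).lin e) →
      ENNReal.ofReal c ≤ mass u X
        {x | x ∈ sec Ω u a 1 ∧ δ ≤ β.on u x ∧ δ * tg u x X ≤ (tgA u x).lin e})
    {l : Af n} (hl : NN Ω u l) (hl1 : l.ev (x, u x + t) = 1) {G : E n × ℝ} (hG : G ∈ epi Ω u)
    (hlG : s ^ 2 / (2 * (n + 2)) ≤ l.ev G) (hs : 16 * (n + 2) / δ + 4 ≤ s) :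
    ENNReal.ofReal ((s + 1) ^ 3 * (δ ^ 3 * s ^ 3 / (8 * (n + 2))) ^ η * c) ≤
      ∫⁻ y in Ω, ENNReal.ofReal (wt u (x, u x + t)
        ((x, u x + t) + (1 / 2 : ℝ) • (G - (x, u x + t))) (balA u x t) (2 * s + 2) 3 η y) := by
  have hc' := h.toCvx
  set X : E n × ℝ := (x, u x + t) with hXdef
  set Y : E n × ℝ := X + (1 / 2 : ℝ) • (G - X) with hYdef
  have hX : X ∈ epi0 Ω u := bal_mem0 hx ht
  have hN : (0 : ℝ) < n + 2 := by positivity
  have hsd : 16 * (n + 2) ≤ δ * s := by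
    have h1 : 16 * ((n : ℝ) + 2) / δ ≤ s := by linarith
    rwa [div_le_iff₀ hδ, mul_comm s] at h1
  have hs4 : 4 ≤ s := by
    have : 0 ≤ 16 * ((n : ℝ) + 2) / δ := by positivity
    linarith
  have hs0 : 0 < s := by linarith
  have hs16 : 16 * (n + 2) ≤ s := by nlinarith
  set ab : Af n := Af.comb (t * s)⁻¹ (tgA u x) s⁻¹ l 0 with hab
  set be : Af n := Af.comb (t * s)⁻¹ (tgA u x) 0 (tgA u x) 0 with hbe
  have habF : CapF Ω u ab := CapF.comb hc' ⟨x, hx⟩ (hc'.capF_tgA hx) hl (by positivity)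
    (by positivity) le_rfl
  have hbeF : CapF Ω u be := CapF.comb hc' ⟨x, hx⟩ (hc'.capF_tgA hx) (hc'.nn_tgA hx)
    (by positivity) le_rfl le_rfl
  have hab_ev : ∀ W, ab.ev W = (t⁻¹ * tg u x W + l.ev W) / s := fun W => by
    rw [hab, Af.ev_comb, tgA_ev]; field_simp; ring
  have hbe_ev : ∀ W, be.ev W = (t⁻¹ * tg u x W) / s := fun W => by
    rw [hbe, Af.ev_comb, tgA_ev]; field_simp; ring
  have habX : ab.ev X = 2 / s := by
    rw [hab_ev, hl1, hXdef, bal_tg_vert, inv_mul_cancel₀ ht.ne']; norm_num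
  have hls : t * l.s ≤ 1 := by
    have h1 := hl _ (graph_mem_epi (u := u) hx)
    have h2 : l.ev (x, u x + t) = l.ev (x, u x) + t * l.s := by simp only [Af.ev]; ring
    rw [← hXdef, hl1] at h2
    linarith
  have hss : ab.s / 2 ≤ be.s := by
    simp only [hab, hbe, Af.comb, tgA]
    have h1 : s⁻¹ * l.s ≤ (t * s)⁻¹ := by
      rw [mul_inv, mul_comm t⁻¹]
      refine mul_le_mul_of_nonneg_left ?_ (by positivity)
      rw [← one_div, le_div_iff₀ ht]; linarith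
    linarith
  have hlY : s ^ 2 / (4 * (n + 2)) ≤ l.ev Y := by
    rw [hYdef, Af.ev_seg, hl1]
    have : s ^ 2 / (4 * (n + 2)) = 1 / 2 * (s ^ 2 / (2 * (n + 2))) := by field_simp; ring
    linarith
  have hYe : Y ∈ epi Ω u := hc'.seg_mem_epi (epi0_subset hX) hG (by norm_num) (by norm_num)
  set γ := ab.ev Y - ab.ev X with hγ
  have hγ1 : s / (8 * (n + 2)) ≤ γ := by
    rw [hγ, habX, hab_ev, ← sub_div, le_div_iff₀ hs0]
    have h1 : 0 ≤ t⁻¹ * tg u x Y := mul_nonneg (by positivity) (hc'.tg_nonneg hx hYe)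
    have h2 : s / (8 * (n + 2)) * s = s ^ 2 / (4 * (n + 2)) - s ^ 2 / (8 * (n + 2)) := by
      field_simp; ring
    have h3 : 2 ≤ s ^ 2 / (8 * (n + 2)) := by
      rw [le_div_iff₀ (by positivity)]; nlinarith
    linarith
  have hγ0 : 0 < γ := lt_of_lt_of_le (by positivity) hγ1
  have hγδ : 2 ≤ δ * γ := by
    have h1 : δ * (s / (8 * (n + 2))) ≤ δ * γ := mul_le_mul_of_nonneg_left hγ1 hδ.le
    have h2 : 2 ≤ δ * (s / (8 * (n + 2))) := by
      rw [← mul_div_assoc, le_div_iff₀ (by positivity)]; linarith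
    linarith
  set e : E n × ℝ := γ⁻¹ • (Y - X) with he
  have he1 : ab.lin e = 1 := by
    rw [he, Af.lin_smul, ← Af.ev_sub, ← hγ, inv_mul_cancel₀ hγ0.ne']
  have hlin : ∀ y, γ * (tgA u y).lin e = tg u y Y - tg u y X := fun y => by
    rw [he, Af.lin_smul, ← Af.ev_sub, tgA_ev, tgA_ev, ← mul_assoc, mul_inv_cancel₀ hγ0.ne',
      one_mul]
  have hneg : ∀ y ∈ Ω, -(δ * tg u y X) ≤ (tgA u y).lin e := fun y hy => by
    have h1 := hlin y
    have h2 := hc'.tg_nonneg hy hYe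
    have h3 := (hc'.tg_pos hy hX).le
    have h4 : 2 * tg u y X ≤ δ * γ * tg u y X := mul_le_mul_of_nonneg_right hγδ h3
    refine le_of_mul_le_mul_left ?_ hγ0
    linarith
  have hcm := hcen ab habF X hX (by rw [habX, div_le_iff₀ hs0]; linarith) be hbeF.nn hss e he1 hneg
  set S := {y | y ∈ sec Ω u ab 1 ∧ δ ≤ be.on u y ∧ δ * tg u y X ≤ (tgA u y).lin e} with hS
  have hSm : MeasurableSet S :=
    (hc'.measurableSet_sec ab 1).inter ((measurableSet_le measurable_const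
      (measurable_on hc'.meas be)).inter (measurableSet_le
        ((measurable_tg hc'.meas X).const_mul δ) (measurable_tgA_lin u e)))
  have hκ : 0 ≤ (s + 1) ^ 3 * (δ ^ 3 * s ^ 3 / (8 * (n + 2))) ^ η := by positivity
  rw [ENNReal.ofReal_mul hκ]
  refine (mul_le_mul_right hcm _).trans ((bal_low hc'.meas hκ hSm ?_).trans
    (lintegral_mono_set fun y hy => hy.1.1))
  rintro y ⟨⟨hy, hy1⟩, hy2, hy3⟩
  have hlx := hc'.tg_pos hy hX
  have ha : (balA u x t).on u y = s * be.on u y + 1 := by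
    rw [Af.on, Af.on, balA_ev, hbe_ev]; field_simp
  have hbab : be.on u y ≤ 1 := by
    refine le_trans ?_ hy1
    rw [Af.on, Af.on, hab_ev, hbe_ev]
    have := hl _ (graph_mem_epi (u := u) hy)
    exact div_le_div_of_nonneg_right (by linarith) hs0.le
  have ha1 : δ * s ≤ (balA u x t).on u y := by
    have := mul_le_mul_of_nonneg_left hy2 hs0.le
    rw [ha]; linarith
  have ha2 : (balA u x t).on u y ≤ s + 1 := by
    have := mul_le_mul_of_nonneg_left hbab hs0.le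
    rw [ha]; linarith
  have hal : δ * s / (8 * (n + 2)) ≤ al u X Y y := by
    rw [al, le_div_iff₀ hlx]
    have h1 := hlin y
    have h2 : γ * (δ * tg u y X) ≤ γ * (tgA u y).lin e := mul_le_mul_of_nonneg_left hy3 hγ0.le
    have h3 : s / (8 * (n + 2)) * (δ * tg u y X) ≤ γ * (δ * tg u y X) :=
      mul_le_mul_of_nonneg_right hγ1 (by positivity)
    have h4 : δ * s / (8 * (n + 2)) * tg u y X = s / (8 * (n + 2)) * (δ * tg u y X) := by ring
    linarith
  unfold wt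
  refine mul_le_mul_of_nonneg_right ?_ (hc'.md_pos hX hy).le
  refine mul_le_mul (pow_le_pow_left₀ (by linarith) (le_max_of_le_left (by linarith)) 3)
    (Real.rpow_le_rpow (by positivity) ?_ hη) (by positivity) (by positivity)
  have h0 : 0 < δ * s := by positivity
  have h1 : δ * s * (δ * s / (8 * (n + 2))) ≤ (balA u x t).on u y * al u X Y y :=
    mul_le_mul ha1 hal (by positivity) (by linarith)
  have h2 : δ * s * (δ * s * (δ * s / (8 * (n + 2)))) ≤
      (balA u x t).on u y * (3 + (balA u x t).on u y * al u X Y y) :=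
    mul_le_mul ha1 (by linarith) (by positivity) (by linarith)
  refine le_trans (le_of_eq ?_) h2
  ring

end Vale.Agent.P252b
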