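import Vale.Agent.P252b.ConvA

/-!
Centres of convex bodies (Helly), centres of caps and of polar bodies.
-/

open MeasureTheory Metric Set Filter Topology Matrix
open scoped ENNReal ContDiff

noncomputable section

namespace Vale.Agent.P252b

variable {n : ℕ}

theorem center_avg {ι : Type} {C : Set (E n × ℝ)} (hc : Convex ℝ C) (J : Finset ι)
    (z : ι → E n × ℝ) (hz : ∀ j ∈ J, z j ∈ C) {W₀ : E n × ℝ} (hW₀ : W₀ ∈ C) {N : ℝ}
    (hN : 0 < N) (hJ : (J.card : ℝ) ≤ N) :
    N⁻¹ • (∑ j ∈ J, z j + (N - J.card) • W₀) ∈ C := by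
  rcases J.eq_empty_or_nonempty with rfl | hne
  · simp only [Finset.sum_empty, Finset.card_empty, Nat.cast_zero, sub_zero, zero_add, smul_smul,
      inv_mul_cancel₀ hN.ne', one_smul]
    exact hW₀
  · have hm : (0 : ℝ) < J.card := by exact_mod_cast hne.card_pos
    have h1 : ∑ j ∈ J, (J.card : ℝ)⁻¹ • z j ∈ C :=
      hc.sum_mem (fun _ _ => by positivity) (by simp [hm.ne']) hz
    rw [← Finset.smul_sum] at h1
    have h2 := hc h1 hW₀ (a := J.card / N) (b := (N - J.card) / N) (by positivity)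
      (div_nonneg (by linarith) hN.le) (by field_simp; ring)
    have h3 : N⁻¹ • (∑ j ∈ J, z j + (N - J.card) • W₀) =
        ((J.card : ℝ) / N) • (J.card : ℝ)⁻¹ • ∑ j ∈ J, z j + ((N - J.card) / N) • W₀ := by
      rw [smul_add, smul_smul, smul_smul]
      congr 2
      · field_simp
      · field_simp
    rw [h3]; exact h2

/-- Minkowski-Radon. The compact convex sets `C_W = (n+2)⁻¹ • ((n+1) • C + W)`, `W ∈ C`, have
the property that any `n + 2` of them meet (take the barycentre of the points `W`, repeating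
points if there are fewer); `Convex.helly_theorem_compact'` in dimension `n + 1`. -/
theorem exists_center {C : Set (E n × ℝ)} (hC : IsCompact C) (hc : Convex ℝ C)
    (hne : C.Nonempty) : ∃ G ∈ C, ∀ W ∈ C, G - ((n : ℝ) + 1)⁻¹ • (W - G) ∈ C := by
  classical
  obtain ⟨W₀, hW₀⟩ := hne
  have hn1 : (0 : ℝ) < (n : ℝ) + 1 := by positivity
  have hn2 : (0 : ℝ) < (n : ℝ) + 2 := by positivity
  let F : C → Set (E n × ℝ) := fun W =>
    {G | G ∈ C ∧ G - ((n : ℝ) + 1)⁻¹ • ((W : E n × ℝ) - G) ∈ C}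
  have hconv : ∀ W, Convex ℝ (F W) := by
    intro W G₁ h₁ G₂ h₂ a b ha hb hab
    refine ⟨hc h₁.1 h₂.1 ha hb hab, ?_⟩
    have h3 := hc h₁.2 h₂.2 ha hb hab
    have h4 : a • G₁ + b • G₂ - ((n : ℝ) + 1)⁻¹ • ((W : E n × ℝ) - (a • G₁ + b • G₂)) =
        a • (G₁ - ((n : ℝ) + 1)⁻¹ • ((W : E n × ℝ) - G₁)) +
          b • (G₂ - ((n : ℝ) + 1)⁻¹ • ((W : E n × ℝ) - G₂)) := by
      have hb' : b = 1 - a := by linarith
      rw [hb']
      module
    rw [h4]; exact h3
  have hcomp : ∀ W, IsCompact (F W) := by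
    intro W
    have hcl : IsClosed ((fun G : E n × ℝ => G - ((n : ℝ) + 1)⁻¹ • ((W : E n × ℝ) - G)) ⁻¹' C) :=
      hC.isClosed.preimage (by fun_prop)
    exact hC.inter_right hcl
  have hint : ∀ I : Finset C, I.card ≤ Module.finrank ℝ (E n × ℝ) + 1 →
      (⋂ i ∈ I, F i).Nonempty := by
    intro I hI
    have hfr : Module.finrank ℝ (E n × ℝ) = n + 1 := by
      rw [Module.finrank_prod, Module.finrank_fin_fun, Module.finrank_self]
    rw [hfr] at hI
    have hI' : (I.card : ℝ) ≤ (n : ℝ) + 2 := by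
      have : (I.card : ℝ) ≤ ((n + 1 + 1 : ℕ) : ℝ) := by exact_mod_cast hI
      push_cast at this
      linarith
    refine ⟨((n : ℝ) + 2)⁻¹ • (∑ j ∈ I, (j : E n × ℝ) + ((n : ℝ) + 2 - I.card) • W₀), ?_⟩
    simp only [mem_iInter]
    intro W hW
    refine ⟨center_avg hc I _ (fun j _ => j.2) hW₀ hn2 hI', ?_⟩
    have hcard : ((I.erase W).card : ℝ) = I.card - 1 := by
      have := Finset.card_erase_add_one hW
      have h2 : (((I.erase W).card + 1 : ℕ) : ℝ) = I.card := by rw [this]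
      push_cast at h2
      linarith
    have h1 := center_avg hc (I.erase W) (fun j => (j : E n × ℝ)) (fun j _ => j.2) hW₀ hn1
      (by rw [hcard]; linarith)
    rw [hcard] at h1
    rw [← Finset.add_sum_erase I (fun j => (j : E n × ℝ)) hW]
    have h2 : ∀ (A : E n × ℝ) (m : ℝ),
        ((n : ℝ) + 2)⁻¹ • ((W : E n × ℝ) + A + ((n : ℝ) + 2 - m) • W₀) -
          ((n : ℝ) + 1)⁻¹ • ((W : E n × ℝ) -
            ((n : ℝ) + 2)⁻¹ • ((W : E n × ℝ) + A + ((n : ℝ) + 2 - m) • W₀)) =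
        ((n : ℝ) + 1)⁻¹ • (A + ((n : ℝ) + 1 - (m - 1)) • W₀) := by
      intro A m
      match_scalars
      · field_simp; ring
      · field_simp; ring
      · field_simp; ring
    rw [h2]; exact h1
  obtain ⟨G, hG⟩ := Convex.helly_theorem_compact' hconv hcomp hint
  rw [mem_iInter] at hG
  exact ⟨G, (hG ⟨W₀, hW₀⟩).1, fun W hW => (hG ⟨W, hW⟩).2⟩

theorem cap_center {C : Set (E n × ℝ)} (hC : IsCompact C) (hc : Convex ℝ C) (hne : C.Nonempty) :
    ∃ G ∈ C, ∀ a : Af n, (∀ W ∈ C, 0 ≤ a.ev W) → ∀ W ∈ C, a.ev W ≤ (n + 2) * a.ev G := by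
  obtain ⟨G, hG, hW⟩ := exists_center hC hc hne
  refine ⟨G, hG, fun a ha W hWC => ?_⟩
  have hn1 : (0 : ℝ) < (n : ℝ) + 1 := by positivity
  have h1 := ha _ (hW W hWC)
  rw [sub_eq_add_neg, ← neg_smul, Af.ev_seg] at h1
  have h2 := mul_nonneg hn1.le h1
  have h3 : ((n : ℝ) + 1) * ((1 - -((n : ℝ) + 1)⁻¹) * a.ev G + -((n : ℝ) + 1)⁻¹ * a.ev W) =
      (n + 2) * a.ev G - a.ev W := by
    field_simp; ring
  linarith

/-- The pairing of a covector with a vector. -/
def centerPair (ξ V : E n × ℝ) : ℝ := ξ.1 ⬝ᵥ V.1 + ξ.2 * V.2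

theorem center_pair_comb (ξ ζ V : E n × ℝ) (a b : ℝ) :
    centerPair (a • ξ + b • ζ) V = a * centerPair ξ V + b * centerPair ζ V := by
  simp only [centerPair, Prod.fst_add, Prod.smul_fst, Prod.snd_add, Prod.smul_snd,
    add_dotProduct, smul_dotProduct, smul_eq_mul]
  ring

theorem center_pair_cont (V : E n × ℝ) : Continuous (fun ξ : E n × ℝ => centerPair ξ V) := by
  unfold centerPair dotProduct
  fun_prop

theorem center_polar_bounded {K : Set (E n × ℝ)} {X : E n × ℝ} {r : ℝ} (hr : 0 < r)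
    (hK : closedBall X r ⊆ K) {ξ : E n × ℝ} (hξ : ∀ W ∈ K, 0 ≤ 1 + centerPair ξ (W - X)) :
    ‖ξ‖ ≤ r⁻¹ := by
  have key : ∀ V : E n × ℝ, ‖V‖ ≤ 1 → |centerPair ξ V| ≤ r⁻¹ := by
    intro V hV
    have hm : ∀ t : ℝ, |t| = r → 0 ≤ 1 + t * centerPair ξ V := by
      intro t ht
      have h1 : X + t • V ∈ closedBall X r := by
        rw [mem_closedBall, dist_eq_norm, add_sub_cancel_left, norm_smul, Real.norm_eq_abs, ht]
        nlinarith
      have h2 := hξ _ (hK h1)
      rw [add_sub_cancel_left] at h2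
      have h3 : centerPair ξ (t • V) = t * centerPair ξ V := by
        simp only [centerPair, Prod.smul_fst, Prod.smul_snd, dotProduct_smul, smul_eq_mul]
        ring
      rwa [h3] at h2
    have h1 := hm r (abs_of_pos hr)
    have h2 := hm (-r) (by rw [abs_neg, abs_of_pos hr])
    have h3 : r * |centerPair ξ V| ≤ 1 := by
      rcases abs_cases (centerPair ξ V) with h | h <;> rw [h.1] <;> linarith
    rw [← one_div, le_div_iff₀ hr]
    linarith
  rw [Prod.norm_def]
  refine max_le ((pi_norm_le_iff_of_nonneg (by positivity)).2 fun i => ?_) ?_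
  · have h1 := key (Pi.single i 1, 0) (by
      rw [Prod.norm_def]
      simp only [Pi.norm_single, norm_one, norm_zero, max_le_iff, le_refl, zero_le_one, and_self])
    simpa [centerPair] using h1
  · have h1 := key (0, 1) (by
      rw [Prod.norm_def]
      simp only [norm_one, norm_zero, max_le_iff, le_refl, zero_le_one, and_self])
    simpa [centerPair] using h1

/-- The polar body `Q = {ξ = (p, s) | ∀ W ∈ epi, 0 ≤ 1 + p·(W.1 - X.1) + s (W.2 - X.2)}` is
closed, convex, contains `0`, and is bounded because `epi` contains a ball around `X`. Let `a` be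
the affine function of its centre. If `ℓ` is nonnegative with `ℓ(X) > 0` then the linear part of
`ℓ / ℓ(X)` lies in `Q`, and the reflected point gives `(n+2) a - ℓ/ℓ(X) ≥ 0` on `epi`. If
`ℓ(X) = 0` then the linear part of `ℓ` vanishes (all its positive multiples lie in `Q`), so
`ℓ = 0`. `CapF` by `capF_of_dom` with `ℓ = tgA u X.1`. -/
theorem polar_center {Ω : Set (E n)} {u : E n → ℝ} (h : Cvx Ω u) {X : E n × ℝ}
    (hX : X ∈ epi0 Ω u) :
    ∃ a : Af n, CapF Ω u a ∧ a.ev X = 1 ∧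
      ∀ l : Af n, NN Ω u l → ∀ W ∈ epi Ω u, l.ev W ≤ (n + 2) * a.ev W * l.ev X := by
  have hn1 : (0 : ℝ) < (n : ℝ) + 1 := by positivity
  obtain ⟨r, hr, hball⟩ := Metric.nhds_basis_closedBall.mem_iff.1 (h.isOpen_epi0.mem_nhds hX)
  have hball' : closedBall X r ⊆ epi Ω u := hball.trans epi0_subset
  let Q : Set (E n × ℝ) := {ξ | ∀ W ∈ epi Ω u, 0 ≤ 1 + centerPair ξ (W - X)}
  have hQcl : IsClosed Q := by
    have : Q = ⋂ W ∈ epi Ω u, {ξ | 0 ≤ 1 + centerPair ξ (W - X)} := by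
      ext ξ; simp only [Q, mem_ofPred_eq, mem_iInter]
    rw [this]
    exact isClosed_biInter fun W _ =>
      isClosed_le continuous_const (continuous_const.add (center_pair_cont _))
  have hQc : IsCompact Q :=
    (isCompact_closedBall (0 : E n × ℝ) r⁻¹).of_isClosed_subset hQcl fun ξ hξ =>
      mem_closedBall_zero_iff.2 (center_polar_bounded hr hball' hξ)
  have hQv : Convex ℝ Q := by
    intro ξ hξ ζ hζ a b ha hb hab W hW
    rw [center_pair_comb]
    have h1 := mul_nonneg ha (hξ W hW)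
    have h2 := mul_nonneg hb (hζ W hW)
    nlinarith
  have hQ0 : (0 : E n × ℝ) ∈ Q := by
    intro W _
    simp [centerPair]
  obtain ⟨G, hG, hGW⟩ := exists_center hQc hQv ⟨0, hQ0⟩
  let a : Af n := ⟨G.1, G.2, 1 - centerPair G X⟩
  have ha : ∀ W, a.ev W = 1 + centerPair G (W - X) := by
    intro W
    simp only [a, Af.ev, centerPair, Prod.fst_sub, Prod.snd_sub, dotProduct_sub]
    ring
  have haNN : NN Ω u a := fun W hW => by rw [ha]; exact hG W hW
  have hpos : ∀ l : Af n, NN Ω u l → ∀ ε : ℝ, 0 < ε → ∀ W ∈ epi Ω u,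
      l.ev W + ε ≤ (n + 2) * a.ev W * (l.ev X + ε) := by
    intro l hl ε hε W hW
    have hlX : 0 < l.ev X + ε := add_pos_of_nonneg_of_pos (hl X (epi0_subset hX)) hε
    have hlin : ∀ Z, centerPair (l.p, l.s) (Z - X) = l.ev Z - l.ev X := by
      intro Z
      simp only [Af.ev, centerPair, Prod.fst_sub, Prod.snd_sub, dotProduct_sub]
      ring
    have hsm : ∀ Z, centerPair ((l.ev X + ε)⁻¹ • (l.p, l.s)) (Z - X) =
        (l.ev X + ε)⁻¹ * (l.ev Z - l.ev X) := by
      intro Z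
      have := center_pair_comb (l.p, l.s) (l.p, l.s) (Z - X) (l.ev X + ε)⁻¹ 0
      rw [zero_smul, add_zero, zero_mul, add_zero, hlin] at this
      exact this
    have hξ : (l.ev X + ε)⁻¹ • (l.p, l.s) ∈ Q := by
      intro Z hZ
      rw [hsm]
      have h1 : 1 + (l.ev X + ε)⁻¹ * (l.ev Z - l.ev X) = (l.ev Z + ε) / (l.ev X + ε) := by
        field_simp; ring
      rw [h1]
      exact div_nonneg (add_nonneg (hl Z hZ) hε.le) hlX.le
    have h1 := hGW _ hξ W hW
    have h2 : G - ((n : ℝ) + 1)⁻¹ • ((l.ev X + ε)⁻¹ • (l.p, l.s) - G) =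
        (1 + ((n : ℝ) + 1)⁻¹) • G + (-((n : ℝ) + 1)⁻¹) • ((l.ev X + ε)⁻¹ • (l.p, l.s)) := by
      module
    rw [h2, center_pair_comb, hsm] at h1
    have h3 : centerPair G (W - X) = a.ev W - 1 := by rw [ha]; ring
    rw [h3] at h1
    have h4 := mul_nonneg (mul_nonneg hn1.le hlX.le) h1
    have h5 : ((n : ℝ) + 1) * (l.ev X + ε) * (1 + ((1 + ((n : ℝ) + 1)⁻¹) * (a.ev W - 1) +
        -((n : ℝ) + 1)⁻¹ * ((l.ev X + ε)⁻¹ * (l.ev W - l.ev X)))) =
        (n + 2) * a.ev W * (l.ev X + ε) - (l.ev W + ε) := by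
      field_simp; ring
    linarith
  have hmain : ∀ l : Af n, NN Ω u l → ∀ W ∈ epi Ω u,
      l.ev W ≤ (n + 2) * a.ev W * l.ev X := by
    intro l hl W hW
    have hK : 0 ≤ ((n : ℝ) + 2) * a.ev W := mul_nonneg (by positivity) (haNN W hW)
    refine le_of_forall_pos_le_add fun δ hδ => ?_
    have h1 := hpos l hl (δ / (((n : ℝ) + 2) * a.ev W + 1)) (by positivity) W hW
    have h2 : (((n : ℝ) + 2) * a.ev W + 1) * (δ / (((n : ℝ) + 2) * a.ev W + 1)) = δ := by
      field_simp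
    have h3 : 0 < δ / (((n : ℝ) + 2) * a.ev W + 1) := by positivity
    nlinarith
  refine ⟨a, ?_, ?_, hmain⟩
  · refine h.capF_of_dom haNN hX.1 (C := (n + 2) * tg u X.1 X) fun W hW => ?_
    have h1 := hmain _ (h.nn_tgA hX.1) W hW
    rw [tgA_ev, tgA_ev] at h1
    linarith
  · rw [ha, sub_self]
    simp [centerPair]

end Vale.Agent.P252b
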