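import Vale.Agent.P252b.Polar
import Vale.Agent.P252b.Center
import Vale.Agent.P252b.DivThm

/-!
Cone measure, Hölder inequalities and the upper bound for the affine area.
-/

open MeasureTheory Metric Set Filter Topology Matrix
open scoped ENNReal ContDiff

noncomputable section

namespace Vale.Agent.P252b

variable {n : ℕ}

variable {Ω : Set (E n)} {u : E n → ℝ}

/-- With `φ = 2 - a.on u` and `V = (φ₊)² • (x - X.1)`: `div V = n φ₊² - 2 φ₊ ∇a·(x - X.1)` and
`∇a·(x - X.1) = a.s tg - a(X) + a(x) ≥ a.s tg - φ` (`grad_on_dot`, `a(X) ≤ 2`). So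
`2 a.s φ₊ tg ≤ (n+2) φ₊² - div V`; use `lintegral_le_of_dv` for `-V`; `φ ≥ 1` on `sec 1`,
`φ₊ ≤ 2` and `φ₊ = 0` off `sec 2`. -/
theorem cone_bound (h : Cvx Ω u) {a : Af n} (ha : CapF Ω u a) {X : E n × ℝ}
    (hX : X ∈ cap Ω u a 2) :
    ∫⁻ x in sec Ω u a 1, ENNReal.ofReal (tg u x X) ≤
      ENNReal.ofReal (2 * (n + 2) * volume.real (sec Ω u a 2) / a.s) := by
  have hs := ha.spos
  have hφ : ∀ x ∈ Ω, ContDiffAt ℝ ∞ (fun y => 2 - a.on u y) x := fun x hx =>
    contDiffAt_const.sub (contDiffAt_on (h.contDiffAt hx) a)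
  have hid : ∀ x : E n, ContDiffAt ℝ 1 (fun y : E n => y - X.1) x := fun x =>
    contDiffAt_id.sub contDiffAt_const
  have hz : ∀ x ∈ Ω, x ∉ sec Ω u a 2 → max (2 - a.on u x) 0 = 0 := fun x hx hx' =>
    max_eq_right (by by_contra h0; exact hx' ⟨hx, by linarith⟩)
  have key := lintegral_le_of_dv h.isOpen (ha.cpt 2) (fun x hx => hx.1)
    (V := fun y => (-(2 * a.s)⁻¹) • ((max (2 - a.on u y) 0) ^ 2 • (y - X.1)))
    (fun x hx => ((contDiffAt_pp2 (hφ x hx)).smul (hid x)).const_smul _)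
    (fun x hx hx' => by simp [hz x hx hx'])
    (g := fun x => max (2 - a.on u x) 0 * tg u x X)
    (h := fun x => (n + 2) / (2 * a.s) * (max (2 - a.on u x) 0) ^ 2)
    ((((measurable_on h.meas a).const_sub 2).max measurable_const).pow_const 2 |>.const_mul _)
    (fun x hx => mul_nonneg (le_max_right _ _) (h.tg_nonneg hx hX.1))
    (fun x _ => by positivity) (by
      intro x hx
      have d1 := (contDiffAt_pp2 (hφ x hx)).differentiableAt (by simp)
      have d2 := (hid x).differentiableAt (by simp)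
      rw [dv_const_smul _ (d1.fun_smul d2), dv_smul d1 d2, dv_sub_const,
        grad_pp2 ((hφ x hx).differentiableAt (by simp)), grad_const_sub, smul_dotProduct,
        neg_dotProduct, grad_on_dot (h.contDiffAt hx), smul_eq_mul]
      have h1 : 0 ≤ max (2 - a.on u x) 0 * (max (2 - a.on u x) 0 - a.ev X + a.on u x) := by
        rcases le_total (2 - a.on u x) 0 with h0 | h0
        · simp [max_eq_right h0]
        · rw [max_eq_left h0]
          exact mul_nonneg h0 (by linarith [hX.2])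
      generalize max (2 - a.on u x) 0 = m at h1 ⊢
      have h2 : -(2 * a.s)⁻¹ * (m ^ 2 * n + 2 * m * -(a.s * tg u x X - a.ev X + a.on u x)) +
          (n + 2) / (2 * a.s) * m ^ 2 =
          m * tg u x X + a.s⁻¹ * (m * (m - a.ev X + a.on u x)) := by
        field_simp
        ring
      rw [h2]
      exact le_add_of_nonneg_right (mul_nonneg (inv_nonneg.2 hs.le) h1))
  calc ∫⁻ x in sec Ω u a 1, ENNReal.ofReal (tg u x X)
      ≤ ∫⁻ x in sec Ω u a 1, ENNReal.ofReal (max (2 - a.on u x) 0 * tg u x X) :=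
        setLIntegral_mono' (h.measurableSet_sec a 1) fun x hx => ENNReal.ofReal_le_ofReal
          (le_mul_of_one_le_left (h.tg_nonneg hx.1 hX.1)
            (le_max_of_le_left (by linarith [hx.2])))
    _ ≤ ∫⁻ x in Ω, ENNReal.ofReal (max (2 - a.on u x) 0 * tg u x X) :=
        lintegral_mono_set fun x hx => hx.1
    _ ≤ _ := key
    _ ≤ ∫⁻ x, (sec Ω u a 2).indicator (fun _ => ENNReal.ofReal (2 * (n + 2) / a.s)) x := by
        rw [← lintegral_indicator h.isOpen.measurableSet]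
        refine lintegral_mono fun x => ?_
        by_cases hx : x ∈ Ω
        · rw [indicator_of_mem hx]
          by_cases hx' : x ∈ sec Ω u a 2
          · rw [indicator_of_mem hx']
            refine ENNReal.ofReal_le_ofReal ?_
            have h0 : 0 ≤ a.on u x := ha.nn _ (graph_mem_epi hx)
            have h1 : (max (2 - a.on u x) 0) ^ 2 ≤ 2 ^ 2 :=
              pow_le_pow_left₀ (le_max_right _ _) (max_le (by linarith) (by norm_num)) 2
            calc _ ≤ (n + 2) / (2 * a.s) * 2 ^ 2 := by gcongr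
              _ = _ := by field_simp
          · simp [hz x hx hx']
        · simp [indicator_of_notMem hx]
    _ = _ := by
        rw [lintegral_indicator (h.measurableSet_sec a 2), setLIntegral_const, Measure.real,
          mul_div_right_comm (2 * ((n : ℝ) + 2)),
          ENNReal.ofReal_mul (p := 2 * (n + 2) / a.s) (by positivity),
          ENNReal.ofReal_toReal (ha.volume_sec_lt_top 2).ne]

theorem cone_holder {S : Set (E n)} (hS : MeasurableSet S) {f g k : E n → ℝ} (hf : Measurable f)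
    (hg : Measurable g) {p q : ℝ} (hp : 0 ≤ p) (hq : 0 ≤ q) (hpq : p + q = 1)
    (h : ∀ x ∈ S, 0 ≤ f x ∧ 0 ≤ g x ∧ k x = f x ^ p * g x ^ q) :
    ∫⁻ x in S, ENNReal.ofReal (k x) ≤
      (∫⁻ x in S, ENNReal.ofReal (f x)) ^ p * (∫⁻ x in S, ENNReal.ofReal (g x)) ^ q := by
  refine le_trans (setLIntegral_mono' hS fun x hx => ?_) (ENNReal.lintegral_mul_norm_pow_le
    hf.ennreal_ofReal.aemeasurable hg.ennreal_ofReal.aemeasurable hp hq hpq)
  obtain ⟨h1, h2, h3⟩ := h x hx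
  rw [h3, ENNReal.ofReal_mul (Real.rpow_nonneg h1 _), ENNReal.ofReal_rpow_of_nonneg h1 hp,
    ENNReal.ofReal_rpow_of_nonneg h2 hq]

theorem cone_pow {D l p q r s : ℝ} (hD : 0 < D) (hl : 0 < l) (h : p + r * q = s) :
    D ^ q * l ^ s = l ^ p * (D * l ^ r) ^ q := by
  rw [Real.mul_rpow hD.le (Real.rpow_nonneg hl.le _), ← Real.rpow_mul hl.le, ← h,
    Real.rpow_add hl]
  ring

/-- `ENNReal.lintegral_mul_norm_pow_le`. -/
theorem holder_area (h : Cvx Ω u) {S : Set (E n)} (hS : MeasurableSet S) (hSΩ : S ⊆ Ω)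
    {lam : E n → ℝ} (hm : Measurable lam) (hl : ∀ x ∈ S, 0 < lam x) :
    area u S ≤ (∫⁻ x in S, ENNReal.ofReal (lam x)) ^ (((n : ℝ) + 1) / (n + 2)) *
      (∫⁻ x in S, ENNReal.ofReal (Dt u x * lam x ^ (-((n : ℝ) + 1)))) ^ (1 / ((n : ℝ) + 2)) := by
  refine cone_holder hS hm ((measurable_Dt u).fun_mul (hm.pow_const _)) (by positivity)
    (by positivity) (by field_simp; ring) fun x hx => ?_
  have hD := Dt_pos (h.posDef x (hSΩ hx))
  have h1 := hl x hx
  refine ⟨h1.le, by positivity, ?_⟩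
  rw [← cone_pow (s := 0) hD h1 (by field_simp; ring), Real.rpow_zero, mul_one, ff]

theorem holder_mass (h : Cvx Ω u) {S : Set (E n)} (hS : MeasurableSet S) (hSΩ : S ⊆ Ω)
    {X : E n × ℝ} (hX : X ∈ epi0 Ω u) :
    mass u X S ≤ (∫⁻ x in S, ENNReal.ofReal (tg u x X)) ^ (1 / 2 : ℝ) *
      (∫⁻ x in S, ENNReal.ofReal (Dt u x * tg u x X ^ (-((n : ℝ) + 1)))) ^ (1 / 2 : ℝ) := by
  have hm := measurable_tg h.meas X
  refine cone_holder hS hm ((measurable_Dt u).fun_mul (hm.pow_const _)) (by positivity)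
    (by positivity) (by norm_num) fun x hx => ?_
  have hD := Dt_pos (h.posDef x (hSΩ hx))
  have h1 := h.tg_pos (hSΩ hx) hX
  refine ⟨h1.le, by positivity, ?_⟩
  rw [← cone_pow (s := -((n : ℝ) / 2)) hD h1 (by ring), md, Real.sqrt_eq_rpow]

theorem holder_low (h : Cvx Ω u) {S : Set (E n)} (hS : MeasurableSet S) (hSΩ : S ⊆ Ω)
    {X : E n × ℝ} (hX : X ∈ epi0 Ω u) :
    area u S ≤ (∫⁻ x in S, ENNReal.ofReal (tg u x X)) ^ ((n : ℝ) / (n + 2)) *
      mass u X S ^ (2 / ((n : ℝ) + 2)) := by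
  refine cone_holder hS (measurable_tg h.meas X) (measurable_md h.meas X) (by positivity)
    (by positivity) (by field_simp) fun x hx => ?_
  have hD := Dt_pos (h.posDef x (hSΩ hx))
  have h1 := h.tg_pos (hSΩ hx) hX
  refine ⟨h1.le, (h.md_pos hX (hSΩ hx)).le, ?_⟩
  rw [md, ← cone_pow (s := 0) (Real.sqrt_pos.2 hD) h1 (by field_simp; ring), Real.rpow_zero,
    mul_one, ff, Real.sqrt_eq_rpow, ← Real.rpow_mul hD.le]
  congr 1
  field_simp

theorem cone_lid {a : Af n} (ha : CapF Ω u a) {x : E n} (hx : x ∈ sec Ω u a 1) :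
    (x, u x + a.s⁻¹) ∈ cap Ω u a 2 ∧ tg u x (x, u x + a.s⁻¹) = a.s⁻¹ := by
  have hs := ha.spos
  refine ⟨⟨⟨hx.1, le_add_of_nonneg_right (inv_nonneg.2 hs.le)⟩, ?_⟩, by simp [tg]⟩
  have h1 := hx.2
  simp only [Af.on, Af.ev] at h1 ⊢
  rw [mul_add, mul_inv_cancel₀ hs.ne']
  linarith

theorem cone_vol (h : Cvx Ω u) {a : Af n} (ha : CapF Ω u a) {X : E n × ℝ} (hX : X ∈ epi Ω u)
    (h1 : a.ev X ≤ 1) : 0 < volume.real (sec Ω u a 2) :=
  ENNReal.toReal_pos (ha.volume_sec_pos h hX (by linarith)).ne' (ha.volume_sec_lt_top 2).ne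

theorem cone_e {a : Af n} (ha : CapF Ω u a) (x : E n) :
    a.lin (0, a.s⁻¹) = 1 ∧ |(tgA u x).lin (0, a.s⁻¹)| = a.s⁻¹ := by
  have hs := ha.spos
  refine ⟨by simp [Af.lin, hs.ne'], ?_⟩
  rw [tgA_lin]
  simp [hs.le]

/-- Let `G` be the centre of `cap 2` (`cap_center`) and `lam x = (n+2) tg u x G`; it is positive on
`sec 1` because the point (x, u x + a.s⁻¹) lies in `cap 2`. Then `holder_area`, `cone_bound`, `polar_bound`. -/
theorem area_upper (hn : 1 ≤ n) : ∃ C : ℝ, 0 < C ∧ ∀ (Ω : Set (E n)) (u : E n → ℝ), Cvx Ω u →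
    ∀ a : Af n, CapF Ω u a → ∀ e : E n × ℝ, a.lin e = 1 → ∀ δ : ℝ, 0 < δ →
    ∀ S : Set (E n), MeasurableSet S → S ⊆ sec Ω u a 1 →
    (∀ x ∈ S, ∃ W ∈ cap Ω u a 2, |(tgA u x).lin e| ≤ δ * tg u x W) →
    area u S ≤ ENNReal.ofReal (C * δ ^ (1 / ((n : ℝ) + 2)) *
      (volume.real (sec Ω u a 2) / a.s) ^ ((n : ℝ) / (n + 2))) := by
  obtain ⟨C, hC, hP⟩ := polar_bound hn
  refine ⟨(2 * ((n : ℝ) + 2) ^ 2) ^ (((n : ℝ) + 1) / (n + 2)) * C ^ (1 / ((n : ℝ) + 2)),
    by positivity, fun Ω u h a ha e he δ hδ S hS hSs hW => ?_⟩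
  rcases S.eq_empty_or_nonempty with rfl | ⟨x₀, hx₀⟩
  · simp [area]
  have hs := ha.spos
  have hSΩ : S ⊆ Ω := fun x hx => (hSs hx).1
  have hx₁ : (x₀, u x₀) ∈ epi Ω u := graph_mem_epi (hSΩ hx₀)
  have hV := cone_vol h ha hx₁ (hSs hx₀).2
  obtain ⟨G, hG, hc⟩ := cap_center (ha.isCompact_cap h 2) (h.convex_cap a 2)
    ⟨_, (cone_lid ha (hSs hx₀)).1⟩
  have h1 : ∀ x ∈ S, ∀ W ∈ cap Ω u a 2, tg u x W ≤ (n + 2) * tg u x G := by
    intro x hx W hW'
    simpa only [tgA_ev] using hc (tgA u x) (fun W' h' => h.nn_tgA (hSΩ hx) W' h'.1) W hW'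
  have h2 : ∀ x ∈ S, 0 < (n + 2) * tg u x G := fun x hx =>
    lt_of_lt_of_le (by rw [(cone_lid ha (hSs hx)).2]; positivity)
      (h1 x hx _ (cone_lid ha (hSs hx)).1)
  have h3 := hP Ω u h a ha ⟨_, hx₁, (hSs hx₀).2⟩ e he δ hδ S hS hSΩ
    (fun x => (n + 2) * tg u x G) h2 h1 (fun x hx => by
      obtain ⟨W, hW1, hW2⟩ := hW x hx
      exact hW2.trans (mul_le_mul_of_nonneg_left (h1 x hx W hW1) hδ.le))
  have h4 : ∫⁻ x in S, ENNReal.ofReal ((n + 2) * tg u x G) ≤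
      ENNReal.ofReal (2 * ((n : ℝ) + 2) ^ 2 * (volume.real (sec Ω u a 2) / a.s)) := by
    simp only [ENNReal.ofReal_mul (show (0 : ℝ) ≤ n + 2 by positivity)]
    rw [lintegral_const_mul' _ _ ENNReal.ofReal_ne_top]
    refine (mul_le_mul_right ((lintegral_mono_set hSs).trans (cone_bound h ha hG)) _).trans
      (le_of_eq ?_)
    rw [← ENNReal.ofReal_mul (by positivity)]
    congr 1
    ring
  refine (holder_area h hS hSΩ ((measurable_tg h.meas G).const_mul _) h2).trans ?_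
  refine (mul_le_mul' (ENNReal.rpow_le_rpow h4 (by positivity))
    (ENNReal.rpow_le_rpow h3 (by positivity))).trans (le_of_eq ?_)
  rw [ENNReal.ofReal_rpow_of_nonneg (by positivity) (by positivity),
    ENNReal.ofReal_rpow_of_nonneg (by positivity) (by positivity),
    ← ENNReal.ofReal_mul (by positivity)]
  congr 1
  have h5 : C * δ * a.s / volume.real (sec Ω u a 2) =
      C * δ * (volume.real (sec Ω u a 2) / a.s) ^ (-1 : ℝ) := by
    rw [Real.rpow_neg_one]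
    field_simp
  have hr : 0 < volume.real (sec Ω u a 2) / a.s := by positivity
  rw [h5, Real.mul_rpow (by positivity) hr.le, mul_assoc,
    ← cone_pow (s := (n : ℝ) / (n + 2)) (by positivity) hr (by field_simp; ring),
    Real.mul_rpow hC.le hδ.le]
  ring

/-- `area_upper` with `e = (0, a.s⁻¹)`, `δ = 1`, `W = (x, u x + a.s⁻¹)`. -/
theorem area_upper' (hn : 1 ≤ n) : ∃ C : ℝ, 0 < C ∧ ∀ (Ω : Set (E n)) (u : E n → ℝ), Cvx Ω u →
    ∀ a : Af n, CapF Ω u a → area u (sec Ω u a 1) ≤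
      ENNReal.ofReal (C * (volume.real (sec Ω u a 2) / a.s) ^ ((n : ℝ) / (n + 2))) := by
  obtain ⟨C, hC, hP⟩ := area_upper hn
  refine ⟨C, hC, fun Ω u h a ha => ?_⟩
  have := hP Ω u h a ha _ (cone_e ha 0).1 1 one_pos _ (h.measurableSet_sec a 1) subset_rfl
    fun x hx => ⟨_, (cone_lid ha hx).1, by rw [(cone_e ha x).2, (cone_lid ha hx).2, one_mul]⟩
  rwa [Real.one_rpow, mul_one] at this

/-- Crude bound. Let `a` be the polar centre of `X` and `a' = T⁻¹ a` (`CapF.comb`). Then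
`Mac ⊆ sec a' 1`, `X ∈ cap a' 2`, and `lam = 2 (n+2) T tg u x X` dominates `tg u x` on `cap a' 2`.
`holder_mass`, `cone_bound`, `polar_bound` with `e = (0, a'.s⁻¹)`, `δ = 1`. -/
theorem phi_crude (hn : 1 ≤ n) : Phi n (((n : ℝ) + 1) / 2) := by
  obtain ⟨C, hC, hP⟩ := polar_bound hn
  refine ⟨(2 * ((n : ℝ) + 2)) ^ (1 / 2 : ℝ) * C ^ (1 / 2 : ℝ) *
    (2 * ((n : ℝ) + 2)) ^ (((n : ℝ) + 1) / 2), by positivity, fun Ω u hsol X hX T hT => ?_⟩
  have h := hsol.toCvx
  have hT0 : 0 < T := by linarith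
  obtain ⟨b, hb, hb1, hb2⟩ := polar_center h hX
  have ha : CapF Ω u (Af.comb T⁻¹ b 0 b 0) :=
    hb.comb h ⟨_, hX.1⟩ hb.nn (inv_pos.2 hT0) le_rfl le_rfl
  have hev : ∀ W, (Af.comb T⁻¹ b 0 b 0).ev W = T⁻¹ * b.ev W := fun W => by
    rw [Af.ev_comb]; ring
  generalize Af.comb T⁻¹ b 0 b 0 = a at ha hev
  have hs := ha.spos
  have hX1 : a.ev X ≤ 1 := by rw [hev, hb1, mul_one]; exact inv_le_one_of_one_le₀ hT
  have hV := cone_vol h ha (epi0_subset hX) hX1
  have hsub : Mac Ω u X T ⊆ sec Ω u a 1 := by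
    intro x hx
    refine ⟨hx.1, ?_⟩
    have h1 := hx.2 b hb.nn
    rw [hb1, mul_one] at h1
    rw [Af.on, hev, inv_mul_le_iff₀ hT0, mul_one]
    exact h1
  have hSΩ : sec Ω u a 1 ⊆ Ω := fun x hx => hx.1
  have h1 : ∀ x ∈ sec Ω u a 1, ∀ W ∈ cap Ω u a 2, tg u x W ≤ 2 * (n + 2) * T * tg u x X := by
    intro x hx W hW
    have h2 := hb2 _ (h.nn_tgA hx.1) W hW.1
    have h3 := hW.2
    rw [hev, inv_mul_le_iff₀ hT0] at h3
    rw [tgA_ev, tgA_ev] at h2
    have h4 := (h.tg_pos hx.1 hX).le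
    calc _ ≤ _ := h2
      _ ≤ (n + 2) * (T * 2) * tg u x X := by gcongr
      _ = _ := by ring
  have h3 := hP Ω u h a ha ⟨_, epi0_subset hX, hX1⟩ _ (cone_e ha 0).1 1 one_pos _
    (h.measurableSet_sec a 1) hSΩ (fun x => 2 * (n + 2) * T * tg u x X)
    (fun x hx => by have := h.tg_pos hx.1 hX; positivity) h1 (fun x hx => by
      rw [(cone_e ha x).2, one_mul, ← (cone_lid ha hx).2]
      exact h1 x hx _ (cone_lid ha hx).1)
  have hk : 0 < 2 * ((n : ℝ) + 2) * T := by positivity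
  have h4 : ∫⁻ x in sec Ω u a 1, ENNReal.ofReal (Dt u x * tg u x X ^ (-((n : ℝ) + 1))) ≤
      ENNReal.ofReal ((2 * ((n : ℝ) + 2) * T) ^ ((n : ℝ) + 1) *
        (C * 1 * a.s / volume.real (sec Ω u a 2))) := by
    rw [ENNReal.ofReal_mul (by positivity)]
    refine le_trans (le_of_eq ?_) (mul_le_mul_right h3 _)
    rw [← lintegral_const_mul' _ _ ENNReal.ofReal_ne_top]
    refine setLIntegral_congr_fun (h.measurableSet_sec a 1) fun x hx => ?_
    have h5 := (h.tg_pos hx.1 hX).le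
    have h6 : 0 < (2 * ((n : ℝ) + 2) * T) ^ ((n : ℝ) + 1) := by positivity
    rw [← ENNReal.ofReal_mul h6.le, Real.mul_rpow hk.le h5, Real.rpow_neg hk.le]
    congr 1
    field_simp
  refine (mass_mono X hsub).trans ((holder_mass h (h.measurableSet_sec a 1) hSΩ hX).trans ?_)
  refine (mul_le_mul' (ENNReal.rpow_le_rpow
    (cone_bound h ha ⟨epi0_subset hX, by linarith⟩) (by positivity))
    (ENNReal.rpow_le_rpow h4 (by positivity))).trans (le_of_eq ?_)
  rw [ENNReal.ofReal_rpow_of_nonneg (by positivity) (by positivity),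
    ENNReal.ofReal_rpow_of_nonneg (by positivity) (by positivity),
    ← ENNReal.ofReal_mul (by positivity), ← Real.mul_rpow (by positivity) (by positivity)]
  congr 1
  have h7 : 2 * ((n : ℝ) + 2) * volume.real (sec Ω u a 2) / a.s *
      ((2 * ((n : ℝ) + 2) * T) ^ ((n : ℝ) + 1) * (C * 1 * a.s / volume.real (sec Ω u a 2))) =
      2 * ((n : ℝ) + 2) * C * (2 * ((n : ℝ) + 2) * T) ^ ((n : ℝ) + 1) := by
    field_simp
  rw [h7, Real.mul_rpow (by positivity) (by positivity), Real.mul_rpow (by positivity) hC.le,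
    ← Real.rpow_mul hk.le, Real.mul_rpow (by positivity) hT0.le, mul_one_div]
  ring

end Vale.Agent.P252b
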