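import Vale.Agent.P252b.MainInt
import Vale.Agent.P252b.Cone

/-!
Bootstrap: the mass of Macbeath regions grows slower than any power.
-/

open MeasureTheory Metric Set Filter Topology Matrix
open scoped ENNReal ContDiff

noncomputable section

namespace Vale.Agent.P252b

variable {n : ℕ}

theorem Phi.mono {m m' : ℝ} (h : Phi n m) (hm : m ≤ m') : Phi n m' := by
  obtain ⟨C, hC, h⟩ := h
  refine ⟨C, hC, fun Ω u hs X hX T hT => (h Ω u hs X hX T hT).trans ?_⟩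
  exact ENNReal.ofReal_le_ofReal
    (mul_le_mul_of_nonneg_left (Real.rpow_le_rpow_of_exponent_le hT hm) hC.le)

theorem Mac_mono {Ω : Set (E n)} {u : E n → ℝ} {X : E n × ℝ} (hX : X ∈ epi Ω u) {T T' : ℝ}
    (hT : T ≤ T') : Mac Ω u X T ⊆ Mac Ω u X T' := by
  intro x hx
  exact ⟨hx.1, fun a ha => (hx.2 a ha).trans (mul_le_mul_of_nonneg_right hT (ha X hX))⟩

theorem boot_wt_zero (u : E n → ℝ) (X Y : E n × ℝ) (a : Af n) (H H' : ℝ) (x : E n) :
    wt u X Y a H H' 0 x = (max (H - a.on u x) 0) ^ 3 * md u X x := by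
  simp only [wt, Real.rpow_zero, mul_one]

theorem boot_lint_const {u : E n → ℝ} (X : E n × ℝ) (S : Set (E n)) {c : ℝ} (hc : 0 ≤ c) :
    ∫⁻ x in S, ENNReal.ofReal (c * md u X x) = ENNReal.ofReal c * mass u X S := by
  unfold mass
  rw [← lintegral_const_mul' _ _ ENNReal.ofReal_ne_top]
  exact lintegral_congr fun x => ENNReal.ofReal_mul hc

theorem boot_lower {Ω : Set (E n)} {u : E n → ℝ} (h : Cvx Ω u) {X : E n × ℝ}
    (hX : X ∈ epi0 Ω u) (Y : E n × ℝ) (a : Af n) {T : ℝ} (hT : 0 ≤ T) (H' : ℝ) :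
    ENNReal.ofReal (T ^ 3) * mass u X (sec Ω u a T) ≤
      ∫⁻ x in Ω, ENNReal.ofReal (wt u X Y a (2 * T) H' 0 x) := by
  rw [← boot_lint_const X _ (pow_nonneg hT 3)]
  refine le_trans ?_ (lintegral_mono_set (s := sec Ω u a T) (fun x hx => hx.1))
  refine setLIntegral_mono' (h.measurableSet_sec a T) fun x hx => ENNReal.ofReal_le_ofReal ?_
  rw [boot_wt_zero]
  refine mul_le_mul_of_nonneg_right ?_ (h.md_pos hX hx.1).le
  refine pow_le_pow_left₀ hT ?_ 3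
  have h2 : a.on u x ≤ T := hx.2
  exact le_max_of_le_left (by linarith)

theorem boot_upper {Ω : Set (E n)} {u : E n → ℝ} (h : Cvx Ω u) {X : E n × ℝ}
    (hX : X ∈ epi0 Ω u) (Y : E n × ℝ) {a : Af n} (ha : NN Ω u a) {H : ℝ} (hH : 0 ≤ H) (H' : ℝ)
    {S : Set (E n)} (hS : MeasurableSet S) (hSΩ : S ⊆ Ω) :
    ∫⁻ x in S, ENNReal.ofReal (wt u X Y a H H' 0 x) ≤ ENNReal.ofReal (H ^ 3) * mass u X S := by
  rw [← boot_lint_const X _ (pow_nonneg hH 3)]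
  refine setLIntegral_mono' hS fun x hx => ENNReal.ofReal_le_ofReal ?_
  rw [boot_wt_zero]
  refine mul_le_mul_of_nonneg_right ?_ (h.md_pos hX (hSΩ hx)).le
  refine pow_le_pow_left₀ (le_max_right _ _) ?_ 3
  have h2 : 0 ≤ a.on u x := ha _ (graph_mem_epi (hSΩ hx))
  exact max_le (by linarith) hH

theorem boot_null {Ω : Set (E n)} {u : E n → ℝ} (h : Cvx Ω u) (X Y : E n × ℝ) (a : Af n)
    (H H' : ℝ) :
    ∫⁻ x in {x | H ≤ a.on u x}, ENNReal.ofReal (wt u X Y a H H' 0 x) = 0 := by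
  have hm : MeasurableSet {x | H ≤ a.on u x} :=
    measurableSet_le measurable_const (measurable_on h.meas a)
  refine setLIntegral_eq_zero hm fun x hx => ?_
  have h2 : H ≤ a.on u x := hx
  have h3 : max (H - a.on u x) 0 = 0 := max_eq_right (by linarith)
  simp only [boot_wt_zero, h3, Pi.zero_apply]
  simp

theorem boot_large {m Λ C C₀ : ℝ} (hΛ : 1 ≤ Λ) (hC : 0 < C) (hC₀ : 0 < C₀)
    {Ω : Set (E n)} {u : E n → ℝ} (hs : Sol Ω u)
    (hmain : ∀ (X Y : E n × ℝ) (a : Af n) (H H' : ℝ),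
      Setup Ω u X Y a H' → Λ * a.ev X ≤ H →
      ∫⁻ x in Ω, ENNReal.ofReal (wt u X Y a H H' 0 x) ≤ ENNReal.ofReal C *
        ∫⁻ x in {x | x ∈ Ω ∧ (a.on u x ≤ Λ * a.ev X ∨ a.on u x * al u X Y x ≤ Λ * H' ∨
          al u X Y x ≤ Λ)}, ENNReal.ofReal (wt u X Y a H H' 0 x))
    (hphi : ∀ X ∈ epi0 Ω u, ∀ T : ℝ, 1 ≤ T →
      mass u X (Mac Ω u X T) ≤ ENNReal.ofReal (C₀ * T ^ m))
    {X : E n × ℝ} (hX : X ∈ epi0 Ω u) {T σ : ℝ} (hT : 1 ≤ T) (hσΛ : Λ ≤ σ)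
    (hσ : σ * σ = 2 * T) :
    mass u X (Mac Ω u X T) ≤ ENNReal.ofReal (8 * C * (C₀ * (((n : ℝ) + 2) * σ) ^ m +
      (1 + Λ) ^ ((n : ℝ) / 2) * (C₀ * (2 * ((n : ℝ) + 2) * σ) ^ m))) := by
  have h : Cvx Ω u := hs.toCvx
  have hXe : X ∈ epi Ω u := epi0_subset hX
  have hσ1 : 1 ≤ σ := hΛ.trans hσΛ
  have hσ0 : 0 < σ := by linarith
  have hn0 : (0 : ℝ) ≤ n := Nat.cast_nonneg n
  obtain ⟨a, ha, haX, hpol⟩ := polar_center h hX
  have hXc : X ∈ cap Ω u a (2 * T) := ⟨hXe, by rw [haX]; linarith⟩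
  obtain ⟨G, hG, hcen⟩ := cap_center (ha.isCompact_cap h (2 * T)) (h.convex_cap a (2 * T))
    ⟨X, hXc⟩
  have hGe : G ∈ epi Ω u := hG.1
  have hGa : a.ev G ≤ 2 * T := hG.2
  set Y : E n × ℝ := X + (1 / 2 : ℝ) • (G - X) with hY
  have htY : ∀ x, tg u x Y = (1 - 1 / 2) * tg u x X + 1 / 2 * tg u x G := fun x => tg_seg u x X G _
  have hset : Setup Ω u X Y a (2 * T) := by
    refine ⟨hs, hX, fun x hx => ?_, ha, by rw [haX]; exact one_pos, fun x hx => ?_, ?_, by linarith⟩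
    · have := h.tg_nonneg hx hGe
      rw [htY]; linarith
    · have h1 : NN Ω u (⟨0, 0, 1⟩ : Af n) := fun W _ => by simp [Af.ev]
      have h2 := hpol _ h1 _ (graph_mem_epi hx)
      simp only [Af.ev, zero_dotProduct, zero_mul, zero_add, add_zero, mul_one] at h2
      rw [haX]
      exact h2
    · rw [hY, Af.ev_seg, haX]; linarith
  have hΛH : Λ * a.ev X ≤ 2 * T := by rw [haX]; nlinarith
  have hM := hmain X Y a (2 * T) (2 * T) hset hΛH
  set t : ℝ := σ⁻¹ / 2 with ht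
  have hinv : σ⁻¹ ≤ 1 := inv_le_one_of_one_le₀ hσ1
  have hinv0 : 0 < σ⁻¹ := inv_pos.mpr hσ0
  have ht0 : 0 < t := by positivity
  have ht1 : t < 1 := by linarith
  have htσ : 2 * σ * t = 1 := by rw [ht]; field_simp
  set Z : E n × ℝ := X + t • (G - X) with hZ
  have hZ0 : Z ∈ epi0 Ω u := h.seg_mem_epi0 hX hGe ht0.le ht1
  set B : Set (E n) := sec Ω u a (2 * T) ∩ {x | al u X Y x ≤ Λ * σ} with hB
  have hBm : MeasurableSet B := (h.measurableSet_sec a _).inter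
    (measurableSet_le (measurable_al h.meas X Y) measurable_const)
  have hBΩ : B ⊆ Ω := fun x hx => hx.1.1
  have hsub : {x | x ∈ Ω ∧ (a.on u x ≤ Λ * a.ev X ∨ a.on u x * al u X Y x ≤ Λ * (2 * T) ∨
      al u X Y x ≤ Λ)} ⊆ (sec Ω u a σ ∪ B) ∪ {x | 2 * T ≤ a.on u x} := by
    rintro x ⟨hx, hbad⟩
    by_cases h1 : 2 * T ≤ a.on u x
    · exact Or.inr h1
    by_cases h2 : a.on u x ≤ σ
    · exact Or.inl (Or.inl ⟨hx, h2⟩)
    refine Or.inl (Or.inr ⟨⟨hx, (not_le.mp h1).le⟩, ?_⟩)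
    have h2' := not_le.mp h2
    have hal : 1 / 2 ≤ al u X Y x := hset.half_le_al hx
    show al u X Y x ≤ Λ * σ
    rcases hbad with hb | hb | hb
    · rw [haX] at hb; linarith
    · have h3 : σ * al u X Y x ≤ σ * (Λ * σ) := by nlinarith
      exact le_of_mul_le_mul_left h3 hσ0
    · nlinarith
  have hS1 : sec Ω u a σ ⊆ Mac Ω u X (((n : ℝ) + 2) * σ) := by
    intro x hx
    refine ⟨hx.1, fun l hl => (hpol l hl _ (graph_mem_epi hx.1)).trans ?_⟩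
    refine mul_le_mul_of_nonneg_right ?_ (hl X hXe)
    exact mul_le_mul_of_nonneg_left hx.2 (by linarith)
  have hS2 : B ⊆ Mac Ω u Z (2 * ((n : ℝ) + 2) * σ) := by
    intro x hx
    refine ⟨hx.1.1, fun l hl => ?_⟩
    have h1 := hcen l (fun W hW => hl W hW.1) (x, u x) ⟨graph_mem_epi hx.1.1, hx.1.2⟩
    have h2 : l.ev Z = (1 - t) * l.ev X + t * l.ev G := l.ev_seg X G t
    have h3 := hl X hXe
    have h4 : l.ev G ≤ 2 * σ * l.ev Z := by
      have h5 : 0 ≤ 2 * σ * ((1 - t) * l.ev X) :=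
        mul_nonneg (by linarith) (mul_nonneg (by linarith) h3)
      calc l.ev G = 2 * σ * t * l.ev G := by rw [htσ, one_mul]
        _ ≤ 2 * σ * ((1 - t) * l.ev X) + 2 * σ * t * l.ev G := by linarith
        _ = 2 * σ * l.ev Z := by rw [h2]; ring
    calc l.on u x ≤ (n + 2) * l.ev G := h1
      _ ≤ (n + 2) * (2 * σ * l.ev Z) := mul_le_mul_of_nonneg_left h4 (by linarith)
      _ = 2 * ((n : ℝ) + 2) * σ * l.ev Z := by ring
  have hm1 : mass u X (sec Ω u a σ) ≤ ENNReal.ofReal (C₀ * (((n : ℝ) + 2) * σ) ^ m) :=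
    (mass_mono X hS1).trans (hphi X hX _ (by nlinarith))
  have hm2 : mass u X B ≤ ENNReal.ofReal ((1 + Λ) ^ ((n : ℝ) / 2) *
      (C₀ * (2 * ((n : ℝ) + 2) * σ) ^ m)) := by
    have h1 := h.mass_le_of_tg hX hZ0 hBm hBΩ (C := 1 + Λ) (by linarith) (fun x hx => by
      have h2 : tg u x Z = (1 - t) * tg u x X + t * tg u x G := tg_seg u x X G t
      have h3 := h.tg_pos (hBΩ hx) hX
      have h4 : al u X Y x ≤ Λ * σ := hx.2
      unfold al at h4
      rw [div_le_iff₀ h3, htY] at h4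
      have h5 : tg u x G ≤ 2 * σ * (Λ * tg u x X) := by nlinarith
      have h6 : t * tg u x G ≤ Λ * tg u x X := by
        calc t * tg u x G ≤ t * (2 * σ * (Λ * tg u x X)) := mul_le_mul_of_nonneg_left h5 ht0.le
          _ = 2 * σ * t * (Λ * tg u x X) := by ring
          _ = Λ * tg u x X := by rw [htσ, one_mul]
      have h7 : 0 ≤ t * tg u x X := mul_nonneg ht0.le h3.le
      rw [h2]; linarith)
    refine h1.trans ?_
    rw [ENNReal.ofReal_mul (Real.rpow_nonneg (by linarith) _)]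
    exact mul_le_mul_right ((mass_mono Z hS2).trans (hphi Z hZ0 _ (by nlinarith))) _
  have hp1 : 0 ≤ C₀ * (((n : ℝ) + 2) * σ) ^ m :=
    mul_nonneg hC₀.le (Real.rpow_nonneg (by positivity) _)
  have hp2 : 0 ≤ (1 + Λ) ^ ((n : ℝ) / 2) * (C₀ * (2 * ((n : ℝ) + 2) * σ) ^ m) :=
    mul_nonneg (Real.rpow_nonneg (by linarith) _)
      (mul_nonneg hC₀.le (Real.rpow_nonneg (by positivity) _))
  set K : ℝ := C₀ * (((n : ℝ) + 2) * σ) ^ m +
      (1 + Λ) ^ ((n : ℝ) / 2) * (C₀ * (2 * ((n : ℝ) + 2) * σ) ^ m) with hK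
  have hbad : ∫⁻ x in {x | x ∈ Ω ∧ (a.on u x ≤ Λ * a.ev X ∨
      a.on u x * al u X Y x ≤ Λ * (2 * T) ∨ al u X Y x ≤ Λ)},
      ENNReal.ofReal (wt u X Y a (2 * T) (2 * T) 0 x) ≤
      ENNReal.ofReal ((2 * T) ^ 3) * ENNReal.ofReal K := by
    refine (lintegral_mono_set hsub).trans ((lintegral_union_le _ _ _).trans ?_)
    rw [boot_null h, add_zero]
    refine (lintegral_union_le _ _ _).trans ?_
    rw [hK, ENNReal.ofReal_add hp1 hp2, mul_add]
    refine add_le_add ?_ ?_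
    · exact (boot_upper h hX Y ha.nn (by linarith) _ (h.measurableSet_sec a σ)
        (fun x hx => hx.1)).trans (mul_le_mul_right hm1 _)
    · exact (boot_upper h hX Y ha.nn (by linarith) _ hBm hBΩ).trans (mul_le_mul_right hm2 _)
  have hT0 : 0 < T := by linarith
  have hfin : ENNReal.ofReal (T ^ 3) * mass u X (sec Ω u a T) ≤
      ENNReal.ofReal (T ^ 3) * ENNReal.ofReal (8 * C * K) := by
    refine (boot_lower h hX Y a hT0.le (2 * T)).trans (hM.trans ?_)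
    refine (mul_le_mul_right hbad _).trans (le_of_eq ?_)
    rw [← ENNReal.ofReal_mul (by positivity), ← ENNReal.ofReal_mul hC.le,
      ← ENNReal.ofReal_mul (by positivity)]
    congr 1
    ring
  have hsubT : Mac Ω u X T ⊆ sec Ω u a T := by
    intro x hx
    have h1 := hx.2 a ha.nn
    rw [haX, mul_one] at h1
    exact ⟨hx.1, h1⟩
  refine (mass_mono X hsubT).trans ?_
  exact (ENNReal.mul_le_mul_iff_right (by simp [hT0]) ENNReal.ofReal_ne_top).mp hfin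

/-- Let `a` be the polar centre of `X` (testing with the constant one, `1 ≤ (n+2) a` on `epi`),
`H = H' = 2T`, `G` the centre of `cap a H`, `Y = X + (1/2)(G - X)`, `η = 0`, `σ = √H ≥ Λ` (for
smaller `T` use monotonicity in `T`). `Mac T ⊆ sec a T`, where `wt ≥ T³ md`. The bad set meets
`{a < H}` inside `sec a σ ∪ B`, `B = {a ≤ H ∧ α ≤ Λ σ}`; `wt ≤ H³ md`.
`sec a σ ⊆ Mac X ((n+2) σ)`. With `Z = X + σ⁻¹ (Y - X) ∈ epi0`: on `B`
`tg Z ≤ (1 + Λ) tg X` (`mass_le_of_tg`), and `sec a H ⊆ Mac Z (2 (n+2) σ)` because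
`l(W) ≤ (n+2) l(G) ≤ 2 (n+2) l(Y) ≤ 2 (n+2) σ l(Z)`. -/
theorem Phi.half (h3 : 3 ≤ n) (h9 : n ≤ 9) {m : ℝ} (hm : 0 ≤ m) (h : Phi n m) :
    Phi n (m / 2) := by
  obtain ⟨C₀, hC₀, h⟩ := h
  obtain ⟨η₀, Λ, C, hη₀, hΛ, hC, hmain⟩ := main_int h3 h9
  have hn0 : (0 : ℝ) ≤ n := Nat.cast_nonneg n
  set K₁ : ℝ := 8 * C * (C₀ * ((n : ℝ) + 2) ^ m +
      (1 + Λ) ^ ((n : ℝ) / 2) * (C₀ * (2 * ((n : ℝ) + 2)) ^ m)) * 2 ^ (m / 2) with hK₁
  have hK₁0 : 0 < K₁ := by positivity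
  have hK₂0 : 0 < C₀ * (Λ * Λ) ^ m := by positivity
  refine ⟨K₁ + C₀ * (Λ * Λ) ^ m, by positivity, fun Ω u hs X hX T hT => ?_⟩
  have hT0 : 0 < T := by linarith
  have hTm : 1 ≤ T ^ (m / 2) := Real.one_le_rpow hT (by linarith)
  by_cases hc : Λ * Λ ≤ 2 * T
  · have hσ : Real.sqrt (2 * T) * Real.sqrt (2 * T) = 2 * T := Real.mul_self_sqrt (by linarith)
    have hσΛ : Λ ≤ Real.sqrt (2 * T) := Real.le_sqrt_of_sq_le (by rw [sq]; exact hc)
    have h1 := boot_large hΛ hC hC₀ hs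
      (fun X Y a H H' hset hH => hmain Ω u X Y a H H' 0 hset le_rfl hη₀.le hH)
      (h Ω u hs) hX hT hσΛ hσ
    refine h1.trans (ENNReal.ofReal_le_ofReal ?_)
    have hs0 : 0 ≤ Real.sqrt (2 * T) := Real.sqrt_nonneg _
    have hsq : Real.sqrt (2 * T) ^ m = 2 ^ (m / 2) * T ^ (m / 2) := by
      rw [Real.sqrt_eq_rpow, ← Real.rpow_mul (by linarith), ← Real.mul_rpow (by norm_num) hT0.le]
      congr 1
      ring
    rw [Real.mul_rpow (by linarith) hs0, Real.mul_rpow (by linarith) hs0, hsq]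
    have h2 : 0 ≤ C₀ * (Λ * Λ) ^ m * T ^ (m / 2) := by positivity
    calc _ = K₁ * T ^ (m / 2) := by rw [hK₁]; ring
      _ ≤ _ := by rw [add_mul]; linarith
  · refine (h Ω u hs X hX T hT).trans (ENNReal.ofReal_le_ofReal ?_)
    have h1 : T ^ m ≤ (Λ * Λ) ^ m :=
      Real.rpow_le_rpow hT0.le (by have := not_le.mp hc; linarith) hm
    calc C₀ * T ^ m ≤ C₀ * (Λ * Λ) ^ m := mul_le_mul_of_nonneg_left h1 hC₀.le
      _ ≤ (K₁ + C₀ * (Λ * Λ) ^ m) * 1 := by linarith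
      _ ≤ _ := mul_le_mul_of_nonneg_left hTm (by positivity)

theorem boot_iter (h3 : 3 ≤ n) (h9 : n ≤ 9) (k : ℕ) :
    Phi n (((n : ℝ) + 1) / 2 * (1 / 2) ^ k) := by
  induction k with
  | zero => simpa using phi_crude (n := n) (by omega)
  | succ k ih =>
    have h1 := Phi.half h3 h9 (by positivity) ih
    have h2 : ((n : ℝ) + 1) / 2 * (1 / 2) ^ (k + 1) = ((n : ℝ) + 1) / 2 * (1 / 2) ^ k / 2 := by
      ring
    rw [h2]
    exact h1

theorem phi_all (h3 : 3 ≤ n) (h9 : n ≤ 9) {m : ℝ} (hm : 0 < m) : Phi n m := by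
  have hp : (0 : ℝ) < ((n : ℝ) + 1) / 2 := by positivity
  obtain ⟨k, hk⟩ := exists_pow_lt_of_lt_one (div_pos hm hp) (by norm_num : (1 / 2 : ℝ) < 1)
  refine (boot_iter h3 h9 k).mono ?_
  rw [lt_div_iff₀ hp] at hk
  linarith

end Vale.Agent.P252b
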