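import Vale.Agent.P252b.Defs

/-!
First order calculus rules for `pd`, `grad`, `dv`, and measurability.
Everything follows from the `fderiv` rules of Mathlib after unfolding.
-/

open MeasureTheory Metric Set Filter Topology Matrix
open scoped ENNReal ContDiff

noncomputable section

namespace Vale.Agent.P252b

variable {n : ℕ}

theorem fderiv_eq_dot (f : E n → ℝ) (x v : E n) : fderiv ℝ f x v = grad f x ⬝ᵥ v := by
  have h : v = ∑ i, v i • (Pi.single i (1 : ℝ) : E n) := by
    ext j
    simp [Finset.sum_apply, Pi.single_apply]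
  conv_lhs => rw [h]
  simp only [map_sum, map_smul, smul_eq_mul, dotProduct, grad, pd]
  exact Finset.sum_congr rfl fun i _ => mul_comm _ _

theorem pd_congr {f g : E n → ℝ} {x : E n} (h : f =ᶠ[𝓝 x] g) (i : Fin n) :
    pd f i x = pd g i x := by
  simp only [pd, h.fderiv_eq]

theorem grad_congr {f g : E n → ℝ} {x : E n} (h : f =ᶠ[𝓝 x] g) : grad f x = grad g x :=
  funext fun i => pd_congr h i

theorem Hs_congr {f g : E n → ℝ} {x : E n} (h : f =ᶠ[𝓝 x] g) : Hs f x = Hs g x := by
  ext i j
  exact pd_congr (h.eventually_nhds.mono fun _ hy => pd_congr hy j) i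

theorem dv_congr {V W : E n → E n} {x : E n} (h : V =ᶠ[𝓝 x] W) : dv V x = dv W x :=
  Finset.sum_congr rfl fun i _ => pd_congr (h.mono fun _ hy => congrFun hy i) i

theorem grad_const (c : ℝ) (x : E n) : grad (fun _ => c) x = 0 := by
  ext i
  simp [grad, pd]

theorem grad_add {f g : E n → ℝ} {x : E n} (hf : DifferentiableAt ℝ f x)
    (hg : DifferentiableAt ℝ g x) : grad (fun y => f y + g y) x = grad f x + grad g x := by
  ext i
  simp [grad, pd, fderiv_fun_add hf hg]

theorem grad_sub {f g : E n → ℝ} {x : E n} (hf : DifferentiableAt ℝ f x)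
    (hg : DifferentiableAt ℝ g x) : grad (fun y => f y - g y) x = grad f x - grad g x := by
  ext i
  simp [grad, pd, fderiv_fun_sub hf hg]

theorem grad_neg (f : E n → ℝ) (x : E n) : grad (fun y => -f y) x = -grad f x := by
  ext i
  simp [grad, pd, fderiv_fun_neg]

theorem grad_mul {f g : E n → ℝ} {x : E n} (hf : DifferentiableAt ℝ f x)
    (hg : DifferentiableAt ℝ g x) :
    grad (fun y => f y * g y) x = f x • grad g x + g x • grad f x := by
  ext i
  simp [grad, pd, fderiv_fun_mul hf hg]

theorem grad_const_mul {f : E n → ℝ} {x : E n} (c : ℝ) (hf : DifferentiableAt ℝ f x) :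
    grad (fun y => c * f y) x = c • grad f x := by
  ext i
  simp [grad, pd, fderiv_const_mul hf]

theorem grad_add_const (f : E n → ℝ) (c : ℝ) (x : E n) :
    grad (fun y => f y + c) x = grad f x := by
  ext i
  simp [grad, pd, fderiv_add_const]

theorem grad_const_sub (f : E n → ℝ) (c : ℝ) (x : E n) :
    grad (fun y => c - f y) x = -grad f x := by
  ext i
  simp [grad, pd, fderiv_const_sub]

theorem grad_sum {ι : Type} (s : Finset ι) {f : ι → E n → ℝ} {x : E n}
    (hf : ∀ i ∈ s, DifferentiableAt ℝ (f i) x) :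
    grad (fun y => ∑ i ∈ s, f i y) x = ∑ i ∈ s, grad (f i) x := by
  ext i
  simp [grad, pd, fderiv_fun_sum hf, Finset.sum_apply]

theorem grad_comp {f : E n → ℝ} {x : E n} {φ : ℝ → ℝ} {φ' : ℝ} (hφ : HasDerivAt φ φ' (f x))
    (hf : DifferentiableAt ℝ f x) : grad (fun y => φ (f y)) x = φ' • grad f x := by
  ext i
  have h := (hφ.comp_hasFDerivAt x hf.hasFDerivAt).fderiv
  simp only [Function.comp_def] at h
  simp [grad, pd, h]

theorem grad_inv {f : E n → ℝ} {x : E n} (hf : DifferentiableAt ℝ f x) (h : f x ≠ 0) :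
    grad (fun y => (f y)⁻¹) x = (-(f x ^ 2)⁻¹) • grad f x :=
  grad_comp (φ := fun t => t⁻¹) (hasDerivAt_inv h) hf

theorem grad_div {f g : E n → ℝ} {x : E n} (hf : DifferentiableAt ℝ f x)
    (hg : DifferentiableAt ℝ g x) (h : g x ≠ 0) :
    grad (fun y => f y / g y) x = (g x)⁻¹ • grad f x - (f x / g x ^ 2) • grad g x := by
  simp only [div_eq_mul_inv]
  rw [grad_mul hf (hg.fun_inv h), grad_inv hg h]
  ext i
  simp only [Pi.add_apply, Pi.sub_apply, Pi.smul_apply, smul_eq_mul]
  ring

theorem grad_log {f : E n → ℝ} {x : E n} (hf : DifferentiableAt ℝ f x) (h : f x ≠ 0) :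
    grad (fun y => Real.log (f y)) x = (f x)⁻¹ • grad f x :=
  grad_comp (φ := Real.log) (Real.hasDerivAt_log h) hf

theorem grad_rpow {f : E n → ℝ} {x : E n} (hf : DifferentiableAt ℝ f x) (h : 0 < f x) (p : ℝ) :
    grad (fun y => f y ^ p) x = (p * f x ^ p * (f x)⁻¹) • grad f x := by
  rw [grad_comp (φ := fun t => t ^ p) (Real.hasDerivAt_rpow_const (Or.inl h.ne')) hf,
    Real.rpow_sub_one h.ne', div_eq_mul_inv, mul_assoc]

theorem grad_coord (j : Fin n) (x : E n) : grad (fun y : E n => y j) x = Pi.single j 1 := by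
  ext i
  have h : fderiv ℝ (fun y : E n => y j) x = ContinuousLinearMap.proj j :=
    (ContinuousLinearMap.proj (R := ℝ) (φ := fun _ : Fin n => ℝ) j).fderiv
  simp [grad, pd, h, Pi.single_apply, eq_comm]

theorem calca_dot (p x : E n) : HasFDerivAt (fun y : E n => p ⬝ᵥ y)
    (LinearMap.toContinuousLinearMap (dotProductBilin ℝ ℝ p)) x :=
  (LinearMap.toContinuousLinearMap (dotProductBilin ℝ ℝ p)).hasFDerivAt

theorem grad_dot (p x : E n) : grad (fun y => p ⬝ᵥ y) x = p := by
  ext i
  simp [grad, pd, (calca_dot p x).fderiv]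

theorem differentiableAt_dot (p x : E n) : DifferentiableAt ℝ (fun y : E n => p ⬝ᵥ y) x :=
  (calca_dot p x).differentiableAt

theorem contDiff_dot (p : E n) : ContDiff ℝ ∞ (fun y : E n => p ⬝ᵥ y) := by
  simp only [dotProduct]
  fun_prop

theorem contDiff_mulVec (M : Matrix (Fin n) (Fin n) ℝ) :
    ContDiff ℝ ∞ (fun y : E n => M *ᵥ y) :=
  contDiff_pi.2 fun i => contDiff_dot (M i)

/-- Chain rule for an affine change of variables. -/
theorem grad_comp_affine {f : E n → ℝ} (M : Matrix (Fin n) (Fin n) ℝ) (b x : E n)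
    (hf : DifferentiableAt ℝ f (b + M *ᵥ x)) :
    grad (fun y => f (b + M *ᵥ y)) x = Mᵀ *ᵥ grad f (b + M *ᵥ x) := by
  ext i
  have h1 : HasFDerivAt (fun y : E n => b + M *ᵥ y)
      (LinearMap.toContinuousLinearMap (Matrix.toLin' M)) x :=
    (LinearMap.toContinuousLinearMap (Matrix.toLin' M)).hasFDerivAt.const_add b
  have h := (hf.hasFDerivAt.comp x h1).fderiv
  simp only [Function.comp_def] at h
  simp only [grad, pd, h, ContinuousLinearMap.comp_apply, LinearMap.coe_toContinuousLinearMap',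
    Matrix.toLin'_apply]
  rw [fderiv_eq_dot]
  simp [dotProduct, Matrix.mulVec, grad, pd, Pi.single_apply, mul_comm]

theorem hasDerivAt_line {f : E n → ℝ} {x v : E n} {t : ℝ}
    (hf : DifferentiableAt ℝ f (x + t • v)) :
    HasDerivAt (fun s : ℝ => f (x + s • v)) (grad f (x + t • v) ⬝ᵥ v) t := by
  have h1 : HasDerivAt (fun s : ℝ => x + s • v) v t := by
    simpa using ((hasDerivAt_id t).smul_const v).const_add x
  have h := hf.hasFDerivAt.comp_hasDerivAt t h1
  rw [fderiv_eq_dot] at h
  exact h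

theorem abs_dot_le (v w : E n) : |v ⬝ᵥ w| ≤ n * ‖v‖ * ‖w‖ := by
  refine (Finset.abs_sum_le_sum_abs _ _).trans ?_
  refine (Finset.sum_le_card_nsmul _ _ (‖v‖ * ‖w‖) fun i _ => ?_).trans ?_
  · rw [abs_mul]
    exact mul_le_mul (norm_le_pi_norm v i) (norm_le_pi_norm w i) (abs_nonneg _) (norm_nonneg _)
  · simp [mul_assoc]

theorem contDiffAt_pd {f : E n → ℝ} {x : E n} (hf : ContDiffAt ℝ ∞ f x) (i : Fin n) :
    ContDiffAt ℝ ∞ (pd f i) x :=
  (hf.fderiv_right (m := ∞) (by simp)).clm_apply contDiffAt_const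

theorem contDiffAt_grad {f : E n → ℝ} {x : E n} (hf : ContDiffAt ℝ ∞ f x) :
    ContDiffAt ℝ ∞ (grad f) x :=
  contDiffAt_pi.2 fun i => contDiffAt_pd hf i

theorem contDiffAt_Hs {f : E n → ℝ} {x : E n} (hf : ContDiffAt ℝ ∞ f x) (i j : Fin n) :
    ContDiffAt ℝ ∞ (fun y => Hs f y i j) x :=
  contDiffAt_pd (contDiffAt_pd hf j) i

theorem continuous_grad {f : E n → ℝ} (hf : ContDiff ℝ 1 f) : Continuous (grad f) :=
  continuous_pi fun _ => (hf.continuous_fderiv (by simp)).clm_apply continuous_const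

theorem grad_pd (f : E n → ℝ) (j : Fin n) (x : E n) :
    grad (pd f j) x = fun i => Hs f x i j :=
  rfl

/-- The derivative of the gradient map is the Hessian (symmetry is in `CalcB`). -/
theorem hasFDerivAt_grad {f : E n → ℝ} {x : E n} (hf : ContDiffAt ℝ ∞ f x) :
    HasFDerivAt (grad f) (LinearMap.toContinuousLinearMap (Matrix.toLin' (Hs f x)ᵀ)) x := by
  refine hasFDerivAt_pi'' fun j => ?_
  have h := ((contDiffAt_pd hf j).differentiableAt (by simp)).hasFDerivAt
  have e : (ContinuousLinearMap.proj j).comp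
      (LinearMap.toContinuousLinearMap (Matrix.toLin' (Hs f x)ᵀ)) = fderiv ℝ (pd f j) x := by
    refine ContinuousLinearMap.ext fun v => ?_
    rw [fderiv_eq_dot, grad_pd]
    rfl
  rw [e]
  exact h

theorem dv_add {V W : E n → E n} {x : E n} (hV : DifferentiableAt ℝ V x)
    (hW : DifferentiableAt ℝ W x) : dv (fun y => V y + W y) x = dv V x + dv W x := by
  simp only [dv, ← Finset.sum_add_distrib]
  exact Finset.sum_congr rfl fun i _ =>
    congrFun (grad_add (differentiableAt_pi.1 hV i) (differentiableAt_pi.1 hW i)) i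

theorem dv_sub {V W : E n → E n} {x : E n} (hV : DifferentiableAt ℝ V x)
    (hW : DifferentiableAt ℝ W x) : dv (fun y => V y - W y) x = dv V x - dv W x := by
  simp only [dv, ← Finset.sum_sub_distrib]
  exact Finset.sum_congr rfl fun i _ =>
    congrFun (grad_sub (differentiableAt_pi.1 hV i) (differentiableAt_pi.1 hW i)) i

theorem dv_smul {φ : E n → ℝ} {V : E n → E n} {x : E n} (hφ : DifferentiableAt ℝ φ x)
    (hV : DifferentiableAt ℝ V x) :
    dv (fun y => φ y • V y) x = φ x * dv V x + grad φ x ⬝ᵥ V x := by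
  simp only [dv, dotProduct, Finset.mul_sum, ← Finset.sum_add_distrib]
  refine Finset.sum_congr rfl fun i _ => ?_
  have h := congrFun (grad_mul hφ (differentiableAt_pi.1 hV i)) i
  rw [mul_comm (grad φ x i)]
  exact h

theorem dv_const_smul (c : ℝ) {V : E n → E n} {x : E n} (hV : DifferentiableAt ℝ V x) :
    dv (fun y => c • V y) x = c * dv V x := by
  rw [dv_smul (φ := fun _ => c) (differentiableAt_const c) hV, grad_const, zero_dotProduct,
    add_zero]

theorem dv_sub_const (c x : E n) : dv (fun y => y - c) x = n := by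
  have h : ∀ i : Fin n, pd (fun y : E n => (y - c) i) i x = 1 := by
    intro i
    have h1 := congrFun (grad_add_const (fun y : E n => y i) (-c i) x) i
    rw [grad_coord, Pi.single_eq_same] at h1
    simp only [Pi.sub_apply, sub_eq_add_neg]
    exact h1
  simp only [dv, h]
  simp

theorem dv_grad (f : E n → ℝ) (x : E n) : dv (grad f) x = (Hs f x).trace :=
  rfl

/-- The divergence is the trace of the matrix of the derivative. -/
theorem dv_eq_trace {V : E n → E n} {x : E n} (hV : DifferentiableAt ℝ V x) :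
    dv V x = (LinearMap.toMatrix' (fderiv ℝ V x : E n →ₗ[ℝ] E n)).trace := by
  refine Finset.sum_congr rfl fun i _ => ?_
  have h := (hasFDerivAt_pi'.1 hV.hasFDerivAt i).fderiv
  simp [pd, h, LinearMap.toMatrix'_apply]

theorem continuousAt_dv {V : E n → E n} {x : E n} (hV : ContDiffAt ℝ 1 V x) :
    ContinuousAt (dv V) x := by
  refine tendsto_finsetSum _ fun i _ => ?_
  have h := ((contDiffAt_pi.1 hV i).fderiv_right (m := 0) (by simp)).continuousAt
  exact h.clm_apply continuousAt_const

/-- Use `measurable_fderiv_apply_const`; no hypothesis on `f` is needed. -/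
theorem measurable_pd (f : E n → ℝ) (i : Fin n) : Measurable (pd f i) :=
  measurable_fderiv_apply_const ℝ f _

theorem measurable_grad (f : E n → ℝ) : Measurable (grad f) :=
  measurable_pi_lambda _ fun i => measurable_pd f i

theorem measurable_Hs (f : E n → ℝ) (i j : Fin n) : Measurable (fun x => Hs f x i j) :=
  measurable_pd (pd f j) i

/-- Expand with `Matrix.det_apply`. -/
theorem measurable_Dt (u : E n → ℝ) : Measurable (Dt u) := by
  have h : Dt u = fun x => ∑ σ : Equiv.Perm (Fin n),
      ((Equiv.Perm.sign σ : ℤ) : ℝ) * ∏ i, Hs u x (σ i) i :=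
    funext fun x => Matrix.det_apply' _
  rw [h]
  exact Finset.measurable_sum _ fun σ _ =>
    (Finset.measurable_prod _ fun i _ => measurable_Hs u _ _).const_mul _

theorem measurable_ff (u : E n → ℝ) : Measurable (ff u) :=
  (measurable_Dt u).pow_const _

end Vale.Agent.P252b
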