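import Vale.Agent.P252b.CalcA

/-!
Second order calculus: Hessian rules and the second derivative test.
Pattern of proof: `grad` of the expression is given near `x` by a formula of `CalcA`
(`ContDiffAt.eventually`), then differentiate that formula once more.
-/

open MeasureTheory Metric Set Filter Topology Matrix
open scoped ENNReal ContDiff

noncomputable section

namespace Vale.Agent.P252b

variable {n : ℕ}

theorem calcb_ev {f : E n → ℝ} {x : E n} (hf : ContDiffAt ℝ ∞ f x) :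
    ∀ᶠ y in 𝓝 x, DifferentiableAt ℝ f y := by
  have h1 : ContDiffAt ℝ 1 f x := hf.of_le (by exact_mod_cast le_top)
  filter_upwards [h1.eventually (by simp)] with y hy using hy.differentiableAt (by simp)

theorem calcb_diff {f : E n → ℝ} {x : E n} (hf : ContDiffAt ℝ ∞ f x) :
    DifferentiableAt ℝ f x := hf.differentiableAt (by simp)

theorem calcb_dpd {f : E n → ℝ} {x : E n} (hf : ContDiffAt ℝ ∞ f x) (j : Fin n) :
    DifferentiableAt ℝ (pd f j) x := calcb_diff (contDiffAt_pd hf j)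

theorem calcb_Hs {F : E n → ℝ} {x : E n} {G : E n → E n} (h : ∀ᶠ y in 𝓝 x, grad F y = G y)
    (i j : Fin n) : Hs F x i j = grad (fun y => G y j) x i := by
  have h2 : pd F j =ᶠ[𝓝 x] fun y => G y j := by
    filter_upwards [h] with y hy using congrFun hy j
  exact pd_congr h2 i

theorem calcb_gpd (f : E n → ℝ) (x : E n) (i j : Fin n) : grad (pd f j) x i = Hs f x i j := rfl

/-- `ContDiffAt.isSymmSndFDerivAt`. -/
theorem Hs_symm {f : E n → ℝ} {x : E n} (hf : ContDiffAt ℝ ∞ f x) : (Hs f x)ᵀ = Hs f x := by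
  have h2 : ContDiffAt ℝ 2 f x := hf.of_le (ENat.natCast_le_of_coe_top_le_withTop le_rfl 2)
  have hs := h2.isSymmSndFDerivAt (by simp)
  have hd : DifferentiableAt ℝ (fderiv ℝ f) x :=
    (h2.fderiv_right (m := 1) (by norm_num)).differentiableAt (by simp)
  have key : ∀ i j : Fin n, Hs f x i j =
      fderiv ℝ (fderiv ℝ f) x (Pi.single i 1) (Pi.single j 1) := by
    intro i j
    have h3 := (hd.hasFDerivAt.clm_apply (hasFDerivAt_const (Pi.single j (1 : ℝ) : E n) x)).fderiv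
    change fderiv ℝ (fun y => fderiv ℝ f y (Pi.single j 1)) x (Pi.single i 1) = _
    rw [h3]
    simp
  ext i j
  rw [transpose_apply, key, key, hs.eq]

theorem hasFDerivAt_grad' {f : E n → ℝ} {x : E n} (hf : ContDiffAt ℝ ∞ f x) :
    HasFDerivAt (grad f) (LinearMap.toContinuousLinearMap (Matrix.toLin' (Hs f x))) x := by
  have h := hasFDerivAt_grad hf
  rwa [Hs_symm hf] at h

theorem grad_grad_dot {f : E n → ℝ} {x : E n} (hf : ContDiffAt ℝ ∞ f x) (v : E n) :
    grad (fun y => grad f y ⬝ᵥ v) x = Hs f x *ᵥ v := by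
  have h1 : (fun y => grad f y ⬝ᵥ v) = fun y => ∑ j, v j * pd f j y := by
    funext y
    simp only [dotProduct, grad]
    exact Finset.sum_congr rfl fun j _ => mul_comm _ _
  rw [h1, grad_sum _ fun j _ => (calcb_dpd hf j).const_mul (v j)]
  funext i
  rw [Finset.sum_apply]
  simp only [mulVec, dotProduct]
  refine Finset.sum_congr rfl fun j _ => ?_
  rw [grad_const_mul _ (calcb_dpd hf j), Pi.smul_apply, calcb_gpd, smul_eq_mul, mul_comm]

theorem Hs_const (c : ℝ) (x : E n) : Hs (fun _ => c) x = 0 := by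
  ext i j
  rw [calcb_Hs (G := fun _ => 0) (Eventually.of_forall fun y => grad_const c y)]
  simp [grad_const]

theorem Hs_add {f g : E n → ℝ} {x : E n} (hf : ContDiffAt ℝ ∞ f x) (hg : ContDiffAt ℝ ∞ g x) :
    Hs (fun y => f y + g y) x = Hs f x + Hs g x := by
  ext i j
  rw [calcb_Hs (G := fun y => grad f y + grad g y) (by
    filter_upwards [calcb_ev hf, calcb_ev hg] with y h1 h2 using grad_add h1 h2)]
  exact congrFun (grad_add (calcb_dpd hf j) (calcb_dpd hg j)) i

theorem Hs_sub {f g : E n → ℝ} {x : E n} (hf : ContDiffAt ℝ ∞ f x) (hg : ContDiffAt ℝ ∞ g x) :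
    Hs (fun y => f y - g y) x = Hs f x - Hs g x := by
  ext i j
  rw [calcb_Hs (G := fun y => grad f y - grad g y) (by
    filter_upwards [calcb_ev hf, calcb_ev hg] with y h1 h2 using grad_sub h1 h2)]
  exact congrFun (grad_sub (calcb_dpd hf j) (calcb_dpd hg j)) i

theorem Hs_const_mul {f : E n → ℝ} {x : E n} (c : ℝ) (hf : ContDiffAt ℝ ∞ f x) :
    Hs (fun y => c * f y) x = c • Hs f x := by
  ext i j
  rw [calcb_Hs (G := fun y => c • grad f y) (by
    filter_upwards [calcb_ev hf] with y h1 using grad_const_mul c h1)]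
  exact congrFun (grad_const_mul c (calcb_dpd hf j)) i

theorem Hs_add_const (f : E n → ℝ) (c : ℝ) (x : E n) : Hs (fun y => f y + c) x = Hs f x := by
  ext i j
  rw [calcb_Hs (G := grad f) (Eventually.of_forall fun y => grad_add_const f c y)]
  rfl

theorem Hs_const_sub (f : E n → ℝ) (c : ℝ) (x : E n) : Hs (fun y => c - f y) x = -Hs f x := by
  ext i j
  rw [calcb_Hs (G := fun y => -grad f y) (Eventually.of_forall fun y => grad_const_sub f c y)]
  exact congrFun (grad_neg (pd f j) x) i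

theorem Hs_dot (p x : E n) : Hs (fun y => p ⬝ᵥ y) x = 0 := by
  ext i j
  rw [calcb_Hs (G := fun _ => p) (Eventually.of_forall fun y => grad_dot p y)]
  simp [grad_const]

theorem Hs_sum {ι : Type} (s : Finset ι) {f : ι → E n → ℝ} {x : E n}
    (hf : ∀ i ∈ s, ContDiffAt ℝ ∞ (f i) x) :
    Hs (fun y => ∑ i ∈ s, f i y) x = ∑ i ∈ s, Hs (f i) x := by
  ext i j
  rw [calcb_Hs (G := fun y => ∑ k ∈ s, grad (f k) y) (by
    have h1 : ∀ᶠ y in 𝓝 x, ∀ k ∈ s, DifferentiableAt ℝ (f k) y :=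
      (eventually_all_finset s).2 fun k hk => calcb_ev (hf k hk)
    filter_upwards [h1] with y h1 using grad_sum s h1)]
  have h2 : (fun y => (∑ k ∈ s, grad (f k) y) j) = fun y => ∑ k ∈ s, pd (f k) j y := by
    funext y
    rw [Finset.sum_apply]
    rfl
  rw [h2, grad_sum s fun k hk => calcb_dpd (hf k hk) j, Finset.sum_apply, Matrix.sum_apply]
  rfl

theorem Hs_mul {f g : E n → ℝ} {x : E n} (hf : ContDiffAt ℝ ∞ f x) (hg : ContDiffAt ℝ ∞ g x) :
    Hs (fun y => f y * g y) x = f x • Hs g x + g x • Hs f x +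
      vecMulVec (grad f x) (grad g x) + vecMulVec (grad g x) (grad f x) := by
  ext i j
  rw [calcb_Hs (G := fun y => f y • grad g y + g y • grad f y) (by
    filter_upwards [calcb_ev hf, calcb_ev hg] with y h1 h2 using grad_mul h1 h2)]
  have h2 : (fun y => (f y • grad g y + g y • grad f y) j) =
      fun y => f y * pd g j y + g y * pd f j y := rfl
  rw [h2, grad_add ((calcb_diff hf).fun_mul (calcb_dpd hg j))
    ((calcb_diff hg).fun_mul (calcb_dpd hf j)),
    grad_mul (calcb_diff hf) (calcb_dpd hg j), grad_mul (calcb_diff hg) (calcb_dpd hf j)]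
  simp only [Pi.add_apply, Pi.smul_apply, smul_eq_mul, Matrix.add_apply,
    Matrix.smul_apply, vecMulVec_apply, grad, Hs, of_apply]
  ring

theorem Hs_comp {f : E n → ℝ} {x : E n} {φ φ' : ℝ → ℝ} {φ'' : ℝ} (hf : ContDiffAt ℝ ∞ f x)
    (h1 : ∀ᶠ t in 𝓝 (f x), HasDerivAt φ (φ' t) t) (h2 : HasDerivAt φ' φ'' (f x)) :
    Hs (fun y => φ (f y)) x = φ' (f x) • Hs f x + φ'' • vecMulVec (grad f x) (grad f x) := by
  ext i j
  have hc : ContinuousAt f x := hf.continuousAt
  rw [calcb_Hs (G := fun y => φ' (f y) • grad f y) (by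
    filter_upwards [calcb_ev hf, hc.eventually h1] with y h3 h4 using grad_comp h4 h3)]
  have h3 : (fun y => (φ' (f y) • grad f y) j) = fun y => φ' (f y) * pd f j y := rfl
  have h4 : DifferentiableAt ℝ (fun y => φ' (f y)) x :=
    h2.differentiableAt.comp x (calcb_diff hf)
  rw [h3, grad_mul h4 (calcb_dpd hf j), grad_comp h2 (calcb_diff hf)]
  simp only [Pi.add_apply, Pi.smul_apply, smul_eq_mul, Matrix.add_apply,
    Matrix.smul_apply, vecMulVec_apply, grad, Hs, of_apply]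
  ring

theorem Hs_log {f : E n → ℝ} {x : E n} (hf : ContDiffAt ℝ ∞ f x) (h : f x ≠ 0) :
    Hs (fun y => Real.log (f y)) x =
      (f x)⁻¹ • Hs f x - (f x ^ 2)⁻¹ • vecMulVec (grad f x) (grad f x) := by
  have h1 : ∀ᶠ t in 𝓝 (f x), HasDerivAt Real.log (t⁻¹) t := by
    filter_upwards [isOpen_ne.mem_nhds h] with t ht using Real.hasDerivAt_log ht
  rw [Hs_comp (φ := Real.log) (φ' := fun t => t⁻¹) hf h1 (hasDerivAt_inv h), neg_smul,
    sub_eq_add_neg]

theorem Hs_comp_affine {f : E n → ℝ} (M : Matrix (Fin n) (Fin n) ℝ) (b x : E n)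
    (hf : ContDiffAt ℝ ∞ f (b + M *ᵥ x)) :
    Hs (fun y => f (b + M *ᵥ y)) x = Mᵀ * Hs f (b + M *ᵥ x) * M := by
  ext i j
  have hc : ContinuousAt (fun y : E n => b + M *ᵥ y) x :=
    (continuous_const.add (contDiff_mulVec M).continuous).continuousAt
  rw [calcb_Hs (G := fun y => Mᵀ *ᵥ grad f (b + M *ᵥ y)) (by
    filter_upwards [hc.eventually (calcb_ev hf)] with y h3 using grad_comp_affine M b y h3)]
  have h3 : (fun y => (Mᵀ *ᵥ grad f (b + M *ᵥ y)) j) =
      fun y => (fun z => grad f z ⬝ᵥ fun k => M k j) (b + M *ᵥ y) := by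
    funext y
    simp only [mulVec, dotProduct, transpose_apply]
    exact Finset.sum_congr rfl fun k _ => mul_comm _ _
  have h4 : DifferentiableAt ℝ (fun z => grad f z ⬝ᵥ fun k => M k j) (b + M *ᵥ x) := by
    simp only [dotProduct, grad]
    exact DifferentiableAt.fun_sum fun k _ => (calcb_dpd hf k).mul_const _
  rw [h3, grad_comp_affine M b x h4, grad_grad_dot hf, mulVec_mulVec, Matrix.mul_apply]
  rfl

theorem contDiff_quad (Q : Matrix (Fin n) (Fin n) ℝ) (c : E n) :
    ContDiff ℝ ∞ (fun y : E n => (y - c) ⬝ᵥ (Q *ᵥ (y - c))) := by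
  simp only [dotProduct, mulVec, Pi.sub_apply]
  fun_prop

theorem Hs_quad {Q : Matrix (Fin n) (Fin n) ℝ} (hQ : Qᵀ = Q) (c x : E n) :
    Hs (fun y => (y - c) ⬝ᵥ (Q *ᵥ (y - c))) x = (2 : ℝ) • Q := by
  have hs : ∀ a b : Fin n, Q a b = Q b a := fun a b => by
    have := congrFun (congrFun hQ b) a
    rwa [transpose_apply] at this
  have h1 : (fun y : E n => (y - c) ⬝ᵥ (Q *ᵥ (y - c))) =
      fun y => ∑ k, (y k + -c k) * (Q k ⬝ᵥ y + -(Q k ⬝ᵥ c)) := by
    funext y
    refine Finset.sum_congr rfl fun k _ => ?_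
    rw [Pi.sub_apply, mulVec_sub, Pi.sub_apply, sub_eq_add_neg, sub_eq_add_neg]
    rfl
  have c1 : ∀ k : Fin n, ContDiffAt ℝ ∞ (fun y : E n => y k + -c k) x := fun k => by fun_prop
  have c2 : ∀ k : Fin n, ContDiffAt ℝ ∞ (fun y : E n => Q k ⬝ᵥ y + -(Q k ⬝ᵥ c)) x :=
    fun k => ((contDiff_dot _).add contDiff_const).contDiffAt
  have h0 : ∀ k : Fin n, Hs (fun y : E n => y k) x = 0 := fun k => by
    have h5 : (fun y : E n => y k) = fun y => (Pi.single k 1 : E n) ⬝ᵥ y := by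
      funext y
      simp
    rw [h5, Hs_dot]
  rw [h1, Hs_sum _ fun k _ => (c1 k).mul (c2 k)]
  ext i j
  rw [Matrix.sum_apply]
  have h3 : ∀ k : Fin n, Hs (fun y : E n => (y k + -c k) * (Q k ⬝ᵥ y + -(Q k ⬝ᵥ c))) x i j =
      (Pi.single k 1 : E n) i * Q k j + Q k i * (Pi.single k 1 : E n) j := fun k => by
    rw [Hs_mul (c1 k) (c2 k), Hs_add_const, Hs_add_const, Hs_dot, h0, grad_add_const,
      grad_add_const, grad_dot, grad_coord]
    simp [vecMulVec_apply]
  rw [Finset.sum_congr rfl fun k _ => h3 k, Finset.sum_add_distrib]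
  simp only [Pi.single_apply, ite_mul, mul_ite, one_mul, mul_one, zero_mul, mul_zero,
    Finset.sum_ite_eq, Finset.mem_univ, if_true, Matrix.smul_apply, smul_eq_mul]
  rw [hs j i]
  ring

/-- Second derivative along a line. -/
theorem hasDerivAt_line2 {f : E n → ℝ} {x v : E n} {t : ℝ} (hf : ContDiffAt ℝ ∞ f (x + t • v)) :
    HasDerivAt (fun s : ℝ => grad f (x + s • v) ⬝ᵥ v) (v ⬝ᵥ (Hs f (x + t • v) *ᵥ v)) t := by
  have h4 : DifferentiableAt ℝ (fun z => grad f z ⬝ᵥ v) (x + t • v) := by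
    simp only [dotProduct, grad]
    exact DifferentiableAt.fun_sum fun k _ => (calcb_dpd hf k).mul_const _
  have h := hasDerivAt_line h4
  rwa [grad_grad_dot hf, dotProduct_comm] at h

theorem grad_eq_zero_of_isLocalMin {f : E n → ℝ} {x : E n} (h : IsLocalMin f x) :
    grad f x = 0 := by
  funext i
  simp [grad, pd, h.fderiv_eq_zero]

theorem grad_eq_zero_of_isLocalMax {f : E n → ℝ} {x : E n} (h : IsLocalMax f x) :
    grad f x = 0 := by
  funext i
  simp [grad, pd, h.fderiv_eq_zero]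

theorem calcb_test {g g' : ℝ → ℝ} {a : ℝ} (h1 : ∀ᶠ s in 𝓝 (0 : ℝ), HasDerivAt g (g' s) s)
    (h2 : HasDerivAt g' a 0) (ha : a < 0) (hm : IsLocalMin g 0) : False := by
  have h0 : g' 0 = 0 := hm.hasDerivAt_eq_zero h1.self_of_nhds
  have h3 : ∀ᶠ s in 𝓝[>] (0 : ℝ), g' s < 0 := by
    have h4 := (hasDerivAt_iff_tendsto_slope_zero.1 h2).mono_left (nhdsGT_le_nhdsNE 0)
    filter_upwards [h4.eventually (gt_mem_nhds ha), self_mem_nhdsWithin] with s hs hs0
    rw [zero_add, h0, sub_zero, smul_eq_mul] at hs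
    have hs1 : 0 < s := hs0
    by_contra h5
    push Not at h5
    exact absurd hs (not_lt.2 (mul_nonneg (inv_nonneg.2 hs1.le) h5))
  have h5 : ∀ᶠ s in 𝓝 (0 : ℝ), (0 < s → g' s < 0) ∧ HasDerivAt g (g' s) s ∧ g 0 ≤ g s :=
    (eventually_nhdsWithin_iff.1 h3).and (h1.and hm)
  obtain ⟨ε, hε, h6⟩ := Metric.eventually_nhds_iff.1 h5
  have h7 : ∀ s ∈ Icc 0 (ε / 2), dist s 0 < ε := fun s hs => by
    rw [Real.dist_eq, sub_zero, abs_of_nonneg hs.1]
    linarith [hs.2]
  obtain ⟨c, hc, h8⟩ := exists_hasDerivAt_eq_slope g g' (half_pos hε)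
    (fun s hs => (h6 (h7 s hs)).2.1.continuousAt.continuousWithinAt)
    (fun s hs => (h6 (h7 s (Ioo_subset_Icc_self hs))).2.1)
  have h9 := (h6 (h7 c (Ioo_subset_Icc_self hc))).1 hc.1
  have h10 := (h6 (h7 (ε / 2) ⟨(half_pos hε).le, le_rfl⟩)).2.2
  rw [h8] at h9
  exact absurd h9 (not_lt.2 (div_nonneg (sub_nonneg.2 h10) (by linarith)))

/-- Restrict to the line `s ↦ x + s v`; if the second derivative at `0` were negative, the first
derivative (zero at `0`) would be negative on a small right interval. -/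
theorem posSemidef_of_isLocalMin {f : E n → ℝ} {x : E n} (hf : ContDiffAt ℝ ∞ f x)
    (h : IsLocalMin f x) : (Hs f x).PosSemidef := by
  refine posSemidef_iff_dotProduct_mulVec.2 ⟨?_, fun v => ?_⟩
  · rw [IsHermitian, conjTranspose_eq_transpose_of_trivial, Hs_symm hf]
  · rw [star_trivial]
    by_contra hneg
    push Not at hneg
    have hc : ContinuousAt (fun s : ℝ => x + s • v) 0 := by fun_prop
    have e0 : x + (0 : ℝ) • v = x := by simp
    have h2 : HasDerivAt (fun s : ℝ => grad f (x + s • v) ⬝ᵥ v) (v ⬝ᵥ (Hs f x *ᵥ v)) 0 := by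
      have h3 := hasDerivAt_line2 (f := f) (x := x) (v := v) (t := 0) (by rwa [e0])
      rwa [e0] at h3
    have h1 : ∀ᶠ s in 𝓝 (0 : ℝ),
        HasDerivAt (fun s : ℝ => f (x + s • v)) (grad f (x + s • v) ⬝ᵥ v) s := by
      have h3 : ∀ᶠ y in 𝓝 (x + (0 : ℝ) • v), DifferentiableAt ℝ f y := by
        rw [e0]; exact calcb_ev hf
      filter_upwards [hc.eventually h3] with s hs using hasDerivAt_line hs
    have hm : IsLocalMin (fun s : ℝ => f (x + s • v)) 0 := by
      have h3 : IsLocalMin f (x + (0 : ℝ) • v) := by rwa [e0]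
      exact IsLocalMin.comp_continuous (g := fun s : ℝ => x + s • v) h3 hc
    exact calcb_test h1 h2 hneg hm

theorem posSemidef_neg_of_isLocalMax {f : E n → ℝ} {x : E n} (hf : ContDiffAt ℝ ∞ f x)
    (h : IsLocalMax f x) : (-Hs f x).PosSemidef := by
  have h1 : IsLocalMin (fun y => 0 - f y) x := by
    filter_upwards [h] with y hy
    linarith
  have h2 := posSemidef_of_isLocalMin (contDiffAt_const.sub hf) h1
  rwa [Hs_const_sub] at h2

/-- A smooth function with constant Hessian is a quadratic polynomial: restrict to the segment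
from `0` to `x` and use twice that a function with zero derivative is constant. -/
theorem quad_of_Hs_const {u : E n → ℝ} (hu : ContDiff ℝ ∞ u) {A : Matrix (Fin n) (Fin n) ℝ}
    (h : ∀ x, Hs u x = A) (x : E n) :
    u x = (1 / 2) * (x ⬝ᵥ (A *ᵥ x)) + grad u 0 ⬝ᵥ x + u 0 := by
  have h2 : ∀ s : ℝ, HasDerivAt (fun s : ℝ => grad u (0 + s • x) ⬝ᵥ x - s * (x ⬝ᵥ (A *ᵥ x))) 0 s :=
    fun s => by
      have h3 := (hasDerivAt_line2 (f := u) (x := 0) (v := x) (t := s) hu.contDiffAt).sub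
        (hasDerivAt_mul_const (x := s) (x ⬝ᵥ (A *ᵥ x)))
      rwa [h, sub_self] at h3
  have h3 : ∀ s : ℝ, grad u (0 + s • x) ⬝ᵥ x = s * (x ⬝ᵥ (A *ᵥ x)) + grad u 0 ⬝ᵥ x := fun s => by
    have h4 := is_const_of_deriv_eq_zero (fun t => (h2 t).differentiableAt)
      (fun t => (h2 t).deriv) s 0
    simp only [zero_smul, add_zero, zero_mul, sub_zero] at h4
    linarith
  have h4 : ∀ s : ℝ, HasDerivAt (fun s : ℝ => u (0 + s • x) -
      (s * s * ((1 / 2) * (x ⬝ᵥ (A *ᵥ x))) + s * (grad u 0 ⬝ᵥ x))) 0 s := fun s => by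
    have h5 := (hasDerivAt_line (f := u) (x := 0) (v := x) (t := s)
      (calcb_diff hu.contDiffAt)).sub
        ((((hasDerivAt_id' s).mul (hasDerivAt_id' s)).mul_const
          ((1 / 2) * (x ⬝ᵥ (A *ᵥ x)))).add (hasDerivAt_mul_const (x := s) (grad u 0 ⬝ᵥ x)))
    have h6 : grad u (0 + s • x) ⬝ᵥ x -
        ((1 * s + s * 1) * ((1 / 2) * (x ⬝ᵥ (A *ᵥ x))) + grad u 0 ⬝ᵥ x) = 0 := by
      rw [h3]; ring
    rwa [h6] at h5
  have h5 := is_const_of_deriv_eq_zero (fun t => (h4 t).differentiableAt)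
    (fun t => (h4 t).deriv) 1 0
  simp only [zero_smul, add_zero, zero_mul, sub_zero, one_smul, zero_add, one_mul] at h5
  linarith

end Vale.Agent.P252b
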