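import Vale.Agent.P252b.Stmt

/-!
Completeness of the graph metric versus closedness of the epigraph.
-/

open MeasureTheory Metric Set Filter Topology Matrix
open scoped ENNReal ContDiff

noncomputable section

namespace Vale.Agent.P252b

variable {n : ℕ}

/-- `‖x - y‖ ≤ ∫ ‖γ'‖ ≤` length. -/
theorem edist_le_graphDist (Ω : Set (EuclideanSpace ℝ (Fin n)))
    (u : EuclideanSpace ℝ (Fin n) → ℝ) (x y : EuclideanSpace ℝ (Fin n)) :
    ENNReal.ofReal ‖x - y‖ ≤ graphDist Ω u x y := by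
  refine le_iInf fun γ => le_iInf fun hγ => le_iInf fun _ => le_iInf fun h0 => le_iInf fun h1 => ?_
  have hd : Differentiable ℝ γ := hγ.differentiable (by simp)
  have hc : Continuous (deriv γ) := hγ.continuous_deriv le_rfl
  have hI : ∫ t in (0 : ℝ)..1, deriv γ t = y - x := by
    rw [intervalIntegral.integral_deriv_eq_sub (fun t _ => hd t) (hc.intervalIntegrable 0 1),
      h0, h1]
  rw [intervalIntegral.integral_of_le zero_le_one] at hI
  rw [norm_sub_rev, ← hI, ofReal_norm]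
  refine (enorm_integral_le_lintegral_enorm _).trans ?_
  refine (lintegral_mono_set Ioc_subset_Icc_self).trans ?_
  refine lintegral_mono fun t => ?_
  rw [← ofReal_norm]
  refine ENNReal.ofReal_le_ofReal ?_
  refine Real.le_sqrt_of_sq_le ?_
  nlinarith [sq_nonneg (fderiv ℝ u (γ t) (deriv γ t))]

/-- Length of a segment. -/
theorem graphDist_le_seg {Ω : Set (EuclideanSpace ℝ (Fin n))} (hc : Convex ℝ Ω)
    (u : EuclideanSpace ℝ (Fin n) → ℝ) {x y : EuclideanSpace ℝ (Fin n)} (hx : x ∈ Ω)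
    (hy : y ∈ Ω) : graphDist Ω u x y ≤ ENNReal.ofReal ‖y - x‖ +
      ∫⁻ t in Icc (0 : ℝ) 1, ENNReal.ofReal |fderiv ℝ u (x + t • (y - x)) (y - x)| := by
  have hγ : ContDiff ℝ 1 (fun t : ℝ => x + t • (y - x)) :=
    contDiff_const.add (contDiff_id.smul contDiff_const)
  have hm : MapsTo (fun t : ℝ => x + t • (y - x)) (Icc 0 1) Ω := fun t ht =>
    hc.add_smul_sub_mem hx hy ht
  have hder : ∀ t : ℝ, deriv (fun t : ℝ => x + t • (y - x)) t = y - x := fun t => by
    have := ((hasDerivAt_id t).smul_const (y - x)).const_add x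
    simpa using this.deriv
  have hle : graphDist Ω u x y ≤ graphLength u (fun t : ℝ => x + t • (y - x)) := by
    unfold graphDist
    refine iInf_le_of_le (fun t : ℝ => x + t • (y - x)) ?_
    refine iInf_le_of_le hγ ?_
    refine iInf_le_of_le hm ?_
    refine iInf_le_of_le (by simp) ?_
    exact iInf_le_of_le (by simp) le_rfl
  refine hle.trans ?_
  unfold graphLength
  have h1 : ENNReal.ofReal ‖y - x‖ = ∫⁻ _ in Icc (0 : ℝ) 1, ENNReal.ofReal ‖y - x‖ := by
    simp
  rw [h1, ← lintegral_add_left measurable_const]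
  refine lintegral_mono fun t => ?_
  simp only [hder]
  rw [← ENNReal.ofReal_add (norm_nonneg _) (abs_nonneg _)]
  refine ENNReal.ofReal_le_ofReal ?_
  refine Real.sqrt_le_iff.2 ⟨by positivity, ?_⟩
  have := sq_abs (fderiv ℝ u (x + t • (y - x)) (y - x))
  nlinarith [norm_nonneg (y - x), abs_nonneg (fderiv ℝ u (x + t • (y - x)) (y - x))]

theorem compl_lint {G G' : ℝ → ℝ} (hd : ∀ t ∈ Icc (0 : ℝ) 1, HasDerivAt G (G' t) t)
    (hc : ContinuousOn G' (Icc 0 1)) (h0 : ∀ t ∈ Icc (0 : ℝ) 1, 0 ≤ G' t) :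
    ∫⁻ t in Icc (0 : ℝ) 1, ENNReal.ofReal (G' t) = ENNReal.ofReal (G 1 - G 0) := by
  have hi : IntegrableOn G' (Icc 0 1) := hc.integrableOn_Icc
  rw [← ofReal_integral_eq_lintegral_ofReal hi
    ((ae_restrict_iff' measurableSet_Icc).2 (Eventually.of_forall h0))]
  have hu : uIcc (0 : ℝ) 1 = Icc 0 1 := uIcc_of_le zero_le_one
  rw [← intervalIntegral.integral_eq_sub_of_hasDerivAt (f := G) (f' := G') (a := 0) (b := 1)
    (fun t ht => hd t (hu ▸ ht)) ((hu ▸ hc : ContinuousOn G' (uIcc 0 1)).intervalIntegrable),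
    intervalIntegral.integral_of_le zero_le_one, integral_Icc_eq_integral_Ioc]

theorem compl_real {ε : ℝ≥0∞} (h : 0 < ε) : ∃ δ : ℝ, 0 < δ ∧ ENNReal.ofReal δ < ε := by
  obtain ⟨r, -, h1, h2⟩ := ENNReal.lt_iff_exists_real_btwn.1 h
  exact ⟨r, ENNReal.ofReal_pos.1 h1, h2⟩

theorem compl_tendsto {Ω : Set (EuclideanSpace ℝ (Fin n))} {u : EuclideanSpace ℝ (Fin n) → ℝ}
    {x : ℕ → EuclideanSpace ℝ (Fin n)} {y : EuclideanSpace ℝ (Fin n)}
    (h : Tendsto (fun k => graphDist Ω u (x k) y) atTop (𝓝 0)) : Tendsto x atTop (𝓝 y) := by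
  rw [Metric.tendsto_atTop]
  intro δ hδ
  have := h.eventually (gt_mem_nhds (ENNReal.ofReal_pos.2 hδ))
  obtain ⟨N, hN⟩ := eventually_atTop.1 this
  refine ⟨N, fun k hk => ?_⟩
  have h2 := (edist_le_graphDist Ω u (x k) y).trans_lt (hN k hk)
  rw [dist_eq_norm]
  exact (ENNReal.ofReal_lt_ofReal_iff hδ).1 h2

/-- Distance along a ray on which the function is convex. -/
theorem compl_ray {Ω : Set (EuclideanSpace ℝ (Fin n))} (ho : IsOpen Ω)
    (hc : Convex ℝ Ω) {u : EuclideanSpace ℝ (Fin n) → ℝ} (hu : ContDiffOn ℝ ∞ u Ω)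
    {x v : EuclideanSpace ℝ (Fin n)} (hΩ : ∀ s ∈ Ico (0 : ℝ) 1, x + s • v ∈ Ω) {m : ℝ}
    (hm : ∀ s ∈ Ico (0 : ℝ) 1, m ≤ fderiv ℝ u (x + s • v) v) {s s' : ℝ} (hs : s ∈ Ico (0 : ℝ) 1)
    (hs' : s' ∈ Ico (0 : ℝ) 1) :
    graphDist Ω u (x + s • v) (x + s' • v) ≤ ENNReal.ofReal ((‖v‖ + |m|) * |s' - s| +
      |(u (x + s' • v) - m * s') - (u (x + s • v) - m * s)|) := by
  have hsub : x + s' • v - (x + s • v) = (s' - s) • v := by
    rw [sub_smul]; abel
  have hpt : ∀ t : ℝ, x + s • v + t • (s' - s) • v = x + (s + t * (s' - s)) • v := fun t => by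
    rw [add_smul, mul_smul, add_assoc]
  have hI : ∀ t ∈ Icc (0 : ℝ) 1, s + t * (s' - s) ∈ Ico (0 : ℝ) 1 := fun t ht => by
    have := (convex_Ico (0 : ℝ) 1).add_smul_sub_mem hs hs' ht
    simpa using this
  refine (graphDist_le_seg hc u (hΩ s hs) (hΩ s' hs')).trans ?_
  simp only [hsub, hpt]
  obtain ⟨σ, hσ, hσ1⟩ : ∃ σ : ℝ, σ * (s' - s) = |s' - s| ∧ |σ| = 1 := by
    rcases le_total s s' with h | h
    · exact ⟨1, by rw [abs_of_nonneg (sub_nonneg.2 h), one_mul], abs_one⟩
    · exact ⟨-1, by rw [abs_of_nonpos (sub_nonpos.2 h)]; ring, by simp⟩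
  have hdiff : ∀ y ∈ Ω, DifferentiableAt ℝ u y := fun y hy =>
    (hu.contDiffAt (ho.mem_nhds hy)).differentiableAt (by simp)
  have hcf : ContinuousOn (fderiv ℝ u) Ω := hu.continuousOn_fderiv_of_isOpen ho (by simp)
  set G : ℝ → ℝ := fun t =>
    σ * (u (x + (s + t * (s' - s)) • v) - m * (s + t * (s' - s))) + |m| * |s' - s| * t with hG
  set G' : ℝ → ℝ := fun t =>
    |s' - s| * (fderiv ℝ u (x + (s + t * (s' - s)) • v) v - m) + |m| * |s' - s| with hG'
  have hd : ∀ t ∈ Icc (0 : ℝ) 1, HasDerivAt G (G' t) t := fun t ht => by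
    have h1 : HasDerivAt (fun t : ℝ => s + t * (s' - s)) (s' - s) t := by
      simpa using ((hasDerivAt_id t).mul_const (s' - s)).const_add s
    have h2 : HasDerivAt (fun t : ℝ => x + (s + t * (s' - s)) • v) ((s' - s) • v) t :=
      (h1.smul_const v).const_add x
    have h3 := (hdiff _ (hΩ _ (hI t ht))).hasFDerivAt.comp_hasDerivAt t h2
    have h4 := ((h3.sub (h1.const_mul m)).const_mul σ).add
      ((hasDerivAt_id t).const_mul (|m| * |s' - s|))
    refine h4.congr_deriv ?_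
    simp only [hG', map_smul, smul_eq_mul, ← hσ]
    ring
  have hcont : ContinuousOn G' (Icc 0 1) := by
    have h1 : ContinuousOn (fun t : ℝ => fderiv ℝ u (x + (s + t * (s' - s)) • v)) (Icc 0 1) :=
      hcf.comp (by fun_prop) (fun t ht => hΩ _ (hI t ht))
    exact (continuousOn_const.mul ((h1.clm_apply continuousOn_const).sub
      continuousOn_const)).add continuousOn_const
  have h0 : ∀ t ∈ Icc (0 : ℝ) 1, 0 ≤ G' t := fun t ht => by
    have := hm _ (hI t ht)
    simp only [hG']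
    have h2 := abs_nonneg (s' - s)
    have h3 := abs_nonneg m
    have : 0 ≤ fderiv ℝ u (x + (s + t * (s' - s)) • v) v - m := by linarith
    positivity
  have hle : ∫⁻ t in Icc (0 : ℝ) 1,
      ENNReal.ofReal |fderiv ℝ u (x + (s + t * (s' - s)) • v) ((s' - s) • v)| ≤
      ∫⁻ t in Icc (0 : ℝ) 1, ENNReal.ofReal (G' t) := by
    refine setLIntegral_mono' measurableSet_Icc fun t ht => ENNReal.ofReal_le_ofReal ?_
    have h1 := hm _ (hI t ht)
    simp only [hG', map_smul, smul_eq_mul, abs_mul]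
    have h2 : |fderiv ℝ u (x + (s + t * (s' - s)) • v) v| ≤
        fderiv ℝ u (x + (s + t * (s' - s)) • v) v - m + |m| := by
      rw [abs_le]
      constructor <;> linarith [le_abs_self m, neg_abs_le m]
    nlinarith [abs_nonneg (s' - s)]
  rw [compl_lint hd hcont h0] at hle
  refine (add_le_add le_rfl hle).trans ?_
  have hb : G 1 - G 0 ≤ |m| * |s' - s| +
      |(u (x + s' • v) - m * s') - (u (x + s • v) - m * s)| := by
    simp only [hG, one_mul, zero_mul, add_zero, mul_zero, mul_one, add_sub_cancel]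
    have h1 := le_abs_self (σ * ((u (x + s' • v) - m * s') - (u (x + s • v) - m * s)))
    rw [abs_mul, hσ1, one_mul] at h1
    linarith
  refine (add_le_add le_rfl (ENNReal.ofReal_le_ofReal hb)).trans ?_
  rw [← ENNReal.ofReal_add (norm_nonneg _) (by positivity), norm_smul, Real.norm_eq_abs]
  refine ENNReal.ofReal_le_ofReal (le_of_eq ?_)
  ring

/-- Let `z` be in the closure of `{x ∈ Ω | u x ≤ c}`, fix `x₁` in that set, `γ(s) = x₁ + s (z - x₁)`,
which lies in `Ω` for `0 ≤ s < 1`. The points `γ(1 - 1/(k+1))` form a Cauchy sequence. -/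
theorem closed_of_complete {Ω : Set (EuclideanSpace ℝ (Fin n))} (ho : IsOpen Ω)
    (hc : Convex ℝ Ω) {u : EuclideanSpace ℝ (Fin n) → ℝ} (hu : ContDiffOn ℝ ∞ u Ω)
    (hcv : ConvexOn ℝ Ω u) (h : EuclideanComplete Ω u) (c : ℝ) :
    IsClosed {x | x ∈ Ω ∧ u x ≤ c} := by
  set S := {x | x ∈ Ω ∧ u x ≤ c} with hS
  have hSc : Convex ℝ S := hcv.convex_le c
  have hdiff : ∀ y ∈ Ω, DifferentiableAt ℝ u y := fun y hy =>
    (hu.contDiffAt (ho.mem_nhds hy)).differentiableAt (by simp)
  have hcl : ∀ y ∈ closure S, y ∈ Ω → u y ≤ c := fun y hy hyΩ => by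
    have h1 : u y ∈ closure (u '' S) :=
      (hdiff y hyΩ).continuousAt.continuousWithinAt.mem_closure_image hy
    have h2 : closure (u '' S) ⊆ Iic c :=
      closure_minimal (by rintro _ ⟨w, hw, rfl⟩; exact hw.2) isClosed_Iic
    exact h2 h1
  refine isClosed_of_closure_subset fun z hz => ?_
  obtain ⟨x, hx⟩ : S.Nonempty := closure_nonempty_iff.1 ⟨z, hz⟩
  set v := z - x with hv
  have hcomb : ∀ s : ℝ, x + s • v = (1 - s) • x + s • z := fun s => by
    rw [hv, smul_sub, sub_smul, one_smul]; abel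
  have hΩ : ∀ s ∈ Ico (0 : ℝ) 1, x + s • v ∈ Ω := fun s hs => by
    rw [hcomb]
    have := hc.combo_interior_closure_mem_interior (x := x) (y := z)
      (by rw [ho.interior_eq]; exact hx.1) (closure_mono (fun w hw => hw.1) hz)
      (a := 1 - s) (b := s) (by linarith [hs.2]) hs.1 (by ring)
    exact interior_subset this
  have hle : ∀ s ∈ Ico (0 : ℝ) 1, u (x + s • v) ≤ c := fun s hs =>
    hcl _ (hSc.closure.add_smul_sub_mem (subset_closure hx) hz ⟨hs.1, hs.2.le⟩) (hΩ s hs)
  have hφ : ∀ s ∈ Ico (0 : ℝ) 1,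
      HasDerivAt (fun s : ℝ => u (x + s • v)) (fderiv ℝ u (x + s • v) v) s := fun s hs => by
    have h2 : HasDerivAt (fun t : ℝ => x + t • v) v s := by
      simpa using ((hasDerivAt_id s).smul_const v).const_add x
    exact (hdiff _ (hΩ s hs)).hasFDerivAt.comp_hasDerivAt s h2
  have hφc : ConvexOn ℝ (Ico (0 : ℝ) 1) (fun s : ℝ => u (x + s • v)) := by
    refine ⟨convex_Ico 0 1, fun a ha b hb p q hp hq hpq => ?_⟩
    have h1 := hcv.2 (hΩ a ha) (hΩ b hb) hp hq hpq
    have h2 : p • (x + a • v) + q • (x + b • v) = x + (p • a + q • b) • v := by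
      simp only [smul_add, smul_eq_mul, add_smul, mul_smul]
      calc p • x + p • a • v + (q • x + q • b • v)
          = (p + q) • x + (p • a • v + q • b • v) := by rw [add_smul]; abel
        _ = x + (p • a • v + q • b • v) := by rw [hpq, one_smul]
    rw [h2] at h1
    exact h1
  have hmono := hφc.monotoneOn_deriv (fun s hs => (hφ s hs).differentiableAt)
  set m := fderiv ℝ u (x + (0 : ℝ) • v) v with hmd
  have h01 : (0 : ℝ) ∈ Ico (0 : ℝ) 1 := ⟨le_rfl, one_pos⟩
  have hm : ∀ s ∈ Ico (0 : ℝ) 1, m ≤ fderiv ℝ u (x + s • v) v := fun s hs => by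
    have := hmono h01 hs hs.1
    rwa [(hφ 0 h01).deriv, (hφ s hs).deriv] at this
  have hψ : ∀ s ∈ Ico (0 : ℝ) 1, HasDerivAt (fun s : ℝ => u (x + s • v) - m * s)
      (fderiv ℝ u (x + s • v) v - m) s := fun s hs => by
    exact ((hφ s hs).sub ((hasDerivAt_id s).const_mul m)).congr_deriv (by simp)
  have hψm : MonotoneOn (fun s : ℝ => u (x + s • v) - m * s) (Ico (0 : ℝ) 1) := by
    refine monotoneOn_of_deriv_nonneg (convex_Ico 0 1)
      (fun s hs => (hψ s hs).continuousAt.continuousWithinAt)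
      (fun s hs => (hψ s (interior_subset hs)).differentiableAt.differentiableWithinAt)
      (fun s hs => ?_)
    rw [(hψ s (interior_subset hs)).deriv]
    linarith [hm s (interior_subset hs)]
  set r : ℕ → ℝ := fun k => 1 - 1 / ((k : ℝ) + 1) with hr
  have hrI : ∀ k, r k ∈ Ico (0 : ℝ) 1 := fun k => by
    have h1 : (0 : ℝ) < 1 / ((k : ℝ) + 1) := by positivity
    have h2 : 1 / ((k : ℝ) + 1) ≤ 1 := by
      rw [div_le_one (by positivity)]; linarith [Nat.cast_nonneg (α := ℝ) k]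
    constructor <;> simp only [hr] <;> linarith
  have hrm : Monotone r := fun k l hkl => by
    have : (k : ℝ) ≤ l := by exact_mod_cast hkl
    have h2 : 1 / ((l : ℝ) + 1) ≤ 1 / ((k : ℝ) + 1) :=
      one_div_le_one_div_of_le (by positivity) (by linarith)
    simp only [hr]; linarith
  have hrt : Tendsto r atTop (𝓝 1) := by
    have := tendsto_const_nhds (x := (1 : ℝ)).sub tendsto_one_div_add_atTop_nhds_zero_nat
    rwa [sub_zero] at this
  have hb : CauchySeq (fun k => u (x + r k • v) - m * r k) := by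
    have hmon : Monotone (fun k => u (x + r k • v) - m * r k) := fun k l hkl =>
      hψm (hrI k) (hrI l) (hrm hkl)
    have hbd : BddAbove (range (fun k => u (x + r k • v) - m * r k)) := by
      refine ⟨c + |m|, ?_⟩
      rintro _ ⟨k, rfl⟩
      have h1 := hle _ (hrI k)
      have h2 : -(m * r k) ≤ |m| := by
        have h3 := (hrI k).1
        have h4 := (hrI k).2
        nlinarith [neg_abs_le m, abs_nonneg m]
      simp only
      linarith
    exact (tendsto_atTop_ciSup hmon hbd).cauchySeq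
  have ha : CauchySeq (fun k => (‖v‖ + |m|) * r k) := (hrt.const_mul _).cauchySeq
  obtain ⟨y, hy, hyt⟩ := h (fun k => x + r k • v) (fun k => hΩ _ (hrI k)) (fun ε hε => by
    obtain ⟨δ, hδ, hδε⟩ := compl_real hε
    obtain ⟨N1, h1⟩ := Metric.cauchySeq_iff.1 ha (δ / 2) (by positivity)
    obtain ⟨N2, h2⟩ := Metric.cauchySeq_iff.1 hb (δ / 2) (by positivity)
    refine ⟨max N1 N2, fun k hk l hl => ?_⟩
    refine lt_of_le_of_lt ((compl_ray ho hc hu hΩ hm (hrI k) (hrI l)).trans
      (ENNReal.ofReal_le_ofReal ?_)) hδε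
    have h3 := h1 l (le_of_max_le_left hl) k (le_of_max_le_left hk)
    have h4 := h2 l (le_of_max_le_right hl) k (le_of_max_le_right hk)
    rw [Real.dist_eq] at h3 h4
    rw [← mul_sub, abs_mul, abs_of_nonneg (by positivity : 0 ≤ ‖v‖ + |m|)] at h3
    linarith)
  have h1 := compl_tendsto hyt
  have h2 : Tendsto (fun k => x + r k • v) atTop (𝓝 z) := by
    have := (hrt.smul_const v).const_add x
    simpa [hv] using this
  have hyz : y = z := tendsto_nhds_unique h1 h2
  exact ⟨hyz ▸ hy, hcl z hz (hyz ▸ hy)⟩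

/-- A Cauchy sequence for the graph distance is Cauchy in space; near the limit `fderiv u` is
bounded, so `graphDist_le_seg` tends to zero. -/
theorem complete_univ {u : EuclideanSpace ℝ (Fin n) → ℝ} (hu : ContDiff ℝ ∞ u) :
    EuclideanComplete univ u := by
  intro x _ hx
  have hC : CauchySeq x := by
    rw [Metric.cauchySeq_iff]
    intro δ hδ
    obtain ⟨N, hN⟩ := hx _ (ENNReal.ofReal_pos.2 hδ)
    refine ⟨N, fun k hk l hl => ?_⟩
    have := (edist_le_graphDist univ u (x k) (x l)).trans_lt (hN k hk l hl)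
    rw [dist_eq_norm]
    exact (ENNReal.ofReal_lt_ofReal_iff hδ).1 this
  obtain ⟨y, hy⟩ := cauchySeq_tendsto_of_complete hC
  refine ⟨y, mem_univ _, ?_⟩
  have hcf : Continuous (fderiv ℝ u) := hu.continuous_fderiv (by simp)
  obtain ⟨C, hCb⟩ := (isCompact_closedBall y 1).exists_bound_of_continuousOn hcf.continuousOn
  have hn : Tendsto (fun k => ‖y - x k‖) atTop (𝓝 0) := by
    have := (tendsto_const_nhds (x := y).sub hy).norm
    simpa using this
  have hlim : Tendsto (fun k => ENNReal.ofReal ‖y - x k‖ + ENNReal.ofReal (C * ‖y - x k‖)) atTop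
      (𝓝 0) := by
    have h1 := ENNReal.tendsto_ofReal hn
    have h2 := ENNReal.tendsto_ofReal (hn.const_mul C)
    simpa using h1.add h2
  refine tendsto_of_tendsto_of_tendsto_of_le_of_le' tendsto_const_nhds hlim
    (Eventually.of_forall fun _ => zero_le) ?_
  filter_upwards [hy.eventually (closedBall_mem_nhds y one_pos)] with k hk
  refine (graphDist_le_seg convex_univ u (mem_univ _) (mem_univ _)).trans (add_le_add le_rfl ?_)
  have h1 : ENNReal.ofReal (C * ‖y - x k‖) =
      ∫⁻ _ in Icc (0 : ℝ) 1, ENNReal.ofReal (C * ‖y - x k‖) := by simp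
  rw [h1]
  refine setLIntegral_mono' measurableSet_Icc fun t ht => ENNReal.ofReal_le_ofReal ?_
  have h2 : x k + t • (y - x k) ∈ closedBall y 1 :=
    (convex_closedBall y 1).add_smul_sub_mem hk (mem_closedBall_self zero_le_one) ht
  rw [← Real.norm_eq_abs]
  exact ((fderiv ℝ u _).le_opNorm _).trans
    (mul_le_mul_of_nonneg_right (hCb _ h2) (norm_nonneg _))

end Vale.Agent.P252b
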