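import Vale.Agent.P252b.Defs

/-!
Matrix inequalities. Useful: the square root `CFC.sqrt` or `Matrix.PosSemidef` factorisations
`G = Bᴴ * B`, `Matrix.trace_mul_cycle`, `IsHermitian.det_eq_prod_eigenvalues`,
`IsHermitian.trace_eq_sum_eigenvalues`, `Real.inner_le_nnorm_mul_nnorm`, weighted AM-GM
`Real.geom_mean_le_arith_mean_weighted`.
-/

open MeasureTheory Metric Set Filter Topology Matrix
open scoped ENNReal ContDiff

noncomputable section

namespace Vale.Agent.P252b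

variable {n : ℕ}

open scoped MatrixOrder in
theorem mat_factor {G : Matrix (Fin n) (Fin n) ℝ} (hG : G.PosSemidef) :
    ∃ B : Matrix (Fin n) (Fin n) ℝ, G = Bᵀ * B := by
  obtain ⟨B, hB⟩ := CStarAlgebra.nonneg_iff_eq_star_mul_self.1 hG.nonneg
  exact ⟨B, by simpa [star_eq_conjTranspose] using hB⟩

theorem mat_conj {S : Matrix (Fin n) (Fin n) ℝ} (hS : S.PosSemidef)
    (B : Matrix (Fin n) (Fin n) ℝ) : (B * S * Bᵀ).PosSemidef := by
  simpa using hS.mul_mul_conjTranspose_same B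

theorem mat_amgm {S : Matrix (Fin n) (Fin n) ℝ} (hn : 1 ≤ n) (hS : S.PosSemidef) :
    S.det ≤ (S.trace / n) ^ n := by
  have hn' : (0 : ℝ) < n := by exact_mod_cast hn
  have h1 := Real.geom_mean_le_arith_mean Finset.univ (fun _ : Fin n => (1 : ℝ)) hS.1.eigenvalues
    (fun _ _ => zero_le_one) (by simpa using hn') fun i _ => hS.eigenvalues_nonneg i
  simp only [Real.rpow_one, Finset.sum_const, Finset.card_univ, Fintype.card_fin, nsmul_eq_mul,
    mul_one, one_mul] at h1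
  have h0 : 0 ≤ ∏ i, hS.1.eigenvalues i := Finset.prod_nonneg fun i _ => hS.eigenvalues_nonneg i
  have h2 := pow_le_pow_left₀ (Real.rpow_nonneg h0 _) h1 n
  rw [Real.rpow_inv_natCast_pow h0 (by omega)] at h2
  rw [hS.1.det_eq_prod_eigenvalues, hS.1.trace_eq_sum_eigenvalues]
  simpa using h2

theorem mat_eig_le {B : Matrix (Fin n) (Fin n) ℝ} (hB : B.PosSemidef) (i : Fin n) :
    hB.1.eigenvalues i ≤ B.trace := by
  rw [hB.1.trace_eq_sum_eigenvalues]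
  simpa using Finset.single_le_sum (f := hB.1.eigenvalues) (fun j _ => hB.eigenvalues_nonneg j)
    (Finset.mem_univ i)

theorem mat_spec {A : Matrix (Fin n) (Fin n) ℝ} (hA : A.IsHermitian) (v : E n) :
    ∃ w : E n, v ⬝ᵥ v = ∑ i, w i * w i ∧
      v ⬝ᵥ (A *ᵥ v) = ∑ i, hA.eigenvalues i * (w i * w i) := by
  set U : Matrix (Fin n) (Fin n) ℝ := (hA.eigenvectorUnitary : Matrix (Fin n) (Fin n) ℝ) with hU
  have h1 : U * Uᵀ = 1 := by
    simpa [star_eq_conjTranspose] using Unitary.coe_mul_star_self hA.eigenvectorUnitary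
  have h2 : A = U * diagonal hA.eigenvalues * Uᵀ := by
    simpa [Unitary.conjStarAlgAut_apply, star_eq_conjTranspose] using hA.spectral_theorem
  refine ⟨Uᵀ *ᵥ v, ?_, ?_⟩
  · change _ = (Uᵀ *ᵥ v) ⬝ᵥ (Uᵀ *ᵥ v)
    rw [dotProduct_mulVec, vecMul_transpose, mulVec_mulVec, h1, one_mulVec]
  · have h3 : v ⬝ᵥ (A *ᵥ v) = (Uᵀ *ᵥ v) ⬝ᵥ (diagonal hA.eigenvalues *ᵥ (Uᵀ *ᵥ v)) := by
      conv_lhs => rw [h2]
      rw [← mulVec_mulVec, ← mulVec_mulVec, dotProduct_mulVec, ← mulVec_transpose]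
    rw [h3]
    exact Finset.sum_congr rfl fun i _ => by rw [mulVec_diagonal]; ring

theorem trace_mul_vecMulVec (G : Matrix (Fin n) (Fin n) ℝ) (v w : E n) :
    (G * vecMulVec v w).trace = w ⬝ᵥ (G *ᵥ v) := by
  simp only [Matrix.trace, diag_apply, mul_apply, vecMulVec_apply, dotProduct, mulVec,
    Finset.mul_sum]
  exact Finset.sum_congr rfl fun i _ => Finset.sum_congr rfl fun j _ => by ring

theorem dot_mulVec_comm {G : Matrix (Fin n) (Fin n) ℝ} (hG : Gᵀ = G) (v w : E n) :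
    v ⬝ᵥ (G *ᵥ w) = w ⬝ᵥ (G *ᵥ v) := by
  rw [dotProduct_mulVec, ← mulVec_transpose, hG, dotProduct_comm]

theorem psd_dot_nonneg {G : Matrix (Fin n) (Fin n) ℝ} (hG : G.PosSemidef) (v : E n) :
    0 ≤ v ⬝ᵥ (G *ᵥ v) := by
  simpa using hG.dotProduct_mulVec_nonneg v

theorem pd_dot_pos {G : Matrix (Fin n) (Fin n) ℝ} (hG : G.PosDef) {v : E n} (hv : v ≠ 0) :
    0 < v ⬝ᵥ (G *ᵥ v) := by
  simpa using hG.dotProduct_mulVec_pos hv

theorem psd_of_dot {G : Matrix (Fin n) (Fin n) ℝ} (hG : Gᵀ = G)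
    (h : ∀ v : E n, 0 ≤ v ⬝ᵥ (G *ᵥ v)) : G.PosSemidef :=
  PosSemidef.of_dotProduct_mulVec_nonneg (by simpa [IsHermitian] using hG) fun v => by
    simpa using h v

theorem pd_of_dot {G : Matrix (Fin n) (Fin n) ℝ} (hG : Gᵀ = G)
    (h : ∀ v : E n, v ≠ 0 → 0 < v ⬝ᵥ (G *ᵥ v)) : G.PosDef :=
  PosDef.of_dotProduct_mulVec_pos (by simpa [IsHermitian] using hG) fun v hv => by
    simpa using h v hv

theorem psd_transpose {G : Matrix (Fin n) (Fin n) ℝ} (hG : G.PosSemidef) : Gᵀ = G := by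
  simpa [IsHermitian] using hG.1

theorem trace_mul_nonneg {G S : Matrix (Fin n) (Fin n) ℝ} (hG : G.PosSemidef)
    (hS : S.PosSemidef) : 0 ≤ (G * S).trace := by
  obtain ⟨B, rfl⟩ := mat_factor hG
  rw [Matrix.mul_assoc, trace_mul_comm]
  exact (mat_conj hS B).trace_nonneg

/-- With `G = R R` (`R` the square root) the matrix `R S R` is positive semidefinite and has the
same trace and determinant as `G S`; AM-GM for its eigenvalues. -/
theorem det_mul_le {G S : Matrix (Fin n) (Fin n) ℝ} (hn : 1 ≤ n) (hG : G.PosSemidef)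
    (hS : S.PosSemidef) : 0 ≤ (G * S).det ∧ (G * S).det ≤ ((G * S).trace / n) ^ n := by
  obtain ⟨B, rfl⟩ := mat_factor hG
  have h1 : (Bᵀ * B * S).det = (B * S * Bᵀ).det := by
    simp only [det_mul]
    ring
  have h2 : (Bᵀ * B * S).trace = (B * S * Bᵀ).trace := by
    rw [Matrix.mul_assoc, trace_mul_comm]
  rw [h1, h2]
  exact ⟨(mat_conj hS B).det_nonneg, mat_amgm hn (mat_conj hS B)⟩

theorem det_le_trace_pow {S : Matrix (Fin n) (Fin n) ℝ} (hn : 1 ≤ n) (hS : S.PosSemidef) :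
    S.det ≤ (S.trace / n) ^ n :=
  mat_amgm hn hS

theorem eq_zero_of_trace_mul {G S : Matrix (Fin n) (Fin n) ℝ} (hG : G.PosDef)
    (hS : S.PosSemidef) (h : (G * S).trace ≤ 0) : S = 0 := by
  obtain ⟨B, rfl⟩ := mat_factor hG.posSemidef
  have h1 := mat_conj hS B
  rw [Matrix.mul_assoc, trace_mul_comm] at h
  have h2 := h1.trace_eq_zero_iff.1 (le_antisymm h h1.trace_nonneg)
  have h3 : IsUnit B.det := by
    have h4 := hG.det_pos
    rw [det_mul, det_transpose] at h4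
    exact (mul_self_pos.1 h4).isUnit
  have h5 : IsUnit Bᵀ.det := by rwa [det_transpose]
  calc S = B⁻¹ * (B * S * Bᵀ) * Bᵀ⁻¹ := by
        rw [Matrix.mul_assoc, Matrix.mul_nonsing_inv_cancel_right _ _ h5,
          Matrix.nonsing_inv_mul_cancel_left _ _ h3]
    _ = 0 := by rw [h2, Matrix.mul_zero, Matrix.zero_mul]

/-- If `H ≤ A` and the determinants agree then `H = A`: AM-GM for `A⁻¹ H` gives trace `≥ n`, so
the trace of `A⁻¹ (A - H)` is `≤ 0`. -/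
theorem eq_of_le_of_det_eq {A H : Matrix (Fin n) (Fin n) ℝ} (hn : 1 ≤ n) (hH : H.PosDef)
    (hAH : (A - H).PosSemidef) (hdet : A.det = H.det) : H = A := by
  have hA : A.PosDef := by simpa using hH.add_posSemidef hAH
  have hu : IsUnit A.det := hA.det_pos.ne'.isUnit
  have h1 := (det_mul_le hn hA.inv.posSemidef hH.posSemidef).2
  rw [det_mul, ← hdet, det_nonsing_inv_mul_det _ hu] at h1
  have hn' : (0 : ℝ) < n := by exact_mod_cast hn
  have h2 : 1 ≤ (A⁻¹ * H).trace / n :=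
    (one_le_pow_iff_of_nonneg (div_nonneg (trace_mul_nonneg hA.inv.posSemidef hH.posSemidef)
      hn'.le) (by omega)).1 h1
  rw [le_div_iff₀ hn', one_mul] at h2
  have h3 := eq_zero_of_trace_mul hA.inv hAH (by
    rw [Matrix.mul_sub, trace_sub, nonsing_inv_mul _ hu, trace_one, Fintype.card_fin]
    linarith)
  exact (sub_eq_zero.1 h3).symm

theorem psd_cs {G : Matrix (Fin n) (Fin n) ℝ} (hG : G.PosSemidef) (v w : E n) :
    (v ⬝ᵥ (G *ᵥ w)) ^ 2 ≤ (v ⬝ᵥ (G *ᵥ v)) * (w ⬝ᵥ (G *ᵥ w)) := by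
  have h := discrim_le_zero (a := v ⬝ᵥ (G *ᵥ v)) (b := 2 * (v ⬝ᵥ (G *ᵥ w)))
    (c := w ⬝ᵥ (G *ᵥ w)) fun t => by
      have h1 := psd_dot_nonneg hG (t • v + w)
      simp only [mulVec_add, mulVec_smul, add_dotProduct, dotProduct_add, smul_dotProduct,
        dotProduct_smul, smul_eq_mul] at h1
      rw [dot_mulVec_comm (psd_transpose hG) w v] at h1
      linarith
  rw [discrim] at h
  linarith

/-- Apply `psd_cs` for `H⁻¹` to `v` and `H w`. -/
theorem dual_cs {H : Matrix (Fin n) (Fin n) ℝ} (hH : H.PosDef) (v w : E n) :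
    (v ⬝ᵥ w) ^ 2 ≤ (v ⬝ᵥ (H⁻¹ *ᵥ v)) * (w ⬝ᵥ (H *ᵥ w)) := by
  have h := psd_cs hH.inv.posSemidef v (H *ᵥ w)
  rw [mulVec_mulVec, nonsing_inv_mul _ hH.det_pos.ne'.isUnit, one_mulVec,
    dotProduct_comm (H *ᵥ w)] at h
  exact h

theorem diag_le_trace {B : Matrix (Fin n) (Fin n) ℝ} (hB : B.PosSemidef) (i : Fin n) :
    B i i ≤ B.trace :=
  Finset.single_le_sum (f := fun j => B j j) (fun _ _ => hB.diag_nonneg) (Finset.mem_univ i)

theorem quad_le_trace {B : Matrix (Fin n) (Fin n) ℝ} (hB : B.PosSemidef) (v : E n) :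
    v ⬝ᵥ (B *ᵥ v) ≤ B.trace * (v ⬝ᵥ v) := by
  obtain ⟨w, h1, h2⟩ := mat_spec hB.1 v
  rw [h1, h2, Finset.mul_sum]
  refine Finset.sum_le_sum fun i _ => ?_
  exact mul_le_mul_of_nonneg_right (mat_eig_le hB i) (mul_self_nonneg _)

/-- Every eigenvalue of `A` is at most `τ` and their product is at least `c`, so every eigenvalue
is at least `c / τ ^ (n - 1)`. -/
theorem quad_compare {A B : Matrix (Fin n) (Fin n) ℝ} {τ c : ℝ} (hA : A.PosDef)
    (hB : B.PosSemidef) (hτA : A.trace ≤ τ) (hτB : B.trace ≤ τ) (hc : 0 < c) (hdet : c ≤ A.det)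
    (v : E n) : v ⬝ᵥ (B *ᵥ v) ≤ τ ^ n / c * (v ⬝ᵥ (A *ᵥ v)) := by
  obtain ⟨w, h1, h2⟩ := mat_spec hA.1 v
  have h0 : 0 ≤ v ⬝ᵥ v := Finset.sum_nonneg fun i _ => mul_self_nonneg _
  refine (quad_le_trace hB v).trans ((mul_le_mul_of_nonneg_right hτB h0).trans ?_)
  rw [h1, h2, Finset.mul_sum, Finset.mul_sum]
  refine Finset.sum_le_sum fun i _ => ?_
  rw [← mul_assoc (τ ^ n / c)]
  refine mul_le_mul_of_nonneg_right ?_ (mul_self_nonneg (w i))
  have h3 : ∀ j, hA.1.eigenvalues j ≤ τ := fun j => (mat_eig_le hA.posSemidef j).trans hτA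
  have hτ : 0 ≤ τ := (hA.eigenvalues_pos i).le.trans (h3 i)
  have h4 : ∏ j ∈ Finset.univ.erase i, hA.1.eigenvalues j ≤ ∏ _j ∈ Finset.univ.erase i, τ :=
    Finset.prod_le_prod (fun j _ => (hA.eigenvalues_pos j).le) fun j _ => h3 j
  have h5 : τ * ∏ _j ∈ Finset.univ.erase i, τ = τ ^ n := by
    rw [Finset.mul_prod_erase Finset.univ (fun _ => τ) (Finset.mem_univ i)]
    simp
  rw [hA.1.det_eq_prod_eigenvalues,
    ← Finset.mul_prod_erase Finset.univ _ (Finset.mem_univ i)] at hdet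
  simp only [RCLike.ofReal_real_eq_id, id] at hdet
  rw [div_mul_eq_mul_div, le_div_iff₀ hc, ← h5]
  calc τ * c ≤ τ * (hA.1.eigenvalues i * ∏ _j ∈ Finset.univ.erase i, τ) :=
        mul_le_mul_of_nonneg_left (hdet.trans
          (mul_le_mul_of_nonneg_left h4 (hA.eigenvalues_pos i).le)) hτ
    _ = _ := by ring

theorem trace_GTGT_nonneg {G T : Matrix (Fin n) (Fin n) ℝ} (hG : G.PosSemidef) (hT : Tᵀ = T) :
    0 ≤ (G * T * G * T).trace := by
  have h := mat_conj hG T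
  rw [hT] at h
  have h1 := trace_mul_nonneg hG h
  rwa [← Matrix.mul_assoc, ← Matrix.mul_assoc] at h1

/-- Pogorelov's inequality. Put `h = v·Hv`, `G' = H⁻¹ - h⁻¹ v vᵀ`, which is positive semidefinite
by `dual_cs`; expand `trace_GTGT_nonneg` for `G'`. -/
theorem pog_ineq {H T : Matrix (Fin n) (Fin n) ℝ} (hH : H.PosDef) (hT : Tᵀ = T) {v : E n}
    (hv : v ≠ 0) :
    2 * ((T *ᵥ v) ⬝ᵥ (H⁻¹ *ᵥ (T *ᵥ v))) / (v ⬝ᵥ (H *ᵥ v)) -
      (v ⬝ᵥ (T *ᵥ v)) ^ 2 / (v ⬝ᵥ (H *ᵥ v)) ^ 2 ≤ (H⁻¹ * T * H⁻¹ * T).trace := by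
  have hp := pd_dot_pos hH hv
  set h := v ⬝ᵥ (H *ᵥ v) with hh
  have hs : H⁻¹ᵀ = H⁻¹ := psd_transpose hH.inv.posSemidef
  have hV : ∀ w : E n, vecMulVec v v *ᵥ w = (v ⬝ᵥ w) • v := fun w => by
    ext i
    simp only [mulVec, dotProduct, vecMulVec_apply, Pi.smul_apply, smul_eq_mul, Finset.sum_mul]
    exact Finset.sum_congr rfl fun j _ => by ring
  have hG : (H⁻¹ - h⁻¹ • vecMulVec v v).PosSemidef := by
    refine psd_of_dot (by rw [transpose_sub, transpose_smul, hs, transpose_vecMulVec]) fun w => ?_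
    rw [sub_mulVec, smul_mulVec, hV, dotProduct_sub, dotProduct_smul, dotProduct_smul,
      dotProduct_comm v w, sub_nonneg, smul_eq_mul, smul_eq_mul, inv_mul_le_iff₀ hp]
    have h1 := dual_cs hH w v
    nlinarith
  have h1 := trace_GTGT_nonneg hG hT
  have h2 : (T * H⁻¹ * T * vecMulVec v v).trace = (T *ᵥ v) ⬝ᵥ (H⁻¹ *ᵥ (T *ᵥ v)) := by
    rw [trace_mul_vecMulVec, ← mulVec_mulVec, ← mulVec_mulVec, dot_mulVec_comm hT,
      dotProduct_comm]
  have h3 : (H⁻¹ * T * vecMulVec v v * T).trace = (T *ᵥ v) ⬝ᵥ (H⁻¹ *ᵥ (T *ᵥ v)) := by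
    rw [← h2, trace_mul_comm]
    simp only [Matrix.mul_assoc]
  have h4 : (vecMulVec v v * T * H⁻¹ * T).trace = (T *ᵥ v) ⬝ᵥ (H⁻¹ *ᵥ (T *ᵥ v)) := by
    rw [← h2, trace_mul_comm (T * H⁻¹ * T)]
    simp only [Matrix.mul_assoc]
  have h5 : (vecMulVec v v * T * vecMulVec v v * T).trace = (v ⬝ᵥ (T *ᵥ v)) ^ 2 := by
    have h6 : (vecMulVec v v * T * vecMulVec v v * T).trace
        = (T * vecMulVec v v * T * vecMulVec v v).trace := by
      rw [trace_mul_comm (T * vecMulVec v v * T)]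
      simp only [Matrix.mul_assoc]
    rw [h6, trace_mul_vecMulVec, ← mulVec_mulVec, ← mulVec_mulVec, hV, mulVec_smul,
      dotProduct_smul, smul_eq_mul, sq]
  simp only [Matrix.sub_mul, Matrix.mul_sub, Matrix.smul_mul, Matrix.mul_smul, trace_sub,
    trace_smul, smul_eq_mul, h3, h4, h5] at h1
  rw [div_eq_mul_inv, div_eq_mul_inv, ← inv_pow]
  nlinarith

end Vale.Agent.P252b
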