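import Vale.Agent.P252b.CalcB
import Vale.Agent.P252b.Mat

/-!
Affine functions, convexity of the epigraph, compactness of sections and caps.
-/

open MeasureTheory Metric Set Filter Topology Matrix
open scoped ENNReal ContDiff

noncomputable section

namespace Vale.Agent.P252b

variable {n : ℕ}

theorem Af.ev_add_smul (a : Af n) (W V : E n × ℝ) (t : ℝ) :
    a.ev (W + t • V) = a.ev W + t * a.lin V := by
  simp only [Af.ev, Af.lin, Prod.fst_add, Prod.snd_add, Prod.smul_fst, Prod.smul_snd,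
    dotProduct_add, dotProduct_smul, smul_eq_mul]
  ring

theorem Af.ev_sub (a : Af n) (W W' : E n × ℝ) : a.ev W - a.ev W' = a.lin (W - W') := by
  simp only [Af.ev, Af.lin, Prod.fst_sub, Prod.snd_sub, dotProduct_sub]
  ring

theorem Af.lin_smul (a : Af n) (t : ℝ) (V : E n × ℝ) : a.lin (t • V) = t * a.lin V := by
  simp only [Af.lin, Prod.smul_fst, Prod.smul_snd, dotProduct_smul, smul_eq_mul]
  ring

theorem Af.ev_seg (a : Af n) (W W' : E n × ℝ) (t : ℝ) :
    a.ev (W + t • (W' - W)) = (1 - t) * a.ev W + t * a.ev W' := by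
  rw [Af.ev_add_smul, ← Af.ev_sub]
  ring

theorem Af.ev_comb (r t c : ℝ) (a b : Af n) (W : E n × ℝ) :
    (Af.comb r a t b c).ev W = r * a.ev W + t * b.ev W + c := by
  simp only [Af.ev, Af.comb, add_dotProduct, smul_dotProduct, smul_eq_mul]
  ring

theorem Af.lin_comb (r t c : ℝ) (a b : Af n) (V : E n × ℝ) :
    (Af.comb r a t b c).lin V = r * a.lin V + t * b.lin V := by
  simp only [Af.lin, Af.comb, add_dotProduct, smul_dotProduct, smul_eq_mul]
  ring

theorem Af.continuous_ev (a : Af n) : Continuous a.ev := by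
  unfold Af.ev
  fun_prop

theorem tgA_ev (u : E n → ℝ) (x : E n) (W : E n × ℝ) : (tgA u x).ev W = tg u x W := by
  simp only [Af.ev, tgA, tg, neg_dotProduct, dotProduct_sub]
  ring

theorem tgA_lin (u : E n → ℝ) (x : E n) (V : E n × ℝ) :
    (tgA u x).lin V = V.2 - grad u x ⬝ᵥ V.1 := by
  simp only [Af.lin, tgA, neg_dotProduct]
  ring

theorem tg_seg (u : E n → ℝ) (x : E n) (W W' : E n × ℝ) (t : ℝ) :
    tg u x (W + t • (W' - W)) = (1 - t) * tg u x W + t * tg u x W' := by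
  simp only [← tgA_ev, Af.ev_seg]

theorem Br_self (u : E n → ℝ) (x : E n) : Br u x x = 0 := by simp [Br, tg]

variable {Ω : Set (E n)} {u : E n → ℝ}

theorem Cvx.contDiffAt (h : Cvx Ω u) {x : E n} (hx : x ∈ Ω) : ContDiffAt ℝ ∞ u x :=
  h.smooth.contDiffAt (h.isOpen.mem_nhds hx)

/-- Along the segment `φ(s) = u (x + s (y - x))` has `φ'' > 0` (`hasDerivAt_line2`), so `φ'` is
strictly increasing; mean value theorem. -/
theorem Cvx.Br_pos (h : Cvx Ω u) {x y : E n} (hx : x ∈ Ω) (hy : y ∈ Ω) (hxy : x ≠ y) :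
    0 < Br u x y := by
  have hm : ∀ t ∈ Icc (0 : ℝ) 1, x + t • (y - x) ∈ Ω := fun t ht =>
    h.convex.add_smul_sub_mem hx hy ht
  have d1 : ∀ t ∈ Icc (0 : ℝ) 1, HasDerivAt (fun s : ℝ => u (x + s • (y - x)))
      (grad u (x + t • (y - x)) ⬝ᵥ (y - x)) t := fun t ht =>
    hasDerivAt_line ((h.contDiffAt (hm t ht)).differentiableAt (by simp))
  have d2 := fun t ht => hasDerivAt_line2 (h.contDiffAt (hm t ht))
  have mono : StrictMonoOn (fun s : ℝ => grad u (x + s • (y - x)) ⬝ᵥ (y - x)) (Icc 0 1) :=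
    strictMonoOn_of_deriv_pos (convex_Icc 0 1)
      (fun t ht => (d2 t ht).continuousAt.continuousWithinAt) fun t ht => by
        rw [(d2 t (interior_subset ht)).deriv]
        exact pd_dot_pos (h.posDef _ (hm t (interior_subset ht))) (sub_ne_zero.2 hxy.symm)
  obtain ⟨c, hc, e⟩ := exists_hasDerivAt_eq_slope (fun s : ℝ => u (x + s • (y - x))) _ zero_lt_one
    (fun t ht => (d1 t ht).continuousAt.continuousWithinAt)
    fun t ht => d1 t (Ioo_subset_Icc_self ht)
  have k := mono ⟨le_rfl, zero_le_one⟩ (Ioo_subset_Icc_self hc) hc.1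
  simp only [zero_smul, add_zero, one_smul, add_sub_cancel, sub_zero, div_one] at e k
  rw [e] at k
  exact sub_pos.2 k

theorem Cvx.Br_nonneg (h : Cvx Ω u) {x y : E n} (hx : x ∈ Ω) (hy : y ∈ Ω) : 0 ≤ Br u x y := by
  rcases eq_or_ne x y with rfl | k
  · exact (Br_self u x).ge
  · exact (h.Br_pos hx hy k).le

/-- From `Br_nonneg` at the point `a x + b y`. -/
theorem Cvx.convexOn (h : Cvx Ω u) : ConvexOn ℝ Ω u := by
  refine ⟨h.convex, fun x hx y hy a b ha hb hab => ?_⟩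
  have hz := h.convex hx hy ha hb hab
  have k1 := mul_nonneg ha (h.Br_nonneg hz hx)
  have k2 := mul_nonneg hb (h.Br_nonneg hz hy)
  simp only [Br, tg, dotProduct_sub, dotProduct_add, dotProduct_smul, smul_eq_mul] at k1 k2 ⊢
  obtain rfl : b = 1 - a := by linarith
  linarith

theorem Cvx.nn_tgA (h : Cvx Ω u) {x : E n} (hx : x ∈ Ω) : NN Ω u (tgA u x) := fun W hW => by
  have k := h.Br_nonneg hx hW.1
  rw [tgA_ev]
  simp only [Br, tg] at k ⊢
  linarith [hW.2]

theorem Cvx.tg_nonneg (h : Cvx Ω u) {x : E n} (hx : x ∈ Ω) {W : E n × ℝ} (hW : W ∈ epi Ω u) :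
    0 ≤ tg u x W := tgA_ev u x W ▸ h.nn_tgA hx W hW

theorem Cvx.tg_pos (h : Cvx Ω u) {x : E n} (hx : x ∈ Ω) {W : E n × ℝ} (hW : W ∈ epi0 Ω u) :
    0 < tg u x W := by
  have k := h.Br_nonneg hx hW.1
  simp only [Br, tg] at k ⊢
  linarith [hW.2]

theorem epi0_subset : epi0 Ω u ⊆ epi Ω u := fun _ hW => ⟨hW.1, hW.2.le⟩

theorem graph_mem_epi {x : E n} (hx : x ∈ Ω) : (x, u x) ∈ epi Ω u := ⟨hx, le_rfl⟩

theorem Cvx.convex_epi (h : Cvx Ω u) : Convex ℝ (epi Ω u) := h.convexOn.convex_epigraph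

theorem Cvx.seg_mem_epi (h : Cvx Ω u) {W W' : E n × ℝ} (hW : W ∈ epi Ω u) (hW' : W' ∈ epi Ω u)
    {t : ℝ} (h0 : 0 ≤ t) (h1 : t ≤ 1) : W + t • (W' - W) ∈ epi Ω u :=
  h.convex_epi.add_smul_sub_mem hW hW' ⟨h0, h1⟩

theorem Cvx.seg_mem_epi0 (h : Cvx Ω u) {W W' : E n × ℝ} (hW : W ∈ epi0 Ω u)
    (hW' : W' ∈ epi Ω u) {t : ℝ} (h0 : 0 ≤ t) (h1 : t < 1) : W + t • (W' - W) ∈ epi0 Ω u := by
  have k := h.seg_mem_epi (graph_mem_epi hW.1) hW' h0 h1.le
  refine ⟨k.1, k.2.trans_lt ?_⟩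
  have := mul_pos (sub_pos.2 h1) (sub_pos.2 hW.2)
  simp only [Prod.snd_add, Prod.smul_snd, Prod.snd_sub, smul_eq_mul]
  linarith

theorem Cvx.isOpen_epi0 (h : Cvx Ω u) : IsOpen (epi0 Ω u) := by
  have c : ContinuousOn (fun W : E n × ℝ => W.2 - u W.1) (Prod.fst ⁻¹' Ω) :=
    continuousOn_snd.sub (h.smooth.continuousOn.comp continuousOn_fst fun _ k => k)
  have k := c.isOpen_inter_preimage (h.isOpen.preimage continuous_fst) (isOpen_Ioi (a := 0))
  have e : epi0 Ω u = Prod.fst ⁻¹' Ω ∩ (fun W : E n × ℝ => W.2 - u W.1) ⁻¹' Ioi 0 := by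
    ext W
    simp [epi0]
  rwa [e]

theorem Cvx.isClosed_epi (h : Cvx Ω u) : IsClosed (epi Ω u) := by
  have e : epi Ω u = ⋂ c : ℝ, (Prod.fst ⁻¹' {x | x ∈ Ω ∧ u x ≤ c} ∪ {W | c ≤ W.2}) := by
    ext W
    simp only [epi, mem_iInter, mem_union, mem_preimage, mem_ofPred_eq]
    refine ⟨fun k c => (le_total c W.2).elim Or.inr fun j => Or.inl ⟨k.1, k.2.trans j⟩,
      fun k => ?_⟩
    have j : ∀ c, W.2 < c → W.1 ∈ Ω ∧ u W.1 ≤ c := fun c hc => (k c).resolve_right hc.not_ge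
    exact ⟨(j _ (lt_add_one _)).1, le_of_forall_gt_imp_ge_of_dense fun c hc => (j c hc).2⟩
  rw [e]
  exact isClosed_iInter fun c => ((h.closed c).preimage continuous_fst).union
    (isClosed_le continuous_const continuous_snd)

theorem NN.s_nonneg {a : Af n} (ha : NN Ω u a) {x : E n} (hx : x ∈ Ω) : 0 ≤ a.s := by
  refine not_lt.1 fun k => ?_
  have a0 := ha _ (graph_mem_epi hx)
  have t0 : 0 ≤ (a.ev (x, u x) + 1) / -a.s := div_nonneg (by linarith) (by linarith)
  have a1 := ha (x, u x + (a.ev (x, u x) + 1) / -a.s) ⟨hx, le_add_of_nonneg_right t0⟩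
  have e : a.s * ((a.ev (x, u x) + 1) / -a.s) = -(a.ev (x, u x) + 1) := by
    have := k.ne
    field_simp
  generalize (a.ev (x, u x) + 1) / -a.s = t at a1 e
  simp only [Af.ev, mul_add] at a1 e
  linarith

theorem conva_closed (h : Cvx Ω u) {a : Af n} (ha : 0 < a.s) (s : ℝ) :
    IsClosed (sec Ω u a s) := by
  have e : sec Ω u a s = (fun y => (y, (s - a.p ⬝ᵥ y - a.c) / a.s)) ⁻¹' epi Ω u := by
    ext y
    simp only [sec, epi, Af.on, Af.ev, mem_preimage, mem_ofPred_eq, le_div_iff₀ ha]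
    exact and_congr_right fun _ => ⟨fun k => by linarith, fun k => by linarith⟩
  rw [e]
  exact h.isClosed_epi.preimage (by fun_prop)

/-- Sections are compact. Closed: `closed` at the level `c + L(y) + 1` near a limit point `y`
(or `isClosed_epi`). Bounded: `Br u x · ≥ δ > 0` on a small sphere around `x` inside `Ω`, and
`Br u x ·` is convex on `Ω` and vanishes at `x`, so it grows linearly. -/
theorem Cvx.isCompact_Br (h : Cvx Ω u) {x : E n} (hx : x ∈ Ω) (c : ℝ) :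
    IsCompact {y | y ∈ Ω ∧ Br u x y ≤ c} := by
  have e : {y | y ∈ Ω ∧ Br u x y ≤ c} = sec Ω u (tgA u x) c := by
    simp only [sec, Af.on, tgA_ev, Br]
  refine Metric.isCompact_of_isClosed_isBounded (e ▸ conva_closed h one_pos c) ?_
  obtain ⟨r, r0, hr⟩ := nhds_basis_closedBall.mem_iff.1 (h.isOpen.mem_nhds hx)
  have hs : sphere x r ⊆ Ω := sphere_subset_closedBall.trans hr
  have cb : ContinuousOn (Br u x) (sphere x r) := by
    have := h.smooth.continuousOn.mono hs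
    unfold Br tg
    fun_prop
  obtain ⟨δ, δ0, hδ⟩ := (isCompact_sphere x r).exists_forall_le' cb (a := 0) fun z hz =>
    h.Br_pos hx (hs hz) fun k => by simp [← k, r0.ne] at hz
  refine (isBounded_closedBall (x := x) (r := max r (r * c / δ))).subset fun y hy => ?_
  rw [mem_closedBall_iff_norm, le_max_iff, or_iff_not_imp_left, not_le]
  intro k
  have y0 := r0.trans k
  have t0 : 0 < r / ‖y - x‖ := div_pos r0 y0
  have m := h.seg_mem_epi (graph_mem_epi hx) (graph_mem_epi hy.1) t0.le ((div_le_one y0).2 k.le)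
  have k1 := tg_seg u x (x, u x) (y, u y) (r / ‖y - x‖)
  have k2 := hδ (x + (r / ‖y - x‖) • (y - x)) (by
    rw [mem_sphere_iff_norm, add_sub_cancel_left, norm_smul, Real.norm_of_nonneg t0.le,
      div_mul_cancel₀ _ y0.ne'])
  have k3 : δ ≤ r / ‖y - x‖ * c := by
    have k4 := mul_le_mul_of_nonneg_left hy.2 t0.le
    have k5 := m.2
    have k6 := Br_self u x
    simp only [Br, tg, Prod.fst_add, Prod.smul_fst, Prod.fst_sub] at k1 k2 k4 k5 k6
    rw [k6] at k1
    linarith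
  rw [div_mul_eq_mul_div, le_div_iff₀ y0] at k3
  rw [le_div_iff₀ δ0]
  linarith

/-- `C ≤ 0` or `a.s = 0` is impossible (test with `W = (x, u x + t)`, `t → ∞`); the section is a
closed subset of `{Br u x · ≤ C s}`. -/
theorem Cvx.capF_of_dom (h : Cvx Ω u) {a : Af n} (ha : NN Ω u a) {x : E n} (hx : x ∈ Ω) {C : ℝ}
    (hC : ∀ W ∈ epi Ω u, tg u x W ≤ C * a.ev W) : CapF Ω u a := by
  have s0 : 0 < a.s := (ha.s_nonneg hx).lt_of_ne fun k => by
    have j := hC (x, u x + (|C * a.ev (x, u x)| + 1))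
      ⟨hx, le_add_of_nonneg_right (by positivity)⟩
    have := le_abs_self (C * a.ev (x, u x))
    generalize |C * a.ev (x, u x)| = t at j this
    simp only [tg, Af.ev, ← k, zero_mul, sub_self, dotProduct_zero] at j this
    linarith
  refine ⟨ha, s0, fun s => (h.isCompact_Br hx (|C| * s)).of_isClosed_subset
    (conva_closed h s0 s) fun y hy => ⟨hy.1, (hC _ (graph_mem_epi hy.1)).trans ?_⟩⟩
  exact mul_le_mul (le_abs_self C) hy.2 (ha _ (graph_mem_epi hy.1)) (abs_nonneg C)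

theorem CapF.on_le_ev {a : Af n} (ha : CapF Ω u a) {W : E n × ℝ} (hW : W ∈ epi Ω u) :
    a.on u W.1 ≤ a.ev W := by
  have := mul_le_mul_of_nonneg_left hW.2 ha.spos.le
  simp only [Af.on, Af.ev]
  linarith

theorem conva_half (a : Af n) (s : ℝ) : Convex ℝ {W | a.ev W ≤ s} := by
  intro W hW W' hW' p q hp hq hpq
  have k1 := mul_le_mul_of_nonneg_left (show a.ev W ≤ s from hW) hp
  have k2 := mul_le_mul_of_nonneg_left (show a.ev W' ≤ s from hW') hq
  obtain rfl : q = 1 - p := by linarith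
  simp only [Af.ev, mem_ofPred_eq, Prod.fst_add, Prod.snd_add, Prod.smul_fst, Prod.smul_snd,
    dotProduct_add, dotProduct_smul, smul_eq_mul] at k1 k2 ⊢
  linarith

theorem CapF.convex_sec (h : Cvx Ω u) {a : Af n} (ha : CapF Ω u a) (s : ℝ) :
    Convex ℝ (sec Ω u a s) := by
  have e : sec Ω u a s = Prod.fst '' (epi Ω u ∩ {W | a.ev W ≤ s}) := by
    ext y
    refine ⟨fun k => ⟨_, ⟨graph_mem_epi k.1, k.2⟩, rfl⟩, ?_⟩
    rintro ⟨W, hW, rfl⟩
    exact ⟨hW.1.1, (ha.on_le_ev hW.1).trans hW.2⟩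
  rw [e]
  exact (h.convex_epi.inter (conva_half a s)).is_linear_image ⟨fun _ _ => rfl, fun _ _ => rfl⟩

theorem Cvx.convex_cap (h : Cvx Ω u) (a : Af n) (s : ℝ) : Convex ℝ (cap Ω u a s) :=
  h.convex_epi.inter (conva_half a s)

theorem CapF.isCompact_cap (h : Cvx Ω u) {a : Af n} (ha : CapF Ω u a) (s : ℝ) :
    IsCompact (cap Ω u a s) := by
  have cu : ContinuousOn u (sec Ω u a s) := h.smooth.continuousOn.mono fun _ k => k.1
  obtain ⟨m, hm⟩ := (ha.cpt s).bddBelow_image cu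
  obtain ⟨M, hM⟩ := (ha.cpt s).bddAbove_image
    (f := fun y => (s - a.p ⬝ᵥ y - a.c) / a.s) (Continuous.continuousOn (by fun_prop))
  refine ((ha.cpt s).prod (isCompact_Icc (a := m) (b := M))).of_isClosed_subset
    (h.isClosed_epi.inter (isClosed_le a.continuous_ev continuous_const)) fun W hW => ?_
  have k : W.1 ∈ sec Ω u a s := ⟨hW.1.1, (ha.on_le_ev hW.1).trans hW.2⟩
  refine ⟨k, (hm (mem_image_of_mem _ k)).trans hW.1.2, le_trans ?_ (hM (mem_image_of_mem _ k))⟩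
  have j := hW.2
  rw [le_div_iff₀ ha.spos]
  simp only [Af.ev] at j
  linarith

/-- A positive multiple plus a nonnegative function plus a nonnegative constant. -/
theorem CapF.comb (h : Cvx Ω u) (hne : Ω.Nonempty) {a b : Af n} (ha : CapF Ω u a)
    (hb : NN Ω u b) {r t c : ℝ} (hr : 0 < r) (ht : 0 ≤ t) (hc : 0 ≤ c) : CapF Ω u (Af.comb r a t b c) := by
  obtain ⟨x, hx⟩ := hne
  have s0 : 0 < (Af.comb r a t b c).s :=
    add_pos_of_pos_of_nonneg (mul_pos hr ha.spos) (mul_nonneg ht (hb.s_nonneg hx))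
  refine ⟨fun W hW => ?_, s0, fun s => (ha.cpt (s / r)).of_isClosed_subset
    (conva_closed h s0 s) fun y hy => ⟨hy.1, ?_⟩⟩
  · rw [Af.ev_comb]
    exact add_nonneg (add_nonneg (mul_nonneg hr.le (ha.nn W hW)) (mul_nonneg ht (hb W hW))) hc
  · have j := hy.2
    have k := mul_nonneg ht (hb _ (graph_mem_epi hy.1))
    rw [Af.on, Af.ev_comb] at j
    rw [le_div_iff₀ hr, Af.on]
    linarith

theorem Cvx.capF_tgA (h : Cvx Ω u) {x : E n} (hx : x ∈ Ω) : CapF Ω u (tgA u x) :=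
  h.capF_of_dom (h.nn_tgA hx) hx (C := 1) fun W _ => by rw [tgA_ev, one_mul]

/-- `Br u x y + Br u y x = (grad u y - grad u x) · (y - x)`. -/
theorem Cvx.injOn_grad (h : Cvx Ω u) : InjOn (grad u) Ω := fun x hx y hy e => by
  by_contra k
  have k1 := h.Br_pos hx hy k
  have k2 := h.Br_nonneg hy hx
  simp only [Br, tg, e, dotProduct_sub] at k1 k2
  linarith

end Vale.Agent.P252b
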