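import Vale.Agent.P252b.CalcB
import Vale.Agent.P252b.Mat

/-!
Jacobi formula, derivative of the inverse Hessian, Piola identity and the divergence form of the
affine maximal equation.
-/

open MeasureTheory Metric Set Filter Topology Matrix
open scoped ENNReal ContDiff

noncomputable section

namespace Vale.Agent.P252b

variable {n : ℕ}

theorem jac_det {M : E n → Matrix (Fin n) (Fin n) ℝ} {x : E n}
    (h : ∀ i j, ContDiffAt ℝ ∞ (fun y => M y i j) x) : ContDiffAt ℝ ∞ (fun y => (M y).det) x := by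
  simp only [Matrix.det_apply']
  exact ContDiffAt.sum fun σ _ => contDiffAt_const.mul (contDiffAt_prod fun i _ => h _ _)

theorem jac_adj {M : E n → Matrix (Fin n) (Fin n) ℝ} {x : E n}
    (h : ∀ i j, ContDiffAt ℝ ∞ (fun y => M y i j) x) (i j : Fin n) :
    ContDiffAt ℝ ∞ (fun y => (M y).adjugate i j) x := by
  simp only [Matrix.adjugate_apply]
  refine jac_det fun a b => ?_
  by_cases hab : a = j
  · subst hab
    simp only [Matrix.updateRow_self]
    exact contDiffAt_const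
  · simp only [Matrix.updateRow_ne hab]
    exact h a b

theorem jac_hasDerivAt {A : ℝ → Matrix (Fin n) (Fin n) ℝ} {A' : Matrix (Fin n) (Fin n) ℝ} {t : ℝ}
    (h : ∀ i j, HasDerivAt (fun s => A s i j) (A' i j) t) :
    HasDerivAt (fun s => (A s).det) ((A t).adjugate * A').trace t := by
  have h1 : ∀ σ : Equiv.Perm (Fin n), HasDerivAt
      (fun s => ((Equiv.Perm.sign σ : ℤ) : ℝ) * ∏ i, A s (σ i) i)
      (((Equiv.Perm.sign σ : ℤ) : ℝ) *
        ∑ i, (∏ j ∈ Finset.univ.erase i, A t (σ j) j) • A' (σ i) i) t := fun σ =>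
    (HasDerivAt.fun_finsetProd fun i _ => h (σ i) i).const_mul _
  have h2 := HasDerivAt.fun_sum (u := Finset.univ) fun σ _ => h1 σ
  have e : ((A t).adjugate * A').trace = ∑ σ : Equiv.Perm (Fin n),
      ((Equiv.Perm.sign σ : ℤ) : ℝ) *
        ∑ i, (∏ j ∈ Finset.univ.erase i, A t (σ j) j) • A' (σ i) i := by
    simp only [Finset.mul_sum]
    rw [Finset.sum_comm]
    refine Finset.sum_congr rfl fun i _ => ?_
    have e1 : ((A t).adjugate * A').diag i = (A t).cramer (fun k => A' k i) i := by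
      rw [Matrix.cramer_eq_adjugate_mulVec]
      rfl
    rw [e1, Matrix.cramer_apply, Matrix.det_apply']
    refine Finset.sum_congr rfl fun σ _ => ?_
    rw [← Finset.mul_prod_erase Finset.univ _ (Finset.mem_univ i), Matrix.updateCol_self,
      smul_eq_mul, mul_comm (A' _ _)]
    congr 2
    exact Finset.prod_congr rfl fun j hj => Matrix.updateCol_ne (Finset.ne_of_mem_erase hj)
  rw [e]
  simp only [Matrix.det_apply']
  exact h2

theorem jac_symm2 {f : E n → ℝ} {x : E n} (h2 : ContDiffAt ℝ 2 f x) : (Hs f x)ᵀ = Hs f x := by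
  have hs := h2.isSymmSndFDerivAt (by simp)
  have hd : DifferentiableAt ℝ (fderiv ℝ f) x :=
    (h2.fderiv_right (m := 1) (by norm_num)).differentiableAt (by simp)
  have key : ∀ i j : Fin n, Hs f x i j =
      fderiv ℝ (fderiv ℝ f) x (Pi.single i 1) (Pi.single j 1) := by
    intro i j
    have h3 := (hd.hasFDerivAt.clm_apply (hasFDerivAt_const (Pi.single j (1 : ℝ) : E n) x)).fderiv
    change fderiv ℝ (fun y => fderiv ℝ f y (Pi.single j 1)) x (Pi.single i 1) = _
    rw [h3]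
    simp
  ext i j
  rw [transpose_apply, key, key, hs.eq]

/-- The Hessian is symmetric near a point of smoothness. -/
theorem eventually_Hs_symm {u : E n → ℝ} {x : E n} (hu : ContDiffAt ℝ ∞ u x) :
    ∀ᶠ y in 𝓝 x, (Hs u y)ᵀ = Hs u y := by
  have h2 : ContDiffAt ℝ 2 u x := hu.of_le (ENat.natCast_le_of_coe_top_le_withTop le_rfl 2)
  exact (h2.eventually (by simp)).mono fun _ hy => jac_symm2 hy

theorem jac_symm1 {u : E n → ℝ} {x : E n} (hu : ContDiffAt ℝ ∞ u x) (i j : Fin n) :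
    grad (fun y => Hs u y i j) x = grad (fun y => Hs u y j i) x :=
  grad_congr ((eventually_Hs_symm hu).mono fun _ hy => (congrFun (congrFun hy i) j).symm)

theorem jac_symm3 {u : E n → ℝ} {x : E n} (hu : ContDiffAt ℝ ∞ u x) (i j k : Fin n) :
    grad (fun y => Hs u y i j) x k = grad (fun y => Hs u y i k) x j := by
  rw [jac_symm1 hu i j, jac_symm1 hu i k]
  exact congrFun (congrFun (Hs_symm (contDiffAt_pd hu i)) j) k

section
variable {u : E n → ℝ} {x : E n}

theorem Dt_pos (h : (Hs u x).PosDef) : 0 < Dt u x :=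
  h.det_pos

theorem ff_pos (h : (Hs u x).PosDef) : 0 < ff u x :=
  Real.rpow_pos_of_pos (Dt_pos h) _

theorem ww_pos (h : (Hs u x).PosDef) : 0 < ww u x :=
  Real.rpow_pos_of_pos (Dt_pos h) _

theorem Gm_posDef (h : (Hs u x).PosDef) : (Gm u x).PosDef :=
  h.inv

theorem Gm_symm (h : (Hs u x).PosDef) : (Gm u x)ᵀ = Gm u x :=
  psd_transpose (Gm_posDef h).posSemidef

theorem Gm_mul_Hs (h : (Hs u x).PosDef) : Gm u x * Hs u x = 1 :=
  Matrix.nonsing_inv_mul _ (Dt_pos h).ne'.isUnit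

theorem Hs_mul_Gm (h : (Hs u x).PosDef) : Hs u x * Gm u x = 1 :=
  Matrix.mul_nonsing_inv _ (Dt_pos h).ne'.isUnit

theorem Gm_mulVec_Hs (h : (Hs u x).PosDef) (v : E n) : Gm u x *ᵥ (Hs u x *ᵥ v) = v := by
  rw [mulVec_mulVec, Gm_mul_Hs h, one_mulVec]

theorem Hs_mulVec_Gm (h : (Hs u x).PosDef) (v : E n) : Hs u x *ᵥ (Gm u x *ᵥ v) = v := by
  rw [mulVec_mulVec, Hs_mul_Gm h, one_mulVec]

theorem gq_comm (h : (Hs u x).PosDef) (v w : E n) : gq u x v w = gq u x w v :=
  dot_mulVec_comm (Gm_symm h) v w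

theorem gq_nonneg (h : (Hs u x).PosDef) (v : E n) : 0 ≤ gq u x v v :=
  psd_dot_nonneg (Gm_posDef h).posSemidef v

theorem gq_Hs (h : (Hs u x).PosDef) (v w : E n) : gq u x v (Hs u x *ᵥ w) = v ⬝ᵥ w := by
  rw [gq, Gm_mulVec_Hs h]

theorem contDiffAt_Dt (hu : ContDiffAt ℝ ∞ u x) : ContDiffAt ℝ ∞ (Dt u) x :=
  jac_det (M := Hs u) (contDiffAt_Hs hu)

theorem contDiffAt_ff (hu : ContDiffAt ℝ ∞ u x) (h : (Hs u x).PosDef) :
    ContDiffAt ℝ ∞ (ff u) x :=
  (contDiffAt_Dt hu).rpow_const_of_ne (Dt_pos h).ne'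

theorem contDiffAt_ww (hu : ContDiffAt ℝ ∞ u x) (h : (Hs u x).PosDef) :
    ContDiffAt ℝ ∞ (ww u) x :=
  (contDiffAt_Dt hu).rpow_const_of_ne (Dt_pos h).ne'

/-- `Matrix.inv_def`: inverse = (det)⁻¹ • adjugate, and adjugate entries are determinants. -/
theorem contDiffAt_Gm (hu : ContDiffAt ℝ ∞ u x) (h : (Hs u x).PosDef) (i j : Fin n) :
    ContDiffAt ℝ ∞ (fun y => Gm u y i j) x := by
  have e : (fun y => Gm u y i j) = fun y => (Dt u y)⁻¹ * (Hs u y).adjugate i j := by
    funext y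
    rw [Gm, Matrix.inv_def, Ring.inverse_eq_inv']
    rfl
  rw [e]
  exact ((contDiffAt_Dt hu).inv (Dt_pos h).ne').mul (jac_adj (contDiffAt_Hs hu) i j)

theorem contDiffAt_Gm_mulVec (hu : ContDiffAt ℝ ∞ u x) (h : (Hs u x).PosDef) {V : E n → E n}
    (hV : ContDiffAt ℝ ∞ V x) : ContDiffAt ℝ ∞ (fun y => Gm u y *ᵥ V y) x := by
  refine contDiffAt_pi.2 fun i => ?_
  simp only [mulVec, dotProduct]
  exact ContDiffAt.sum fun j _ => (contDiffAt_Gm hu h i j).mul (contDiffAt_pi.1 hV j)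

theorem eventually_det_ne (hu : ContDiffAt ℝ ∞ u x) (h : (Hs u x).PosDef) :
    ∀ᶠ y in 𝓝 x, 0 < Dt u y :=
  (contDiffAt_Dt hu).continuousAt.eventually (lt_mem_nhds (Dt_pos h))

theorem Tm_symm (hu : ContDiffAt ℝ ∞ u x) (v : E n) : (Tm u v x)ᵀ = Tm u v x := by
  ext i j
  simp only [Tm, transpose_apply, of_apply, jac_symm1 hu i j]

/-- Full symmetry of third derivatives: `Hs_symm` for `u` near `x` and for `pd u j` at `x`. -/
theorem Tm_swap (hu : ContDiffAt ℝ ∞ u x) (v w : E n) : Tm u v x *ᵥ w = Tm u w x *ᵥ v := by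
  ext i
  simp only [Tm, mulVec, dotProduct, of_apply, Finset.sum_mul]
  rw [Finset.sum_comm]
  refine Finset.sum_congr rfl fun k _ => Finset.sum_congr rfl fun j _ => ?_
  rw [jac_symm3 hu i j k]
  ring

theorem Hs_grad_dot (hu : ContDiffAt ℝ ∞ u x) (v : E n) :
    Hs (fun y => grad u y ⬝ᵥ v) x = Tm u v x := by
  have e : (fun y => grad u y ⬝ᵥ v) = fun y => ∑ k, v k * pd u k y := by
    funext y
    exact Finset.sum_congr rfl fun k _ => mul_comm _ _
  rw [e, Hs_sum _ fun k _ => contDiffAt_const.mul (contDiffAt_pd hu k)]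
  ext i j
  simp only [Matrix.sum_apply, Tm, of_apply, dotProduct]
  refine Finset.sum_congr rfl fun k _ => ?_
  rw [Hs_const_mul _ (contDiffAt_pd hu k), jac_symm3 hu i j k, jac_symm1 hu i k,
    jac_symm3 hu k i j, jac_symm1 hu k j, mul_comm]
  rfl

theorem grad_Hs_quad (hu : ContDiffAt ℝ ∞ u x) (v : E n) :
    grad (fun y => v ⬝ᵥ (Hs u y *ᵥ v)) x = Tm u v x *ᵥ v := by
  have e : (fun y => v ⬝ᵥ (Hs u y *ᵥ v)) = fun y => ∑ i, ∑ j, v i * v j * Hs u y i j := by
    funext y
    simp only [dotProduct, mulVec, Finset.mul_sum]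
    exact Finset.sum_congr rfl fun i _ => Finset.sum_congr rfl fun j _ => by ring
  have d : ∀ i j, DifferentiableAt ℝ (fun y => Hs u y i j) x := fun i j =>
    (contDiffAt_Hs hu i j).differentiableAt (by simp)
  rw [e, grad_sum _ fun i _ => DifferentiableAt.fun_sum fun j _ => (d i j).const_mul _]
  ext k
  simp only [Tm, mulVec, dotProduct, of_apply, Finset.sum_mul, Finset.sum_apply]
  refine Finset.sum_congr rfl fun i _ => ?_
  rw [grad_sum _ fun j _ => (d i j).const_mul _, Finset.sum_apply]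
  refine Finset.sum_congr rfl fun j _ => ?_
  rw [grad_const_mul _ (d i j), jac_symm1 hu k i, jac_symm3 hu i k j]
  simp only [Pi.smul_apply, smul_eq_mul]
  ring

theorem contDiffAt_Hs_quad (hu : ContDiffAt ℝ ∞ u x) (v : E n) :
    ContDiffAt ℝ ∞ (fun y => v ⬝ᵥ (Hs u y *ᵥ v)) x := by
  simp only [mulVec, dotProduct]
  exact ContDiffAt.sum fun i _ => contDiffAt_const.mul
    (ContDiffAt.sum fun j _ => (contDiffAt_Hs hu i j).mul contDiffAt_const)

/-- Jacobi formula. One way: restrict to the line `x + s v`, write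
`det H(s) = det H(0) * det (H(0)⁻¹ H(s))` and differentiate `Matrix.det_apply'` at the identity
matrix (only the identity permutation contributes), or use multilinearity in the rows with
`Matrix.cramer` / `Matrix.adjugate`. -/
theorem grad_Dt (hu : ContDiffAt ℝ ∞ u x) (h : (Hs u x).PosDef) (v : E n) :
    grad (Dt u) x ⬝ᵥ v = Dt u x * (Gm u x * Tm u v x).trace := by
  have d : ∀ i j, HasDerivAt (fun s : ℝ => Hs u (x + s • v) i j) (Tm u v x i j) 0 := by
    intro i j
    have h1 := hasDerivAt_line (f := fun y => Hs u y i j) (x := x) (v := v) (t := 0)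
      (by simpa using (contDiffAt_Hs hu i j).differentiableAt (by simp))
    rw [zero_smul, add_zero] at h1
    exact h1
  have h1 := hasDerivAt_line (f := Dt u) (x := x) (v := v) (t := 0)
    (by simpa using (contDiffAt_Dt hu).differentiableAt (by simp))
  have h2 := jac_hasDerivAt (A := fun s : ℝ => Hs u (x + s • v)) d
  rw [zero_smul, add_zero] at h1 h2
  rw [h1.unique h2, Gm, Matrix.inv_def, Ring.inverse_eq_inv', smul_mul_assoc, trace_smul,
    smul_eq_mul]
  exact (mul_inv_cancel_left₀ (Dt_pos h).ne' _).symm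

theorem grad_logDt (hu : ContDiffAt ℝ ∞ u x) (h : (Hs u x).PosDef) (v : E n) :
    grad (fun y => Real.log (Dt u y)) x ⬝ᵥ v = (Gm u x * Tm u v x).trace := by
  rw [grad_log ((contDiffAt_Dt hu).differentiableAt (by simp)) (Dt_pos h).ne', smul_dotProduct,
    grad_Dt hu h, smul_eq_mul, inv_mul_cancel_left₀ (Dt_pos h).ne']

/-- Differentiate `Gm u y * Hs u y = 1`, valid near `x`. -/
theorem grad_Gm (hu : ContDiffAt ℝ ∞ u x) (h : (Hs u x).PosDef) (v : E n) (i j : Fin n) :
    grad (fun y => Gm u y i j) x ⬝ᵥ v = -(Gm u x * Tm u v x * Gm u x) i j := by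
  obtain ⟨N, hN⟩ : ∃ N : Matrix (Fin n) (Fin n) ℝ, ∀ i j,
      N i j = grad (fun y => Gm u y i j) x ⬝ᵥ v := ⟨Matrix.of _, fun _ _ => rfl⟩
  have d1 : ∀ i j, DifferentiableAt ℝ (fun y => Hs u y i j) x := fun i j =>
    (contDiffAt_Hs hu i j).differentiableAt (by simp)
  have d2 : ∀ i j, DifferentiableAt ℝ (fun y => Gm u y i j) x := fun i j =>
    (contDiffAt_Gm hu h i j).differentiableAt (by simp)
  have e : N * Hs u x + Gm u x * Tm u v x = 0 := by
    ext a b
    have h1 : (fun y => ∑ k, Gm u y a k * Hs u y k b) =ᶠ[𝓝 x]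
        fun _ => (1 : Matrix (Fin n) (Fin n) ℝ) a b :=
      (eventually_det_ne hu h).mono fun y hy => by
        have := Matrix.nonsing_inv_mul (Hs u y) hy.ne'.isUnit
        rw [← this]
        rfl
    have h2 := grad_congr h1
    rw [grad_const, grad_sum _ fun k _ => (d2 a k).fun_mul (d1 k b)] at h2
    have h3 := congrArg (· ⬝ᵥ v) h2
    simp only [sum_dotProduct, zero_dotProduct] at h3
    rw [Matrix.zero_apply, ← h3, Matrix.add_apply, Matrix.mul_apply, Matrix.mul_apply,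
      ← Finset.sum_add_distrib]
    refine Finset.sum_congr rfl fun k _ => ?_
    rw [grad_mul (d2 a k) (d1 k b), add_dotProduct, smul_dotProduct, smul_dotProduct, hN]
    simp only [Tm, of_apply, smul_eq_mul]
    ring
  have e2 : N = -(Gm u x * Tm u v x * Gm u x) := by
    rw [← neg_mul, ← eq_neg_of_add_eq_zero_left e, mul_assoc, Hs_mul_Gm h, mul_one]
  rw [← hN, e2]
  rfl

end

end Vale.Agent.P252b
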