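import Vale.Agent.P252b.ConvA
import Vale.Agent.P252b.Jac

/-!
Calculus and measurability of the functions on the graph; volumes of sections.
-/

open MeasureTheory Metric Set Filter Topology Matrix
open scoped ENNReal ContDiff

noncomputable section

namespace Vale.Agent.P252b

variable {n : ℕ}

variable {Ω : Set (E n)} {u : E n → ℝ}

theorem convb_contDiffAt_dot {V W : E n → E n} {x : E n} (hV : ContDiffAt ℝ ∞ V x)
    (hW : ContDiffAt ℝ ∞ W x) : ContDiffAt ℝ ∞ (fun y => V y ⬝ᵥ W y) x := by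
  unfold dotProduct
  refine ContDiffAt.sum fun i _ => ?_
  exact (contDiffAt_pi.1 hV i).mul (contDiffAt_pi.1 hW i)

theorem convb_diff {f : E n → ℝ} {x : E n} (hf : ContDiffAt ℝ ∞ f x) :
    DifferentiableAt ℝ f x := hf.differentiableAt (by simp)

theorem contDiffAt_tg {x : E n} (hu : ContDiffAt ℝ ∞ u x) (W : E n × ℝ) :
    ContDiffAt ℝ ∞ (fun y => tg u y W) x := by
  unfold tg
  exact (contDiffAt_const.sub hu).sub
    (convb_contDiffAt_dot (contDiffAt_grad hu) (contDiffAt_const.sub contDiffAt_id))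

theorem convb_grad_grad_dot_self {x : E n} (hu : ContDiffAt ℝ ∞ u x) :
    grad (fun y => grad u y ⬝ᵥ y) x = Hs u x *ᵥ x + grad u x := by
  have h1 : (fun y => grad u y ⬝ᵥ y) = fun y : E n => ∑ i ∈ Finset.univ, pd u i y * y i := by
    funext y; rfl
  have hc : ∀ i : Fin n, DifferentiableAt ℝ (fun y : E n => y i) x := fun i =>
    differentiableAt_apply i x
  rw [h1, grad_sum Finset.univ (f := fun i (y : E n) => pd u i y * y i)
    (fun i _ => (convb_diff (contDiffAt_pd hu i)).mul (hc i))]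
  have h2 : ∀ i : Fin n, grad (fun y : E n => pd u i y * y i) x =
      pd u i x • (Pi.single i 1 : E n) + x i • fun k => Hs u x k i := by
    intro i
    rw [grad_mul (convb_diff (contDiffAt_pd hu i)) (hc i), grad_coord, grad_pd]
  simp only [h2]
  funext k
  simp only [Finset.sum_apply, Pi.add_apply, Pi.smul_apply, smul_eq_mul, Finset.sum_add_distrib,
    Pi.single_apply, mul_ite, mul_one, mul_zero, Finset.sum_ite_eq, Finset.mem_univ, if_true,
    Matrix.mulVec, dotProduct, grad]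
  rw [add_comm]
  congr 1
  exact Finset.sum_congr rfl fun i _ => mul_comm _ _

theorem grad_tg {x : E n} (hu : ContDiffAt ℝ ∞ u x) (W : E n × ℝ) :
    grad (fun y => tg u y W) x = Hs u x *ᵥ (x - W.1) := by
  have h1 : (fun y => tg u y W) =
      fun y => ((W.2 - u y) - grad u y ⬝ᵥ W.1) + grad u y ⬝ᵥ y := by
    funext y; simp only [tg, dotProduct_sub]; ring
  have d1 : DifferentiableAt ℝ (fun y => W.2 - u y) x :=
    convb_diff (contDiffAt_const.sub hu)
  have d2 : DifferentiableAt ℝ (fun y => grad u y ⬝ᵥ W.1) x :=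
    convb_diff (convb_contDiffAt_dot (contDiffAt_grad hu) contDiffAt_const)
  have d3 : DifferentiableAt ℝ (fun y => grad u y ⬝ᵥ y) x :=
    convb_diff (convb_contDiffAt_dot (contDiffAt_grad hu) contDiffAt_id)
  rw [h1, grad_add (d1.fun_sub d2) d3, grad_sub d1 d2, grad_const_sub, grad_grad_dot hu,
    convb_grad_grad_dot_self hu, Matrix.mulVec_sub]
  abel

theorem convb_on_eq (a : Af n) : a.on u = fun y => (a.p ⬝ᵥ y + a.s * u y) + a.c := by
  funext y; rfl

theorem contDiffAt_on {x : E n} (hu : ContDiffAt ℝ ∞ u x) (a : Af n) :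
    ContDiffAt ℝ ∞ (a.on u) x := by
  rw [convb_on_eq]
  exact ((contDiff_dot a.p).contDiffAt.add (contDiffAt_const.mul hu)).add contDiffAt_const

theorem grad_on {x : E n} (hu : ContDiffAt ℝ ∞ u x) (a : Af n) :
    grad (a.on u) x = a.p + a.s • grad u x := by
  rw [convb_on_eq, grad_add_const (fun y => a.p ⬝ᵥ y + a.s * u y),
    grad_add (differentiableAt_dot a.p x) (convb_diff (contDiffAt_const.mul hu)), grad_dot,
    grad_const_mul _ (convb_diff hu)]

theorem Hs_on {x : E n} (hu : ContDiffAt ℝ ∞ u x) (a : Af n) :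
    Hs (a.on u) x = a.s • Hs u x := by
  rw [convb_on_eq, Hs_add_const (fun y => a.p ⬝ᵥ y + a.s * u y),
    Hs_add (contDiff_dot a.p).contDiffAt (contDiffAt_const.mul hu), Hs_dot,
    Hs_const_mul _ hu, zero_add]

/-- `a(W) - a(x, u x) = a.s * tg - (x - W.1) · ∇a`. -/
theorem grad_on_dot {x : E n} (hu : ContDiffAt ℝ ∞ u x) (a : Af n) (W : E n × ℝ) :
    grad (a.on u) x ⬝ᵥ (x - W.1) = a.s * tg u x W - a.ev W + a.on u x := by
  rw [grad_on hu]
  simp only [tg, Af.ev, Af.on, add_dotProduct, smul_dotProduct, dotProduct_sub, smul_eq_mul]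
  ring

theorem convb_Br_eq (x : E n) :
    Br u x = fun y => (u y - grad u x ⬝ᵥ y) + (grad u x ⬝ᵥ x - u x) := by
  funext y; simp only [Br, tg, dotProduct_sub]; ring

theorem contDiffAt_Br {y : E n} (hu : ContDiffAt ℝ ∞ u y) (x : E n) :
    ContDiffAt ℝ ∞ (Br u x) y := by
  rw [convb_Br_eq]
  exact (hu.sub (contDiff_dot _).contDiffAt).add contDiffAt_const

theorem grad_Br {y : E n} (hu : ContDiffAt ℝ ∞ u y) (x : E n) :
    grad (Br u x) y = grad u y - grad u x := by
  rw [convb_Br_eq, grad_add_const (fun y => u y - grad u x ⬝ᵥ y),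
    grad_sub (convb_diff hu) (differentiableAt_dot _ y), grad_dot]

theorem Hs_Br {y : E n} (hu : ContDiffAt ℝ ∞ u y) (x : E n) : Hs (Br u x) y = Hs u y := by
  rw [convb_Br_eq, Hs_add_const (fun y => u y - grad u x ⬝ᵥ y),
    Hs_sub hu (contDiff_dot _).contDiffAt, Hs_dot, sub_zero]

theorem Cvx.contDiffAt_md (h : Cvx Ω u) {X : E n × ℝ} (hX : X ∈ epi0 Ω u) {x : E n}
    (hx : x ∈ Ω) : ContDiffAt ℝ ∞ (md u X) x := by
  have hu := h.contDiffAt hx
  have h1 : ContDiffAt ℝ ∞ (fun y => Real.sqrt (Dt u y)) x :=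
    (contDiffAt_Dt hu).sqrt (Dt_pos (h.posDef x hx)).ne'
  have h2 : ContDiffAt ℝ ∞ (fun y => tg u y X ^ (-((n : ℝ) / 2))) x :=
    (contDiffAt_tg hu X).rpow_const_of_ne (h.tg_pos hx hX).ne'
  exact h1.mul h2

theorem Cvx.md_pos (h : Cvx Ω u) {X : E n × ℝ} (hX : X ∈ epi0 Ω u) {x : E n} (hx : x ∈ Ω) :
    0 < md u X x :=
  mul_pos (Real.sqrt_pos.2 (Dt_pos (h.posDef x hx))) (Real.rpow_pos_of_pos (h.tg_pos hx hX) _)

theorem Cvx.contDiffAt_ta (h : Cvx Ω u) {X : E n × ℝ} (hX : X ∈ epi0 Ω u) {x : E n}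
    (hx : x ∈ Ω) : ContDiffAt ℝ ∞ (ta u X) x := by
  have hu := h.contDiffAt hx
  exact ((contDiffAt_tg hu X).log (h.tg_pos hx hX).ne').sub
    ((contDiffAt_ff hu (h.posDef x hx)).log (ff_pos (h.posDef x hx)).ne')

theorem Cvx.contDiffAt_al (h : Cvx Ω u) {X : E n × ℝ} (hX : X ∈ epi0 Ω u) (Y : E n × ℝ)
    {x : E n} (hx : x ∈ Ω) : ContDiffAt ℝ ∞ (al u X Y) x := by
  have hu := h.contDiffAt hx
  exact (contDiffAt_tg hu Y).div (contDiffAt_tg hu X) (h.tg_pos hx hX).ne'

theorem Cvx.contDiffAt_fld (h : Cvx Ω u) {X : E n × ℝ} (hX : X ∈ epi0 Ω u) {x : E n}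
    (hx : x ∈ Ω) {g : E n → ℝ} (hg : ContDiffAt ℝ ∞ g x) : ContDiffAt ℝ ∞ (fld u X g) x := by
  have hu := h.contDiffAt hx
  exact ((h.contDiffAt_md hX hx).mul (contDiffAt_tg hu X)).smul
    (contDiffAt_Gm_mulVec hu (h.posDef x hx) (contDiffAt_grad hg))

theorem convb_measurable_dot {V W : E n → E n} (hV : Measurable V) (hW : Measurable W) :
    Measurable (fun y => V y ⬝ᵥ W y) := by
  unfold dotProduct
  refine Finset.measurable_sum _ fun i _ => ?_
  exact ((measurable_pi_apply i).comp hV).mul ((measurable_pi_apply i).comp hW)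

theorem measurable_tg (hu : Measurable u) (W : E n × ℝ) : Measurable (fun x => tg u x W) := by
  unfold tg
  exact (measurable_const.sub hu).sub
    (convb_measurable_dot (measurable_grad u) (measurable_const.sub measurable_id))

theorem measurable_on (hu : Measurable u) (a : Af n) : Measurable (a.on u) := by
  rw [convb_on_eq]
  exact ((convb_measurable_dot measurable_const measurable_id).add
    (measurable_const.mul hu)).add measurable_const

theorem measurable_md (hu : Measurable u) (X : E n × ℝ) : Measurable (md u X) := by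
  unfold md
  exact (measurable_Dt u).sqrt.mul ((measurable_tg hu X).pow_const _)

theorem measurable_al (hu : Measurable u) (X Y : E n × ℝ) : Measurable (al u X Y) := by
  unfold al
  exact (measurable_tg hu Y).div (measurable_tg hu X)

theorem measurable_wt (hu : Measurable u) (X Y : E n × ℝ) (a : Af n) (H H' η : ℝ) :
    Measurable (wt u X Y a H H' η) := by
  unfold wt
  have ha := measurable_on hu a
  exact ((((measurable_const.sub ha).max measurable_const).pow_const 3).mul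
    ((ha.mul (measurable_const.add (ha.mul (measurable_al hu X Y)))).pow_const η)).mul
    (measurable_md hu X)

theorem measurable_tgA_lin (u : E n → ℝ) (e : E n × ℝ) :
    Measurable (fun x => (tgA u x).lin e) := by
  simp only [tgA_lin]
  exact measurable_const.sub (convb_measurable_dot (measurable_grad u) measurable_const)

theorem Cvx.measurableSet_sec (h : Cvx Ω u) (a : Af n) (s : ℝ) :
    MeasurableSet (sec Ω u a s) :=
  h.isOpen.measurableSet.inter (measurableSet_le (measurable_on h.meas a) measurable_const)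

theorem mass_mono (X : E n × ℝ) {S S' : Set (E n)} (hS : S ⊆ S') : mass u X S ≤ mass u X S' :=
  lintegral_mono_set hS

theorem area_mono {S S' : Set (E n)} (hS : S ⊆ S') : area u S ≤ area u S' :=
  lintegral_mono_set hS

/-- Change of base point. -/
theorem Cvx.mass_le_of_tg (h : Cvx Ω u) {X Z : E n × ℝ} (hX : X ∈ epi0 Ω u) (hZ : Z ∈ epi0 Ω u)
    {S : Set (E n)} (hS : MeasurableSet S) (hSΩ : S ⊆ Ω) {C : ℝ} (hC : 0 < C)
    (hle : ∀ x ∈ S, tg u x Z ≤ C * tg u x X) :
    mass u X S ≤ ENNReal.ofReal (C ^ ((n : ℝ) / 2)) * mass u Z S := by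
  unfold mass
  rw [← lintegral_const_mul' _ _ ENNReal.ofReal_ne_top]
  refine setLIntegral_mono' hS fun x hx => ?_
  have hCp : 0 < C ^ ((n : ℝ) / 2) := Real.rpow_pos_of_pos hC _
  rw [← ENNReal.ofReal_mul hCp.le]
  refine ENNReal.ofReal_le_ofReal ?_
  have hx1 := h.tg_pos (hSΩ hx) hX
  have hx2 := h.tg_pos (hSΩ hx) hZ
  have hn : -((n : ℝ) / 2) ≤ 0 := by
    have : (0 : ℝ) ≤ (n : ℝ) / 2 := by positivity
    linarith
  have h1 : (C * tg u x X) ^ (-((n : ℝ) / 2)) ≤ tg u x Z ^ (-((n : ℝ) / 2)) :=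
    Real.rpow_le_rpow_of_nonpos hx2 (hle x hx) hn
  rw [Real.mul_rpow hC.le hx1.le, Real.rpow_neg hC.le] at h1
  have h2 : tg u x X ^ (-((n : ℝ) / 2)) ≤ C ^ ((n : ℝ) / 2) * tg u x Z ^ (-((n : ℝ) / 2)) := by
    rw [inv_mul_le_iff₀ hCp] at h1
    exact h1
  unfold md
  have h3 := mul_le_mul_of_nonneg_left h2 (Real.sqrt_nonneg (Dt u x))
  linarith

theorem CapF.volume_sec_lt_top {a : Af n} (ha : CapF Ω u a) (s : ℝ) :
    volume (sec Ω u a s) < ⊤ := (ha.cpt s).measure_lt_top

/-- The section contains a neighbourhood of `X.1`. -/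
theorem CapF.volume_sec_pos (h : Cvx Ω u) {a : Af n} (ha : CapF Ω u a) {X : E n × ℝ}
    (hX : X ∈ epi Ω u) {s : ℝ} (hs : a.ev X < s) : 0 < volume (sec Ω u a s) := by
  have h1 : a.on u X.1 < s := (ha.on_le_ev hX).trans_lt hs
  have hc : ContinuousAt (a.on u) X.1 := (contDiffAt_on (h.contDiffAt hX.1) a).continuousAt
  have h2 : ∀ᶠ y in 𝓝 X.1, a.on u y < s := hc.eventually_lt continuousAt_const h1
  have h3 : sec Ω u a s ∈ 𝓝 X.1 := by
    filter_upwards [h2, h.isOpen.mem_nhds hX.1] with y hy hyΩ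
    exact ⟨hyΩ, hy.le⟩
  exact Measure.measure_pos_of_mem_nhds volume h3

/-- Homothety with centre `X.1` and ratio `k⁻¹` maps the section of level `s'` into the section
of level `s` when `(1 - k⁻¹) a(X) + k⁻¹ s' ≤ s`; `Measure.addHaar_image_homothety`. -/
theorem CapF.volume_sec_scale (h : Cvx Ω u) {a : Af n} (ha : CapF Ω u a) {X : E n × ℝ}
    (hX : X ∈ epi Ω u) {k s s' : ℝ} (hk : 1 ≤ k) (hs : (1 - k⁻¹) * a.ev X + k⁻¹ * s' ≤ s) :
    volume (sec Ω u a s') ≤ ENNReal.ofReal (k ^ n) * volume (sec Ω u a s) := by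
  have hk0 : 0 < k := by linarith
  have hki : 0 < k⁻¹ := inv_pos.2 hk0
  have hki1 : k⁻¹ ≤ 1 := inv_le_one_of_one_le₀ hk
  have hsub : sec Ω u a s' ⊆ AffineMap.homothety X.1 k '' sec Ω u a s := by
    intro y hy
    have hW := h.seg_mem_epi hX (graph_mem_epi hy.1) hki.le hki1
    have h1 := ha.on_le_ev hW
    rw [Af.ev_seg] at h1
    have h2 : a.ev (y, u y) ≤ s' := hy.2
    have h3 := mul_le_mul_of_nonneg_left h2 hki.le
    refine ⟨(X + k⁻¹ • ((y, u y) - X)).1, ⟨hW.1, by linarith⟩, ?_⟩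
    simp only [AffineMap.homothety_apply, vsub_eq_sub, vadd_eq_add, Prod.fst_add, Prod.smul_fst,
      Prod.fst_sub, add_sub_cancel_left, smul_smul, mul_inv_cancel₀ hk0.ne', one_smul,
      sub_add_cancel]
  refine (measure_mono hsub).trans ?_
  rw [Measure.addHaar_image_homothety]
  simp only [Module.finrank_fin_fun, abs_of_pos (pow_pos hk0 n), le_refl]

end Vale.Agent.P252b
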