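import Vale.Agent.P252b.NrmGeo
import Vale.Agent.P252b.Piola
import Vale.Agent.P252b.DivThm
import Vale.Agent.P252b.MaxDet

/-!
Logarithmic energy estimate for positive supersolutions.
-/

open MeasureTheory Metric Set Filter Topology Matrix
open scoped ENNReal ContDiff

noncomputable section

namespace Vale.Agent.P252b

variable {n : ℕ}

theorem energy_cont_Hs {u : E n → ℝ} (hu : ContDiff ℝ ∞ u) : Continuous (Hs u) :=
  continuous_matrix fun i j => continuous_iff_continuousAt.2 fun _ =>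
    (contDiffAt_Hs hu.contDiffAt i j).continuousAt

theorem energy_out {u : E n → ℝ} {Λ : ℝ} (h : Nrm u Λ) {τ : ℝ} {x : E n}
    (hx : x ∉ {x | u x ≤ 16 * Λ ^ 2 * τ}) : max (τ - Br u x 0) 0 = 0 := by
  have h1 := h.ustar_lower x
  have h2 : 16 * Λ ^ 2 * τ < u x := not_le.1 hx
  have h3 : 0 < 16 * Λ ^ 2 := by have := h.one_le; positivity
  exact max_eq_right (sub_nonpos.2 (lt_of_mul_lt_mul_left (h2.trans_le h1) h3.le).le)

theorem energy_phi {u : E n → ℝ} {Λ : ℝ} (h : Nrm u Λ) (τ : ℝ) :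
    ContDiff ℝ ∞ fun y => τ - Br u y 0 := contDiff_const.sub h.contDiff_ustar

theorem energy_quad {a Q s t : ℝ} (hQ : 0 ≤ Q) (ht : 0 ≤ t) (hs : s ^ 2 ≤ Q * t) :
    0 ≤ a ^ 2 * Q + 6 * a * s + 9 * t := by
  have h1 : (6 * a * s) ^ 2 ≤ (a ^ 2 * Q + 9 * t) ^ 2 := by
    nlinarith [sq_nonneg (a ^ 2 * Q - 9 * t), mul_le_mul_of_nonneg_left hs (sq_nonneg a)]
  have := (abs_le_of_sq_le_sq' h1 (by positivity)).1
  linarith

theorem energy_box {f : E n → ℝ} {B R : ℝ} (hR : 0 ≤ R) (hB : 0 ≤ B)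
    (h : ∀ x, f x ≤ 0 ∨ (‖x‖ ≤ R ∧ f x ≤ B)) :
    ∫⁻ x, ENNReal.ofReal (f x) ≤ ENNReal.ofReal (B * (2 * R) ^ n) := by
  rw [ENNReal.ofReal_mul hB, ← volume_closedBall_eq hR 0, ← setLIntegral_const,
    ← lintegral_indicator measurableSet_closedBall]
  refine lintegral_mono fun x => ?_
  rcases h x with h | h
  · rw [ENNReal.ofReal_of_nonpos h]
    exact zero_le
  · rw [indicator_of_mem (mem_closedBall_zero_iff.2 h.1)]
    exact ENNReal.ofReal_le_ofReal h.2

/-- `V = (φ₊)² • x` with `φ = τ - u*`; `div V = n φ₊² - 2 φ₊ x·Hx`. The support lies in the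
compact set `{u ≤ 16 Λ² τ}` (`ustar_lower`). -/
theorem energy_aux1 {u : E n → ℝ} {Λ : ℝ} (h : Nrm u Λ) (τ : ℝ) :
    ∫⁻ x, ENNReal.ofReal (2 * max (τ - Br u x 0) 0 * (x ⬝ᵥ (Hs u x *ᵥ x))) ≤
      ∫⁻ x, ENNReal.ofReal (n * (max (τ - Br u x 0) 0) ^ 2) := by
  have hφ := energy_phi h τ
  have key := lintegral_le_of_dv isOpen_univ (h.isCompact_le (16 * Λ ^ 2 * τ)) (subset_univ _)
    (V := fun y => (-1 : ℝ) • ((max (τ - Br u y 0) 0) ^ 2 • (y - 0)))
    (g := fun x => 2 * max (τ - Br u x 0) 0 * (x ⬝ᵥ (Hs u x *ᵥ x)))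
    (h := fun x => n * (max (τ - Br u x 0) 0) ^ 2)
    (fun x _ => ((contDiffAt_pp2 hφ.contDiffAt).smul (by fun_prop)).const_smul _)
    (fun x _ hx => by simp [energy_out h hx])
    (((hφ.continuous.max continuous_const).pow 2).const_mul _).measurable
    (fun x _ => mul_nonneg (by positivity)
      (psd_dot_nonneg (h.cvx.posDef x trivial).posSemidef x))
    (fun x _ => by positivity) ?_
  · simpa only [Measure.restrict_univ] using key
  intro x _
  have d1 : DifferentiableAt ℝ (fun y => (max (τ - Br u y 0) 0) ^ 2) x :=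
    (contDiffAt_pp2 hφ.contDiffAt).differentiableAt one_ne_zero
  rw [dv_const_smul _ (d1.fun_smul (by fun_prop)), dv_smul d1 (by fun_prop), dv_sub_const,
    grad_pp2 (hφ.differentiable (by simp) x), grad_const_sub, h.grad_ustar, sub_zero,
    smul_dotProduct, neg_dotProduct, dotProduct_comm (Hs u x *ᵥ x) x, smul_eq_mul]
  exact le_of_eq (by ring)

/-- `V = (φ₊³ / F) • G∇F`, `g = log F`:
`div V = φ₊³ Lop F / F - φ₊³ |∇g|² - 3 φ₊² (Hx)·G∇g`, `(Hx)·G∇g = x·∇g`, and by `dual_cs`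
`3 φ₊² |x·∇g| ≤ φ₊³ |∇g|²/2 + (9/2) φ₊ x·Hx`. Use `lintegral_le_of_dv` for `(-2) • V`. -/
theorem energy_aux2 {u F : E n → ℝ} {Λ : ℝ} (h : Nrm u Λ) (hF : Sup u F) (τ : ℝ) :
    ∫⁻ x, ENNReal.ofReal ((max (τ - Br u x 0) 0) ^ 3 *
        gq u x (grad (fun y => Real.log (F y)) x) (grad (fun y => Real.log (F y)) x)) ≤
      ∫⁻ x, ENNReal.ofReal (9 * max (τ - Br u x 0) 0 * (x ⬝ᵥ (Hs u x *ᵥ x))) := by
  have hφ := energy_phi h τ
  have hG : ∀ x, ContDiffAt ℝ ∞ (fun y => Gm u y *ᵥ grad F y) x := fun x =>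
    contDiffAt_Gm_mulVec h.contDiff.contDiffAt (h.cvx.posDef x trivial)
      (contDiffAt_grad hF.smooth.contDiffAt)
  have hi : ∀ x, ContDiffAt ℝ ∞ (fun y => (F y)⁻¹) x := fun x =>
    hF.smooth.contDiffAt.inv (hF.pos x).ne'
  have hc : ∀ x, ContDiffAt ℝ 1 (fun y => (max (τ - Br u y 0) 0) ^ 3 * (F y)⁻¹) x := fun x =>
    (contDiffAt_pp3 hφ.contDiffAt).mul ((hi x).of_le (by simp))
  have key := lintegral_le_of_dv isOpen_univ (h.isCompact_le (16 * Λ ^ 2 * τ)) (subset_univ _)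
    (V := fun y => (-2 : ℝ) • (((max (τ - Br u y 0) 0) ^ 3 * (F y)⁻¹) • (Gm u y *ᵥ grad F y)))
    (g := fun x => (max (τ - Br u x 0) 0) ^ 3 *
        gq u x (grad (fun y => Real.log (F y)) x) (grad (fun y => Real.log (F y)) x))
    (h := fun x => 9 * max (τ - Br u x 0) 0 * (x ⬝ᵥ (Hs u x *ᵥ x)))
    (fun x _ => ((hc x).smul ((hG x).of_le (by simp))).const_smul _)
    (fun x _ hx => by simp [energy_out h hx])
    (((hφ.continuous.max continuous_const).const_mul _).mul (continuous_id.dotProduct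
      ((energy_cont_Hs h.contDiff).matrix_mulVec continuous_id))).measurable
    (fun x _ => mul_nonneg (by positivity) (gq_nonneg (h.cvx.posDef x trivial) _))
    (fun x _ => mul_nonneg (by positivity)
      (psd_dot_nonneg (h.cvx.posDef x trivial).posSemidef x)) ?_
  · simpa only [Measure.restrict_univ] using key
  intro x _
  have hp := h.cvx.posDef x trivial
  have dF : DifferentiableAt ℝ F x := hF.smooth.differentiable (by simp) x
  have d1 := (hc x).differentiableAt one_ne_zero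
  have d2 := (hG x).differentiableAt (by simp)
  have d3 : DifferentiableAt ℝ (fun y => (max (τ - Br u y 0) 0) ^ 3) x :=
    (contDiffAt_pp3 hφ.contDiffAt).differentiableAt one_ne_zero
  have hq := energy_quad (a := max (τ - Br u x 0) 0) (gq_nonneg hp (grad (fun y => Real.log (F y)) x))
    (psd_dot_nonneg hp.posSemidef x) (dual_cs hp (grad (fun y => Real.log (F y)) x) x)
  have e1 : (Hs u x *ᵥ x) ⬝ᵥ (Gm u x *ᵥ grad F x) = grad F x ⬝ᵥ x :=
    (gq_comm hp _ _).trans (gq_Hs hp _ _)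
  have hs : dv (fun y => Gm u y *ᵥ grad F y) x ≤ 0 := hF.sup x
  have hFp := hF.pos x
  rw [dv_const_smul _ (d1.fun_smul d2), dv_smul d1 d2,
    grad_mul d3 ((hi x).differentiableAt (by simp)), grad_inv dF hFp.ne',
    grad_pp3 (hφ.differentiable (by simp) x), grad_const_sub, h.grad_ustar]
  rw [grad_log dF hFp.ne'] at hq ⊢
  simp only [gq, add_dotProduct, smul_dotProduct, neg_dotProduct, e1, smul_eq_mul, mulVec_smul,
    dotProduct_smul, ← inv_pow] at hq ⊢
  have ha : 0 ≤ max (τ - Br u x 0) 0 := le_max_right _ _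
  have h1 := mul_nonneg ha hq
  have h2 := mul_nonneg (mul_nonneg (pow_nonneg ha 3) (inv_pos.2 hFp).le) (neg_nonneg.2 hs)
  nlinarith

/-- `V = (ζ₊)² • ∇u` with `ζ = c - u`; `div V = ζ₊² Δu - 2 ζ₊ |∇u|²`. -/
theorem energy_aux3 {u : E n → ℝ} {Λ : ℝ} (h : Nrm u Λ) (c : ℝ) :
    ∫⁻ x, ENNReal.ofReal ((max (c - u x) 0) ^ 2 * (Hs u x).trace) ≤
      ∫⁻ x, ENNReal.ofReal (2 * max (c - u x) 0 * (grad u x ⬝ᵥ grad u x)) := by
  have hζ : ContDiff ℝ ∞ fun y => c - u y := contDiff_const.sub h.contDiff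
  have hg := continuous_grad (h.contDiff.of_le (by simp) : ContDiff ℝ 1 u)
  have key := lintegral_le_of_dv isOpen_univ (h.isCompact_le c) (subset_univ _)
    (V := fun y => (max (c - u y) 0) ^ 2 • grad u y)
    (g := fun x => (max (c - u x) 0) ^ 2 * (Hs u x).trace)
    (h := fun x => 2 * max (c - u x) 0 * (grad u x ⬝ᵥ grad u x))
    (fun x _ => (contDiffAt_pp2 hζ.contDiffAt).smul
      ((contDiffAt_grad h.contDiff.contDiffAt).of_le (by simp)))
    (fun x _ (hx : ¬ u x ≤ c) => by simp [max_eq_right (sub_nonpos.2 (not_le.1 hx).le)])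
    (((hζ.continuous.max continuous_const).const_mul _).mul (hg.dotProduct hg)).measurable
    (fun x _ => mul_nonneg (by positivity) (h.cvx.posDef x trivial).posSemidef.trace_nonneg)
    (fun x _ => mul_nonneg (by positivity)
      (Finset.sum_nonneg fun i _ => mul_self_nonneg _)) ?_
  · simpa only [Measure.restrict_univ] using key
  intro x _
  rw [dv_smul ((contDiffAt_pp2 hζ.contDiffAt).differentiableAt one_ne_zero)
      ((contDiffAt_grad h.contDiff.contDiffAt).differentiableAt (by simp)), dv_grad,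
    grad_pp2 (hζ.differentiable (by simp) x), grad_const_sub, smul_dotProduct, neg_dotProduct,
    smul_eq_mul]
  exact le_of_eq (by ring)

/-- With `C₁` from `nrm_bound` for `R = 1`, take `τ = 18 Λ² C₁ + 1` and `c = C₁ + 1`, so that
`φ, ζ ≥ 1` on the unit ball; `|∂_i g| ≤ (|∇g|²_G + trace H)/2` by `dual_cs`, `diag_le_trace`. -/
theorem energy (hn : 1 ≤ n) (Λ : ℝ) : ∃ C : ℝ, 0 < C ∧ ∀ u F : E n → ℝ, Nrm u Λ → Sup u F →
    ∫⁻ x in closedBall (0 : E n) 1, ENNReal.ofReal ‖grad (fun y => Real.log (F y)) x‖ ≤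
      ENNReal.ofReal C := by
  obtain ⟨C₁, hC₁, h₁⟩ := nrm_bound hn Λ 1
  obtain ⟨C₂, hC₂, h₂⟩ := nrm_bound hn Λ (C₁ + 1)
  set τ := 18 * Λ ^ 2 * C₁ + 1 with hτ
  have hτ1 : 1 ≤ τ := le_add_of_nonneg_left (by positivity)
  have hτ0 : 0 ≤ τ := by linarith
  refine ⟨9 / 2 * (n * τ ^ 2 * (2 * (16 * Λ ^ 2 * τ)) ^ n) +
    (2 * (C₁ + 1) * (n * C₂ * C₂) * (2 * (C₁ + 1)) ^ n) + 1, by positivity, fun u F h hF => ?_⟩
  have hΛ := h.one_le
  have hA : ∫⁻ x, ENNReal.ofReal (n * (max (τ - Br u x 0) 0) ^ 2) ≤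
      ENNReal.ofReal (n * τ ^ 2 * (2 * (16 * Λ ^ 2 * τ)) ^ n) := by
    refine energy_box (by positivity) (by positivity) fun x => ?_
    by_cases hx : x ∈ {x | u x ≤ 16 * Λ ^ 2 * τ}
    · refine Or.inr ⟨h.norm_le (by nlinarith) hx, ?_⟩
      have := h.cvx.Br_nonneg (mem_univ x) (mem_univ 0)
      have : max (τ - Br u x 0) 0 ≤ τ := max_le (by linarith) hτ0
      gcongr
    · left
      simp [energy_out h hx]
  have hB : ∫⁻ x, ENNReal.ofReal (2 * max (C₁ + 1 - u x) 0 * (grad u x ⬝ᵥ grad u x)) ≤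
      ENNReal.ofReal (2 * (C₁ + 1) * (n * C₂ * C₂) * (2 * (C₁ + 1)) ^ n) := by
    refine energy_box (by positivity) (by positivity) fun x => ?_
    by_cases hx : u x ≤ C₁ + 1
    · have hn' := h.norm_le (by linarith) hx
      refine Or.inr ⟨hn', ?_⟩
      have h3 := h.nonneg x
      have h4 : max (C₁ + 1 - u x) 0 ≤ C₁ + 1 := max_le (by linarith) (by linarith)
      have h5 := (h₂ u h x hn').2
      have h6 : grad u x ⬝ᵥ grad u x ≤ n * C₂ * C₂ :=
        (le_abs_self _).trans ((abs_dot_le _ _).trans (by gcongr))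
      have h7 : 0 ≤ grad u x ⬝ᵥ grad u x := Finset.sum_nonneg fun i _ => mul_self_nonneg _
      gcongr
    · left
      simp [max_eq_right (sub_nonpos.2 (not_le.1 hx).le)]
  have hC : ∫⁻ x, ENNReal.ofReal (9 * max (τ - Br u x 0) 0 * (x ⬝ᵥ (Hs u x *ᵥ x))) ≤
      ENNReal.ofReal (9 / 2 * (n * τ ^ 2 * (2 * (16 * Λ ^ 2 * τ)) ^ n)) := by
    rw [ENNReal.ofReal_mul (by norm_num)]
    refine le_trans (le_of_eq ?_) (mul_le_mul_right ((energy_aux1 h τ).trans hA) _)
    rw [← lintegral_const_mul' _ _ ENNReal.ofReal_ne_top]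
    refine lintegral_congr fun x => ?_
    rw [← ENNReal.ofReal_mul (by norm_num)]
    congr 1
    ring
  have hm : Measurable fun x => ENNReal.ofReal ((max (C₁ + 1 - u x) 0) ^ 2 * (Hs u x).trace) :=
    ((((continuous_const.sub h.contDiff.continuous).max continuous_const).pow 2).mul
      (energy_cont_Hs h.contDiff).matrix_trace).measurable.ennreal_ofReal
  have hD := add_le_add ((energy_aux2 h hF τ).trans hC) ((energy_aux3 h (C₁ + 1)).trans hB)
  rw [← lintegral_add_right _ hm, ← ENNReal.ofReal_add (by positivity) (by positivity)] at hD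
  refine le_trans ?_ (hD.trans (ENNReal.ofReal_le_ofReal (by linarith)))
  refine le_trans (setLIntegral_mono' measurableSet_closedBall fun x hx => ?_)
    (setLIntegral_le_lintegral _ _)
  have hp := h.cvx.posDef x trivial
  have hu := (h₁ u h x (mem_closedBall_zero_iff.1 hx)).1
  have hQ := gq_nonneg hp (grad (fun y => Real.log (F y)) x)
  have hT := hp.posSemidef.trace_nonneg
  have a1 : 1 ≤ max (τ - Br u x 0) 0 := by
    have := h.ustar_upper x
    have : 18 * Λ ^ 2 * u x ≤ 18 * Λ ^ 2 * C₁ := by gcongr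
    exact le_max_of_le_left (by linarith)
  have a2 : 1 ≤ max (C₁ + 1 - u x) 0 := le_max_of_le_left (by linarith)
  rw [← ENNReal.ofReal_add (by positivity) (by positivity)]
  refine ENNReal.ofReal_le_ofReal (le_trans ?_ (add_le_add
    (le_mul_of_one_le_left hQ (one_le_pow₀ a1)) (le_mul_of_one_le_left hT (one_le_pow₀ a2))))
  refine (pi_norm_le_iff_of_nonneg (by positivity)).2 fun i => ?_
  have b1 := dual_cs hp (grad (fun y => Real.log (F y)) x) (Pi.single i 1)
  have b2 := diag_le_trace hp.posSemidef i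
  simp only [dotProduct_single, mul_one, single_dotProduct, one_mul, mulVec_single_one,
    col_apply] at b1
  refine abs_le_of_sq_le_sq (b1.trans ?_) (by positivity)
  change gq u x _ _ * _ ≤ _
  nlinarith [mul_le_mul_of_nonneg_left b2 hQ, mul_nonneg hQ hT]

end Vale.Agent.P252b
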