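import Vale.Agent.P252b.ConvB
import Vale.Agent.P252b.Piola

/-!
The centro-affine identities. Below `l = tg u · X`, `m = md u X`, `f = ff u`, `τ = ta u X`,
`∇l = H (x - X.1)` (`grad_tg`), `log m = log l - (n+2)/2 τ`.
-/

open MeasureTheory Metric Set Filter Topology Matrix
open scoped ENNReal ContDiff

noncomputable section

namespace Vale.Agent.P252b

variable {n : ℕ}

variable {Ω : Set (E n)} {u : E n → ℝ} {X : E n × ℝ} {x : E n}

theorem ident_dAt {F : E n → ℝ} (hF : ContDiffAt ℝ ∞ F x) : DifferentiableAt ℝ F x :=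
  hF.differentiableAt (by simp)

theorem ident_dAtV {F : E n → E n} (hF : ContDiffAt ℝ ∞ F x) : DifferentiableAt ℝ F x :=
  hF.differentiableAt (by simp)

theorem ident_Hs_symm (h : Cvx Ω u) (hx : x ∈ Ω) : (Hs u x)ᵀ = Hs u x :=
  Hs_symm (h.contDiffAt hx)

theorem ident_HG (h : Cvx Ω u) (hx : x ∈ Ω) (v w : E n) :
    (Hs u x *ᵥ v) ⬝ᵥ (Gm u x *ᵥ w) = v ⬝ᵥ w := by
  have h1 := gq_Hs (h.posDef x hx) w v
  have h2 := gq_comm (h.posDef x hx) w (Hs u x *ᵥ v)
  rw [h2] at h1
  rw [dotProduct_comm v w]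
  exact h1

theorem ident_Hcomm (h : Cvx Ω u) (hx : x ∈ Ω) (v w : E n) :
    (Hs u x *ᵥ v) ⬝ᵥ w = (Hs u x *ᵥ w) ⬝ᵥ v := by
  rw [dotProduct_comm, dotProduct_comm (Hs u x *ᵥ w)]
  exact dot_mulVec_comm (ident_Hs_symm h hx) w v

theorem ident_Gcomm (h : Cvx Ω u) (hx : x ∈ Ω) (v w : E n) :
    v ⬝ᵥ (Gm u x *ᵥ w) = w ⬝ᵥ (Gm u x *ᵥ v) :=
  gq_comm (h.posDef x hx) v w

theorem ident_md_exp (h : Cvx Ω u) (hX : X ∈ epi0 Ω u) (hx : x ∈ Ω) :
    md u X x = Real.exp (Real.log (tg u x X) - (((n : ℝ) + 2) / 2) * ta u X x) := by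
  have hl := h.tg_pos hx hX
  have hD := Dt_pos (h.posDef x hx)
  have hn : ((n : ℝ) + 2) ≠ 0 := by positivity
  unfold md ta ff
  rw [Real.sqrt_eq_rpow, Real.rpow_def_of_pos hD, Real.rpow_def_of_pos hl,
    Real.rpow_def_of_pos hD, Real.log_exp, ← Real.exp_add]
  congr 1
  field_simp
  ring

theorem Gam_comm (h : Cvx Ω u) (hx : x ∈ Ω) (f g : E n → ℝ) :
    Gam u X f g x = Gam u X g f x := by
  unfold Gam
  rw [gq_comm (h.posDef x hx)]

theorem grad_dot_fld (φ g : E n → ℝ) :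
    grad φ x ⬝ᵥ fld u X g x = md u X x * Gam u X φ g x := by
  unfold fld Gam gq
  rw [dotProduct_smul, smul_eq_mul]
  ring

theorem grad_md (h : Cvx Ω u) (hX : X ∈ epi0 Ω u) (hx : x ∈ Ω) :
    grad (md u X) x = md u X x • ((tg u x X)⁻¹ • (Hs u x *ᵥ (x - X.1)) -
      (((n : ℝ) + 2) / 2) • grad (ta u X) x) := by
  have hu := h.contDiffAt hx
  have hl := h.tg_pos hx hX
  have dl : DifferentiableAt ℝ (fun y => tg u y X) x := ident_dAt (contDiffAt_tg hu X)
  have dt : DifferentiableAt ℝ (ta u X) x := ident_dAt (h.contDiffAt_ta hX hx)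
  have dlog : DifferentiableAt ℝ (fun y => Real.log (tg u y X)) x := dl.log hl.ne'
  have dc : DifferentiableAt ℝ (fun y => (((n : ℝ) + 2) / 2) * ta u X y) x := dt.const_mul _
  have e : md u X =ᶠ[𝓝 x]
      fun y => Real.exp (Real.log (tg u y X) - (((n : ℝ) + 2) / 2) * ta u X y) := by
    filter_upwards [h.isOpen.mem_nhds hx] with y hy
    exact ident_md_exp h hX hy
  rw [grad_congr e, grad_comp (f := fun y => Real.log (tg u y X) - (((n : ℝ) + 2) / 2) * ta u X y)
    (Real.hasDerivAt_exp _) (dlog.sub dc), grad_sub dlog dc, grad_log dl hl.ne',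
    grad_const_mul _ dt, grad_tg hu, ← ident_md_exp h hX hx]

theorem grad_ta (h : Cvx Ω u) (hX : X ∈ epi0 Ω u) (hx : x ∈ Ω) :
    grad (ta u X) x = (tg u x X)⁻¹ • (Hs u x *ᵥ (x - X.1)) - (ff u x)⁻¹ • grad (ff u) x := by
  have hu := h.contDiffAt hx
  have hl := h.tg_pos hx hX
  have hf := ff_pos (h.posDef x hx)
  have dl : DifferentiableAt ℝ (fun y => tg u y X) x := ident_dAt (contDiffAt_tg hu X)
  have df : DifferentiableAt ℝ (ff u) x := ident_dAt (contDiffAt_ff hu (h.posDef x hx))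
  have e : ta u X = fun y => Real.log (tg u y X) - Real.log (ff u y) := rfl
  rw [e, grad_sub (dl.log hl.ne') (df.log hf.ne'), grad_log dl hl.ne', grad_log df hf.ne',
    grad_tg hu]

theorem grad_al (h : Cvx Ω u) (hX : X ∈ epi0 Ω u) (hx : x ∈ Ω) (Y : E n × ℝ) :
    grad (al u X Y) x =
      (tg u x X)⁻¹ • (Hs u x *ᵥ ((x - Y.1) - al u X Y x • (x - X.1))) := by
  have hu := h.contDiffAt hx
  have hl := h.tg_pos hx hX
  have dl : DifferentiableAt ℝ (fun y => tg u y X) x := ident_dAt (contDiffAt_tg hu X)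
  have dY : DifferentiableAt ℝ (fun y => tg u y Y) x := ident_dAt (contDiffAt_tg hu Y)
  have e : al u X Y = fun y => tg u y Y / tg u y X := rfl
  have e2 : tg u x Y / tg u x X ^ 2 = (tg u x X)⁻¹ * al u X Y x := by
    unfold al
    field_simp
  have e3 : grad (al u X Y) x = (tg u x X)⁻¹ • (Hs u x *ᵥ (x - Y.1)) -
      (tg u x Y / tg u x X ^ 2) • (Hs u x *ᵥ (x - X.1)) := by
    rw [e, grad_div dY dl hl.ne', grad_tg hu, grad_tg hu]
  rw [e3, e2, Matrix.mulVec_sub (Hs u x) (x - Y.1), Matrix.mulVec_smul, smul_sub, smul_smul]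

theorem ident_grad_ml (h : Cvx Ω u) (hX : X ∈ epi0 Ω u) (hx : x ∈ Ω) :
    grad (fun y => md u X y * tg u y X) x = (2 * md u X x) • (Hs u x *ᵥ (x - X.1)) -
      (md u X x * tg u x X * (((n : ℝ) + 2) / 2)) • grad (ta u X) x := by
  have hu := h.contDiffAt hx
  have hl := h.tg_pos hx hX
  have dl : DifferentiableAt ℝ (fun y => tg u y X) x := ident_dAt (contDiffAt_tg hu X)
  have dm : DifferentiableAt ℝ (md u X) x := ident_dAt (h.contDiffAt_md hX hx)
  rw [grad_mul dm dl, grad_tg hu, grad_md h hX hx]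
  ext i
  simp only [Pi.add_apply, Pi.sub_apply, Pi.smul_apply, smul_eq_mul]
  field_simp
  ring

theorem ident_grad_ff (h : Cvx Ω u) (hX : X ∈ epi0 Ω u) (hx : x ∈ Ω) :
    grad (ff u) x = (ff u x * (tg u x X)⁻¹) • (Hs u x *ᵥ (x - X.1)) -
      ff u x • grad (ta u X) x := by
  have hf := ff_pos (h.posDef x hx)
  rw [grad_ta h hX hx]
  ext i
  simp only [Pi.sub_apply, Pi.smul_apply, smul_eq_mul]
  field_simp
  ring

/-- `div (m l G∇a) = m l Lop a + ∇(m l)·G∇a`, `Lop a = n a.s - (n+2) f⁻¹ ∇f·G∇a` (`Lop_eq`,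
`Hs_on`), and `grad_on_dot`. -/
theorem ident_a (h : Cvx Ω u) (hX : X ∈ epi0 Ω u) (hx : x ∈ Ω) (a : Af n) :
    dv (fld u X (a.on u)) x = md u X x *
      (((n : ℝ) + 2) / 2 * Gam u X (a.on u) (ta u X) x + n * (a.ev X - a.on u x)) := by
  have hu := h.contDiffAt hx
  have hp := h.posDef x hx
  have hl := h.tg_pos hx hX
  have hf := ff_pos hp
  have dl : DifferentiableAt ℝ (fun y => tg u y X) x := ident_dAt (contDiffAt_tg hu X)
  have dm : DifferentiableAt ℝ (md u X) x := ident_dAt (h.contDiffAt_md hX hx)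
  have ca := contDiffAt_on hu a
  have dV : DifferentiableAt ℝ (fun y => Gm u y *ᵥ grad (a.on u) y) x :=
    ident_dAtV (contDiffAt_Gm_mulVec hu hp (contDiffAt_grad ca))
  have e : fld u X (a.on u) = fun y => (md u X y * tg u y X) • (Gm u y *ᵥ grad (a.on u) y) := rfl
  have hL : Lnd u (a.on u) x = n * a.s := by
    unfold Lnd
    rw [Hs_on hu, Matrix.mul_smul, Gm_mul_Hs hp, Matrix.trace_smul, Matrix.trace_one]
    simp [mul_comm]
  have hLop := Lop_eq hu hp ca
  have hP := grad_on_dot hu a X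
  rw [dotProduct_comm] at hP
  have dml : DifferentiableAt ℝ (fun y => md u X y * tg u y X) x := dm.mul dl
  rw [e, dv_smul dml dV]
  change md u X x * tg u x X * Lop u (a.on u) x + _ = _
  rw [hLop, hL, grad_logDt_ff hu hp, ident_grad_ml h hX hx, ident_grad_ff h hX hx,
    Gam_comm h hx]
  unfold Gam gq
  simp only [sub_dotProduct, smul_dotProduct, smul_eq_mul, ident_HG h hx]
  simp only [sub_dotProduct] at hP
  rw [hP]
  field_simp
  ring

/-- Near `x` the field equals `m • ((y - Y.1) - α • (y - X.1))`. -/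
theorem ident_al (h : Cvx Ω u) (hX : X ∈ epi0 Ω u) (hx : x ∈ Ω) (Y : E n × ℝ) :
    dv (fld u X (al u X Y)) x = md u X x *
      (-(((n : ℝ) + 2) / 2) * Gam u X (al u X Y) (ta u X) x - n * (al u X Y x - 1)) := by
  have hl := h.tg_pos hx hX
  have dm : DifferentiableAt ℝ (md u X) x := ident_dAt (h.contDiffAt_md hX hx)
  have da : DifferentiableAt ℝ (al u X Y) x := ident_dAt (h.contDiffAt_al hX Y hx)
  have d1 : ∀ c : E n, DifferentiableAt ℝ (fun y : E n => y - c) x := fun c =>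
    differentiableAt_id.sub_const c
  have d2 : DifferentiableAt ℝ (fun y : E n => al u X Y y • (y - X.1)) x := da.smul (d1 _)
  have e : fld u X (al u X Y) =ᶠ[𝓝 x]
      fun y => md u X y • ((y - Y.1) - al u X Y y • (y - X.1)) := by
    filter_upwards [h.isOpen.mem_nhds hx] with y hy
    have hly := h.tg_pos hy hX
    unfold fld
    rw [grad_al h hX hy, Matrix.mulVec_smul, Gm_mulVec_Hs (h.posDef y hy), smul_smul]
    congr 1
    field_simp
  have d3 : DifferentiableAt ℝ (fun y : E n => (y - Y.1) - al u X Y y • (y - X.1)) x :=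
    (d1 _).sub d2
  rw [dv_congr e, dv_smul dm d3, dv_sub (d1 _) d2, dv_smul da (d1 _), dv_sub_const,
    dv_sub_const, grad_md h hX hx]
  unfold Gam gq
  rw [grad_al h hX hx]
  generalize (x - Y.1) - al u X Y x • (x - X.1) = Z
  generalize x - X.1 = v
  simp only [sub_dotProduct, smul_dotProduct, smul_eq_mul, ident_HG h hx]
  rw [ident_Hcomm h hx Z v, dotProduct_comm Z (grad (ta u X) x)]
  field_simp
  ring

/-- Near `x` the field equals `m • (y - X.1) - (m l / f) • G∇f`, and `div (G∇f) = 0`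
(`Lop_ff`). -/
theorem ident_ta (h : Sol Ω u) (hX : X ∈ epi0 Ω u) (hx : x ∈ Ω) :
    dv (fld u X (ta u X)) x = md u X x * (n - (n : ℝ) / 2 * Gam u X (ta u X) (ta u X) x) := by
  have hc := h.toCvx
  have hu := hc.contDiffAt hx
  have hp := hc.posDef x hx
  have hl := hc.tg_pos hx hX
  have hf := ff_pos hp
  have dl : DifferentiableAt ℝ (fun y => tg u y X) x := ident_dAt (contDiffAt_tg hu X)
  have dm : DifferentiableAt ℝ (md u X) x := ident_dAt (hc.contDiffAt_md hX hx)
  have cf := contDiffAt_ff hu hp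
  have df : DifferentiableAt ℝ (ff u) x := ident_dAt cf
  have d1 : DifferentiableAt ℝ (fun y : E n => y - X.1) x := differentiableAt_id.sub_const _
  have dV : DifferentiableAt ℝ (fun y => Gm u y *ᵥ grad (ff u) y) x :=
    ident_dAtV (contDiffAt_Gm_mulVec hu hp (contDiffAt_grad cf))
  have dml : DifferentiableAt ℝ (fun y => md u X y * tg u y X) x := dm.mul dl
  have dq : DifferentiableAt ℝ (fun y => md u X y * tg u y X / ff u y) x := by
    simp only [div_eq_mul_inv]
    exact dml.mul (df.inv hf.ne')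
  have dA : DifferentiableAt ℝ (fun y => md u X y • (y - X.1)) x := dm.smul d1
  have dB : DifferentiableAt ℝ
      (fun y => (md u X y * tg u y X / ff u y) • (Gm u y *ᵥ grad (ff u) y)) x := dq.smul dV
  have e : fld u X (ta u X) =ᶠ[𝓝 x] fun y => md u X y • (y - X.1) -
      (md u X y * tg u y X / ff u y) • (Gm u y *ᵥ grad (ff u) y) := by
    filter_upwards [hc.isOpen.mem_nhds hx] with y hy
    have hly := hc.tg_pos hy hX
    unfold fld
    rw [grad_ta hc hX hy, Matrix.mulVec_sub, Matrix.mulVec_smul, Matrix.mulVec_smul,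
      Gm_mulVec_Hs (hc.posDef y hy), smul_sub, smul_smul, smul_smul]
    congr 2
    field_simp
  have hLop : dv (fun y => Gm u y *ᵥ grad (ff u) y) x = 0 := Lop_ff hu hp (h.am x hx)
  rw [dv_congr e, dv_sub dA dB, dv_smul dm d1, dv_smul dq dV, hLop,
    dv_sub_const, grad_div dml df hf.ne',
    ident_grad_ml hc hX hx, grad_md hc hX hx, ident_grad_ff hc hX hx]
  unfold Gam gq
  generalize x - X.1 = v
  generalize grad (ta u X) x = t
  simp only [sub_dotProduct, smul_dotProduct, smul_eq_mul, ident_HG hc hx, Matrix.mulVec_sub,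
    Matrix.mulVec_smul, dotProduct_sub, dotProduct_smul, Gm_mulVec_Hs hp]
  rw [dotProduct_comm v t]
  field_simp
  ring

theorem Gam_a_al (h : Cvx Ω u) (hX : X ∈ epi0 Ω u) (hx : x ∈ Ω) (a : Af n) (Y : E n × ℝ) :
    Gam u X (a.on u) (al u X Y) x =
      -a.ev Y + a.on u x + al u X Y x * a.ev X - al u X Y x * a.on u x := by
  have hu := h.contDiffAt hx
  have hp := h.posDef x hx
  have hl := h.tg_pos hx hX
  unfold Gam gq
  rw [grad_al h hX hx, Matrix.mulVec_smul, Gm_mulVec_Hs hp, dotProduct_smul, dotProduct_sub,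
    dotProduct_smul, grad_on_dot hu a X, grad_on_dot hu a Y]
  simp only [smul_eq_mul]
  unfold al
  field_simp
  ring

end Vale.Agent.P252b
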