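import Vale.Agent.P252b.PogA

/-!
Pogorelov's interior estimate for constant Hessian determinant.
-/

open MeasureTheory Metric Set Filter Topology Matrix
open scoped ENNReal ContDiff

noncomputable section

namespace Vale.Agent.P252b

variable {n : ℕ}

theorem pog_alg {k b N tr TT vT PP w : ℝ} (hk : 0 < k) (hb : 0 < b)
    (hTT : TT = k ^ 2 * (PP / b ^ 2 - 2 * w ^ 2 / b + w ^ 2 * k)) (hvT : vT = k * (w / b - w * k))
    (h1 : 2 * TT / k - vT ^ 2 / k ^ 2 ≤ tr)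
    (h2 : tr / k - TT / k ^ 2 + k - N / b - PP / b ^ 2 ≤ 0) :
    (k * b) ^ 2 ≤ N * (k * b) + w ^ 2 := by
  have h3 : (2 * TT / k - vT ^ 2 / k ^ 2) / k ≤ tr / k := div_le_div_of_nonneg_right h1 hk.le
  have h4 : (2 * TT / k - vT ^ 2 / k ^ 2) / k - TT / k ^ 2 + k - N / b - PP / b ^ 2 =
      ((k * b) ^ 2 - N * (k * b) - w ^ 2) / (b ^ 2 * k) := by
    rw [hTT, hvT]; field_simp; ring
  have h5 : ((k * b) ^ 2 - N * (k * b) - w ^ 2) / (b ^ 2 * k) ≤ 0 := by linarith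
  have h6 : 0 < b ^ 2 * k := by positivity
  rw [div_nonpos_iff] at h5
  rcases h5 with ⟨_, h7⟩ | ⟨h7, _⟩
  · linarith
  · linarith

theorem pog_root {Z N w C : ℝ} (hN : 0 ≤ N) (hC : |w| ≤ C) (h : Z ^ 2 ≤ N * Z + w ^ 2) :
    Z ≤ N + C := by
  by_contra hlt
  push Not at hlt
  have h0 : 0 ≤ C := (abs_nonneg w).trans hC
  have h1 : w ^ 2 ≤ C ^ 2 := by
    rw [← sq_abs]; exact pow_le_pow_left₀ (abs_nonneg w) hC 2
  nlinarith

/-- The inequality at the maximum point. -/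
theorem pog_at_max {u : E n → ℝ} (hu : ContDiff ℝ ∞ u) (hp : ∀ y, (Hs u y).PosDef)
    (hD : ∀ x y, Dt u x = Dt u y) {v : E n} (hv : v ≠ 0) {x : E n} (hx : u x < 1)
    (hmax : IsLocalMax (fun y => (Real.log (v ⬝ᵥ (Hs u y *ᵥ v)) + 1 / 2 * (grad u y ⬝ᵥ v) ^ 2) +
      1 * Real.log (1 - u y)) x) :
    (v ⬝ᵥ (Hs u x *ᵥ v) * (1 - u x)) ^ 2 ≤
      n * (v ⬝ᵥ (Hs u x *ᵥ v) * (1 - u x)) + (grad u x ⬝ᵥ v) ^ 2 := by
  have hux : ContDiffAt ℝ ∞ u x := hu.contDiffAt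
  have hk : 0 < v ⬝ᵥ (Hs u x *ᵥ v) := pd_dot_pos (hp x) hv
  have hb : 0 < 1 - u x := by linarith
  have c1 : ContDiffAt ℝ ∞ (fun y => v ⬝ᵥ (Hs u y *ᵥ v)) x := contDiffAt_Hs_quad hux v
  have c2 : ContDiffAt ℝ ∞ (fun y => Real.log (v ⬝ᵥ (Hs u y *ᵥ v))) x := c1.log hk.ne'
  have c3 : ContDiffAt ℝ ∞ (fun y => grad u y ⬝ᵥ v) x := poga_contDiffAt_dot hux v
  have c4 : ContDiffAt ℝ ∞ (fun y => (grad u y ⬝ᵥ v) ^ 2) x := c3.pow 2
  have c5 : ContDiffAt ℝ ∞ (fun y => 1 / 2 * (grad u y ⬝ᵥ v) ^ 2) x := contDiffAt_const.mul c4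
  obtain ⟨c6, g6, l6⟩ := poga_log hux (hp x) hx 1
  have hlog : grad (fun y => Real.log (Dt u y)) x = 0 := by
    have : (fun y => Real.log (Dt u y)) = fun _ => Real.log (Dt u x) := by
      funext y; rw [hD y x]
    rw [this, grad_const]
  have g4 : grad (fun y => (grad u y ⬝ᵥ v) ^ 2) x = (2 * (grad u x ⬝ᵥ v)) • (Hs u x *ᵥ v) := by
    have h2 : (fun y => (grad u y ⬝ᵥ v) ^ 2) = fun y => (grad u y ⬝ᵥ v) * (grad u y ⬝ᵥ v) := by
      funext y; ring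
    rw [h2, grad_mul (c3.differentiableAt (by simp)) (c3.differentiableAt (by simp)),
      grad_grad_dot hux, ← add_smul, two_mul]
  have hg := grad_eq_zero_of_isLocalMax hmax
  rw [grad_add ((c2.add c5).differentiableAt (by simp)) (c6.differentiableAt (by simp)),
    grad_add (c2.differentiableAt (by simp)) (c5.differentiableAt (by simp)),
    grad_log (c1.differentiableAt (by simp)) hk.ne', grad_Hs_quad hux,
    grad_const_mul _ (c4.differentiableAt (by simp)), g4, g6] at hg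
  have hl := Lnd_nonpos_of_isLocalMax (hp x) ((c2.add c5).add c6) hmax
  rw [Lnd_add (c2.add c5) c6, Lnd_add c2 c5, Lnd_log c1 hk.ne', Lnd_Hs_quad hu hp hD,
    grad_Hs_quad hux, Lnd_const_mul _ c4, Lnd_sq c3, Lnd_grad_dot hux (hp x), hlog,
    grad_grad_dot hux, l6, gq_Hs (hp x), dotProduct_comm (Hs u x *ᵥ v) v] at hl
  have hT : Tm u v x *ᵥ v = (v ⬝ᵥ (Hs u x *ᵥ v) / (1 - u x)) • grad u x +
      (-(v ⬝ᵥ (Hs u x *ᵥ v) * (grad u x ⬝ᵥ v))) • (Hs u x *ᵥ v) := by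
    funext i
    have h3 := congrFun hg i
    simp only [Pi.add_apply, Pi.smul_apply, smul_eq_mul, Pi.zero_apply] at h3 ⊢
    field_simp at h3 ⊢
    linarith
  have hI := pog_ineq (hp x) (Tm_symm hux v) hv
  have e1 := poga_gq_expand (hp x) (v ⬝ᵥ (Hs u x *ᵥ v) / (1 - u x))
    (-(v ⬝ᵥ (Hs u x *ᵥ v) * (grad u x ⬝ᵥ v))) (grad u x) v
  rw [← hT] at e1
  refine pog_alg (TT := gq u x (Tm u v x *ᵥ v) (Tm u v x *ᵥ v)) (vT := v ⬝ᵥ (Tm u v x *ᵥ v))
    (PP := gq u x (grad u x) (grad u x))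
    (tr := (Gm u x * Tm u v x * Gm u x * Tm u v x).trace) hk hb ?_ ?_ hI ?_
  · rw [e1]; field_simp; ring
  · rw [hT, dotProduct_add, dotProduct_smul, dotProduct_smul, dotProduct_comm v (grad u x)]
    simp only [smul_eq_mul]
    field_simp
    ring
  · simp only [zero_dotProduct] at hl
    have e2 : (1 : ℝ) * n / (1 - u x) = n / (1 - u x) := by rw [one_mul]
    have e3 : 1 * gq u x (grad u x) (grad u x) / (1 - u x) ^ 2 =
        gq u x (grad u x) (grad u x) / (1 - u x) ^ 2 := by rw [one_mul]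
    linarith

/-- Fix `v = e_i`, `k = v·Hv`, `p = ∇u`, `u_v = p·v`, `b = 1 - u`, `T = Tm u v`. The function
`k b exp (u_v²/2)` attains its maximum over `{u ≤ 1}` at a point with `u < 1`, where
`h = log k + log b + u_v²/2` has a local maximum: `T v / k - p / b + u_v H v = 0` and
`0 ≥ Lnd h = tr(GTGT)/k - |Tv|²_G/k² - n/b - |p|²_G/b² + k` (`Lnd_log`, `Lnd_Hs_quad`,
`Lnd_sq`, `Lnd_grad_dot` with `∇ log D = 0`). By `pog_ineq`,
`tr(GTGT)/k - |Tv|²/k² ≥ |ξ|²_G - (ξ·v)²/k` for `ξ = Tv/k = p/b - u_v H v`, and this equals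
`|p|²_G/b² - u_v²/(k b²)`. So `Z = k b` satisfies `Z² ≤ n Z + u_v²`, whence `Z ≤ n + |u_v|`. -/
theorem pogorelov (hn : 1 ≤ n) (Λ : ℝ) : ∃ C : ℝ, 0 < C ∧ ∀ u : E n → ℝ, Nrm u Λ →
    (∀ x y, Dt u x = Dt u y) → ∀ x : E n, u x ≤ 1 / 2 → (Hs u x).trace ≤ C := by
  obtain ⟨C, hC1, hC⟩ := nrm_bound hn Λ 1
  have hn' : (0 : ℝ) < n := by exact_mod_cast hn
  refine ⟨n * (2 * ((n + C) * Real.exp (C ^ 2 / 2))), by positivity, ?_⟩
  intro u h hD x hx
  have hu := h.contDiff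
  have hp : ∀ y, (Hs u y).PosDef := fun y => h.cvx.posDef y (mem_univ y)
  have key : ∀ i : Fin n, Hs u x i i ≤ 2 * ((n + C) * Real.exp (C ^ 2 / 2)) := by
    intro i
    have hv : (Pi.single i 1 : E n) ≠ 0 := by
      intro h0
      have := congrFun h0 i
      simp at this
    set v : E n := Pi.single i 1 with hvdef
    have hk : ∀ y, 0 < v ⬝ᵥ (Hs u y *ᵥ v) := fun y => pd_dot_pos (hp y) hv
    have hg : Continuous fun y =>
        Real.log (v ⬝ᵥ (Hs u y *ᵥ v)) + 1 / 2 * (grad u y ⬝ᵥ v) ^ 2 := by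
      rw [continuous_iff_continuousAt]
      intro y
      exact (((contDiffAt_Hs_quad hu.contDiffAt v).log (hk y).ne').add
        (contDiffAt_const.mul ((poga_contDiffAt_dot hu.contDiffAt v).pow 2))).continuousAt
    obtain ⟨x₀, hx₀, hle, hmax⟩ := poga_max h hg one_pos
    have h1 := pog_at_max hu hp hD hv hx₀ hmax
    have h2 : |grad u x₀ ⬝ᵥ v| ≤ C := by
      have h3 : grad u x₀ ⬝ᵥ v = grad u x₀ i := by simp [hvdef]
      rw [h3, ← Real.norm_eq_abs]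
      exact (norm_le_pi_norm _ i).trans (hC u h x₀ (h.outer x₀ hx₀.le)).2
    have h3 := pog_root hn'.le h2 h1
    have hb₀ : 0 < 1 - u x₀ := by linarith
    have hb : 0 < 1 - u x := by linarith
    have h4 := hle x (by linarith)
    have h5 : (grad u x₀ ⬝ᵥ v) ^ 2 ≤ C ^ 2 := by
      rw [← sq_abs]; exact pow_le_pow_left₀ (abs_nonneg _) h2 2
    have h6 : Real.log (v ⬝ᵥ (Hs u x₀ *ᵥ v)) + Real.log (1 - u x₀) ≤ Real.log (n + C) := by
      rw [← Real.log_mul (hk x₀).ne' hb₀.ne']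
      exact Real.log_le_log (mul_pos (hk x₀) hb₀) h3
    have h7 : Real.log (v ⬝ᵥ (Hs u x *ᵥ v) * (1 - u x)) ≤
        Real.log ((n + C) * Real.exp (C ^ 2 / 2)) := by
      rw [Real.log_mul (hk x).ne' hb.ne', Real.log_mul (by positivity) (Real.exp_pos _).ne',
        Real.log_exp]
      nlinarith [sq_nonneg (grad u x ⬝ᵥ v)]
    rw [Real.log_le_log_iff (mul_pos (hk x) hb) (by positivity)] at h7
    have h8 : v ⬝ᵥ (Hs u x *ᵥ v) = Hs u x i i := by simp [hvdef]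
    have h9 := hk x
    rw [h8] at h7 h9
    nlinarith
  calc (Hs u x).trace = ∑ i, Hs u x i i := rfl
    _ ≤ ∑ _i : Fin n, 2 * ((n + C) * Real.exp (C ^ 2 / 2)) := Finset.sum_le_sum fun i _ => key i
    _ = _ := by simp

end Vale.Agent.P252b
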