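import Vale.Agent.P252b.Liou
import Vale.Agent.P252b.Pog

/-!
The Hessian of an entire balanced solution is constant.
-/

open MeasureTheory Metric Set Filter Topology Matrix
open scoped ENNReal ContDiff

noncomputable section

namespace Vale.Agent.P252b

variable {n : ℕ}

theorem jcp_conj (M H : Matrix (Fin n) (Fin n) ℝ) (s : ℝ) (w : E n) :
    w ⬝ᵥ ((s • (Mᵀ * H * M)) *ᵥ w) = s * ((M *ᵥ w) ⬝ᵥ (H *ᵥ (M *ᵥ w))) := by
  rw [smul_mulVec, dotProduct_smul, smul_eq_mul, ← mulVec_mulVec, ← mulVec_mulVec,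
    dotProduct_mulVec, vecMul_transpose]

theorem jcp_inv {M : Matrix (Fin n) (Fin n) ℝ} (hM : M.det ≠ 0) (v : E n) :
    M *ᵥ (M⁻¹ *ᵥ v) = v := by
  rw [mulVec_mulVec, mul_nonsing_inv M (isUnit_iff_ne_zero.2 hM), one_mulVec]

/-- Normalise at height `t = 2 Br u 0 x + 1`; `pogorelov` at `M⁻¹ x` and at `0`, `nrm_dt_lower`,
`quad_compare`, `Hs_nz` (apply it to the vector `M⁻¹ v`). -/
theorem hess_bdd (hn : 2 ≤ n) {u : E n → ℝ} {Λ : ℝ} (hΛ : 1 ≤ Λ) (h : Sol univ u)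
    (hb : Bal u Λ) : ∃ C : ℝ, ∀ x v : E n, v ⬝ᵥ (Hs u x *ᵥ v) ≤ C * (v ⬝ᵥ (Hs u 0 *ᵥ v)) := by
  have hn1 : 1 ≤ n := le_trans (by norm_num) hn
  obtain ⟨τ, -, hτ⟩ := pogorelov hn1 Λ
  obtain ⟨c, hc, hcl⟩ := nrm_dt_lower hn1 hΛ
  refine ⟨τ ^ n / c, fun x v => ?_⟩
  have hB : 0 ≤ Br u 0 x := h.toCvx.Br_nonneg (mem_univ _) (mem_univ _)
  have ht : 0 < 2 * Br u 0 x + 1 := by linarith
  obtain ⟨M, hM, hN⟩ := exists_nrm hn1 h.toCvx hΛ hb ht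
  have hD : ∀ y z, Dt (nz u M (2 * Br u 0 x + 1)) y = Dt (nz u M (2 * Br u 0 x + 1)) z :=
    fun y z => by
      rw [Dt_nz h.toCvx, Dt_nz h.toCvx, dt_const hn hΛ h hb (M *ᵥ y) (M *ᵥ z)]
  have h1 : nz u M (2 * Br u 0 x + 1) (M⁻¹ *ᵥ x) ≤ 1 / 2 := by
    rw [nz, jcp_inv hM, div_le_iff₀ ht]
    linarith
  have h2 : nz u M (2 * Br u 0 x + 1) 0 ≤ 1 / 2 := by
    rw [hN.zero]
    norm_num
  have h3 := quad_compare (hN.cvx.posDef 0 (mem_univ _))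
    (hN.cvx.posDef (M⁻¹ *ᵥ x) (mem_univ _)).posSemidef (hτ _ hN hD _ h2) (hτ _ hN hD _ h1) hc
    (hcl _ hN (sol_nz h hM ht) hD) (M⁻¹ *ᵥ v)
  rw [Hs_nz h.toCvx, Hs_nz h.toCvx, jcp_conj, jcp_conj, jcp_inv hM, jcp_inv hM, mulVec_zero,
    mul_left_comm] at h3
  exact le_of_mul_le_mul_left h3 (inv_pos.2 ht)

/-- `Lop = Lnd` because `∇ log D = 0`; `Lnd_Hs_quad`, `trace_GTGT_nonneg`. -/
theorem sup_hess {u : E n → ℝ} (h : Cvx univ u) (hD : ∀ x y, Dt u x = Dt u y) (v : E n) {c : ℝ}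
    (hc : ∀ x, v ⬝ᵥ (Hs u x *ᵥ v) < c) : Sup u (fun x => c - v ⬝ᵥ (Hs u x *ᵥ v)) := by
  have hu : ∀ x, ContDiffAt ℝ ∞ u x := fun x => h.contDiffAt (mem_univ x)
  have hp : ∀ x, (Hs u x).PosDef := fun x => h.posDef x (mem_univ x)
  refine ⟨contDiff_const.sub (contDiff_iff_contDiffAt.2 fun x => contDiffAt_Hs_quad (hu x) v),
    fun x => sub_pos.2 (hc x), fun x => ?_⟩
  have h0 : (fun y => Real.log (Dt u y)) = fun _ => Real.log (Dt u 0) :=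
    funext fun y => by rw [hD y 0]
  rw [Lop_const_sub (hu x) (hp x) (contDiffAt_Hs_quad (hu x) v),
    Lop_eq (hu x) (hp x) (contDiffAt_Hs_quad (hu x) v), h0, grad_const,
    Lnd_Hs_quad h.contDiff hp hD, gq, zero_dotProduct, sub_zero, neg_nonpos]
  exact trace_GTGT_nonneg (Gm_posDef (hp x)).posSemidef (Tm_symm (hu x) v)

/-- Supremum of the Hessian quadratic form in a fixed direction. -/
def jcpM (u : E n → ℝ) (w : E n) : ℝ := ⨆ x : E n, w ⬝ᵥ (Hs u x *ᵥ w)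

theorem jcp_le (hn : 2 ≤ n) {u : E n → ℝ} {Λ : ℝ} (hΛ : 1 ≤ Λ) (h : Sol univ u)
    (hb : Bal u Λ) (w x : E n) : w ⬝ᵥ (Hs u x *ᵥ w) ≤ jcpM u w := by
  obtain ⟨C, hC⟩ := hess_bdd hn hΛ h hb
  refine le_ciSup (f := fun x : E n => w ⬝ᵥ (Hs u x *ᵥ w))
    ⟨C * (w ⬝ᵥ (Hs u 0 *ᵥ w)), ?_⟩ x
  rintro _ ⟨y, rfl⟩
  exact hC y w

theorem jcp_near (hn : 2 ≤ n) {u : E n → ℝ} {Λ : ℝ} (hΛ : 1 ≤ Λ) (h : Sol univ u)
    (hb : Bal u Λ) (ι : Type) [Fintype ι] (w : ι → E n) {δ : ℝ} (hδ : 0 < δ) :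
    ∃ z : E n, ∀ j, jcpM u (w j) - δ ≤ w j ⬝ᵥ (Hs u z *ᵥ w j) := by
  have hn1 : 1 ≤ n := le_trans (by norm_num) hn
  obtain ⟨K, hK, hs⟩ := simultaneous hn1 hΛ ι
  have hε : 0 < δ / (2 * K) := by positivity
  have hx : ∀ j, ∃ x : E n, jcpM u (w j) - δ / (2 * K) < w j ⬝ᵥ (Hs u x *ᵥ w j) := fun j =>
    exists_lt_of_lt_ciSup (f := fun x : E n => w j ⬝ᵥ (Hs u x *ᵥ w j)) (sub_lt_self _ hε)
  choose x hx using hx
  obtain ⟨z, hz⟩ := hs u h.toCvx hb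
    (fun j y => jcpM u (w j) + δ / (2 * K) - w j ⬝ᵥ (Hs u y *ᵥ w j))
    (fun j => sup_hess h.toCvx (dt_const hn hΛ h hb) (w j) fun y => by
      linarith [jcp_le hn hΛ h hb (w j) y]) x
  refine ⟨z, fun j => ?_⟩
  have h1 : K * (jcpM u (w j) + δ / (2 * K) - w j ⬝ᵥ (Hs u (x j) *ᵥ w j)) ≤
      K * (2 * (δ / (2 * K))) :=
    mul_le_mul_of_nonneg_left (by linarith [hx j]) hK.le
  have h2 : K * (2 * (δ / (2 * K))) = δ := by field_simp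
  have h3 := hz j
  linarith

theorem jcp_entry {H : Matrix (Fin n) (Fin n) ℝ} (hH : Hᵀ = H) (i j : Fin n) :
    H i j = (((Pi.single i 1 + Pi.single j 1 : E n) ⬝ᵥ (H *ᵥ (Pi.single i 1 + Pi.single j 1))) -
      (Pi.single i 1 : E n) ⬝ᵥ (H *ᵥ Pi.single i 1) -
      (Pi.single j 1 : E n) ⬝ᵥ (H *ᵥ Pi.single j 1)) / 2 := by
  have hs : H j i = H i j := by
    have := congrFun (congrFun hH i) j
    rwa [transpose_apply] at this
  simp only [mulVec_add, add_dotProduct, dotProduct_add, single_one_dotProduct, mulVec_single_one,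
    col_apply]
  rw [hs]
  ring

/-- The limiting matrix. -/
def jcpA (u : E n → ℝ) : Matrix (Fin n) (Fin n) ℝ := Matrix.of fun i j =>
  (jcpM u (Pi.single i 1 + Pi.single j 1) - jcpM u (Pi.single i 1) - jcpM u (Pi.single j 1)) / 2

theorem jcpA_symm (u : E n → ℝ) : (jcpA u)ᵀ = jcpA u := by
  ext i j
  simp only [jcpA, transpose_apply, of_apply]
  rw [add_comm (Pi.single j 1 : E n)]
  ring

theorem jcp_seq (hn : 2 ≤ n) {u : E n → ℝ} {Λ : ℝ} (hΛ : 1 ≤ Λ) (h : Sol univ u)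
    (hb : Bal u Λ) (v : E n) : ∃ z : ℕ → E n, Tendsto (fun k => Hs u (z k)) atTop (𝓝 (jcpA u)) ∧
      Tendsto (fun k => v ⬝ᵥ (Hs u (z k) *ᵥ v)) atTop (𝓝 (jcpM u v)) := by
  have hz : ∀ k : ℕ, ∃ z : E n, ∀ j : (Fin n × Fin n) ⊕ (Fin n ⊕ Unit), _ := fun k =>
    jcp_near hn hΛ h hb ((Fin n × Fin n) ⊕ (Fin n ⊕ Unit))
      (Sum.elim (fun p => Pi.single p.1 1 + Pi.single p.2 1)
        (Sum.elim (fun i => Pi.single i 1) fun _ => v))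
      (δ := 1 / ((k : ℝ) + 1)) (by positivity)
  choose z hz using hz
  have key : ∀ w : E n, (∀ k : ℕ, jcpM u w - 1 / ((k : ℝ) + 1) ≤ w ⬝ᵥ (Hs u (z k) *ᵥ w)) →
      Tendsto (fun k => w ⬝ᵥ (Hs u (z k) *ᵥ w)) atTop (𝓝 (jcpM u w)) := fun w hw => by
    have h1 : Tendsto (fun k : ℕ => jcpM u w - 1 / ((k : ℝ) + 1)) atTop (𝓝 (jcpM u w - 0)) :=
      tendsto_const_nhds.sub tendsto_one_div_add_atTop_nhds_zero_nat
    rw [sub_zero] at h1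
    exact tendsto_of_tendsto_of_tendsto_of_le_of_le h1 tendsto_const_nhds hw
      fun k => jcp_le hn hΛ h hb w (z k)
  refine ⟨z, ?_, key v fun k => hz k (Sum.inr (Sum.inr ()))⟩
  refine tendsto_pi_nhds.2 fun i => tendsto_pi_nhds.2 fun j => ?_
  have h1 := (((key _ fun k => hz k (Sum.inl (i, j))).sub
    (key _ fun k => hz k (Sum.inr (Sum.inl i)))).sub
    (key _ fun k => hz k (Sum.inr (Sum.inl j)))).div_const 2
  refine h1.congr fun k => ?_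
  exact (jcp_entry (Hs_symm (h.toCvx.contDiffAt (mem_univ (z k)))) i j).symm

theorem jcp_eq (hn : 2 ≤ n) {u : E n → ℝ} {Λ : ℝ} (hΛ : 1 ≤ Λ) (h : Sol univ u)
    (hb : Bal u Λ) (x : E n) : Hs u x = jcpA u := by
  have hn1 : 1 ≤ n := le_trans (by norm_num) hn
  refine eq_of_le_of_det_eq hn1 (h.posDef x (mem_univ x)) (psd_of_dot ?_ fun v => ?_) ?_
  · rw [transpose_sub, jcpA_symm, Hs_symm (h.toCvx.contDiffAt (mem_univ x))]
  · obtain ⟨z, h1, h2⟩ := jcp_seq hn hΛ h hb v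
    have hc : Continuous fun B : Matrix (Fin n) (Fin n) ℝ => v ⬝ᵥ (B *ᵥ v) :=
      continuous_const.dotProduct (continuous_id.matrix_mulVec continuous_const)
    have h3 : v ⬝ᵥ (jcpA u *ᵥ v) = jcpM u v :=
      tendsto_nhds_unique ((hc.tendsto _).comp h1) h2
    rw [sub_mulVec, dotProduct_sub, h3, sub_nonneg]
    exact jcp_le hn hΛ h hb v x
  · obtain ⟨z, h1, -⟩ := jcp_seq hn hΛ h hb 0
    have hc : Continuous fun B : Matrix (Fin n) (Fin n) ℝ => B.det := continuous_id.matrix_det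
    have h2 : Tendsto (fun k => (Hs u (z k)).det) atTop (𝓝 (Hs u x).det) :=
      tendsto_const_nhds.congr fun k => dt_const hn hΛ h hb x (z k)
    exact tendsto_nhds_unique ((hc.tendsto _).comp h1) h2

/-- Let `m(v) = sup_x v·H(x)v` and `A i j = (m(e_i + e_j) - m(e_i) - m(e_j))/2`. For a fixed `v`
and `ε > 0`, `simultaneous` gives `z` with `w·H(z)w` close to `m(w)` for `w` among `e_i`,
`e_i + e_j`, `v`. So `m(v) = v·Av` and `det A = D`. Then `A - H(x)` is positive semidefinite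
and `eq_of_le_of_det_eq` applies. -/
theorem hess_const (hn : 2 ≤ n) {u : E n → ℝ} {Λ : ℝ} (hΛ : 1 ≤ Λ) (h : Sol univ u)
    (hb : Bal u Λ) (x : E n) : Hs u x = Hs u 0 :=
  (jcp_eq hn hΛ h hb x).trans (jcp_eq hn hΛ h hb 0).symm

end Vale.Agent.P252b
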