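import Vale.Agent.P252b.PogA

/-!
The Trudinger-Wang upper bound for the Hessian determinant.
-/

open MeasureTheory Metric Set Filter Topology Matrix
open scoped ENNReal ContDiff

noncomputable section

namespace Vale.Agent.P252b

variable {n : ℕ}

theorem tw_alg {b N β κ A Cg tr PP pp Q : ℝ} (hb : 0 < b) (hβ : 1 ≤ β) (hκ1 : 1 ≤ κ) (hκ2 : κ ≤ 2)
    (hA : 0 < A) (hAC : 4 * A * Cg ≤ 1) (htr : 0 ≤ tr) (hPP : 0 ≤ PP) (hpp0 : 0 ≤ pp)
    (hpp : pp ≤ Cg) (hQ0 : 0 ≤ Q) (hQ : Q ≤ tr * pp)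
    (h : (β / b) ^ 2 * PP - 4 * A * (β / b) * pp + 4 * A ^ 2 * Q +
      A * (2 * tr + 2 * (-κ * (-(β / b) * pp + 2 * A * Q))) - β * N / b - β * PP / b ^ 2 ≤ 0) :
    b * tr ≤ β * (N + 1) / A := by
  have hβb : 0 < β / b := by positivity
  have h1 : 0 ≤ (β / b) ^ 2 * PP - β * PP / b ^ 2 := by
    have : (β / b) ^ 2 * PP - β * PP / b ^ 2 = β * (β - 1) * PP / b ^ 2 := by field_simp
    rw [this]
    have : 0 ≤ β - 1 := by linarith
    positivity
  have h2 : 0 ≤ A * κ * (β / b) * pp := by positivity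
  have h3 : 4 * A * pp ≤ 1 := by nlinarith
  have h4 : 4 * A * (β / b) * pp ≤ β / b := by nlinarith
  have h5 : 4 * A * Q ≤ tr := by nlinarith
  have h6 : (κ - 1) * (4 * A * Q) ≤ tr := by
    have : 0 ≤ 4 * A * Q := by positivity
    nlinarith
  have h7 : A * ((κ - 1) * (4 * A * Q)) ≤ A * tr := mul_le_mul_of_nonneg_left h6 hA.le
  have h8 : A * tr ≤ β * N / b + β / b := by nlinarith
  rw [le_div_iff₀ hA]
  have h9 : b * (β * N / b + β / b) = β * (N + 1) := by field_simp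
  nlinarith

theorem tw_log_ww {u : E n → ℝ} {x : E n} (h : (Hs u x).PosDef) :
    Real.log (ww u x) = -(((n : ℝ) + 1) / ((n : ℝ) + 2)) * Real.log (Dt u x) := by
  unfold ww
  rw [Real.log_rpow (Dt_pos h)]

/-- The inequality at the maximum point. -/
theorem tw_at_max {u : E n → ℝ} {x : E n} (hux : ContDiffAt ℝ ∞ u x) (hp : (Hs u x).PosDef)
    (ham : Lnd u (ww u) x = 0) (hx : u x < 1) {β A Cg : ℝ} (hβ : 1 ≤ β) (hA : 0 < A)
    (hAC : 4 * A * Cg ≤ 1) (hCg : grad u x ⬝ᵥ grad u x ≤ Cg)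
    (hmax : IsLocalMax (fun y => (-1 * Real.log (ww u y) + A * (grad u y ⬝ᵥ grad u y)) +
      β * Real.log (1 - u y)) x) :
    (1 - u x) * (Hs u x).trace ≤ β * (n + 1) / A := by
  have hw : 0 < ww u x := ww_pos hp
  have hb : 0 < 1 - u x := by linarith
  have c1 : ContDiffAt ℝ ∞ (ww u) x := contDiffAt_ww hux hp
  have c2 : ContDiffAt ℝ ∞ (fun y => Real.log (ww u y)) x := c1.log hw.ne'
  have c3 : ContDiffAt ℝ ∞ (fun y => -1 * Real.log (ww u y)) x := contDiffAt_const.mul c2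
  have c4 : ContDiffAt ℝ ∞ (fun y => grad u y ⬝ᵥ grad u y) x := poga_contDiffAt_normsq hux
  have c5 : ContDiffAt ℝ ∞ (fun y => A * (grad u y ⬝ᵥ grad u y)) x := contDiffAt_const.mul c4
  obtain ⟨c6, g6, l6⟩ := poga_log hux hp hx β
  have hg := grad_eq_zero_of_isLocalMax hmax
  rw [grad_add ((c3.add c5).differentiableAt (by simp)) (c6.differentiableAt (by simp)),
    grad_add (c3.differentiableAt (by simp)) (c5.differentiableAt (by simp)),
    grad_const_mul _ (c2.differentiableAt (by simp)),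
    grad_log (c1.differentiableAt (by simp)) hw.ne',
    grad_const_mul _ (c4.differentiableAt (by simp)), grad_normsq hux, g6] at hg
  have hl := Lnd_nonpos_of_isLocalMax hp ((c3.add c5).add c6) hmax
  rw [Lnd_add (c3.add c5) c6, Lnd_add c3 c5, Lnd_const_mul _ c2, Lnd_log c1 hw.ne', ham,
    Lnd_const_mul _ c4, Lnd_normsq hux hp, grad_logDt_ww hux hp, l6] at hl
  have hω : grad (ww u) x = ww u x • ((-(β / (1 - u x))) • grad u x +
      (2 * A) • (Hs u x *ᵥ grad u x)) := by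
    funext i
    have h3 := congrFun hg i
    simp only [Pi.add_apply, Pi.smul_apply, smul_eq_mul, Pi.zero_apply] at h3 ⊢
    field_simp at h3 ⊢
    linarith
  have e1 : gq u x (grad (ww u) x) (grad (ww u) x) / ww u x ^ 2 =
      (β / (1 - u x)) ^ 2 * gq u x (grad u x) (grad u x) -
        4 * A * (β / (1 - u x)) * (grad u x ⬝ᵥ grad u x) +
        4 * A ^ 2 * (grad u x ⬝ᵥ (Hs u x *ᵥ grad u x)) := by
    rw [hω, poga_gq_smul, poga_gq_expand hp, mul_div_cancel_left₀ _ (pow_pos hw 2).ne']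
    ring
  have e2 : ((-(((n : ℝ) + 2) / ((n : ℝ) + 1)) * (ww u x)⁻¹) • grad (ww u) x) ⬝ᵥ grad u x =
      -(((n : ℝ) + 2) / ((n : ℝ) + 1)) * (-(β / (1 - u x)) * (grad u x ⬝ᵥ grad u x) +
        2 * A * (grad u x ⬝ᵥ (Hs u x *ᵥ grad u x))) := by
    rw [hω, smul_smul, mul_assoc, inv_mul_cancel₀ hw.ne', mul_one, smul_dotProduct,
      add_dotProduct, smul_dotProduct, smul_dotProduct,
      dotProduct_comm (Hs u x *ᵥ grad u x) (grad u x)]
    simp only [smul_eq_mul]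
  rw [e1, e2] at hl
  have hn0 : (0 : ℝ) ≤ n := Nat.cast_nonneg n
  refine tw_alg (κ := ((n : ℝ) + 2) / ((n : ℝ) + 1)) (PP := gq u x (grad u x) (grad u x))
    (pp := grad u x ⬝ᵥ grad u x) (Q := grad u x ⬝ᵥ (Hs u x *ᵥ grad u x)) hb hβ ?_ ?_ hA hAC
    hp.posSemidef.trace_nonneg (gq_nonneg hp _) ?_ hCg (psd_dot_nonneg hp.posSemidef _)
    (quad_le_trace hp.posSemidef _) ?_
  · rw [le_div_iff₀ (by positivity)]; linarith
  · rw [div_le_iff₀ (by positivity)]; linarith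
  · exact Finset.sum_nonneg fun i _ => mul_self_nonneg _
  · rw [zero_div] at hl
    linarith

/-- `θ = (n+1)/(n+2)`, `β = n θ ≥ 1`, `Cg` a bound for `∇u·∇u` on the unit ball,
`A = 1/(4 Cg + 1)`. The function `(1-u)^β exp (A ∇u·∇u) / w` is continuous on `{u ≤ 1}`, zero where
`u = 1`, positive inside; at its maximum point `x₀` the logarithm
`h = -log w + β log (1-u) + A ∇u·∇u` has a local maximum. With `ω = ∇w/w`, `p = ∇u`, `b = 1-u`:
`ω = -β p/b + 2A H p`, `∇log D = -θ⁻¹ ω` (`grad_logDt_ww`) and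
`0 ≥ Lnd h = |ω|² - β n/b - β |p|²_G/b² + 2A (tr H - θ⁻¹ ω·p)`. Expanding,
`|ω|² = β² |p|²_G/b² - 4Aβ p·p/b + 4A² Q`, `ω·p = -β p·p/b + 2A Q`, `Q = p·Hp ≤ Cg tr H`,
one gets `A tr H ≤ (β n + 4 A β Cg)/b`, so `bⁿ D ≤ C` (`det_le_trace_pow`) at `x₀`, and
`b^β / w = (bⁿ D)^θ`. -/
theorem tw_bound (hn : 2 ≤ n) (Λ : ℝ) : ∃ C : ℝ, 0 < C ∧ ∀ u : E n → ℝ, Nrm u Λ → Sol univ u →
    ∀ x : E n, u x ≤ 1 / 2 → Dt u x ≤ C := by
  have hn1 : 1 ≤ n := by omega
  obtain ⟨C, hC1, hC⟩ := nrm_bound hn1 Λ 1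
  have hn' : (2 : ℝ) ≤ n := by exact_mod_cast hn
  obtain ⟨θ, hθ⟩ : ∃ θ : ℝ, θ = ((n : ℝ) + 1) / ((n : ℝ) + 2) := ⟨_, rfl⟩
  have hθ1 : 1 / 2 ≤ θ := by
    rw [hθ, le_div_iff₀ (by positivity)]; linarith
  have hβ : 1 ≤ n * θ := by nlinarith
  obtain ⟨A, hAdef⟩ : ∃ A : ℝ, A = 1 / (4 * (n * C * C) + 1) := ⟨_, rfl⟩
  have hCg : 0 < n * C * C := by positivity
  have hA : 0 < A := by rw [hAdef]; positivity
  have hAC : 4 * A * (n * C * C) ≤ 1 := by
    have : A * (4 * (n * C * C) + 1) = 1 := by rw [hAdef]; field_simp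
    nlinarith
  obtain ⟨K, hK⟩ : ∃ K : ℝ, K = n * θ * (n + 1) / A / n := ⟨_, rfl⟩
  refine ⟨Real.exp (n * Real.log K + 2 + n * Real.log 2), Real.exp_pos _, ?_⟩
  intro u h hS x hx
  have hu := h.contDiff
  have hp : ∀ y, (Hs u y).PosDef := fun y => h.cvx.posDef y (mem_univ y)
  have hg : Continuous fun y => -1 * Real.log (ww u y) + A * (grad u y ⬝ᵥ grad u y) := by
    rw [continuous_iff_continuousAt]
    intro y
    exact ((contDiffAt_const.mul ((contDiffAt_ww hu.contDiffAt (hp y)).log (ww_pos (hp y)).ne')).add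
      (contDiffAt_const.mul (poga_contDiffAt_normsq hu.contDiffAt))).continuousAt
  obtain ⟨x₀, hx₀, hle, hmax⟩ := poga_max h hg (lt_of_lt_of_le one_pos hβ)
  have hpp : grad u x₀ ⬝ᵥ grad u x₀ ≤ n * C * C := by
    have h1 := (hC u h x₀ (h.outer x₀ hx₀.le)).2
    have h2 := (le_abs_self _).trans (abs_dot_le (grad u x₀) (grad u x₀))
    have h3 : ‖grad u x₀‖ * ‖grad u x₀‖ ≤ C * C :=
      mul_le_mul h1 h1 (norm_nonneg _) (by linarith)
    nlinarith
  have h1 := tw_at_max hu.contDiffAt (hp x₀) (hS.am x₀ (mem_univ _)) hx₀ hβ hA hAC hpp hmax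
  have hb₀ : 0 < 1 - u x₀ := by linarith
  have hb : 0 < 1 - u x := by linarith
  have h2 : (1 - u x₀) ^ n * Dt u x₀ ≤ K ^ n := by
    have h3 : Dt u x₀ ≤ ((Hs u x₀).trace / n) ^ n := det_le_trace_pow hn1 (hp x₀).posSemidef
    have h4 : (1 - u x₀) * ((Hs u x₀).trace / n) ≤ K := by
      rw [hK, ← mul_div_assoc]
      exact div_le_div_of_nonneg_right h1 (by positivity)
    have h5 : 0 ≤ (Hs u x₀).trace := (hp x₀).posSemidef.trace_nonneg
    calc (1 - u x₀) ^ n * Dt u x₀ ≤ (1 - u x₀) ^ n * ((Hs u x₀).trace / n) ^ n :=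
          mul_le_mul_of_nonneg_left h3 (by positivity)
      _ = ((1 - u x₀) * ((Hs u x₀).trace / n)) ^ n := (mul_pow _ _ _).symm
      _ ≤ K ^ n := pow_le_pow_left₀ (by positivity) h4 n
  have h3 : n * Real.log (1 - u x₀) + Real.log (Dt u x₀) ≤ n * Real.log K := by
    rw [← Real.log_pow, ← Real.log_pow, ← Real.log_mul (pow_pos hb₀ n).ne' (Dt_pos (hp x₀)).ne']
    exact Real.log_le_log (mul_pos (pow_pos hb₀ n) (Dt_pos (hp x₀))) h2
  have h4 := hle x (by linarith)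
  rw [tw_log_ww (hp x), tw_log_ww (hp x₀), ← hθ] at h4
  have h5 : -Real.log 2 ≤ Real.log (1 - u x) := by
    rw [← Real.log_inv]
    exact Real.log_le_log (by norm_num) (by linarith)
  have h6 : 0 ≤ A * (grad u x ⬝ᵥ grad u x) :=
    mul_nonneg hA.le (Finset.sum_nonneg fun i _ => mul_self_nonneg _)
  have h7 : A * (grad u x₀ ⬝ᵥ grad u x₀) ≤ 1 := by nlinarith
  have h8 : θ * (Real.log (Dt u x) - (n * Real.log K + 2 + n * Real.log 2)) ≤ 0 := by
    have h9 : θ * (n * Real.log (1 - u x₀) + Real.log (Dt u x₀)) ≤ θ * (n * Real.log K) :=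
      mul_le_mul_of_nonneg_left h3 (by linarith)
    have h10 : n * θ * (-Real.log 2) ≤ n * θ * Real.log (1 - u x) :=
      mul_le_mul_of_nonneg_left h5 (by linarith)
    nlinarith
  have h9 : Real.log (Dt u x) ≤ n * Real.log K + 2 + n * Real.log 2 := by
    by_contra hlt
    push Not at hlt
    nlinarith
  rwa [Real.log_le_iff_le_exp (Dt_pos (hp x))] at h9

end Vale.Agent.P252b
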