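import Vale.Agent.P252b.WH
import Vale.Agent.P252b.TW
import Vale.Agent.P252b.NC

/-!
The Hessian determinant of an entire balanced solution is constant.
-/

open MeasureTheory Metric Set Filter Topology Matrix
open scoped ENNReal ContDiff

noncomputable section

namespace Vale.Agent.P252b

variable {n : ℕ}

theorem sup_ff {u : E n → ℝ} (h : Sol univ u) : Sup u (ff u) := 
  ⟨contDiff_iff_contDiffAt.2 fun x => contDiffAt_ff (h.toCvx.contDiffAt (mem_univ x))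
    (h.posDef x (mem_univ x)), fun x => ff_pos (h.posDef x (mem_univ x)), fun x =>
    (Lop_ff (h.toCvx.contDiffAt (mem_univ x)) (h.posDef x (mem_univ x)) (h.am x (mem_univ x))).le⟩

theorem liou_area_le (u : E n → ℝ) {S T : Set (E n)} {b v : ℝ} (hb : 0 ≤ b)
    (h : ∀ x ∈ S, ff u x ≤ b) (hT : S ⊆ T) (hv : volume T ≤ ENNReal.ofReal v) :
    area u S ≤ ENNReal.ofReal (b * v) := by
  refine (setLIntegral_mono (g := fun _ => ENNReal.ofReal b) measurable_const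
    fun x hx => ENNReal.ofReal_le_ofReal (h x hx)).trans ?_
  rw [setLIntegral_const, ENNReal.ofReal_mul hb]
  exact mul_le_mul_right ((measure_mono hT).trans hv) _

theorem liou_sub {u : E n → ℝ} {Λ : ℝ} (h : Nrm u Λ) :
    {x | u x ≤ 1 / 2} ⊆ closedBall (0 : E n) 1 := fun x hx =>
  mem_closedBall_zero_iff.2 (h.outer x (le_trans hx (by norm_num)))

/-- `area_lower` for `a = ⟨0, 2, 0⟩`; the section contains the ball of radius `(2nΛ)⁻¹`. -/
theorem nrm_area (hn : 1 ≤ n) {Λ : ℝ} (hΛ : 1 ≤ Λ) : ∃ c : ℝ, 0 < c ∧ ∀ u : E n → ℝ, Nrm u Λ →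
    Sol univ u → ENNReal.ofReal c ≤ area u {x | u x ≤ 1 / 2} := by
  obtain ⟨c, hc, H⟩ := area_lower hn
  have hp : 0 < (n : ℝ) * Λ := mul_pos (by exact_mod_cast hn) (zero_lt_one.trans_le hΛ)
  refine ⟨c * ((2 * (((n : ℝ) * Λ)⁻¹ / 2)) ^ n / 2) ^ ((n : ℝ) / (n + 2)), by positivity,
    fun u h hs => ?_⟩
  have hsec : ∀ s : ℝ, sec univ u (⟨0, 2, 0⟩ : Af n) s = {x | u x ≤ s / 2} := fun s => by
    ext x
    simp only [sec, Af.on, Af.ev, mem_univ, true_and, zero_dotProduct, zero_add, add_zero,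
      mem_ofPred_eq]
    constructor <;> intro h <;> linarith
  have hcap : CapF univ u (⟨0, 2, 0⟩ : Af n) := by
    refine ⟨fun W hW => ?_, by norm_num, fun s => by rw [hsec]; exact h.isCompact_le _⟩
    have := (h.nonneg W.1).trans hW.2
    simp only [Af.ev, zero_dotProduct, zero_add, add_zero]
    linarith
  have key := H univ u hs _ hcap ⟨(0, 0), ⟨mem_univ _, h.zero.le⟩, by simp [Af.ev]⟩
  rw [hsec] at key
  refine le_trans (ENNReal.ofReal_le_ofReal ?_) key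
  have hsub : closedBall (0 : E n) (((n : ℝ) * Λ)⁻¹ / 2) ⊆ {x | u x ≤ 1 / 2} := fun x hx => by
    rw [mem_closedBall_zero_iff] at hx
    refine (h.le_norm hn (hx.trans (half_le_self (inv_pos.2 hp).le))).trans ?_
    refine (mul_le_mul_of_nonneg_left hx hp.le).trans (le_of_eq ?_)
    field_simp
  have hv := measureReal_mono (μ := volume) hsub (h.isCompact_le _).measure_lt_top.ne
  rw [measureReal_def, volume_closedBall_eq (by positivity),
    ENNReal.toReal_ofReal (by positivity)] at hv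
  gcongr

/-- On `S = {u ≤ 1/2}` we have `f ≤ C₁` (`tw_bound`), `vol S ≤ 2ⁿ`, `area S ≥ c`. With
`δ = c/(2 C₁)` and `K` from `weak_harnack` at `x₀ = 0`:
`c ≤ area S ≤ K f(0) 2ⁿ + C₁ δ`, so `f(0) ≥ c/(2^(n+1) K)`. -/
theorem nrm_ff_upper (hn : 2 ≤ n) {Λ : ℝ} (hΛ : 1 ≤ Λ) : ∃ C : ℝ, 0 < C ∧ ∀ u : E n → ℝ,
    Nrm u Λ → Sol univ u → ∀ x : E n, u x ≤ 1 / 2 → ff u x ≤ C * ff u 0 := by
  obtain ⟨c, hc, Ha⟩ := nrm_area (n := n) (by omega) hΛ
  obtain ⟨C, hC, Ht⟩ := tw_bound hn Λ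
  obtain ⟨θ, hθ, Hw⟩ := weak_harnack (n := n) (by omega) hΛ
  have hC1 : 0 < C ^ (1 / ((n : ℝ) + 2)) := by positivity
  obtain ⟨K, hK, Hk⟩ := Hw (c / (2 * C ^ (1 / ((n : ℝ) + 2)))) (by positivity)
  refine ⟨C ^ (1 / ((n : ℝ) + 2)) * (2 * (K * 2 ^ n) / c), by positivity, fun u h hs x hx => ?_⟩
  have hf : ∀ y : E n, u y ≤ 1 / 2 → ff u y ≤ C ^ (1 / ((n : ℝ) + 2)) := fun y hy =>
    Real.rpow_le_rpow (Dt_pos (hs.posDef y (mem_univ y))).le (Ht u h hs y hy) (by positivity)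
  have h0 := (sup_ff hs).pos 0
  have a1 := liou_area_le u (S := {y | u y ≤ 1 / 2 ∧ ff u y ≤ K * ff u 0}) (by positivity)
    (fun y hy => hy.2) (fun y hy => liou_sub h hy.1) volume_closedBall_one.le
  have a2 := liou_area_le u (S := {y | u y ≤ 1 / 2 ∧ K * ff u 0 < ff u y})
    (T := {y | ‖y‖ ≤ 1 ∧ K * ff u 0 < ff u y}) hC1.le
    (fun y hy => hf y hy.1) (fun y hy => ⟨h.outer y (hy.1.trans (by norm_num)), hy.2⟩)
    (Hk u (ff u) h (sup_ff hs) 0 (by simpa using hθ.le))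
  have a3 : area u {y | u y ≤ 1 / 2} ≤ area u {y | u y ≤ 1 / 2 ∧ ff u y ≤ K * ff u 0} +
      area u {y | u y ≤ 1 / 2 ∧ K * ff u 0 < ff u y} :=
    (lintegral_mono_set fun y hy => (le_or_gt (ff u y) (K * ff u 0)).imp
      (fun h1 => ⟨hy, h1⟩) fun h1 => ⟨hy, h1⟩).trans (lintegral_union_le _ _ _)
  have a4 := (Ha u h hs).trans (a3.trans (add_le_add a1 a2))
  rw [← ENNReal.ofReal_add (by positivity) (by positivity),
    ENNReal.ofReal_le_ofReal_iff (by positivity)] at a4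
  have e1 : C ^ (1 / ((n : ℝ) + 2)) * (c / (2 * C ^ (1 / ((n : ℝ) + 2)))) = c / 2 := by
    field_simp
  have a5 : 1 ≤ 2 * (K * 2 ^ n) / c * ff u 0 := by
    rw [div_mul_eq_mul_div, le_div_iff₀ hc]
    linarith
  rw [mul_assoc]
  exact (hf x hx).trans (le_mul_of_one_le_right hC1.le a5)

/-- Normalise at height `t = 2 Br u 0 x + 1` and use `ff_nz`. -/
theorem ff_bdd (hn : 2 ≤ n) {u : E n → ℝ} {Λ : ℝ} (hΛ : 1 ≤ Λ) (h : Sol univ u) (hb : Bal u Λ) :
    ∃ C : ℝ, ∀ x, ff u x ≤ C := by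
  obtain ⟨C, hC, H⟩ := nrm_ff_upper hn hΛ
  refine ⟨C * ff u 0, fun x => ?_⟩
  have h0 := h.toCvx.Br_nonneg (mem_univ 0) (mem_univ x)
  have ht : 0 < 2 * Br u 0 x + 1 := by linarith
  obtain ⟨M, hM, hN⟩ := exists_nrm (by omega) h.toCvx hΛ hb ht
  have e : M *ᵥ (M⁻¹ *ᵥ x) = x := by
    rw [mulVec_mulVec, mul_nonsing_inv _ (isUnit_iff_ne_zero.2 hM), one_mulVec]
  have key := H _ hN (sol_nz h hM ht) (M⁻¹ *ᵥ x) (by
    rw [nz, e, div_le_iff₀ ht]; linarith)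
  rw [ff_nz h.toCvx M ht, ff_nz h.toCvx M ht, e, mulVec_zero, mul_left_comm] at key
  exact le_of_mul_le_mul_left key (by positivity)

/-- `m = inf f`, `M = sup f`; `simultaneous` for `f - m + ε` and `M - f + ε` gives
`M - m ≤ 4 K ε`. -/
theorem dt_const (hn : 2 ≤ n) {u : E n → ℝ} {Λ : ℝ} (hΛ : 1 ≤ Λ) (h : Sol univ u)
    (hb : Bal u Λ) (x y : E n) : Dt u x = Dt u y := by
  obtain ⟨C, hC⟩ := ff_bdd hn hΛ h hb
  obtain ⟨K, hK, H⟩ := simultaneous (n := n) (by omega) hΛ Bool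
  have hs := sup_ff h
  have b1 : BddAbove (range (ff u)) := ⟨C, by rintro _ ⟨z, rfl⟩; exact hC z⟩
  have b2 : BddBelow (range (ff u)) := ⟨0, by rintro _ ⟨z, rfl⟩; exact (hs.pos z).le⟩
  have c1 : ∀ z, ff u z ≤ ⨆ z, ff u z := fun z => le_ciSup b1 z
  have c2 : ∀ z, ⨅ z, ff u z ≤ ff u z := fun z => ciInf_le b2 z
  have key : ⨆ z, ff u z ≤ ⨅ z, ff u z := by
    refine le_of_forall_pos_le_add fun ε hε => ?_
    have hd : 0 < ε / (4 * K) := by positivity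
    obtain ⟨x1, h1⟩ := exists_lt_of_ciInf_lt (lt_add_of_pos_right (⨅ z, ff u z) hd)
    obtain ⟨x2, h2⟩ := exists_lt_of_lt_ciSup (sub_lt_self (⨆ z, ff u z) hd)
    have s1 : Sup u fun z => ff u z + (ε / (4 * K) - ⨅ z, ff u z) :=
      ⟨hs.smooth.add contDiff_const, fun z => by linarith [c2 z], fun z => by
        rw [Lop_add_const]; exact hs.sup z⟩
    have s2 : Sup u fun z => (⨆ z, ff u z) + ε / (4 * K) - ff u z :=
      ⟨contDiff_const.sub hs.smooth, fun z => by linarith [c1 z], fun z => by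
        rw [Lop_const_sub (h.toCvx.contDiffAt (mem_univ z)) (h.posDef z (mem_univ z))
          hs.smooth.contDiffAt, Lop_ff (h.toCvx.contDiffAt (mem_univ z))
          (h.posDef z (mem_univ z)) (h.am z (mem_univ z)), neg_zero]⟩
    obtain ⟨z, hz⟩ := H u h.toCvx hb (fun j => cond j
      (fun z => ff u z + (ε / (4 * K) - ⨅ z, ff u z))
      fun z => (⨆ z, ff u z) + ε / (4 * K) - ff u z) (fun j => by cases j; exacts [s2, s1])
      fun j => cond j x1 x2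
    have z1 : ff u z + (ε / (4 * K) - ⨅ z, ff u z) ≤
      K * (ff u x1 + (ε / (4 * K) - ⨅ z, ff u z)) := hz true
    have z2 : (⨆ z, ff u z) + ε / (4 * K) - ff u z ≤
      K * ((⨆ z, ff u z) + ε / (4 * K) - ff u x2) := hz false
    have z3 := mul_le_mul_of_nonneg_left (by linarith :
      ff u x1 + (ε / (4 * K) - ⨅ z, ff u z) ≤ 2 * (ε / (4 * K))) hK.le
    have z4 := mul_le_mul_of_nonneg_left (by linarith :
      (⨆ z, ff u z) + ε / (4 * K) - ff u x2 ≤ 2 * (ε / (4 * K))) hK.le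
    have z5 : K * (2 * (ε / (4 * K))) = ε / 2 := by field_simp; ring
    linarith
  have e : ff u x = ff u y := le_antisymm ((c1 x).trans (key.trans (c2 y)))
    ((c1 y).trans (key.trans (c2 x)))
  exact Real.rpow_left_injOn (by positivity : (1 / ((n : ℝ) + 2)) ≠ 0)
    (Dt_pos (h.posDef x (mem_univ x))).le (Dt_pos (h.posDef y (mem_univ y))).le e

/-- `c ≤ area S ≤ f(0) 2ⁿ` when the determinant is constant. -/
theorem nrm_dt_lower (hn : 1 ≤ n) {Λ : ℝ} (hΛ : 1 ≤ Λ) : ∃ c : ℝ, 0 < c ∧ ∀ u : E n → ℝ,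
    Nrm u Λ → Sol univ u → (∀ x y, Dt u x = Dt u y) → c ≤ Dt u 0 := by
  obtain ⟨c, hc, Ha⟩ := nrm_area hn hΛ
  refine ⟨(c / 2 ^ n) ^ ((n : ℝ) + 2), by positivity, fun u h hs hD => ?_⟩
  have h0 := (sup_ff hs).pos 0
  have a1 := (Ha u h hs).trans (liou_area_le u h0.le (fun y _ => by rw [ff, ff, hD y 0])
    (liou_sub h) volume_closedBall_one.le)
  rw [ENNReal.ofReal_le_ofReal_iff (by positivity), ← div_le_iff₀ (by positivity)] at a1
  refine (Real.rpow_le_rpow (by positivity) a1 (by positivity)).trans (le_of_eq ?_)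
  rw [ff, ← Real.rpow_mul (Dt_pos (hs.posDef 0 (mem_univ 0))).le,
    one_div_mul_cancel (by positivity), Real.rpow_one]

end Vale.Agent.P252b
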