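import Vale.Agent.P252b.Compl
import Vale.Agent.P252b.ConvA
import Vale.Agent.P252b.Jac

/-!
Transfer from `EuclideanSpace` to `Fin n → ℝ`.
-/

open MeasureTheory Metric Set Filter Topology Matrix
open scoped ENNReal ContDiff

noncomputable section

namespace Vale.Agent.P252b

variable {n : ℕ}

/-- Convexity from the positive definite Hessian, without closedness. -/
theorem convexOn_of_posDef {Ω : Set (E n)} (ho : IsOpen Ω) (hc : Convex ℝ Ω) {v : E n → ℝ}
    (hv : ContDiffOn ℝ ∞ v Ω) (hp : ∀ x ∈ Ω, (Hs v x).PosDef) : ConvexOn ℝ Ω v := by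
  refine ⟨hc, fun x hx y hy a b ha hb hab => ?_⟩
  have hm : ∀ t ∈ Icc (0 : ℝ) 1, x + t • (y - x) ∈ Ω := fun t ht => hc.add_smul_sub_mem hx hy ht
  have hs : ∀ t ∈ Icc (0 : ℝ) 1, ContDiffAt ℝ ∞ v (x + t • (y - x)) := fun t ht =>
    hv.contDiffAt (ho.mem_nhds (hm t ht))
  have h1 : ∀ t ∈ Icc (0 : ℝ) 1, HasDerivAt (fun s : ℝ => v (x + s • (y - x)))
      (grad v (x + t • (y - x)) ⬝ᵥ (y - x)) t := fun t ht =>
    hasDerivAt_line ((hs t ht).differentiableAt (by simp))
  have h2 : ∀ t ∈ Icc (0 : ℝ) 1, HasDerivAt (fun s : ℝ => grad v (x + s • (y - x)) ⬝ᵥ (y - x))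
      ((y - x) ⬝ᵥ (Hs v (x + t • (y - x)) *ᵥ (y - x))) t := fun t ht =>
    hasDerivAt_line2 (hs t ht)
  have hφ : ConvexOn ℝ (Icc (0 : ℝ) 1) (fun s : ℝ => v (x + s • (y - x))) := by
    refine convexOn_of_hasDerivWithinAt2_nonneg (convex_Icc 0 1)
      (f' := fun t => grad v (x + t • (y - x)) ⬝ᵥ (y - x))
      (f'' := fun t => (y - x) ⬝ᵥ (Hs v (x + t • (y - x)) *ᵥ (y - x)))
      (fun t ht => (h1 t ht).continuousAt.continuousWithinAt)
      (fun t ht => (h1 t (interior_subset ht)).hasDerivWithinAt)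
      (fun t ht => (h2 t (interior_subset ht)).hasDerivWithinAt) (fun t ht => ?_)
    have := (hp _ (hm t (interior_subset ht))).posSemidef.dotProduct_mulVec_nonneg (y - x)
    simpa using this
  have h3 := hφ.2 (left_mem_Icc.2 zero_le_one) (right_mem_Icc.2 zero_le_one) ha hb hab
  have h4 : x + b • (y - x) = a • x + b • y := by
    have : a = 1 - b := by linarith
    rw [this, smul_sub, sub_smul, one_smul]; abel
  simpa [h4] using h3

theorem trans_fderiv (f : EuclideanSpace ℝ (Fin n) → ℝ) (x : E n) (i : Fin n) :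
    pd (fun y => f (WithLp.toLp 2 y)) i x =
      fderiv ℝ f (WithLp.toLp 2 x) (EuclideanSpace.single i 1) := by
  have h := (PiLp.continuousLinearEquiv 2 ℝ (fun _ : Fin n => ℝ)).symm.comp_right_fderiv
    (f := f) (x := x)
  have h2 : (f ∘ (PiLp.continuousLinearEquiv 2 ℝ (fun _ : Fin n => ℝ)).symm) =
      fun y => f (WithLp.toLp 2 y) := rfl
  rw [h2] at h
  unfold pd
  rw [h]
  rfl

/-- `fderiv` of `f ∘ toLp` through the continuous linear equivalence
`PiLp.continuousLinearEquiv`; no differentiability is needed. -/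
theorem Hs_toLp (f : EuclideanSpace ℝ (Fin n) → ℝ) (x : E n) :
    Hs (fun y => f (WithLp.toLp 2 y)) x = P252.hess f (WithLp.toLp 2 x) := by
  ext i j
  have h : pd (fun y => f (WithLp.toLp 2 y)) j = fun y : E n =>
      (fun z => fderiv ℝ f z (EuclideanSpace.single j 1)) (WithLp.toLp 2 y) :=
    funext fun y => trans_fderiv f y j
  simp only [Hs, P252.hess, Matrix.of_apply]
  rw [h]
  exact trans_fderiv (fun z => fderiv ℝ f z (EuclideanSpace.single j 1)) x i

/-- Put `Ω' = toLp ⁻¹' Ω` and `v = Ω'.indicator (u ∘ toLp)`, which agrees with `u ∘ toLp` near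
each point of `Ω'`. -/
theorem exists_sol {Ω : Set (EuclideanSpace ℝ (Fin n))} {u : EuclideanSpace ℝ (Fin n) → ℝ}
    (ho : IsOpen Ω) (hc : Convex ℝ Ω) (hu : ContDiffOn ℝ ∞ u Ω)
    (hp : ∀ x ∈ Ω, (P252.hess u x).PosDef)
    (ham : ∀ x ∈ Ω, ∑ i, ∑ j, P252.cofU u x i j * P252.hess (P252.wfun u) x i j = 0)
    (hcomp : EuclideanComplete Ω u) :
    ∃ v : E n → ℝ, Sol ((fun y : E n => (WithLp.toLp 2 y : EuclideanSpace ℝ (Fin n))) ⁻¹' Ω) v ∧
      ∀ y : E n, (WithLp.toLp 2 y : EuclideanSpace ℝ (Fin n)) ∈ Ω →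
        v y = u (WithLp.toLp 2 y) := by
  classical
  set L := (PiLp.continuousLinearEquiv 2 ℝ (fun _ : Fin n => ℝ)).symm with hL
  set Ω' : Set (E n) := (fun y : E n => (WithLp.toLp 2 y : EuclideanSpace ℝ (Fin n))) ⁻¹' Ω
    with hΩ'
  set U : E n → ℝ := fun y => u (WithLp.toLp 2 y) with hU
  have hcont : Continuous (fun y : E n => (WithLp.toLp 2 y : EuclideanSpace ℝ (Fin n))) :=
    L.continuous
  have ho' : IsOpen Ω' := ho.preimage hcont
  have hc' : Convex ℝ Ω' := hc.linear_preimage (L : E n →ₗ[ℝ] EuclideanSpace ℝ (Fin n))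
  have hU' : ContDiffOn ℝ ∞ U Ω' := hu.comp L.contDiff.contDiffOn (fun y hy => hy)
  set v : E n → ℝ := Ω'.indicator U with hv
  have hvU : ∀ y ∈ Ω', v y = U y := fun y hy => indicator_of_mem hy U
  have hev : ∀ y ∈ Ω', v =ᶠ[𝓝 y] U := fun y hy => by
    filter_upwards [ho'.mem_nhds hy] with z hz using hvU z hz
  have hHs : ∀ y ∈ Ω', Hs v y = P252.hess u (WithLp.toLp 2 y) := fun y hy => by
    rw [Hs_congr (hev y hy)]
    exact Hs_toLp u y
  have hsm : ContDiffOn ℝ ∞ v Ω' := hU'.congr hvU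
  have hpd : ∀ y ∈ Ω', (Hs v y).PosDef := fun y hy => by
    rw [hHs y hy]; exact hp _ hy
  have hcv' : ConvexOn ℝ Ω' v := convexOn_of_posDef ho' hc' hsm hpd
  have hcv : ConvexOn ℝ Ω u := by
    refine ⟨hc, fun x hx y hy a b ha hb hab => ?_⟩
    have hx' : x.ofLp ∈ Ω' := by simpa [hΩ'] using hx
    have hy' : y.ofLp ∈ Ω' := by simpa [hΩ'] using hy
    have h1 := hcv'.2 hx' hy' ha hb hab
    rw [hvU _ hx', hvU _ hy', hvU _ (hc' hx' hy' ha hb hab)] at h1
    simpa [hU] using h1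
  have hmeas : Measurable v := by
    have h1 := ContinuousOn.measurable_piecewise (f := U) (g := (0 : E n → ℝ)) (s := Ω')
      hU'.continuousOn continuousOn_const ho'.measurableSet
    rwa [piecewise_eq_indicator] at h1
  refine ⟨v, ⟨⟨ho', hc', hsm, hmeas, hpd, fun c => ?_⟩, fun y hy => ?_⟩, fun y hy => hvU y hy⟩
  · have h1 := (closed_of_complete ho hc hu hcv hcomp c).preimage hcont
    have h2 : {x | x ∈ Ω' ∧ v x ≤ c} = (fun y : E n =>
        (WithLp.toLp 2 y : EuclideanSpace ℝ (Fin n))) ⁻¹' {x | x ∈ Ω ∧ u x ≤ c} := by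
      ext y
      constructor
      · rintro ⟨h3, h4⟩
        rw [hvU y h3] at h4
        exact ⟨h3, h4⟩
      · rintro ⟨h3, h4⟩
        refine ⟨h3, ?_⟩
        rw [hvU y h3]
        exact h4
    rw [h2]
    exact h1
  · have hw : ww v =ᶠ[𝓝 y] fun z => P252.wfun u (WithLp.toLp 2 z) := by
      filter_upwards [ho'.mem_nhds hy] with z hz
      simp only [ww, Dt, P252.wfun, hHs z hz]
    have h1 := ham _ hy
    have hdet : 0 < (P252.hess u (WithLp.toLp 2 y)).det := (hp _ hy).det_pos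
    have hsym : (Gm v y)ᵀ = Gm v y := Gm_symm (hpd y hy)
    have hW : (Hs (ww v) y) = P252.hess (P252.wfun u) (WithLp.toLp 2 y) := by
      rw [Hs_congr hw]
      exact Hs_toLp _ y
    have h2 : ∑ i, ∑ j, P252.cofU u (WithLp.toLp 2 y) i j *
        P252.hess (P252.wfun u) (WithLp.toLp 2 y) i j =
        (P252.hess u (WithLp.toLp 2 y)).det * Lnd v (ww v) y := by
      have h3 : Lnd v (ww v) y = ∑ i, ∑ j, Gm v y i j * Hs (ww v) y i j := by
        unfold Lnd
        rw [Matrix.trace_mul_comm, ← hsym]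
        simp only [Matrix.trace, Matrix.diag, Matrix.mul_apply, Matrix.transpose_apply]
        refine Finset.sum_congr rfl fun i _ => Finset.sum_congr rfl fun j _ => ?_
        have h4 : Gm v y j i = Gm v y i j := congrFun (congrFun hsym i) j
        rw [h4, mul_comm]
      rw [h3, hW, Finset.mul_sum]
      refine Finset.sum_congr rfl fun i _ => ?_
      rw [Finset.mul_sum]
      refine Finset.sum_congr rfl fun j _ => ?_
      simp only [P252.cofU, Gm, hHs y hy, Matrix.smul_apply, smul_eq_mul]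
      ring
    rw [h2] at h1
    exact (mul_eq_zero.1 h1).resolve_left hdet.ne'

end Vale.Agent.P252b
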