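import Vale.Agent.P252b.Balance
import Vale.Agent.P252b.BalGeo
import Vale.Agent.P252b.JCP
import Vale.Agent.P252b.Trans

/-!
The affine Bernstein theorem in dimensions three to nine.
-/

open MeasureTheory Metric Set Filter Topology Matrix
open scoped ENNReal ContDiff

noncomputable section

namespace Vale.Agent.P252b

variable {n : ℕ}

theorem bernstein_pi (h3 : 3 ≤ n) (h9 : n ≤ 9) {Ω : Set (E n)} {u : E n → ℝ} (h : Sol Ω u)
    (hne : Ω.Nonempty) : Ω = univ ∧ ∃ (A : Matrix (Fin n) (Fin n) ℝ) (b : E n) (c : ℝ),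
      A.PosDef ∧ ∀ x, u x = (1 / 2) * (x ⬝ᵥ (A *ᵥ x)) + b ⬝ᵥ x + c := by
  obtain ⟨Λ, hΛ, hb⟩ := balance h3 h9
  obtain ⟨rfl, hbal⟩ := bal_geo h.toCvx hne hΛ (hb Ω u h)
  refine ⟨rfl, Hs u 0, grad u 0, u 0, h.posDef 0 (mem_univ _), fun x => ?_⟩
  exact quad_of_Hs_const h.toCvx.contDiff (fun y => hess_const (by omega) hΛ h hbal y) x

theorem bernstein (h3 : 3 ≤ n) (h9 : n ≤ 9) {Ω : Set (EuclideanSpace ℝ (Fin n))}
    {u : EuclideanSpace ℝ (Fin n) → ℝ} (hne : Ω.Nonempty) (ho : IsOpen Ω) (hc : Convex ℝ Ω)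
    (hu : ContDiffOn ℝ ∞ u Ω) (hp : ∀ x ∈ Ω, (P252.hess u x).PosDef)
    (ham : ∀ x ∈ Ω, ∑ i, ∑ j, P252.cofU u x i j * P252.hess (P252.wfun u) x i j = 0)
    (hcomp : EuclideanComplete Ω u) :
    Ω = univ ∧ ∃ (A : Matrix (Fin n) (Fin n) ℝ) (b : Fin n → ℝ) (c : ℝ), A.PosDef ∧
      ∀ x : EuclideanSpace ℝ (Fin n),
        u x = (1 / 2) * dotProduct x.ofLp (Matrix.mulVec A x.ofLp) + dotProduct b x.ofLp + c := by
  obtain ⟨v, hv, hvu⟩ := exists_sol ho hc hu hp ham hcomp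
  obtain ⟨x₀, hx₀⟩ := hne
  obtain ⟨hΩ, A, b, c, hA, hq⟩ := bernstein_pi h3 h9 hv ⟨x₀.ofLp, by simpa using hx₀⟩
  have hall : ∀ x : EuclideanSpace ℝ (Fin n), x ∈ Ω := fun x => by
    have : x.ofLp ∈ ((fun y : E n => (WithLp.toLp 2 y : EuclideanSpace ℝ (Fin n))) ⁻¹' Ω) := by
      rw [hΩ]; exact mem_univ _
    simpa using this
  refine ⟨eq_univ_of_forall hall, A, b, c, hA, fun x => ?_⟩
  have := hvu x.ofLp (hall _)
  rw [← hq, this]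

end Vale.Agent.P252b
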