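import Vale.Agent.P252b.Defs

/-!
The algebraic inequality; this is where `2 < n < 10` is used.
-/

open MeasureTheory Metric Set Filter Topology Matrix
open scoped ENNReal ContDiff

noncomputable section

namespace Vale.Agent.P252b

variable {n : ℕ}

theorem mainalg_form {ν y AA AD AP DD DP PP : ℝ} (hy0 : 1 / 2 ≤ y)
    (hpd : ((ν + 2) * y / 4) ^ 2 ≤ (y - 1 / 100) * (ν / 2 - 1 / 100))
    (hpsd : ∀ s t p : ℝ, 0 ≤ s ^ 2 * AA + t ^ 2 * DD + p ^ 2 * PP + 2 * s * t * AD +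
      2 * s * p * AP + 2 * t * p * DP) :
    0 ≤ (y - 1 / 100) * (AA + DD - 2 * AD) - (ν + 2) / 2 * y * (AP - DP) +
      (ν / 2 - 1 / 100) * PP := by
  have hPP : 0 ≤ PP := by have := hpsd 0 0 1; linarith
  have h1 := hpsd (y - 1 / 100) (-(y - 1 / 100)) (-((ν + 2) * y / 4))
  have h2 : 0 ≤ ((y - 1 / 100) * (ν / 2 - 1 / 100) - ((ν + 2) * y / 4) ^ 2) * PP :=
    mul_nonneg (by linarith) hPP
  have h3 : 0 < y - 1 / 100 := by linarith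
  have h4 : (y - 1 / 100) * 0 ≤ (y - 1 / 100) * ((y - 1 / 100) * (AA + DD - 2 * AD) -
      (ν + 2) / 2 * y * (AP - DP) + (ν / 2 - 1 / 100) * PP) := by
    linarith
  exact le_of_mul_le_mul_left h4 h3

theorem mainalg_E {y θ η e AA AD AP DD DP PP : ℝ} (hy0 : 1 / 2 ≤ y) (hy1 : y ≤ 1)
    (hη0 : 0 ≤ η) (hη : η ≤ 1 / 300) (hθ0 : 0 ≤ θ) (hθ1 : θ ≤ 1) (he : e = AD + 1) (he0 : 0 ≤ e)
    (hAA : 0 ≤ AA) (hDD : 0 ≤ DD) (hPP : 0 ≤ PP) (hΔ : 0 ≤ AA + DD - 2 * AD)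
    (hAP : 2 * AP ≤ AA + PP) (hDP : 2 * DP ≤ DD + PP) :
    η * ((1 + θ) * (y * AA + y * AD + AP) + (y * AD + y * DD + DP)) ≤
      1 / 100 * (AA + DD - 2 * AD) + 1 / 100 * PP + 3 / 100 * e := by
  have hc1 : (1 + θ) * y ≤ 2 := by
    have := mul_le_mul (by linarith : 1 + θ ≤ 2) hy1 (by linarith) (by norm_num)
    linarith
  have hc0 : 0 ≤ (1 + θ) * y := by positivity
  have hE : (1 + θ) * (y * AA + y * AD + AP) + (y * AD + y * DD + DP) ≤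
      3 * (AA + DD - 2 * AD) + 3 * PP + 9 * e := by
    have a1 : (1 + θ) * y * AA ≤ 2 * AA := mul_le_mul_of_nonneg_right hc1 hAA
    have a2 : (1 + θ) * y * e ≤ 2 * e := mul_le_mul_of_nonneg_right hc1 he0
    have a3 : (1 + θ) * AP ≤ AA + PP := by
      have b1 : (1 + θ) * (2 * AP) ≤ (1 + θ) * (AA + PP) :=
        mul_le_mul_of_nonneg_left hAP (by linarith)
      have b2 : (1 + θ) * (AA + PP) ≤ 2 * (AA + PP) :=
        mul_le_mul_of_nonneg_right (by linarith) (by linarith)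
      linarith
    have a4 : y * e ≤ 1 * e := mul_le_mul_of_nonneg_right hy1 he0
    have a5 : y * DD ≤ 1 * DD := mul_le_mul_of_nonneg_right hy1 hDD
    have a6 : (1 + θ) * (y * AA + y * AD + AP) + (y * AD + y * DD + DP) =
        (1 + θ) * y * AA + (1 + θ) * y * e - (1 + θ) * y + (1 + θ) * AP + y * e - y + y * DD
          + DP := by rw [he]; ring
    rw [a6]; linarith
  have b1 : η * ((1 + θ) * (y * AA + y * AD + AP) + (y * AD + y * DD + DP)) ≤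
      η * (3 * (AA + DD - 2 * AD) + 3 * PP + 9 * e) := mul_le_mul_of_nonneg_left hE hη0
  have b2 : η * (3 * (AA + DD - 2 * AD) + 3 * PP + 9 * e) ≤
      1 / 300 * (3 * (AA + DD - 2 * AD) + 3 * PP + 9 * e) :=
    mul_le_mul_of_nonneg_right hη (by positivity)
  linarith

theorem mainalg_R {ν y lam η r θ e₁ AA AD : ℝ} (hy0 : 1 / 2 ≤ y)
    (hlam : lam * (ν + 2) = 6) (hlam0 : 0 ≤ lam) (hlam1 : lam ≤ 2) (hκ : 1 ≤ lam * ν - 3 * y)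
    (hη0 : 0 ≤ η) (hη : η ≤ 1 / 300) (hr : 0 ≤ r) (hθ1 : θ ≤ 1) (he₁ : 0 ≤ e₁)
    (hr1 : 1 ≤ 15 * e₁ → r ≤ 1) (hAD : -1 ≤ AD) (hAA : 0 ≤ AA) :
    -(6 * e₁) ≤ r * ((3 * y - lam * η * (1 + θ)) * AA + 2 * lam * r * AA + (3 * y - lam * η) * AD +
      lam * ν * (1 - e₁)) := by
  have hlη : lam * η ≤ 1 / 150 := by
    have := mul_le_mul hlam1 hη hη0 (by norm_num)
    linarith
  have hlη0 : 0 ≤ lam * η := by positivity
  have hlν : lam * ν ≤ 6 := by linarith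
  have c0 : lam * η * (1 + θ) ≤ lam * η * 2 := mul_le_mul_of_nonneg_left (by linarith) hlη0
  have c1 : 0 ≤ (3 * y - lam * η * (1 + θ)) * AA := mul_nonneg (by linarith) hAA
  have c2 : 0 ≤ 2 * lam * r * AA := by positivity
  have c3 : 0 ≤ (3 * y - lam * η) * (AD + 1) := mul_nonneg (by linarith) (by linarith)
  have c4 : lam * ν * e₁ ≤ 6 * e₁ := mul_le_mul_of_nonneg_right hlν he₁
  have hR1 : 1 - 6 * e₁ ≤ (3 * y - lam * η * (1 + θ)) * AA + 2 * lam * r * AA +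
      (3 * y - lam * η) * AD + lam * ν * (1 - e₁) := by linarith
  generalize (3 * y - lam * η * (1 + θ)) * AA + 2 * lam * r * AA +
      (3 * y - lam * η) * AD + lam * ν * (1 - e₁) = R at hR1
  by_cases h : 1 ≤ 15 * e₁
  · have h1 := hr1 h
    have h2 : r * (-(6 * e₁)) ≤ r * R := mul_le_mul_of_nonneg_left (by linarith) hr
    have h3 : r * (6 * e₁) ≤ 1 * (6 * e₁) := mul_le_mul_of_nonneg_right h1 (by linarith)
    linarith
  · have := mul_nonneg hr (by linarith : 0 ≤ R)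
    linarith

theorem mainalg_core {ν y lam : ℝ} (hν : ν ≤ 9) (hν0 : 0 ≤ ν) (hy0 : 1 / 2 ≤ y) (hy1 : y ≤ 1)
    (hlam : lam * (ν + 2) = 6) (hlam0 : 0 ≤ lam) (hlam1 : lam ≤ 2)
    (hk : 1 / 5 ≤ y * (2 * ν - 2) - ν)
    (hpd : ((ν + 2) * y / 4) ^ 2 ≤ (y - 1 / 100) * (ν / 2 - 1 / 100))
    (hκ : 1 ≤ lam * ν - 3 * y)
    {η r θ e₁ e₂ AA AD AP DD DP PP : ℝ} (hη0 : 0 ≤ η) (hη : η ≤ 1 / 300) (hr : 0 ≤ r)
    (hθ0 : 0 ≤ θ) (hθ1 : θ ≤ 1) (he₁ : 0 ≤ e₁) (he₂ : 0 ≤ e₂) (hr1 : 1 ≤ 15 * e₁ → r ≤ 1)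
    (hAD : -1 ≤ AD)
    (hpsd : ∀ s t p : ℝ, 0 ≤ s ^ 2 * AA + t ^ 2 * DD + p ^ 2 * PP + 2 * s * t * AD +
      2 * s * p * AP + 2 * t * p * DP) :
    1 / 5 - 15 * (e₁ + e₂) ≤
      (-(y + lam * r) * (η * (1 + θ) * AA + η * AD - 3 * r * AA) + (y - lam * r ^ 2) * AA
        - (y + lam * r) * ((ν + 2) / 2 * AP + ν * (e₁ - 1)))
      + (-y * (η * (1 + θ) * AD + η * DD - 3 * r * AD + (1 - θ) * AD - DD)
        + y * ((ν + 2) / 2 * DP + ν * (1 - e₂)))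
      + (-(η * (1 + θ) * AP + η * DP - 3 * r * AP) - ν + ν / 2 * PP) := by
  have hAA : 0 ≤ AA := by have := hpsd 1 0 0; linarith
  have hDD : 0 ≤ DD := by have := hpsd 0 1 0; linarith
  have hPP : 0 ≤ PP := by have := hpsd 0 0 1; linarith
  have hΔ : 0 ≤ AA + DD - 2 * AD := by have := hpsd 1 (-1) 0; linarith
  have hAP : 2 * AP ≤ AA + PP := by have := hpsd 1 0 (-1); linarith
  have hDP : 2 * DP ≤ DD + PP := by have := hpsd 0 1 (-1); linarith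
  have hF := mainalg_form hy0 hpd hpsd
  have he0 : 0 ≤ AD + 1 := by linarith
  have hηE := mainalg_E hy0 hy1 hη0 hη hθ0 hθ1 rfl he0 hAA hDD hPP hΔ hAP hDP
  have hrR := mainalg_R hy0 hlam hlam0 hlam1 hκ hη0 hη hr hθ1 he₁ hr1 hAD hAA
  have hνy : ν * y ≤ 9 := by
    have := mul_le_mul hν hy1 (by linarith) (by norm_num)
    linarith
  have d1 : ν * y * (e₁ + e₂) ≤ 9 * (e₁ + e₂) := mul_le_mul_of_nonneg_right hνy (by linarith)
  have d2 : 0 ≤ y * θ * (AD + 1) := mul_nonneg (mul_nonneg (by linarith) hθ0) he0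
  have d3 : 0 ≤ y * (1 - θ) := mul_nonneg (by linarith) (by linarith)
  have d4 : 3 / 100 * (AD + 1) ≤ y * (AD + 1) := mul_le_mul_of_nonneg_right (by linarith) he0
  have key : (-(y + lam * r) * (η * (1 + θ) * AA + η * AD - 3 * r * AA) + (y - lam * r ^ 2) * AA
        - (y + lam * r) * ((ν + 2) / 2 * AP + ν * (e₁ - 1)))
      + (-y * (η * (1 + θ) * AD + η * DD - 3 * r * AD + (1 - θ) * AD - DD)
        + y * ((ν + 2) / 2 * DP + ν * (1 - e₂)))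
      + (-(η * (1 + θ) * AP + η * DP - 3 * r * AP) - ν + ν / 2 * PP) =
      ((y - 1 / 100) * (AA + DD - 2 * AD) - (ν + 2) / 2 * y * (AP - DP) + (ν / 2 - 1 / 100) * PP)
      + 1 / 100 * (AA + DD - 2 * AD) + 1 / 100 * PP
      + (y * (2 * ν - 2) - ν) + y * (AD + 1) - ν * y * (e₁ + e₂) + y * (1 - θ)
      + y * θ * (AD + 1)
      - η * ((1 + θ) * (y * AA + y * AD + AP) + (y * AD + y * DD + DP))
      + r * ((3 * y - lam * η * (1 + θ)) * AA + 2 * lam * r * AA + (3 * y - lam * η) * AD +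
        lam * ν * (1 - e₁))
      + r * AP * (6 - lam * (ν + 2)) / 2 := by ring
  rw [key, hlam]
  linarith

theorem main_alg (h3 : 3 ≤ n) (h9 : n ≤ 9) : ∃ y c₁ C₁ η₀ : ℝ, 0 < y ∧ 0 < c₁ ∧ 1 ≤ C₁ ∧ 0 < η₀ ∧
    ∀ η r θ e₁ e₂ AA AD AP DD DP PP : ℝ, 0 ≤ η → η ≤ η₀ → 0 ≤ r → 0 ≤ θ → θ ≤ 1 → 0 ≤ e₁ →
      0 ≤ e₂ → (1 ≤ C₁ * e₁ → r ≤ 1) → -1 ≤ AD →
      (∀ s t p : ℝ, 0 ≤ s ^ 2 * AA + t ^ 2 * DD + p ^ 2 * PP + 2 * s * t * AD + 2 * s * p * AP +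
        2 * t * p * DP) →
      c₁ - C₁ * (e₁ + e₂) ≤ Qf n y η r θ e₁ e₂ AA AD AP DD DP PP := by
  have hy : ∃ y : ℝ, 1 / 2 ≤ y ∧ y ≤ 1 ∧ 1 / 5 ≤ y * (2 * n - 2) - n ∧
      (((n : ℝ) + 2) * y / 4) ^ 2 ≤ (y - 1 / 100) * (n / 2 - 1 / 100) ∧
      1 ≤ 6 / ((n : ℝ) + 2) * n - 3 * y := by
    interval_cases n
    · exact ⟨4 / 5, by norm_num⟩
    · exact ⟨3 / 4, by norm_num⟩
    · exact ⟨7 / 10, by norm_num⟩
    · exact ⟨13 / 20, by norm_num⟩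
    · exact ⟨31 / 50, by norm_num⟩
    · exact ⟨3 / 5, by norm_num⟩
    · exact ⟨29 / 50, by norm_num⟩
  obtain ⟨y, h0, h1, hk, hpd, hκ⟩ := hy
  have hn9 : (n : ℝ) ≤ 9 := by exact_mod_cast h9
  have hn3 : (3 : ℝ) ≤ n := by exact_mod_cast h3
  refine ⟨y, 1 / 5, 15, 1 / 300, by linarith, by norm_num, by norm_num, by norm_num, ?_⟩
  intro η r θ e₁ e₂ AA AD AP DD DP PP a1 a2 a3 a4 a5 a6 a7 a8 a9 a10
  unfold Qf
  refine mainalg_core hn9 (by linarith) h0 h1 (by field_simp) (by positivity) ?_ hk hpd hκ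
    a1 a2 a3 a4 a5 a6 a7 a8 a9 a10
  rw [div_le_iff₀ (by linarith)]
  linarith

end Vale.Agent.P252b
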