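import Vale.Agent.P252b.MainPt

/-!
The main integral inequality.
-/

open MeasureTheory Metric Set Filter Topology Matrix
open scoped ENNReal ContDiff

noncomputable section

namespace Vale.Agent.P252b

variable {n : ℕ}

theorem mainint_err {A a α H' : ℝ} {N : ℝ} (ha : 0 < a) (hα : 1 / 2 ≤ α) (hH : 0 ≤ H')
    (hA : A ≤ (N + 2) * a) : A / a + (H' + a) / (H' + a * α) ≤ N + 5 := by
  have hw : 0 < H' + a * α := by positivity
  have h1 : A / a ≤ N + 2 := by rwa [div_le_iff₀ ha]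
  have h2 : (H' + a) / (H' + a * α) ≤ 2 := by
    rw [div_le_iff₀ hw]
    nlinarith
  linarith

theorem mainint_good {A a α H' Λ : ℝ} (ha : 0 < a) (hΛ : 0 < Λ) (hH : 0 ≤ H')
    (h1 : Λ * A < a) (h2 : Λ * H' < a * α) (h3 : Λ < α) :
    Λ * (A / a + (H' + a) / (H' + a * α)) ≤ 3 := by
  have hα : 0 < α := hΛ.trans h3
  have hw : 0 < H' + a * α := by positivity
  have e1 : Λ * (A / a) ≤ 1 := by
    rw [← mul_div_assoc, div_le_one ha]
    exact h1.le
  have e2 : Λ * ((H' + a) / (H' + a * α)) ≤ 2 := by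
    rw [← mul_div_assoc, div_le_iff₀ hw]
    nlinarith
  linarith

/-- The error `err = a(X)/a + (H' + a)/w` is at most `n + 5` everywhere (`α ≥ 1/2`), and at most
`3/Λ` off the bad set. Take `Λ = max (2 C₁) (6 C₁/c₁)`; then
`(c₁/2) wt ≤ div V + C₁ (n+5) 1_bad wt` on `Ω`; `lintegral_le_of_dv` with `K = sec a H`. -/
theorem main_int (h3 : 3 ≤ n) (h9 : n ≤ 9) : ∃ η₀ Λ C : ℝ, 0 < η₀ ∧ 1 ≤ Λ ∧ 0 < C ∧
    ∀ (Ω : Set (E n)) (u : E n → ℝ) (X Y : E n × ℝ) (a : Af n) (H H' η : ℝ),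
      Setup Ω u X Y a H' → 0 ≤ η → η ≤ η₀ → Λ * a.ev X ≤ H →
      ∫⁻ x in Ω, ENNReal.ofReal (wt u X Y a H H' η x) ≤ ENNReal.ofReal C *
        ∫⁻ x in {x | x ∈ Ω ∧ (a.on u x ≤ Λ * a.ev X ∨ a.on u x * al u X Y x ≤ Λ * H' ∨
          al u X Y x ≤ Λ)}, ENNReal.ofReal (wt u X Y a H H' η x) := by
  obtain ⟨y, c₁, C₁, η₀, hc, hC, hη, hpt⟩ := main_pt h3 h9
  have hC0 : 0 < C₁ := by linarith
  obtain ⟨Λ, hΛ1, hΛ2⟩ : ∃ Λ : ℝ, 2 * C₁ ≤ Λ ∧ 6 * C₁ / c₁ ≤ Λ :=
    ⟨max (2 * C₁) (6 * C₁ / c₁), le_max_left _ _, le_max_right _ _⟩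
  have hΛ0 : 0 < Λ := by linarith
  rw [div_le_iff₀ hc] at hΛ2
  refine ⟨η₀, Λ, 2 / c₁ * (C₁ * (n + 5)), hη, by linarith, by positivity, ?_⟩
  intro Ω u X Y a H H' η hS h0 h1 hH
  have hmeas := hS.sol.meas
  have hΩ := hS.sol.isOpen
  generalize hB : {x | x ∈ Ω ∧ (a.on u x ≤ Λ * a.ev X ∨ a.on u x * al u X Y x ≤ Λ * H' ∨
    al u X Y x ≤ Λ)} = B
  have hBm : MeasurableSet B := by
    rw [← hB]
    exact hΩ.measurableSet.inter ((measurableSet_le (measurable_on hmeas a) measurable_const).union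
      ((measurableSet_le ((measurable_on hmeas a).mul (measurable_al hmeas X Y))
        measurable_const).union (measurableSet_le (measurable_al hmeas X Y) measurable_const)))
  have hBΩ : B ⊆ Ω := by
    rw [← hB]
    exact fun x hx => hx.1
  have hH2 : 2 * C₁ * a.ev X ≤ H := (mul_le_mul_of_nonneg_right hΛ1 hS.pos.le).trans hH
  have hK : 0 ≤ C₁ * ((n : ℝ) + 5) := by positivity
  have key := lintegral_le_of_dv (O := Ω) (K := sec Ω u a H) hΩ (hS.capF.cpt H)
    (fun x hx => hx.1) (V := mfld u X Y a H H' η y) (fun x hx => hS.contDiffAt_mfld H η y hx)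
    (fun x hx hK => mfld_eq_zero (not_le.mp fun h => hK ⟨hx, h⟩).le)
    (g := fun x => c₁ / 2 * wt u X Y a H H' η x)
    (h := B.indicator fun x => C₁ * (n + 5) * wt u X Y a H H' η x)
    ((measurable_const.mul (measurable_wt hmeas X Y a H H' η)).indicator hBm)
    (fun x hx => mul_nonneg (by positivity) (hS.wt_nonneg H η hx))
    (fun x hx => Set.indicator_apply_nonneg fun _ => mul_nonneg hK (hS.wt_nonneg H η hx))
    (fun x hx => by
      have e1 := hpt Ω u X Y a H H' η hS h0 h1 hH2 x hx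
      have e2 := hS.wt_nonneg H η hx
      by_cases hx' : x ∈ B
      · rw [Set.indicator_of_mem hx']
        have e3 := mainint_err (hS.on_pos hx) (hS.half_le_al hx) hS.nonneg (hS.low x hx)
        have e4 := mul_le_mul_of_nonneg_left (mul_le_mul_of_nonneg_left e3 hC0.le) e2
        have e5 := mul_nonneg e2 hc.le
        nlinarith
      · rw [Set.indicator_of_notMem hx']
        rw [← hB] at hx'
        have e3 := mainint_good (hS.on_pos hx) hΛ0 hS.nonneg
          (not_le.mp fun h => hx' ⟨hx, Or.inl h⟩) (not_le.mp fun h => hx' ⟨hx, Or.inr (Or.inl h)⟩)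
          (not_le.mp fun h => hx' ⟨hx, Or.inr (Or.inr h)⟩)
        generalize a.ev X / a.on u x + (H' + a.on u x) / (H' + a.on u x * al u X Y x) = e at e1 e3
        have e4 : C₁ * e ≤ c₁ / 2 := by
          by_contra hlt
          have e5 := mul_lt_mul_of_pos_left (not_le.mp hlt) hΛ0
          have e6 := mul_le_mul_of_nonneg_left e3 hC0.le
          nlinarith
        have e5 := mul_le_mul_of_nonneg_left e4 e2
        nlinarith)
  have hL : ∫⁻ x in Ω, ENNReal.ofReal (wt u X Y a H H' η x) = ENNReal.ofReal (2 / c₁) *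
      ∫⁻ x in Ω, ENNReal.ofReal (c₁ / 2 * wt u X Y a H H' η x) := by
    rw [← lintegral_const_mul' _ _ ENNReal.ofReal_ne_top]
    refine lintegral_congr fun x => ?_
    rw [← ENNReal.ofReal_mul (by positivity)]
    congr 1
    field_simp
  have hR : ∫⁻ x in Ω, ENNReal.ofReal (B.indicator (fun x => C₁ * (n + 5) *
      wt u X Y a H H' η x) x) = ENNReal.ofReal (C₁ * (n + 5)) *
      ∫⁻ x in B, ENNReal.ofReal (wt u X Y a H H' η x) := by
    have e : ∀ x, ENNReal.ofReal (B.indicator (fun x => C₁ * (n + 5) *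
        wt u X Y a H H' η x) x) = B.indicator (fun x => ENNReal.ofReal (C₁ * (n + 5)) *
        ENNReal.ofReal (wt u X Y a H H' η x)) x := by
      intro x
      by_cases hx : x ∈ B
      · rw [Set.indicator_of_mem hx, Set.indicator_of_mem hx, ENNReal.ofReal_mul hK]
      · rw [Set.indicator_of_notMem hx, Set.indicator_of_notMem hx, ENNReal.ofReal_zero]
    simp only [e]
    rw [lintegral_indicator hBm, Measure.restrict_restrict hBm, inter_eq_left.mpr hBΩ,
      lintegral_const_mul' _ _ ENNReal.ofReal_ne_top]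
  rw [hL, ENNReal.ofReal_mul (by positivity), mul_assoc, ← hR]
  exact mul_le_mul_right key _

end Vale.Agent.P252b
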