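import Vale.Agent.P252b.Ident
import Vale.Agent.P252b.MainAlg
import Vale.Agent.P252b.DivThm

/-!
The pointwise form of the main inequality.
-/

open MeasureTheory Metric Set Filter Topology Matrix
open scoped ENNReal ContDiff

noncomputable section

namespace Vale.Agent.P252b

variable {n : ℕ}

section aux

variable {A L : E n → ℝ} {x : E n} {H H' η y k : ℝ}

theorem mainpt_dw (hA : ContDiffAt ℝ ∞ A x) (hL : ContDiffAt ℝ ∞ L x) (H' : ℝ) :
    ContDiffAt ℝ ∞ (fun z => H' + A z * L z) x :=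
  contDiffAt_const.add (hA.mul hL)

theorem mainpt_dpsi (hA : ContDiffAt ℝ ∞ A x) (hL : ContDiffAt ℝ ∞ L x) (ha : 0 < A x)
    (hw : 0 < H' + A x * L x) (η : ℝ) :
    ContDiffAt ℝ ∞ (fun z => (A z * (H' + A z * L z)) ^ η) x :=
  (hA.mul (mainpt_dw hA hL H')).rpow_const_of_ne (mul_pos ha hw).ne'

theorem mainpt_db (hA : ContDiffAt ℝ ∞ A x) (H : ℝ) : ContDiffAt ℝ ∞ (fun z => H - A z) x :=
  contDiffAt_const.sub hA

theorem mainpt_grad_w (hA : ContDiffAt ℝ ∞ A x) (hL : ContDiffAt ℝ ∞ L x) (H' : ℝ) :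
    grad (fun z => H' + A z * L z) x = A x • grad L x + L x • grad A x := by
  have dA : DifferentiableAt ℝ A x := hA.differentiableAt (by simp)
  have dL : DifferentiableAt ℝ L x := hL.differentiableAt (by simp)
  have d1 : DifferentiableAt ℝ (fun z => A z * L z) x := dA.mul dL
  rw [grad_add (differentiableAt_const H') d1, grad_const, zero_add]
  exact grad_mul dA dL

theorem mainpt_grad_psi (hA : ContDiffAt ℝ ∞ A x) (hL : ContDiffAt ℝ ∞ L x) (ha : 0 < A x)
    (hw : 0 < H' + A x * L x) (η : ℝ) :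
    grad (fun z => (A z * (H' + A z * L z)) ^ η) x =
      ((A x * (H' + A x * L x)) ^ η * η * (L x / (H' + A x * L x) + 1 / A x)) • grad A x +
      ((A x * (H' + A x * L x)) ^ η * η * (A x / (H' + A x * L x))) • grad L x := by
  have dA : DifferentiableAt ℝ A x := hA.differentiableAt (by simp)
  have dw : DifferentiableAt ℝ (fun z => H' + A z * L z) x :=
    (mainpt_dw hA hL H').differentiableAt (by simp)
  have e1 := grad_rpow (f := fun z => A z * (H' + A z * L z)) (dA.mul dw) (mul_pos ha hw) η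
  have e2 := grad_mul dA dw
  rw [e1, e2, mainpt_grad_w hA hL]
  have h1 := ha.ne'
  have h2 := hw.ne'
  ext i
  simp only [Pi.add_apply, Pi.smul_apply, smul_eq_mul]
  field_simp
  ring

theorem mainpt_grad_p2 (hA : ContDiffAt ℝ ∞ A x) (H : ℝ) :
    grad (fun z => (max (H - A z) 0) ^ 2) x = (-(2 * max (H - A x) 0)) • grad A x := by
  have e := grad_pp2 (f := fun z => H - A z) ((mainpt_db hA H).differentiableAt (by simp))
  rw [e, grad_const_sub, smul_neg, neg_smul]

theorem mainpt_grad_p3 (hA : ContDiffAt ℝ ∞ A x) (H : ℝ) :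
    grad (fun z => (max (H - A z) 0) ^ 3) x = (-(3 * (max (H - A x) 0) ^ 2)) • grad A x := by
  have e := grad_pp3 (f := fun z => H - A z) ((mainpt_db hA H).differentiableAt (by simp))
  rw [e, grad_const_sub, smul_neg, neg_smul]

theorem mainpt_le : (1 : WithTop ℕ∞) ≤ ((⊤ : ℕ∞) : WithTop ℕ∞) := by exact_mod_cast le_top

theorem mainpt_c1 (hA : ContDiffAt ℝ ∞ A x) (hL : ContDiffAt ℝ ∞ L x) (ha : 0 < A x)
    (hw : 0 < H' + A x * L x) (H η y k : ℝ) :
    ContDiffAt ℝ 1 (fun z => -((A z * (H' + A z * L z)) ^ η *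
      (y * (max (H - A z) 0) ^ 3 / A z + k * (max (H - A z) 0) ^ 2))) x :=
  (((mainpt_dpsi hA hL ha hw η).of_le mainpt_le).mul
    (((contDiffAt_const.mul (contDiffAt_pp3 (mainpt_db hA H))).div (hA.of_le mainpt_le) ha.ne').add
      (contDiffAt_const.mul (contDiffAt_pp2 (mainpt_db hA H))))).neg

theorem mainpt_c2 (hA : ContDiffAt ℝ ∞ A x) (hL : ContDiffAt ℝ ∞ L x) (ha : 0 < A x)
    (hw : 0 < H' + A x * L x) (H η y : ℝ) :
    ContDiffAt ℝ 1 (fun z => -(y * (A z * (H' + A z * L z)) ^ η * (max (H - A z) 0) ^ 3 *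
      (A z / (H' + A z * L z)))) x :=
  (((contDiffAt_const.mul ((mainpt_dpsi hA hL ha hw η).of_le mainpt_le)).mul
    (contDiffAt_pp3 (mainpt_db hA H))).mul
      ((hA.of_le mainpt_le).div ((mainpt_dw hA hL H').of_le mainpt_le) hw.ne')).neg

theorem mainpt_c3 (hA : ContDiffAt ℝ ∞ A x) (hL : ContDiffAt ℝ ∞ L x) (ha : 0 < A x)
    (hw : 0 < H' + A x * L x) (H η : ℝ) :
    ContDiffAt ℝ 1 (fun z => -((A z * (H' + A z * L z)) ^ η * (max (H - A z) 0) ^ 3)) x :=
  (((mainpt_dpsi hA hL ha hw η).of_le mainpt_le).mul (contDiffAt_pp3 (mainpt_db hA H))).neg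

theorem mainpt_grad_c3 (hA : ContDiffAt ℝ ∞ A x) (hL : ContDiffAt ℝ ∞ L x) (ha : 0 < A x)
    (hw : 0 < H' + A x * L x) (H η : ℝ) :
    grad (fun z => -((A z * (H' + A z * L z)) ^ η * (max (H - A z) 0) ^ 3)) x =
      ((A x * (H' + A x * L x)) ^ η * (3 * (max (H - A x) 0) ^ 2 -
        (max (H - A x) 0) ^ 3 * η * (L x / (H' + A x * L x) + 1 / A x))) • grad A x +
      ((A x * (H' + A x * L x)) ^ η *
        (-((max (H - A x) 0) ^ 3 * η * (A x / (H' + A x * L x))))) • grad L x := by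
  have d1 : DifferentiableAt ℝ (fun z => (A z * (H' + A z * L z)) ^ η) x :=
    (mainpt_dpsi hA hL ha hw η).differentiableAt (by simp)
  have d3 : DifferentiableAt ℝ (fun z => (max (H - A z) 0) ^ 3) x :=
    (contDiffAt_pp3 (mainpt_db hA H)).differentiableAt (by simp)
  rw [grad_neg (fun z => (A z * (H' + A z * L z)) ^ η * (max (H - A z) 0) ^ 3), grad_mul d1 d3,
    mainpt_grad_psi hA hL ha hw, mainpt_grad_p3 hA]
  ext i
  simp only [Pi.add_apply, Pi.smul_apply, Pi.neg_apply, smul_eq_mul]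
  ring

theorem mainpt_grad_c2 (hA : ContDiffAt ℝ ∞ A x) (hL : ContDiffAt ℝ ∞ L x) (ha : 0 < A x)
    (hw : 0 < H' + A x * L x) (H η y : ℝ) :
    grad (fun z => -(y * (A z * (H' + A z * L z)) ^ η * (max (H - A z) 0) ^ 3 *
      (A z / (H' + A z * L z)))) x =
      ((A x * (H' + A x * L x)) ^ η * (y * (A x / (H' + A x * L x)) * (3 * (max (H - A x) 0) ^ 2 -
        (max (H - A x) 0) ^ 3 * η * (L x / (H' + A x * L x) + 1 / A x)) -
        y * (max (H - A x) 0) ^ 3 * ((H' + A x * L x)⁻¹ -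
          A x / (H' + A x * L x) ^ 2 * L x))) • grad A x +
      ((A x * (H' + A x * L x)) ^ η *
        (-(y * (A x / (H' + A x * L x)) * (max (H - A x) 0) ^ 3 * η * (A x / (H' + A x * L x))) +
          y * (max (H - A x) 0) ^ 3 * (A x / (H' + A x * L x) ^ 2 * A x))) • grad L x := by
  have dA : DifferentiableAt ℝ A x := hA.differentiableAt (by simp)
  have dw : DifferentiableAt ℝ (fun z => H' + A z * L z) x :=
    (mainpt_dw hA hL H').differentiableAt (by simp)
  have d1 : DifferentiableAt ℝ (fun z => (A z * (H' + A z * L z)) ^ η) x :=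
    (mainpt_dpsi hA hL ha hw η).differentiableAt (by simp)
  have d3 : DifferentiableAt ℝ (fun z => (max (H - A z) 0) ^ 3) x :=
    (contDiffAt_pp3 (mainpt_db hA H)).differentiableAt (by simp)
  have d4 : DifferentiableAt ℝ (fun z => y * (A z * (H' + A z * L z)) ^ η) x :=
    (differentiableAt_const y).mul d1
  have d5 : DifferentiableAt ℝ
      (fun z => y * (A z * (H' + A z * L z)) ^ η * (max (H - A z) 0) ^ 3) x := d4.mul d3
  have d6 : DifferentiableAt ℝ (fun z => A z / (H' + A z * L z)) x :=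
    (hA.div (mainpt_dw hA hL H') hw.ne').differentiableAt (by simp)
  rw [grad_neg (fun z => y * (A z * (H' + A z * L z)) ^ η * (max (H - A z) 0) ^ 3 *
      (A z / (H' + A z * L z))), grad_mul d5 d6, grad_mul d4 d3, grad_const_mul y d1,
    grad_div dA dw hw.ne', mainpt_grad_psi hA hL ha hw, mainpt_grad_p3 hA, mainpt_grad_w hA hL]
  ext i
  simp only [Pi.add_apply, Pi.sub_apply, Pi.smul_apply, Pi.neg_apply, smul_eq_mul]
  ring

theorem mainpt_grad_c1 (hA : ContDiffAt ℝ ∞ A x) (hL : ContDiffAt ℝ ∞ L x) (ha : 0 < A x)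
    (hw : 0 < H' + A x * L x) (H η y k : ℝ) :
    grad (fun z => -((A z * (H' + A z * L z)) ^ η *
      (y * (max (H - A z) 0) ^ 3 / A z + k * (max (H - A z) 0) ^ 2))) x =
      ((A x * (H' + A x * L x)) ^ η *
        (-((y * (max (H - A x) 0) ^ 3 / A x + k * (max (H - A x) 0) ^ 2) * η *
          (L x / (H' + A x * L x) + 1 / A x)) +
        ((A x)⁻¹ * y * (3 * (max (H - A x) 0) ^ 2) + y * (max (H - A x) 0) ^ 3 / A x ^ 2 +
          k * (2 * max (H - A x) 0)))) • grad A x +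
      ((A x * (H' + A x * L x)) ^ η *
        (-((y * (max (H - A x) 0) ^ 3 / A x + k * (max (H - A x) 0) ^ 2) * η *
          (A x / (H' + A x * L x))))) • grad L x := by
  have dA : DifferentiableAt ℝ A x := hA.differentiableAt (by simp)
  have d1 : DifferentiableAt ℝ (fun z => (A z * (H' + A z * L z)) ^ η) x :=
    (mainpt_dpsi hA hL ha hw η).differentiableAt (by simp)
  have d2 : DifferentiableAt ℝ (fun z => (max (H - A z) 0) ^ 2) x :=
    (contDiffAt_pp2 (mainpt_db hA H)).differentiableAt (by simp)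
  have d3 : DifferentiableAt ℝ (fun z => (max (H - A z) 0) ^ 3) x :=
    (contDiffAt_pp3 (mainpt_db hA H)).differentiableAt (by simp)
  have d4 : DifferentiableAt ℝ (fun z => y * (max (H - A z) 0) ^ 3) x :=
    (differentiableAt_const y).mul d3
  have d5 : DifferentiableAt ℝ (fun z => y * (max (H - A z) 0) ^ 3 / A z) x :=
    ((contDiffAt_const.mul (contDiffAt_pp3 (mainpt_db hA H))).div (hA.of_le mainpt_le)
      ha.ne').differentiableAt (by simp)
  have d6 : DifferentiableAt ℝ (fun z => k * (max (H - A z) 0) ^ 2) x :=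
    (differentiableAt_const k).mul d2
  have d7 : DifferentiableAt ℝ
      (fun z => y * (max (H - A z) 0) ^ 3 / A z + k * (max (H - A z) 0) ^ 2) x := d5.add d6
  rw [grad_neg (fun z => (A z * (H' + A z * L z)) ^ η *
      (y * (max (H - A z) 0) ^ 3 / A z + k * (max (H - A z) 0) ^ 2)), grad_mul d1 d7,
    grad_add d5 d6, grad_div d4 dA ha.ne', grad_const_mul y d3, grad_const_mul k d2,
    mainpt_grad_psi hA hL ha hw, mainpt_grad_p3 hA, mainpt_grad_p2 hA]
  ext i
  simp only [Pi.add_apply, Pi.sub_apply, Pi.smul_apply, Pi.neg_apply, smul_eq_mul]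
  ring

/-- Linearity of `Gam` in the first gradient. -/
theorem mainpt_Gam_lin {u : E n → ℝ} {X : E n × ℝ} {φ g : E n → ℝ} {s t : ℝ}
    (h : grad φ x = s • grad A x + t • grad L x) :
    Gam u X φ g x = s * Gam u X A g x + t * Gam u X L g x := by
  simp only [Gam, gq, h, add_dotProduct, smul_dotProduct, smul_eq_mul]
  ring

end aux

variable {Ω : Set (E n)} {u : E n → ℝ} {X Y : E n × ℝ} {a : Af n} {H' : ℝ}

theorem Setup.on_pos (h : Setup Ω u X Y a H') {x : E n} (hx : x ∈ Ω) : 0 < a.on u x := by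
  have h1 := h.low x hx
  have h2 := h.pos
  have h3 : (0 : ℝ) < (n : ℝ) + 2 := by positivity
  by_contra hc
  have h4 : ((n : ℝ) + 2) * a.on u x ≤ 0 := mul_nonpos_of_nonneg_of_nonpos h3.le (not_lt.mp hc)
  linarith

theorem Setup.half_le_al (h : Setup Ω u X Y a H') {x : E n} (hx : x ∈ Ω) :
    1 / 2 ≤ al u X Y x := by
  have h1 := h.half x hx
  have h2 := h.sol.toCvx.tg_pos hx h.memX
  unfold al
  rw [le_div_iff₀ h2]
  linarith

theorem Setup.w_pos (h : Setup Ω u X Y a H') {x : E n} (hx : x ∈ Ω) :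
    0 < H' + a.on u x * al u X Y x := by
  have h1 := h.on_pos hx
  have h2 := h.half_le_al hx
  have h3 := h.nonneg
  have h4 : 0 < a.on u x * al u X Y x := mul_pos h1 (by linarith)
  linarith

theorem Setup.wt_nonneg (h : Setup Ω u X Y a H') (H η : ℝ) {x : E n} (hx : x ∈ Ω) :
    0 ≤ wt u X Y a H H' η x := by
  have h1 := h.on_pos hx
  have h2 := h.w_pos hx
  have h3 := h.sol.toCvx.md_pos h.memX hx
  unfold wt
  exact mul_nonneg (mul_nonneg (pow_nonneg (le_max_right _ _) 3)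
    (Real.rpow_nonneg (mul_pos h1 h2).le _)) h3.le

theorem Setup.contDiffAt_mfld (h : Setup Ω u X Y a H') (H η y : ℝ) {x : E n} (hx : x ∈ Ω) :
    ContDiffAt ℝ 1 (mfld u X Y a H H' η y) x := by
  have hc := h.sol.toCvx
  have hA := contDiffAt_on (hc.contDiffAt hx) a
  have hL := hc.contDiffAt_al h.memX Y hx
  have hT := hc.contDiffAt_ta h.memX hx
  have ha := h.on_pos hx
  have hw := h.w_pos hx
  have f1 := (hc.contDiffAt_fld h.memX hx hA).of_le mainpt_le
  have f2 := (hc.contDiffAt_fld h.memX hx hL).of_le mainpt_le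
  have f3 := (hc.contDiffAt_fld h.memX hx hT).of_le mainpt_le
  exact (((mainpt_c1 hA hL ha hw H η y (6 / (n + 2))).smul f1).add
    ((mainpt_c2 hA hL ha hw H η y).smul f2)).add ((mainpt_c3 hA hL ha hw H η).smul f3)

theorem mfld_eq_zero {H η y : ℝ} {x : E n} (hx : H ≤ a.on u x) :
    mfld u X Y a H H' η y x = 0 := by
  have h0 : max (H - a.on u x) 0 = 0 := max_eq_right (by linarith)
  simp [mfld, h0]

/-- The divergence of the test field as a sum of three products rules. -/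
theorem mainpt_dv (h : Setup Ω u X Y a H') (H η y : ℝ) {x : E n} (hx : x ∈ Ω) :
    dv (mfld u X Y a H H' η y) x =
      (-((a.on u x * (H' + a.on u x * al u X Y x)) ^ η *
        (y * (max (H - a.on u x) 0) ^ 3 / a.on u x + 6 / (n + 2) * (max (H - a.on u x) 0) ^ 2)) *
          dv (fld u X (a.on u)) x +
        md u X x * Gam u X (fun z => -((a.on u z * (H' + a.on u z * al u X Y z)) ^ η *
          (y * (max (H - a.on u z) 0) ^ 3 / a.on u z +
            6 / (n + 2) * (max (H - a.on u z) 0) ^ 2))) (a.on u) x) +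
      (-(y * (a.on u x * (H' + a.on u x * al u X Y x)) ^ η * (max (H - a.on u x) 0) ^ 3 *
        (a.on u x / (H' + a.on u x * al u X Y x))) * dv (fld u X (al u X Y)) x +
        md u X x * Gam u X (fun z => -(y * (a.on u z * (H' + a.on u z * al u X Y z)) ^ η *
          (max (H - a.on u z) 0) ^ 3 * (a.on u z / (H' + a.on u z * al u X Y z)))) (al u X Y) x) +
      (-((a.on u x * (H' + a.on u x * al u X Y x)) ^ η * (max (H - a.on u x) 0) ^ 3) *
        dv (fld u X (ta u X)) x +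
        md u X x * Gam u X (fun z => -((a.on u z * (H' + a.on u z * al u X Y z)) ^ η *
          (max (H - a.on u z) 0) ^ 3)) (ta u X) x) := by
  have hc := h.sol.toCvx
  have hA := contDiffAt_on (hc.contDiffAt hx) a
  have hL := hc.contDiffAt_al h.memX Y hx
  have hT := hc.contDiffAt_ta h.memX hx
  have ha := h.on_pos hx
  have hw := h.w_pos hx
  have f1 : DifferentiableAt ℝ (fld u X (a.on u)) x :=
    (hc.contDiffAt_fld h.memX hx hA).differentiableAt (by simp)
  have f2 : DifferentiableAt ℝ (fld u X (al u X Y)) x :=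
    (hc.contDiffAt_fld h.memX hx hL).differentiableAt (by simp)
  have f3 : DifferentiableAt ℝ (fld u X (ta u X)) x :=
    (hc.contDiffAt_fld h.memX hx hT).differentiableAt (by simp)
  have c1 := (mainpt_c1 hA hL ha hw H η y (6 / (n + 2))).differentiableAt (by simp)
  have c2 := (mainpt_c2 hA hL ha hw H η y).differentiableAt (by simp)
  have c3 := (mainpt_c3 hA hL ha hw H η).differentiableAt (by simp)
  have e1 := dv_smul c1 f1
  have e2 := dv_smul c2 f2
  have e3 := dv_smul c3 f3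
  have e4 := dv_add (c1.smul f1) (c2.smul f2)
  have e5 := dv_add ((c1.smul f1).add (c2.smul f2)) (c3.smul f3)
  rw [grad_dot_fld] at e1 e2 e3
  rw [← e1, ← e2, ← e3]
  exact e5.trans (congrArg (· + _) e4)

/-- If `H ≤ a` all three coefficients and their gradients vanish (`grad_pp2`, `grad_pp3`). -/
theorem Setup.dv_mfld_of_ge (h : Setup Ω u X Y a H') {H η y : ℝ} {x : E n} (hx : x ∈ Ω)
    (hH : H ≤ a.on u x) : dv (mfld u X Y a H H' η y) x = 0 := by
  have hc := h.sol.toCvx
  have hA := contDiffAt_on (hc.contDiffAt hx) a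
  have hL := hc.contDiffAt_al h.memX Y hx
  have ha := h.on_pos hx
  have hw := h.w_pos hx
  have h0 : max (H - a.on u x) 0 = 0 := max_eq_right (by linarith)
  rw [mainpt_dv h H η y hx, mainpt_Gam_lin (mainpt_grad_c1 hA hL ha hw H η y (6 / (n + 2))),
    mainpt_Gam_lin (mainpt_grad_c2 hA hL ha hw H η y),
    mainpt_Gam_lin (mainpt_grad_c3 hA hL ha hw H η), h0]
  simp

/-- The algebraic identity behind `dv_mfld_of_lt`. -/
theorem mainpt_alg (n : ℕ) {A L b H' ψ m y η a0 AA AL AT LL LT TT : ℝ} (hA : A ≠ 0) (hb : b ≠ 0)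
    (hw : H' + A * L ≠ 0) :
    (-(ψ * (y * b ^ 3 / A + 6 / (n + 2) * b ^ 2)) *
        (m * (((n : ℝ) + 2) / 2 * AT + n * (a0 - A))) +
      m * ((ψ * (-((y * b ^ 3 / A + 6 / (n + 2) * b ^ 2) * η * (L / (H' + A * L) + 1 / A)) +
        (A⁻¹ * y * (3 * b ^ 2) + y * b ^ 3 / A ^ 2 + 6 / (n + 2) * (2 * b)))) * AA +
        (ψ * (-((y * b ^ 3 / A + 6 / (n + 2) * b ^ 2) * η * (A / (H' + A * L))))) * AL)) +
    (-(y * ψ * b ^ 3 * (A / (H' + A * L))) * (m * (-(((n : ℝ) + 2) / 2) * LT - n * (L - 1))) +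
      m * ((ψ * (y * (A / (H' + A * L)) * (3 * b ^ 2 - b ^ 3 * η * (L / (H' + A * L) + 1 / A)) -
        y * b ^ 3 * ((H' + A * L)⁻¹ - A / (H' + A * L) ^ 2 * L))) * AL +
        (ψ * (-(y * (A / (H' + A * L)) * b ^ 3 * η * (A / (H' + A * L))) +
          y * b ^ 3 * (A / (H' + A * L) ^ 2 * A))) * LL)) +
    (-(ψ * b ^ 3) * (m * (n - (n : ℝ) / 2 * TT)) +
      m * ((ψ * (3 * b ^ 2 - b ^ 3 * η * (L / (H' + A * L) + 1 / A))) * AT +
        (ψ * (-(b ^ 3 * η * (A / (H' + A * L))))) * LT)) =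
    b ^ 3 * ψ * m * Qf n y η (A / b) (A * L / (H' + A * L)) (a0 / A) ((H' + A) / (H' + A * L))
      (AA / A ^ 2) (AL / (H' + A * L)) (AT / A) (LL * (A / (H' + A * L)) ^ 2)
      (LT * (A / (H' + A * L))) TT := by
  obtain ⟨w, hw'⟩ : ∃ w, w = H' + A * L := ⟨_, rfl⟩
  have hH : H' = w - A * L := by linarith
  rw [← hw'] at hw ⊢
  rw [hH]
  have hn : (n : ℝ) + 2 ≠ 0 := by positivity
  unfold Qf
  field_simp
  ring

/-- Write `a, α, w = H' + a α, b = H - a > 0, r = a/b, θ = aα/w, ψ = (a w)^η, 𝒲 = b³ ψ`,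
`A = a⁻¹ ∇a`, `D = (a/w) ∇α`, `P = ∇τ`. Then `∇ψ = ψ η ((1+θ) A + D)`, `∇b³ = -3 r b³ A`,
`∇b² = -2 r b² A`, `∇(a/w) = (a/w) ((1-θ) A - D)`. Use `dv_add`, `dv_smul`, `grad_dot_fld`, the
three identities of `Ident`, bilinearity of `gq`, and `field_simp; ring`. -/
theorem Setup.dv_mfld_of_lt (h : Setup Ω u X Y a H') {H η y : ℝ} {x : E n} (hx : x ∈ Ω)
    (hH : a.on u x < H) :
    dv (mfld u X Y a H H' η y) x = wt u X Y a H H' η x *
      Qf n y η (a.on u x / (H - a.on u x))
        (a.on u x * al u X Y x / (H' + a.on u x * al u X Y x))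
        (a.ev X / a.on u x) ((H' + a.on u x) / (H' + a.on u x * al u X Y x))
        (Gam u X (a.on u) (a.on u) x / a.on u x ^ 2)
        (Gam u X (a.on u) (al u X Y) x / (H' + a.on u x * al u X Y x))
        (Gam u X (a.on u) (ta u X) x / a.on u x)
        (Gam u X (al u X Y) (al u X Y) x * (a.on u x / (H' + a.on u x * al u X Y x)) ^ 2)
        (Gam u X (al u X Y) (ta u X) x * (a.on u x / (H' + a.on u x * al u X Y x)))
        (Gam u X (ta u X) (ta u X) x) := by
  have hc := h.sol.toCvx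
  have hA := contDiffAt_on (hc.contDiffAt hx) a
  have hL := hc.contDiffAt_al h.memX Y hx
  have ha := h.on_pos hx
  have hw := h.w_pos hx
  have hb : 0 < H - a.on u x := by linarith
  have h0 : max (H - a.on u x) 0 = H - a.on u x := max_eq_left hb.le
  rw [mainpt_dv h H η y hx, mainpt_Gam_lin (mainpt_grad_c1 hA hL ha hw H η y (6 / (n + 2))),
    mainpt_Gam_lin (mainpt_grad_c2 hA hL ha hw H η y),
    mainpt_Gam_lin (mainpt_grad_c3 hA hL ha hw H η), ident_a hc h.memX hx a,
    ident_al hc h.memX hx Y, ident_ta h.sol h.memX hx, Gam_comm hc hx (al u X Y) (a.on u)]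
  unfold wt
  rw [h0]
  exact mainpt_alg n ha.ne' hb.ne' hw.ne'

/-- The Gram form is nonnegative. -/
theorem mainpt_gram (hc : Cvx Ω u) (hX : X ∈ epi0 Ω u) {x : E n} (hx : x ∈ Ω)
    (f g k : E n → ℝ) (s t p : ℝ) :
    0 ≤ s ^ 2 * Gam u X f f x + t ^ 2 * Gam u X g g x + p ^ 2 * Gam u X k k x +
      2 * s * t * Gam u X f g x + 2 * s * p * Gam u X f k x + 2 * t * p * Gam u X g k x := by
  have hp := hc.posDef x hx
  have h1 := mul_nonneg (hc.tg_pos hx hX).le
    (gq_nonneg hp (s • grad f x + t • grad g x + p • grad k x))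
  have c1 := gq_comm hp (grad g x) (grad f x)
  have c2 := gq_comm hp (grad k x) (grad f x)
  have c3 := gq_comm hp (grad k x) (grad g x)
  have e : gq u x (s • grad f x + t • grad g x + p • grad k x)
      (s • grad f x + t • grad g x + p • grad k x) =
      s ^ 2 * gq u x (grad f x) (grad f x) + t ^ 2 * gq u x (grad g x) (grad g x) +
      p ^ 2 * gq u x (grad k x) (grad k x) +
      s * t * (gq u x (grad f x) (grad g x) + gq u x (grad g x) (grad f x)) +
      s * p * (gq u x (grad f x) (grad k x) + gq u x (grad k x) (grad f x)) +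
      t * p * (gq u x (grad g x) (grad k x) + gq u x (grad k x) (grad g x)) := by
    simp only [gq, mulVec_add, mulVec_smul, add_dotProduct, dotProduct_add, smul_dotProduct,
      dotProduct_smul, smul_eq_mul]
    ring
  rw [e, c1, c2, c3] at h1
  unfold Gam
  linarith

/-- Combine with `main_alg`: `AD ≥ -1` by `Gam_a_al` and `a(Y) ≤ H'`; the Gram form is
`l gq(v, v) ≥ 0` for `v = s A + t D + p P`; if `1 ≤ C₁ e₁` then `a ≤ C₁ a(X) ≤ H/2`. -/
theorem main_pt (h3 : 3 ≤ n) (h9 : n ≤ 9) : ∃ y c₁ C₁ η₀ : ℝ, 0 < c₁ ∧ 1 ≤ C₁ ∧ 0 < η₀ ∧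
    ∀ (Ω : Set (E n)) (u : E n → ℝ) (X Y : E n × ℝ) (a : Af n) (H H' η : ℝ),
      Setup Ω u X Y a H' → 0 ≤ η → η ≤ η₀ → 2 * C₁ * a.ev X ≤ H → ∀ x ∈ Ω,
      wt u X Y a H H' η x * (c₁ - C₁ * (a.ev X / a.on u x +
        (H' + a.on u x) / (H' + a.on u x * al u X Y x))) ≤ dv (mfld u X Y a H H' η y) x := by
  obtain ⟨y, c₁, C₁, η₀, -, hc₁, hC₁, hη₀, halg⟩ := main_alg h3 h9
  refine ⟨y, c₁, C₁, η₀, hc₁, hC₁, hη₀, ?_⟩
  intro Ω u X Y a H H' η h hη hη' hH x hx
  have hc := h.sol.toCvx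
  have ha := h.on_pos hx
  have hw := h.w_pos hx
  have hl := h.half_le_al hx
  have hH' := h.nonneg
  have h0 := h.pos
  rcases le_or_gt H (a.on u x) with hge | hlt
  · have h1 : max (H - a.on u x) 0 = 0 := max_eq_right (by linarith)
    rw [h.dv_mfld_of_ge hx hge]
    simp [wt, h1]
  · rw [h.dv_mfld_of_lt hx hlt]
    have hb : 0 < H - a.on u x := by linarith
    have hal : 0 < a.on u x * al u X Y x := mul_pos ha (by linarith)
    refine mul_le_mul_of_nonneg_left (halg _ _ _ _ _ _ _ _ _ _ _ hη hη' (by positivity)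
      (by positivity) ?_ (by positivity) (by positivity) ?_ ?_ ?_) (h.wt_nonneg H η hx)
    · rw [div_le_one hw]
      linarith
    · intro h1
      rw [← mul_div_assoc, one_le_div ha] at h1
      rw [div_le_one hb]
      linarith
    · rw [le_div_iff₀ hw, Gam_a_al hc h.memX hx]
      have h2 := h.leY
      have h3 : 0 ≤ al u X Y x * a.ev X := mul_nonneg (by linarith) h0.le
      linarith
    · intro s t p
      have h1 := mainpt_gram hc h.memX hx (a.on u) (al u X Y) (ta u X) (s / a.on u x)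
        (t * (a.on u x / (H' + a.on u x * al u X Y x))) p
      have h2 := ha.ne'
      have h3 := hw.ne'
      refine le_of_le_of_eq h1 ?_
      field_simp

end Vale.Agent.P252b
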