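import Vale.Agent.P252b.ConvB
import Vale.Agent.P252b.Piola
import Vale.Agent.P252b.MaxDet

/-!
Affine invariance and existence of normalisations for entire functions.
-/

open MeasureTheory Metric Set Filter Topology Matrix
open scoped ENNReal ContDiff

noncomputable section

namespace Vale.Agent.P252b

variable {n : ℕ}

variable {u : E n → ℝ} {M : Matrix (Fin n) (Fin n) ℝ} {t : ℝ}

theorem Cvx.contDiff (h : Cvx univ u) : ContDiff ℝ ∞ u := contDiffOn_univ.1 h.smooth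

theorem norm_comp_eq (F : E n → ℝ) (M : Matrix (Fin n) (Fin n) ℝ) :
    (fun ζ => F (M *ᵥ ζ)) = fun ζ => F (0 + M *ᵥ ζ) := by
  simp only [zero_add]

theorem norm_contDiff_comp {F : E n → ℝ} (hF : ContDiff ℝ ∞ F) (M : Matrix (Fin n) (Fin n) ℝ) :
    ContDiff ℝ ∞ (fun ζ => F (M *ᵥ ζ)) :=
  hF.comp (contDiff_mulVec M)

theorem norm_grad_comp {F : E n → ℝ} (hF : ContDiff ℝ ∞ F) (M : Matrix (Fin n) (Fin n) ℝ)
    (ξ : E n) : grad (fun ζ => F (M *ᵥ ζ)) ξ = Mᵀ *ᵥ grad F (M *ᵥ ξ) := by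
  rw [norm_comp_eq, grad_comp_affine M 0 ξ (hF.differentiable (by simp) _), zero_add]

theorem norm_Hs_comp {F : E n → ℝ} (hF : ContDiff ℝ ∞ F) (M : Matrix (Fin n) (Fin n) ℝ)
    (ξ : E n) : Hs (fun ζ => F (M *ᵥ ζ)) ξ = Mᵀ * Hs F (M *ᵥ ξ) * M := by
  rw [norm_comp_eq, Hs_comp_affine M 0 ξ hF.contDiffAt, zero_add]

theorem norm_contDiff_Br (h : Cvx univ u) (x : E n) : ContDiff ℝ ∞ (Br u x) :=
  contDiff_iff_contDiffAt.2 fun _ => contDiffAt_Br h.contDiff.contDiffAt x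

theorem norm_nz_eq (u : E n → ℝ) (M : Matrix (Fin n) (Fin n) ℝ) (t : ℝ) :
    nz u M t = fun ξ => t⁻¹ * Br u 0 (M *ᵥ ξ) := by
  funext ξ
  rw [nz, div_eq_inv_mul]

theorem contDiff_nz (h : Cvx univ u) (M : Matrix (Fin n) (Fin n) ℝ) (t : ℝ) :
    ContDiff ℝ ∞ (nz u M t) := by
  rw [norm_nz_eq]
  exact contDiff_const.mul (norm_contDiff_comp (norm_contDiff_Br h 0) M)

theorem grad_nz (h : Cvx univ u) (M : Matrix (Fin n) (Fin n) ℝ) (t : ℝ) (ξ : E n) :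
    grad (nz u M t) ξ = t⁻¹ • (Mᵀ *ᵥ (grad u (M *ᵥ ξ) - grad u 0)) := by
  rw [norm_nz_eq, grad_const_mul _
    ((norm_contDiff_comp (norm_contDiff_Br h 0) M).differentiable (by simp) _),
    norm_grad_comp (norm_contDiff_Br h 0), grad_Br h.contDiff.contDiffAt]

theorem Hs_nz (h : Cvx univ u) (M : Matrix (Fin n) (Fin n) ℝ) (t : ℝ) (ξ : E n) :
    Hs (nz u M t) ξ = t⁻¹ • (Mᵀ * Hs u (M *ᵥ ξ) * M) := by
  rw [norm_nz_eq, Hs_const_mul _ (norm_contDiff_comp (norm_contDiff_Br h 0) M).contDiffAt,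
    norm_Hs_comp (norm_contDiff_Br h 0), Hs_Br h.contDiff.contDiffAt]

theorem Br_nz (h : Cvx univ u) (M : Matrix (Fin n) (Fin n) ℝ) (t : ℝ) (ξ ζ : E n) :
    Br (nz u M t) ξ ζ = Br u (M *ᵥ ξ) (M *ᵥ ζ) / t := by
  have e : Br (nz u M t) ξ ζ = nz u M t ζ - nz u M t ξ - grad (nz u M t) ξ ⬝ᵥ (ζ - ξ) := rfl
  rw [e, grad_nz h, smul_dotProduct, Matrix.mulVec_transpose, ← Matrix.dotProduct_mulVec,
    Matrix.mulVec_sub]
  simp only [nz, Br, tg, sub_zero, sub_dotProduct, dotProduct_sub, smul_eq_mul]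
  ring

theorem Dt_nz (h : Cvx univ u) (M : Matrix (Fin n) (Fin n) ℝ) (t : ℝ) (ξ : E n) :
    Dt (nz u M t) ξ = (t⁻¹ ^ n * M.det ^ 2) * Dt u (M *ᵥ ξ) := by
  rw [Dt, Hs_nz h, Matrix.det_smul, Matrix.det_mul, Matrix.det_mul, Matrix.det_transpose,
    Fintype.card_fin, Dt]
  ring

theorem ff_nz (h : Cvx univ u) (M : Matrix (Fin n) (Fin n) ℝ) (ht : 0 < t) (ξ : E n) :
    ff (nz u M t) ξ = (t⁻¹ ^ n * M.det ^ 2) ^ (1 / ((n : ℝ) + 2)) * ff u (M *ᵥ ξ) := by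
  rw [ff, Dt_nz h, Real.mul_rpow (by positivity) (Dt_pos (h.posDef _ (mem_univ _))).le, ff]

theorem Gm_nz (h : Cvx univ u) (hM : M.det ≠ 0) (ht : 0 < t) (ξ : E n) :
    Gm (nz u M t) ξ = t • (M⁻¹ * Gm u (M *ᵥ ξ) * (M⁻¹)ᵀ) := by
  have hu : IsUnit M.det := hM.isUnit
  have h1 : M⁻¹ * M = 1 := Matrix.nonsing_inv_mul M hu
  have h2 : (M⁻¹)ᵀ * Mᵀ = 1 := by
    rw [← Matrix.transpose_mul, Matrix.mul_nonsing_inv M hu, Matrix.transpose_one]
  have h3 := Gm_mul_Hs (h.posDef (M *ᵥ ξ) (mem_univ _))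
  rw [Gm, Hs_nz h]
  refine Matrix.inv_eq_left_inv ?_
  rw [Matrix.smul_mul, Matrix.mul_smul, smul_smul, mul_inv_cancel₀ ht.ne', one_smul]
  calc M⁻¹ * Gm u (M *ᵥ ξ) * (M⁻¹)ᵀ * (Mᵀ * Hs u (M *ᵥ ξ) * M)
      = M⁻¹ * (Gm u (M *ᵥ ξ) * (((M⁻¹)ᵀ * Mᵀ) * Hs u (M *ᵥ ξ))) * M := by
        simp only [Matrix.mul_assoc]
    _ = 1 := by rw [h2, Matrix.one_mul, h3, Matrix.mul_one, h1]

theorem Lnd_nz (h : Cvx univ u) (hM : M.det ≠ 0) (ht : 0 < t) {F : E n → ℝ}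
    (hF : ContDiff ℝ ∞ F) (ξ : E n) :
    Lnd (nz u M t) (fun ζ => F (M *ᵥ ζ)) ξ = t * Lnd u F (M *ᵥ ξ) := by
  have hu : IsUnit M.det := hM.isUnit
  have h1 : M * M⁻¹ = 1 := Matrix.mul_nonsing_inv M hu
  have h2 : (M⁻¹)ᵀ * Mᵀ = 1 := by rw [← Matrix.transpose_mul, h1, Matrix.transpose_one]
  rw [Lnd, Gm_nz h hM ht, norm_Hs_comp hF, Matrix.smul_mul, Matrix.trace_smul, smul_eq_mul, Lnd]
  congr 1
  have e : M⁻¹ * Gm u (M *ᵥ ξ) * (M⁻¹)ᵀ * (Mᵀ * Hs F (M *ᵥ ξ) * M)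
      = M⁻¹ * (Gm u (M *ᵥ ξ) * Hs F (M *ᵥ ξ)) * M := by
    calc _ = M⁻¹ * (Gm u (M *ᵥ ξ) * (((M⁻¹)ᵀ * Mᵀ) * Hs F (M *ᵥ ξ))) * M := by
          simp only [Matrix.mul_assoc]
      _ = _ := by rw [h2, Matrix.one_mul]
  rw [e, Matrix.trace_mul_comm, ← Matrix.mul_assoc, h1, Matrix.one_mul]

theorem cvx_nz (h : Cvx univ u) (hM : M.det ≠ 0) (ht : 0 < t) : Cvx univ (nz u M t) := by
  have hc := contDiff_nz h M t
  refine ⟨isOpen_univ, convex_univ, hc.contDiffOn, hc.continuous.measurable, fun ξ _ => ?_,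
    fun c => ?_⟩
  · refine pd_of_dot (Hs_symm hc.contDiffAt) fun v hv => ?_
    have hv' : M *ᵥ v ≠ 0 := fun h0 => hv (Matrix.eq_zero_of_mulVec_eq_zero hM h0)
    have hp := pd_dot_pos (h.posDef (M *ᵥ ξ) (mem_univ _)) hv'
    rw [Hs_nz h, Matrix.smul_mulVec, dotProduct_smul, ← Matrix.mulVec_mulVec,
      ← Matrix.mulVec_mulVec, Matrix.dotProduct_mulVec, Matrix.vecMul_transpose, smul_eq_mul]
    exact mul_pos (inv_pos.2 ht) hp
  · simp only [mem_univ, true_and]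
    exact isClosed_le hc.continuous continuous_const

/-- `ww (nz u M t)` is a constant multiple of `ww u ∘ M`. -/
theorem sol_nz (h : Sol univ u) (hM : M.det ≠ 0) (ht : 0 < t) : Sol univ (nz u M t) := by
  have hc := h.toCvx
  refine ⟨cvx_nz hc hM ht, fun ξ _ => ?_⟩
  have hw : ContDiff ℝ ∞ (ww u) := contDiff_iff_contDiffAt.2 fun x =>
    contDiffAt_ww hc.contDiff.contDiffAt (hc.posDef x (mem_univ _))
  have e : ww (nz u M t) = fun ζ =>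
      (t⁻¹ ^ n * M.det ^ 2) ^ (-(((n : ℝ) + 1) / ((n : ℝ) + 2))) * ww u (M *ᵥ ζ) := by
    funext ζ
    rw [ww, Dt_nz hc, Real.mul_rpow (by positivity) (Dt_pos (hc.posDef _ (mem_univ _))).le, ww]
  rw [e, Lnd_const_mul _ (norm_contDiff_comp hw M).contDiffAt, Lnd_nz hc hM ht hw,
    h.am _ (mem_univ _), mul_zero, mul_zero]

theorem bal_nz (h : Cvx univ u) {Λ : ℝ} (hb : Bal u Λ) (M : Matrix (Fin n) (Fin n) ℝ)
    (ht : 0 < t) : Bal (nz u M t) Λ := by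
  intro x y
  rw [Br_nz h, Br_nz h, Matrix.mulVec_sub, Matrix.mulVec_smul, Matrix.mulVec_sub]
  exact div_le_div_of_nonneg_right (hb _ _) ht.le

/-- `Lop_eq` on both sides; `log Dt (nz u M t) = const + (log Dt u) ∘ M`. -/
theorem sup_nz (h : Cvx univ u) (hM : M.det ≠ 0) (ht : 0 < t) {F : E n → ℝ} (hF : Sup u F) :
    Sup (nz u M t) (fun ζ => F (M *ᵥ ζ)) := by
  refine ⟨norm_contDiff_comp hF.smooth M, fun ξ => hF.pos _, fun ξ => ?_⟩
  have hu : IsUnit M.det := hM.isUnit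
  have h1 : M * M⁻¹ = 1 := Matrix.mul_nonsing_inv M hu
  have h2 : (M⁻¹)ᵀ * Mᵀ = 1 := by rw [← Matrix.transpose_mul, h1, Matrix.transpose_one]
  have hD : ∀ x, 0 < Dt u x := fun x => Dt_pos (h.posDef x (mem_univ _))
  have hL : ContDiff ℝ ∞ (fun y => Real.log (Dt u y)) := contDiff_iff_contDiffAt.2 fun x =>
    (contDiffAt_Dt h.contDiff.contDiffAt).log (hD x).ne'
  have hc : 0 < t⁻¹ ^ n * M.det ^ 2 := by positivity
  have e : (fun ζ => Real.log (Dt (nz u M t) ζ)) =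
      fun ζ => Real.log (Dt u (M *ᵥ ζ)) + Real.log (t⁻¹ ^ n * M.det ^ 2) := by
    funext ζ
    rw [Dt_nz h, Real.log_mul hc.ne' (hD _).ne', add_comm]
  have hs := hF.sup (M *ᵥ ξ)
  rw [Lop_eq h.contDiff.contDiffAt (h.posDef _ (mem_univ _)) hF.smooth.contDiffAt] at hs
  rw [Lop_eq (contDiff_nz h M t).contDiffAt ((cvx_nz h hM ht).posDef _ (mem_univ _))
    (norm_contDiff_comp hF.smooth M).contDiffAt, Lnd_nz h hM ht hF.smooth, e, grad_add_const,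
    norm_grad_comp hL, norm_grad_comp hF.smooth]
  have e2 : ∀ a b : E n, gq (nz u M t) ξ (Mᵀ *ᵥ a) (Mᵀ *ᵥ b) = t * gq u (M *ᵥ ξ) a b := by
    intro a b
    rw [gq, Gm_nz h hM ht, Matrix.smul_mulVec, dotProduct_smul, smul_eq_mul, gq,
      Matrix.mulVec_mulVec, Matrix.mul_assoc, h2, Matrix.mul_one, Matrix.mulVec_transpose,
      ← Matrix.dotProduct_mulVec, Matrix.mulVec_mulVec, ← Matrix.mul_assoc, h1, Matrix.one_mul]
  rw [e2, ← mul_sub]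
  exact mul_nonpos_of_nonneg_of_nonpos ht.le hs

/-- `exists_maxdet` for `S = {y | Br u 0 y ≤ t}` and `y₀ = 0`. For the normalised function `v`,
`v (e_i) ≤ 1`, and `v (-Λ⁻¹ e_i) ≤ 1` by `Bal` at `0`, also `v (Λ⁻¹ e_i) ≤ 1` by convexity; a
point with `‖x‖ ≤ (nΛ)⁻¹` is the mean of the `n` points `n x_i e_i`, each on a segment between
`-Λ⁻¹ e_i` and `Λ⁻¹ e_i`. -/
theorem exists_nrm (hn : 1 ≤ n) (h : Cvx univ u) {Λ : ℝ} (hΛ : 1 ≤ Λ) (hb : Bal u Λ)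
    (ht : 0 < t) : ∃ M : Matrix (Fin n) (Fin n) ℝ, M.det ≠ 0 ∧ Nrm (nz u M t) Λ := by
  have hBc : Continuous (Br u 0) := (norm_contDiff_Br h 0).continuous
  have hS : IsCompact {y | y ∈ (univ : Set (E n)) ∧ Br u 0 y ≤ t} := h.isCompact_Br (mem_univ _) t
  have hconv : Convex ℝ {y | y ∈ (univ : Set (E n)) ∧ Br u 0 y ≤ t} := by
    have h1 := (h.capF_tgA (mem_univ (0 : E n))).convex_sec h t
    have e : sec univ u (tgA u 0) t = {y | y ∈ (univ : Set (E n)) ∧ Br u 0 y ≤ t} := by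
      ext y
      simp only [sec, Af.on, tgA_ev, mem_ofPred_eq, Br]
    rwa [e] at h1
  have h0 : (0 : E n) ∈ {y | y ∈ (univ : Set (E n)) ∧ Br u 0 y ≤ t} :=
    ⟨mem_univ _, by rw [Br_self]; exact ht.le⟩
  have hpos : 0 < volume {y | y ∈ (univ : Set (E n)) ∧ Br u 0 y ≤ t} := by
    have ho : IsOpen {y | Br u 0 y < t} := isOpen_lt hBc continuous_const
    refine lt_of_lt_of_le (ho.measure_pos volume ⟨0, ?_⟩) (measure_mono fun y hy => ?_)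
    · show Br u 0 0 < t
      rw [Br_self]; exact ht
    · exact ⟨mem_univ _, le_of_lt hy⟩
  obtain ⟨M, hM, hcol, hout, -, -⟩ := exists_maxdet hn hS hconv h0 hpos
  have hv := cvx_nz h hM ht
  have hbal := bal_nz h hb M ht
  have hz : nz u M t 0 = 0 := by rw [nz, Matrix.mulVec_zero, Br_self, zero_div]
  have hg : grad (nz u M t) 0 = 0 := by
    rw [grad_nz h, Matrix.mulVec_zero, sub_self, Matrix.mulVec_zero, smul_zero]
  have hBr : ∀ y, Br (nz u M t) 0 y = nz u M t y := by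
    intro y
    simp only [Br, tg, hz, hg, zero_dotProduct, sub_zero]
  have hK : Convex ℝ {x | x ∈ (univ : Set (E n)) ∧ nz u M t x ≤ 1} := hv.convexOn.convex_le 1
  have hΛ0 : 0 < Λ := lt_of_lt_of_le one_pos hΛ
  have hn0 : (0 : ℝ) < n := by exact_mod_cast hn
  have he : ∀ i : Fin n, nz u M t (Pi.single i 1) ≤ 1 := by
    intro i
    have h1 := (hcol i).2
    rw [zero_add] at h1
    have e : M *ᵥ (Pi.single i 1 : E n) = fun k => M k i := by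
      ext k
      simp
    rw [nz, e, div_le_one ht]
    exact h1
  have hm : ∀ i : Fin n, nz u M t (-(Λ⁻¹ • (Pi.single i 1 : E n))) ≤ 1 := by
    intro i
    have h1 := hbal 0 (Pi.single i 1)
    rw [hBr, hBr, sub_zero, zero_sub] at h1
    exact h1.trans (he i)
  have hline : ∀ (i : Fin n) (s : ℝ), |s| ≤ Λ⁻¹ →
      (s • (Pi.single i 1 : E n)) ∈ {x | x ∈ (univ : Set (E n)) ∧ nz u M t x ≤ 1} := by
    intro i s hs
    have hi1 : Λ⁻¹ ≤ 1 := inv_le_one_of_one_le₀ hΛ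
    have hi0 : 0 < Λ⁻¹ := inv_pos.2 hΛ0
    obtain ⟨hs1, hs2⟩ := abs_le.1 hs
    have hd : 0 < 1 + Λ⁻¹ := by linarith
    have h1 := hK (x := -(Λ⁻¹ • (Pi.single i 1 : E n))) ⟨mem_univ _, hm i⟩
      (y := Pi.single i 1) ⟨mem_univ _, he i⟩ (a := (1 - s) / (1 + Λ⁻¹))
      (b := (s + Λ⁻¹) / (1 + Λ⁻¹)) (div_nonneg (by linarith) hd.le)
      (div_nonneg (by linarith) hd.le) (by field_simp; ring)
    have e : ((1 - s) / (1 + Λ⁻¹)) • (-(Λ⁻¹ • (Pi.single i 1 : E n))) +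
        ((s + Λ⁻¹) / (1 + Λ⁻¹)) • (Pi.single i 1 : E n) = s • (Pi.single i 1 : E n) := by
      rw [← neg_smul, smul_smul, ← add_smul]
      congr 1
      rw [div_mul_eq_mul_div, ← add_div, div_eq_iff hd.ne']
      ring
    rwa [e] at h1
  refine ⟨M, hM, hv, hΛ, hbal, hz, hg, fun x hx => ?_, fun x hx => ?_⟩
  · have h1 := hK.sum_mem (t := Finset.univ) (w := fun _ : Fin n => (n : ℝ)⁻¹)
      (z := fun i => (n * x i) • (Pi.single i 1 : E n)) (fun _ _ => (inv_pos.2 hn0).le)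
      (by simp [hn0.ne']) (fun i _ => hline i _ (by
        rw [abs_mul, abs_of_pos hn0]
        have h2 : |x i| ≤ (n * Λ)⁻¹ := (norm_le_pi_norm x i).trans hx
        calc (n : ℝ) * |x i| ≤ n * (n * Λ)⁻¹ := mul_le_mul_of_nonneg_left h2 hn0.le
          _ = Λ⁻¹ := by field_simp))
    have e : ∑ i : Fin n, (n : ℝ)⁻¹ • ((n * x i) • (Pi.single i 1 : E n)) = x := by
      ext j
      simp [Finset.sum_apply, Pi.single_apply, hn0.ne']
    rw [e] at h1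
    exact h1.2
  · rw [nz, div_le_one ht] at hx
    have h1 := hout (M *ᵥ x) ⟨mem_univ _, hx⟩
    rwa [sub_zero, Matrix.mulVec_mulVec, Matrix.nonsing_inv_mul M hM.isUnit,
      Matrix.one_mulVec] at h1

end Vale.Agent.P252b
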