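import Vale.Agent.P252b.ConvB

/-!
Geometry of normalised balanced functions. Throughout `φ(σ) = u (σ x)` is convex, nonnegative,
and `u* (x) = Br u x 0 = ∇u(x)·x - u(x)`.
-/

open MeasureTheory Metric Set Filter Topology Matrix
open scoped ENNReal ContDiff

noncomputable section

namespace Vale.Agent.P252b

variable {n : ℕ}

variable {u : E n → ℝ} {Λ : ℝ}

theorem Nrm.contDiff (h : Nrm u Λ) : ContDiff ℝ ∞ u := contDiffOn_univ.1 h.cvx.smooth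

theorem Nrm.Br_zero (h : Nrm u Λ) (x : E n) : Br u 0 x = u x := by
  simp [Br, tg, h.zero, h.grad_zero]

theorem Nrm.nonneg (h : Nrm u Λ) (x : E n) : 0 ≤ u x := 
  h.Br_zero x ▸ h.cvx.Br_nonneg (mem_univ 0) (mem_univ x)

theorem Nrm.ustar (h : Nrm u Λ) (x : E n) : Br u x 0 = grad u x ⬝ᵥ x - u x := by
  simp only [Br, tg, h.zero, zero_sub, dotProduct_neg]
  ring

theorem Nrm.contDiff_ustar (h : Nrm u Λ) : ContDiff ℝ ∞ (fun x => Br u x 0) := 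
  contDiff_iff_contDiffAt.2 fun _ => contDiffAt_tg h.contDiff.contDiffAt (0, u 0)

theorem Nrm.grad_ustar (h : Nrm u Λ) (x : E n) :
    grad (fun y => Br u y 0) x = Hs u x *ᵥ x := by
  have := grad_tg (x := x) h.contDiff.contDiffAt (0, u 0)
  rwa [sub_zero] at this

theorem Nrm.smul_le (h : Nrm u Λ) (x : E n) {s : ℝ} (h0 : 0 ≤ s) (h1 : s ≤ 1) :
    u (s • x) ≤ s * u x := by
  have := h.cvx.convexOn.2 (mem_univ x) (mem_univ 0) h0 (sub_nonneg.2 h1) (add_sub_cancel s 1)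
  simpa [h.zero] using this

theorem Nrm.le_norm (hn : 1 ≤ n) (h : Nrm u Λ) {x : E n} (hx : ‖x‖ ≤ (n * Λ)⁻¹) :
    u x ≤ n * Λ * ‖x‖ := by
  have hp : 0 < (n : ℝ) * Λ := mul_pos (by exact_mod_cast hn) (zero_lt_one.trans_le h.one_le)
  rcases eq_or_ne x 0 with rfl | h0
  · simp [h.zero]
  have hx0 : 0 < ‖x‖ := norm_pos_iff.2 h0
  have hs : 0 < (n : ℝ) * Λ * ‖x‖ := mul_pos hp hx0
  have h1 : (n : ℝ) * Λ * ‖x‖ ≤ 1 := by
    have := mul_le_mul_of_nonneg_left hx hp.le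
    rwa [mul_inv_cancel₀ hp.ne'] at this
  have h2 := h.smul_le (((n : ℝ) * Λ * ‖x‖)⁻¹ • x) hs.le h1
  rw [smul_inv_smul₀ hs.ne'] at h2
  refine h2.trans (mul_le_of_le_one_right hs.le (h.inner _ (le_of_eq ?_)))
  rw [norm_smul, Real.norm_of_nonneg (inv_pos.2 hs).le]
  field_simp

theorem Nrm.norm_le (h : Nrm u Λ) {x : E n} {s : ℝ} (hs : 1 ≤ s) (hx : u x ≤ s) : ‖x‖ ≤ s := by
  have h0 : 0 < s := zero_lt_one.trans_le hs
  have h1 := h.smul_le x (inv_pos.2 h0).le (inv_le_one_of_one_le₀ hs)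
  have h2 := h.outer _ (h1.trans ((inv_mul_le_one₀ h0).2 hx))
  rwa [norm_smul, Real.norm_of_nonneg (inv_pos.2 h0).le, inv_mul_le_one₀ h0] at h2

theorem Nrm.isCompact_le (h : Nrm u Λ) (s : ℝ) : IsCompact {x | u x ≤ s} := 
  (isCompact_closedBall (0 : E n) (max 1 s)).of_isClosed_subset
    (isClosed_le h.contDiff.continuous continuous_const) fun _ hx =>
      mem_closedBall_zero_iff.2 (h.norm_le (le_max_left _ _) (le_max_of_le_right hx))

theorem nrmgeo_line (u : E n → ℝ) (x : E n) (σ τ : ℝ) : Br u (σ • x) (τ • x) =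
    u (τ • x) - u (σ • x) - (τ - σ) * (grad u (σ • x) ⬝ᵥ x) := by
  simp only [Br, tg]
  rw [← sub_smul, dotProduct_smul, smul_eq_mul]

theorem nrmgeo_pos (h : Nrm u Λ) (x : E n) (σ τ : ℝ) :
    u (σ • x) + (τ - σ) * (grad u (σ • x) ⬝ᵥ x) ≤ u (τ • x) := by
  have := h.cvx.Br_nonneg (mem_univ (σ • x)) (mem_univ (τ • x))
  rw [nrmgeo_line] at this
  linarith

theorem nrmgeo_bal (h : Nrm u Λ) (x : E n) (σ τ : ℝ) :
    u ((σ - Λ⁻¹ * (τ - σ)) • x) + (1 + Λ⁻¹) * (τ - σ) * (grad u (σ • x) ⬝ᵥ x) ≤ u (τ • x) := by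
  have := h.bal (σ • x) (τ • x)
  rw [← sub_smul, smul_smul, ← sub_smul, nrmgeo_line, nrmgeo_line] at this
  linarith

theorem nrmgeo_s (h : Nrm u Λ) : ∃ s : ℝ, 0 < s ∧ s ≤ 1 / 4 ∧ Λ⁻¹ = 4 * s ∧ 4 * s * Λ = 1 := by
  have h0 : 0 < Λ := zero_lt_one.trans_le h.one_le
  refine ⟨Λ⁻¹ / 4, by positivity, ?_, by ring, by field_simp⟩
  have := inv_le_one_of_one_le₀ h.one_le
  linarith

/-- Put `U = u x`, `U* = Br u x 0`, `s = 1/(4Λ)`, `p = ∇u(s x)·x`, `q = ∇u(x)·x = U + U*`.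
From `Br ≥ 0`: `s p ≥ φ(s) ≥ U - (1-s) q`, so `p ≥ q - U*/s`, and
`Br u (s x) x = U - φ(s) - (1-s) p ≤ (1-s)(q - p) ≤ U*/s`. `Bal` at `s x` with `y = x` and
`u ≥ 0` at the reflected point give `(1-s) p / Λ ≤ φ(s) + U*/s ≤ s U + U*/s`. -/
theorem Nrm.ustar_lower (h : Nrm u Λ) (x : E n) : u x ≤ 16 * Λ ^ 2 * Br u x 0 := by
  obtain ⟨s, s0, s1, s2, s3⟩ := nrmgeo_s h
  have a0 := h.cvx.Br_nonneg (mem_univ x) (mem_univ 0)
  have a1 := nrmgeo_pos h x s 0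
  have a2 := nrmgeo_pos h x 1 s
  have a3 := nrmgeo_pos h x s 1
  have a4 := nrmgeo_bal h x s 1
  have a5 := h.nonneg ((s - Λ⁻¹ * (1 - s)) • x)
  have a6 := h.smul_le x s0.le (by linarith)
  have a7 := h.nonneg x
  have a8 := h.ustar x
  rw [zero_smul, h.zero] at a1
  rw [one_smul] at a2 a3 a4
  rw [s2] at a4 a5
  generalize u ((s - 4 * s * (1 - s)) • x) = r at *
  generalize Br u x 0 = V at *
  generalize grad u (s • x) ⬝ᵥ x = p at *
  obtain ⟨d, hd⟩ : ∃ d, grad u x ⬝ᵥ x = p + d := ⟨_, (add_sub_cancel p _).symm⟩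
  rw [hd] at a2 a8
  generalize u (s • x) = φ at *
  generalize u x = U at *
  have b0 : 0 ≤ d := by
    have : 0 ≤ (1 - s) * d := by linarith
    exact nonneg_of_mul_nonneg_right (by linarith) (by linarith : (0 : ℝ) < 1 - s)
  have b1 : s * d ≤ V := by linarith
  have hp : p = U + V - d := by linarith
  have b2 : s * U ≤ d := by
    have c1 := mul_nonneg (sub_nonneg.2 s1) (mul_nonneg s0.le a7)
    have c2 := mul_nonneg (mul_nonneg s0.le (by linarith : (0 : ℝ) ≤ 1 - s)) a0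
    have c3 := mul_nonneg s0.le (mul_nonneg s0.le b0)
    have c4 := mul_nonneg (sub_nonneg.2 s1) b0
    have c5 : 4 * s * (1 - s) * p ≤ s * U + (1 - s) * d := by linarith
    rw [hp] at c5
    linarith
  have b3 : s * (s * U) ≤ V := (mul_le_mul_of_nonneg_left b2 s0.le).trans b1
  have b4 := mul_le_mul_of_nonneg_left b3 (by positivity : (0 : ℝ) ≤ 16 * Λ ^ 2)
  have b5 : 16 * Λ ^ 2 * (s * (s * U)) = (4 * s * Λ) ^ 2 * U := by ring
  rw [b5, s3] at b4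
  linarith

/-- `Bal` at `(1-s) x` with `y = 0`, `s = 1/(4Λ)`: the slope `p = ∇u((1-s) x)·x` lies in
`[0, U/s]`, `Br u ((1-s) x) 0 ≤ U/s`, the reflected point is `σ x` with
`σ = (1-s)(1 + 1/Λ) ≥ 1 + 1/(2Λ)` and `φ(σ) ≤ U + 2U/s ≤ 9 Λ U`; use `smul_le`. -/
theorem Nrm.doubling (h : Nrm u Λ) (x : E n) : u ((1 + (2 * Λ)⁻¹) • x) ≤ 9 * Λ * u x := by
  obtain ⟨s, s0, s1, s2, s3⟩ := nrmgeo_s h
  have a1 := nrmgeo_pos h x (1 - s) 1
  have a2 := nrmgeo_pos h x (1 - s) 0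
  have a3 := nrmgeo_bal h x (1 - s) 0
  have a4 := h.nonneg ((1 - s) • x)
  have a5 := h.nonneg x
  rw [zero_smul, h.zero] at a2 a3
  rw [one_smul] at a1
  rw [s2] at a3
  have e1 : (2 * Λ)⁻¹ = 2 * s := by rw [mul_inv, s2]; ring
  have e2 : 1 + 2 * s ≤ 1 - s - 4 * s * (0 - (1 - s)) := by nlinarith
  have e3 : 1 - s - 4 * s * (0 - (1 - s)) ≤ 2 := by nlinarith
  have e4 : (1 + 4 * s) * (0 - (1 - s)) = -(1 - s - 4 * s * (0 - (1 - s))) := by ring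
  rw [e4] at a3
  rw [e1]
  generalize 1 - s - 4 * s * (0 - (1 - s)) = σ at *
  have σ0 : 0 < σ := by linarith
  have b1 := h.smul_le (σ • x) (s := (1 + 2 * s) / σ) (by positivity) ((div_le_one σ0).2 e2)
  rw [smul_smul, div_mul_cancel₀ _ σ0.ne'] at b1
  have b2 := mul_le_of_le_one_left (h.nonneg (σ • x)) ((div_le_one σ0).2 e2)
  generalize grad u ((1 - s) • x) ⬝ᵥ x = p at *
  have p0 : 0 ≤ p := nonneg_of_mul_nonneg_right (by linarith) (by linarith : (0 : ℝ) < 1 - s)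
  have p1 := mul_le_mul_of_nonneg_right e3 p0
  have Λ0 : 0 ≤ Λ := zero_le_one.trans h.one_le
  have p2 : s * p ≤ u x := by linarith
  have p3 := mul_le_mul_of_nonneg_left p2 Λ0
  have p4 : Λ * (s * p) = p / 4 := by linear_combination p / 4 * s3
  have p5 := mul_nonneg Λ0 a5
  linarith

theorem Nrm.ustar_upper (h : Nrm u Λ) (x : E n) : Br u x 0 ≤ 18 * Λ ^ 2 * u x := by
  have h0 : 0 < Λ := zero_lt_one.trans_le h.one_le
  have a1 := nrmgeo_pos h x 1 (1 + (2 * Λ)⁻¹)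
  have a2 := h.doubling x
  have a3 := h.nonneg x
  rw [one_smul, add_sub_cancel_left] at a1
  have a4 : (2 * Λ)⁻¹ * (grad u x ⬝ᵥ x) ≤ 9 * Λ * u x := by linarith
  rw [inv_mul_le_iff₀ (by positivity)] at a4
  rw [h.ustar]
  linarith

/-- Iterate `doubling` from the ball of radius `(nΛ)⁻¹`; for the gradient use
`± ∂_i u(x) ≤ u(x ± e_i) - u(x)`. -/
theorem nrm_bound (hn : 1 ≤ n) (Λ R : ℝ) : ∃ C : ℝ, 1 ≤ C ∧ ∀ u : E n → ℝ, Nrm u Λ →
    ∀ x : E n, ‖x‖ ≤ R → u x ≤ C ∧ ‖grad u x‖ ≤ C := by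
  by_cases hΛ : 1 ≤ Λ
  swap
  · exact ⟨1, le_rfl, fun u h => absurd h.one_le hΛ⟩
  have h0 : 0 < Λ := zero_lt_one.trans_le hΛ
  have hp : 0 < (n : ℝ) * Λ := mul_pos (by exact_mod_cast hn) h0
  have ha : 1 < 1 + (2 * Λ)⁻¹ := lt_add_of_pos_right _ (by positivity)
  have ha0 : 0 < 1 + (2 * Λ)⁻¹ := zero_lt_one.trans ha
  obtain ⟨k, hk⟩ := pow_unbounded_of_one_lt ((R + 1) * (n * Λ)) ha
  refine ⟨(9 * Λ) ^ k, one_le_pow₀ (by linarith), fun u h => ?_⟩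
  have key : ∀ (j : ℕ) (x : E n), ‖x‖ ≤ (1 + (2 * Λ)⁻¹) ^ j * (n * Λ)⁻¹ → u x ≤ (9 * Λ) ^ j := by
    intro j
    induction j with
    | zero => intro x hx; rw [pow_zero, one_mul] at hx; rw [pow_zero]; exact h.inner x hx
    | succ j ih =>
      intro x hx
      have b1 := h.doubling ((1 + (2 * Λ)⁻¹)⁻¹ • x)
      rw [smul_inv_smul₀ ha0.ne'] at b1
      rw [pow_succ']
      refine b1.trans (mul_le_mul_of_nonneg_left (ih _ ?_) (by positivity))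
      rw [norm_smul, Real.norm_of_nonneg (inv_pos.2 ha0).le, inv_mul_le_iff₀ ha0, ← mul_assoc,
        ← pow_succ']
      exact hx
  have hb : ∀ x : E n, ‖x‖ ≤ R + 1 → u x ≤ (9 * Λ) ^ k := fun x hx =>
    key k x (hx.trans ((le_mul_inv_iff₀ hp).2 hk.le))
  intro x hx
  refine ⟨hb x (by linarith), (pi_norm_le_iff_of_nonneg (by positivity)).2 fun i => ?_⟩
  have hs : ‖(Pi.single i 1 : E n)‖ = 1 := by rw [Pi.norm_single, norm_one]
  have b1 := h.cvx.Br_nonneg (mem_univ x) (mem_univ (x + Pi.single i 1))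
  have b2 := h.cvx.Br_nonneg (mem_univ x) (mem_univ (x - Pi.single i 1))
  have b3 := hb (x + Pi.single i 1) ((norm_add_le _ _).trans (by linarith))
  have b4 := hb (x - Pi.single i 1) ((norm_sub_le _ _).trans (by linarith))
  have b5 := h.nonneg x
  simp only [Br, tg, add_sub_cancel_left, sub_sub_cancel_left, dotProduct_neg,
    dotProduct_single_one] at b1 b2
  rw [Real.norm_eq_abs, abs_le]
  constructor <;> linarith

end Vale.Agent.P252b
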