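import Vale.Agent.P252b.NrmGeo
import Vale.Agent.P252b.Piola

/-!
The maximum point used in the two maximum principle estimates.
-/

open MeasureTheory Metric Set Filter Topology Matrix
open scoped ENNReal ContDiff

noncomputable section

namespace Vale.Agent.P252b

variable {n : ℕ}

/-- The function `g + β log (1 - u)` attains its maximum over `{u < 1}`. -/
theorem poga_max {u : E n → ℝ} {Λ : ℝ} (h : Nrm u Λ) {g : E n → ℝ} (hg : Continuous g) {β : ℝ}
    (hβ : 0 < β) : ∃ x₀ : E n, u x₀ < 1 ∧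
      (∀ y, u y < 1 → g y + β * Real.log (1 - u y) ≤ g x₀ + β * Real.log (1 - u x₀)) ∧
      IsLocalMax (fun y => g y + β * Real.log (1 - u y)) x₀ := by
  have hu : Continuous u := h.contDiff.continuous
  have hΦ : Continuous fun y => Real.exp (g y) * (1 - u y) ^ β :=
    (Real.continuous_exp.comp hg).mul
      ((continuous_const.sub hu).rpow_const fun _ => Or.inr hβ.le)
  have h0 : (0 : E n) ∈ {x | u x ≤ 1} := by
    show u 0 ≤ 1
    rw [h.zero]; norm_num
  obtain ⟨x₀, hx₀, hmax⟩ := (h.isCompact_le 1).exists_isMaxOn ⟨0, h0⟩ hΦ.continuousOn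
  have hlt : u x₀ < 1 := by
    rcases lt_or_eq_of_le (show u x₀ ≤ 1 from hx₀) with h1 | h1
    · exact h1
    · have h2 : Real.exp (g 0) * (1 - u 0) ^ β ≤ Real.exp (g x₀) * (1 - u x₀) ^ β := hmax h0
      rw [h1, sub_self, Real.zero_rpow hβ.ne', h.zero, sub_zero, Real.one_rpow] at h2
      have := Real.exp_pos (g 0)
      linarith
  have key : ∀ y, u y < 1 → g y + β * Real.log (1 - u y) ≤ g x₀ + β * Real.log (1 - u x₀) := by
    intro y hy
    have h2 : Real.exp (g y) * (1 - u y) ^ β ≤ Real.exp (g x₀) * (1 - u x₀) ^ β :=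
      hmax (show u y ≤ 1 from hy.le)
    rw [Real.rpow_def_of_pos (by linarith), Real.rpow_def_of_pos (by linarith), ← Real.exp_add,
      ← Real.exp_add, Real.exp_le_exp] at h2
    linarith
  refine ⟨x₀, hlt, key, ?_⟩
  have hopen : IsOpen {y | u y < 1} := isOpen_lt hu continuous_const
  filter_upwards [hopen.mem_nhds hlt] with y hy using key y hy

theorem poga_contDiffAt_dot {u : E n → ℝ} {x : E n} (hu : ContDiffAt ℝ ∞ u x) (v : E n) :
    ContDiffAt ℝ ∞ (fun y => grad u y ⬝ᵥ v) x := by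
  have h : (fun y => grad u y ⬝ᵥ v) = fun y => ∑ i, pd u i y * v i := rfl
  rw [h]
  exact ContDiffAt.sum fun i _ => (contDiffAt_pd hu i).mul contDiffAt_const

theorem poga_contDiffAt_normsq {u : E n → ℝ} {x : E n} (hu : ContDiffAt ℝ ∞ u x) :
    ContDiffAt ℝ ∞ (fun y => grad u y ⬝ᵥ grad u y) x := by
  have h : (fun y => grad u y ⬝ᵥ grad u y) = fun y => ∑ i, pd u i y * pd u i y := rfl
  rw [h]
  exact ContDiffAt.sum fun i _ => (contDiffAt_pd hu i).mul (contDiffAt_pd hu i)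

theorem poga_gq_expand {u : E n → ℝ} {x : E n} (h : (Hs u x).PosDef) (a c : ℝ) (p v : E n) :
    gq u x (a • p + c • (Hs u x *ᵥ v)) (a • p + c • (Hs u x *ᵥ v)) =
      a ^ 2 * gq u x p p + 2 * a * c * (p ⬝ᵥ v) + c ^ 2 * (v ⬝ᵥ (Hs u x *ᵥ v)) := by
  have h1 : gq u x p (Hs u x *ᵥ v) = p ⬝ᵥ v := gq_Hs h p v
  have h2 : gq u x (Hs u x *ᵥ v) p = p ⬝ᵥ v := by rw [gq_comm h, h1]
  have h3 : gq u x (Hs u x *ᵥ v) (Hs u x *ᵥ v) = v ⬝ᵥ (Hs u x *ᵥ v) := by
    rw [gq_Hs h, dotProduct_comm]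
  unfold gq at *
  simp only [mulVec_add, mulVec_smul, dotProduct_add, add_dotProduct, dotProduct_smul,
    smul_dotProduct, smul_eq_mul, h1, h2, h3]
  ring

theorem poga_gq_smul (u : E n → ℝ) (x : E n) (a : ℝ) (p : E n) :
    gq u x (a • p) (a • p) = a ^ 2 * gq u x p p := by
  unfold gq
  simp only [mulVec_smul, dotProduct_smul, smul_dotProduct, smul_eq_mul]
  ring

/-- Gradient and `Lnd` of `β log (1 - u)`. -/
theorem poga_log {u : E n → ℝ} {x : E n} (hu : ContDiffAt ℝ ∞ u x) (h : (Hs u x).PosDef)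
    (hx : u x < 1) (β : ℝ) :
    ContDiffAt ℝ ∞ (fun y => β * Real.log (1 - u y)) x ∧
    grad (fun y => β * Real.log (1 - u y)) x = (-(β / (1 - u x))) • grad u x ∧
    Lnd u (fun y => β * Real.log (1 - u y)) x =
      -(β * n / (1 - u x)) - β * gq u x (grad u x) (grad u x) / (1 - u x) ^ 2 := by
  have hb : 1 - u x ≠ 0 := by linarith
  have h1 : ContDiffAt ℝ ∞ (fun y => 1 - u y) x := contDiffAt_const.sub hu
  have h2 : ContDiffAt ℝ ∞ (fun y => Real.log (1 - u y)) x := h1.log hb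
  refine ⟨contDiffAt_const.mul h2, ?_, ?_⟩
  · rw [grad_const_mul β (h2.differentiableAt (by simp)),
      grad_log (h1.differentiableAt (by simp)) hb, grad_const_sub, smul_smul, smul_neg, neg_smul,
      div_eq_mul_inv]
  · rw [Lnd_const_mul β h2, Lnd_log h1 hb, Lnd_const_sub, Lnd_self h, grad_const_sub,
      ← neg_one_smul ℝ (grad u x), poga_gq_smul]
    ring

end Vale.Agent.P252b
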