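import Vale.Agent.P252b.CalcA
import Vale.Agent.P252b.MaxDet

/-!
The `L¹` Poincaré inequality on the unit cube, in two-set form.
-/

open MeasureTheory Metric Set Filter Topology Matrix
open scoped ENNReal ContDiff

noncomputable section

namespace Vale.Agent.P252b

variable {n : ℕ}

theorem poinc_half {g : E n → ℝ} (hg : ContDiff ℝ 1 g) {x y : E n} (hx : x ∈ closedBall (0 : E n) 1)
    (hy : y ∈ closedBall (0 : E n) 1) :
    ‖g y - g (x + (1 / 2 : ℝ) • (y - x))‖ₑ ≤ ENNReal.ofReal (2 * n) *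
      ∫⁻ s in Icc (1 / 2 : ℝ) 1, ENNReal.ofReal ‖grad g (x + s • (y - x))‖ := by
  have h1 : ContDiffOn ℝ 1 (fun s : ℝ => g (x + s • (y - x))) (Icc (1 / 2) 1) :=
    (hg.comp (by fun_prop)).contDiffOn
  have h2 := enorm_sub_le_lintegral_deriv_of_contDiffOn_Icc h1 (by norm_num)
  simp only [one_smul, add_sub_cancel] at h2
  refine h2.trans ?_
  rw [← lintegral_const_mul' _ _ ENNReal.ofReal_ne_top]
  refine lintegral_mono fun s => ?_
  rw [(hasDerivAt_line (hg.differentiable (by simp) _)).deriv, ← ofReal_norm,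
    ← ENNReal.ofReal_mul (by positivity)]
  refine ENNReal.ofReal_le_ofReal ?_
  have h3 : ‖y - x‖ ≤ 2 := by
    have := norm_sub_le y x
    rw [mem_closedBall_zero_iff] at hx hy
    linarith
  rw [Real.norm_eq_abs]
  refine (abs_dot_le _ _).trans ?_
  have := mul_le_mul_of_nonneg_left h3
    (by positivity : (0 : ℝ) ≤ n * ‖grad g (x + s • (y - x))‖)
  linarith

theorem poinc_subst {φ : E n → ℝ≥0∞} (hφ : Measurable φ) {x : E n}
    (hx : x ∈ closedBall (0 : E n) 1) {s : ℝ} (hs : s ∈ Icc (1 / 2 : ℝ) 1) :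
    ∫⁻ y in closedBall (0 : E n) 1, φ (x + s • (y - x)) ≤
      ENNReal.ofReal (2 ^ n) * ∫⁻ z in closedBall (0 : E n) 1, φ z := by
  have hs0 : 0 < s := by linarith [hs.1]
  set ψ : E n → ℝ≥0∞ := (closedBall (0 : E n) 1).indicator φ with hψ
  have hψm : Measurable ψ := hφ.indicator measurableSet_closedBall
  have h1 : ∫⁻ y in closedBall (0 : E n) 1, φ (x + s • (y - x)) ≤
      ∫⁻ y, ψ ((1 - s) • x + s • y) := by
    refine le_trans (le_of_eq ?_) (setLIntegral_le_lintegral (closedBall (0 : E n) 1) _)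
    refine setLIntegral_congr_fun measurableSet_closedBall fun y hy => ?_
    have hm : (1 - s) • x + s • y ∈ closedBall (0 : E n) 1 :=
      convex_closedBall _ _ hx hy (by linarith [hs.2]) hs0.le (by ring)
    have he : x + s • (y - x) = (1 - s) • x + s • y := by module
    simp only [hψ, indicator_of_mem hm, he]
  refine h1.trans ?_
  have h2 : ∫⁻ y, ψ ((1 - s) • x + s • y) =
      ∫⁻ z, ψ ((1 - s) • x + z) ∂(Measure.map (fun y : E n => s • y) volume) := by
    rw [lintegral_map (by fun_prop) (by fun_prop)]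
  rw [h2, Measure.map_addHaar_smul _ hs0.ne', lintegral_smul_measure,
    lintegral_add_left_eq_self, hψ, lintegral_indicator measurableSet_closedBall, smul_eq_mul]
  gcongr
  rw [Module.finrank_fin_fun, abs_of_pos (by positivity), ← inv_pow]
  gcongr
  rw [inv_le_comm₀ hs0 (by norm_num)]
  linarith [hs.1]

theorem poinc_one {φ : E n → ℝ≥0∞} (hφ : Measurable φ) {x : E n}
    (hx : x ∈ closedBall (0 : E n) 1) :
    ∫⁻ y in closedBall (0 : E n) 1, ∫⁻ s in Icc (1 / 2 : ℝ) 1, φ (x + s • (y - x)) ≤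
      ENNReal.ofReal (2 ^ n) * ∫⁻ z in closedBall (0 : E n) 1, φ z := by
  rw [lintegral_lintegral_swap (by fun_prop)]
  refine (setLIntegral_mono' measurableSet_Icc fun s hs => poinc_subst hφ hx hs).trans ?_
  rw [setLIntegral_const, Real.volume_Icc]
  refine mul_le_of_le_one_right' ?_
  rw [ENNReal.ofReal_le_one]
  norm_num

/-- For `x ∈ A`, `y ∈ B`: `β - α ≤ g y - g x ≤ ∫₀¹ 2n ‖∇g ((1-s) x + s y)‖ ds`
(`hasDerivAt_line`, `abs_dot_le`). Integrate over `Q × Q`, `Q` the cube, and swap the order. For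
`s ≥ 1/2` and fixed `x` the substitution `z = (1-s) x + s y` maps `Q` into `Q` with Jacobian
`sⁿ ≥ 2⁻ⁿ`; for `s ≤ 1/2` exchange the roles. `C = 2n 4ⁿ` works. -/
theorem poincare (n : ℕ) : ∃ C : ℝ, 0 < C ∧ ∀ g : E n → ℝ, ContDiff ℝ 1 g →
    ∀ A B : Set (E n), MeasurableSet A → MeasurableSet B → A ⊆ closedBall 0 1 →
    B ⊆ closedBall 0 1 → ∀ α β : ℝ, (∀ x ∈ A, g x ≤ α) → (∀ x ∈ B, β ≤ g x) →
    ENNReal.ofReal (β - α) * volume A * volume B ≤
      ENNReal.ofReal C * ∫⁻ x in closedBall (0 : E n) 1, ENNReal.ofReal ‖grad g x‖ := by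
  refine ⟨(2 * n + 1) * (2 * (2 ^ n * 2 ^ n)), by positivity, ?_⟩
  intro g hg A B hA hB hAQ hBQ α β hα hβ
  set Q := closedBall (0 : E n) 1 with hQ
  set φ : E n → ℝ≥0∞ := fun x => ENNReal.ofReal ‖grad g x‖ with hφ
  have hφm : Measurable φ := (continuous_grad hg).norm.measurable.ennreal_ofReal
  set J : E n → E n → ℝ≥0∞ := fun x y => ∫⁻ s in Icc (1 / 2 : ℝ) 1, φ (x + s • (y - x)) with hJ
  have hJm : Measurable (Function.uncurry J) := by
    refine Measurable.lintegral_prod_right' (f := fun p : (E n × E n) × ℝ =>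
      φ (p.1.1 + p.2 • (p.1.2 - p.1.1))) (by fun_prop)
  have hJ1 : ∀ x, Measurable (J x) := fun x => hJm.of_uncurry_left
  have hpt : ∀ x ∈ A, ∀ y ∈ B, ENNReal.ofReal (β - α) ≤ ENNReal.ofReal (2 * n) * (J x y + J y x) := by
    intro x hx y hy
    have h1 := poinc_half hg (hAQ hx) (hBQ hy)
    have h2 := poinc_half hg (hBQ hy) (hAQ hx)
    have he : y + (1 / 2 : ℝ) • (x - y) = x + (1 / 2 : ℝ) • (y - x) := by module
    rw [he] at h2
    rw [mul_add]
    refine le_trans ?_ (add_le_add h1 h2)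
    rw [← ofReal_norm, ← ofReal_norm,
      ← ENNReal.ofReal_add (norm_nonneg _) (norm_nonneg _)]
    refine ENNReal.ofReal_le_ofReal ?_
    have := hα x hx
    have := hβ y hy
    have := le_abs_self (g y - g (x + (1 / 2 : ℝ) • (y - x)))
    have := neg_abs_le (g x - g (x + (1 / 2 : ℝ) • (y - x)))
    simp only [Real.norm_eq_abs]
    linarith
  have hvol : volume Q = ENNReal.ofReal (2 ^ n) := by
    rw [hQ, Real.volume_pi_closedBall _ zero_le_one]
    simp
  have hI : ∫⁻ x in Q, ∫⁻ y in Q, J x y ≤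
      ENNReal.ofReal (2 ^ n) * ENNReal.ofReal (2 ^ n) * ∫⁻ z in Q, φ z := by
    refine (setLIntegral_mono' measurableSet_closedBall fun x hx => poinc_one hφm hx).trans ?_
    rw [setLIntegral_const, hvol]
    exact le_of_eq (by ring)
  have hI' : ∫⁻ x in Q, ∫⁻ y in Q, J y x ≤
      ENNReal.ofReal (2 ^ n) * ENNReal.ofReal (2 ^ n) * ∫⁻ z in Q, φ z := by
    rw [← lintegral_lintegral_swap hJm.aemeasurable]
    exact hI
  calc ENNReal.ofReal (β - α) * volume A * volume B
      = ∫⁻ _ in A, ∫⁻ _ in B, ENNReal.ofReal (β - α) := by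
        simp only [setLIntegral_const]
        ring
    _ ≤ ∫⁻ x in A, ∫⁻ y in B, ENNReal.ofReal (2 * n) * (J x y + J y x) :=
        setLIntegral_mono' hA fun x hx => setLIntegral_mono' hB fun y hy => hpt x hx y hy
    _ ≤ ∫⁻ x in Q, ∫⁻ y in Q, ENNReal.ofReal (2 * n) * (J x y + J y x) :=
        lintegral_mono' (Measure.restrict_mono hAQ le_rfl) fun x =>
          lintegral_mono' (Measure.restrict_mono hBQ le_rfl) le_rfl
    _ = ENNReal.ofReal (2 * n) *
        ((∫⁻ x in Q, ∫⁻ y in Q, J x y) + ∫⁻ x in Q, ∫⁻ y in Q, J y x) := by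
        rw [← lintegral_add_left hJm.lintegral_prod_right,
          ← lintegral_const_mul' _ _ ENNReal.ofReal_ne_top]
        refine lintegral_congr fun x => ?_
        rw [lintegral_const_mul' _ _ ENNReal.ofReal_ne_top, lintegral_add_left (hJ1 x)]
    _ ≤ ENNReal.ofReal (2 * n + 1) *
        (ENNReal.ofReal (2 ^ n) * ENNReal.ofReal (2 ^ n) * (∫⁻ z in Q, φ z) +
          ENNReal.ofReal (2 ^ n) * ENNReal.ofReal (2 ^ n) * ∫⁻ z in Q, φ z) := by
        gcongr
        linarith
    _ = _ := by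
        rw [ENNReal.ofReal_mul (by positivity), ENNReal.ofReal_mul (by positivity),
          ENNReal.ofReal_mul (by positivity), ENNReal.ofReal_ofNat]
        ring

end Vale.Agent.P252b
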