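import Vale.Agent.P252b.ConvB
import Vale.Agent.P252b.MaxDet

/-!
Bound for the polar cone measure of thin slabs.
-/

open MeasureTheory Metric Set Filter Topology Matrix
open scoped ENNReal ContDiff

noncomputable section

namespace Vale.Agent.P252b

variable {n : ℕ}

theorem polar_pos (e : E n) {δ : ℝ} (hδ : 0 < δ) (ξ : E n) :
    0 < max ‖ξ‖ (|1 - ξ ⬝ᵥ e| / δ) := by
  rcases eq_or_ne ξ 0 with rfl | k
  · exact lt_max_of_lt_right (by simpa using hδ)
  · exact lt_max_of_lt_left (norm_pos_iff.2 k)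

theorem polar_ray {N : ℝ} (hN : 0 < N) : ENNReal.ofReal (N ^ (-((n : ℝ) + 1))) =
    ∫⁻ s in Ioc 0 N⁻¹, ENNReal.ofReal ((n + 1) * s ^ n) := by
  have i : IntegrableOn (fun s : ℝ => ((n : ℝ) + 1) * s ^ n) (Ioc 0 N⁻¹) :=
    (Continuous.integrableOn_Icc (by fun_prop)).mono_set Ioc_subset_Icc_self
  rw [← ofReal_integral_eq_lintegral_ofReal i
    ((ae_restrict_iff' measurableSet_Ioc).2 (ae_of_all _ fun s hs => by
      have := hs.1
      positivity)), ← intervalIntegral.integral_of_le (inv_pos.2 hN).le,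
    intervalIntegral.integral_const_mul, integral_pow, Real.rpow_neg hN.le, ← Nat.cast_succ,
    Real.rpow_natCast, zero_pow n.succ_ne_zero, sub_zero, inv_pow, Nat.cast_succ,
    mul_div_cancel₀ _ (by positivity)]

/-- For `N > 0` one has `N^(-(n+1)) = (n+1) ∫_{0 < s < 1/N} sⁿ ds`. Tonelli; for fixed `s > 0` the
substitution `ζ = s ξ` (`Measure.addHaar_smul` or `lintegral_comp_smul`) turns
`sⁿ vol {ξ | s N(ξ) ≤ 1}` into `vol {ζ | ‖ζ‖ ≤ 1 ∧ |s - ζ·e| ≤ δ}`; Tonelli again: for fixed `ζ`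
the set of `s` has length at most `2δ`. -/
theorem J_bound (e : E n) {δ : ℝ} (hδ : 0 < δ) :
    ∫⁻ ξ : E n, ENNReal.ofReal ((max ‖ξ‖ (|1 - ξ ⬝ᵥ e| / δ)) ^ (-((n : ℝ) + 1))) ≤
      ENNReal.ofReal ((n + 1) * 2 ^ (n + 1) * δ) := by
  set N : E n → ℝ := fun ξ => max ‖ξ‖ (|1 - ξ ⬝ᵥ e| / δ)
  have cN : Continuous N := by fun_prop
  set T : Set (ℝ × E n) := {p | ‖p.2‖ ≤ 1 ∧ |p.1 - p.2 ⬝ᵥ e| ≤ δ}
  have mT : MeasurableSet T :=
    ((isClosed_le (f := fun p : ℝ × E n => ‖p.2‖) (by fun_prop) continuous_const).inter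
      (isClosed_le (f := fun p : ℝ × E n => |p.1 - p.2 ⬝ᵥ e|) (by fun_prop)
        continuous_const)).measurableSet
  have mA : MeasurableSet {p : E n × ℝ | 0 < p.2 ∧ p.2 * N p.1 ≤ 1} :=
    (measurableSet_lt measurable_const measurable_snd).inter
      (isClosed_le (f := fun p : E n × ℝ => p.2 * N p.1) (by fun_prop)
        continuous_const).measurableSet
  have e1 : ∀ ξ, ENNReal.ofReal (N ξ ^ (-((n : ℝ) + 1))) = ∫⁻ s, {p : E n × ℝ | 0 < p.2 ∧
      p.2 * N p.1 ≤ 1}.indicator (fun p => ENNReal.ofReal ((n + 1) * p.2 ^ n)) (ξ, s) :=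
    fun ξ => (polar_ray (polar_pos e hδ ξ)).trans (by
      rw [← lintegral_indicator measurableSet_Ioc]
      refine lintegral_congr fun s => ?_
      simp only [indicator, mem_Ioc, mem_ofPred_eq, inv_eq_one_div,
        le_div_iff₀ (polar_pos e hδ ξ), N])
  have e2 : ∀ s : ℝ, ∫⁻ ξ, {p : E n × ℝ | 0 < p.2 ∧ p.2 * N p.1 ≤ 1}.indicator
      (fun p => ENNReal.ofReal ((n + 1) * p.2 ^ n)) (ξ, s) ≤
      ENNReal.ofReal (n + 1) * volume (Prod.mk s ⁻¹' T) := fun s => by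
    rcases le_or_gt s 0 with k | k
    · simp [indicator, k.not_gt]
    · have : ∀ ξ, {p : E n × ℝ | 0 < p.2 ∧ p.2 * N p.1 ≤ 1}.indicator
          (fun p => ENNReal.ofReal ((n + 1) * p.2 ^ n)) (ξ, s) = {ξ | s * N ξ ≤ 1}.indicator
          (fun _ => ENNReal.ofReal ((n + 1) * s ^ n)) ξ := fun ξ => by simp [indicator, k]
      rw [lintegral_congr this, lintegral_indicator_const
        (isClosed_le (by fun_prop) (by fun_prop)).measurableSet,
        ENNReal.ofReal_mul (by positivity), mul_assoc]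
      refine mul_le_mul_right ?_ _
      have j := Measure.addHaar_smul volume s {ξ | s * N ξ ≤ 1}
      rw [Module.finrank_fin_fun, abs_of_pos (pow_pos k n)] at j
      rw [← j]
      refine measure_mono ?_
      rintro _ ⟨ξ, hξ, rfl⟩
      have h1 := (mul_le_mul_of_nonneg_left (le_max_left _ _) k.le).trans hξ
      have h2 := (mul_le_mul_of_nonneg_left (le_max_right _ _) k.le).trans hξ
      refine ⟨by rwa [norm_smul, Real.norm_of_nonneg k.le], ?_⟩
      rw [← mul_div_assoc, div_le_one hδ, ← abs_of_pos k, ← abs_mul, mul_sub, mul_one] at h2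
      change |s - (s • ξ) ⬝ᵥ e| ≤ δ
      rwa [smul_dotProduct]
  have e3 : ∀ ζ : E n, volume ((fun s : ℝ => (s, ζ)) ⁻¹' T) ≤
      (closedBall (0 : E n) 1).indicator (fun _ => ENNReal.ofReal (2 * δ)) ζ := fun ζ => by
    by_cases k : ‖ζ‖ ≤ 1
    · rw [indicator_of_mem (mem_closedBall_zero_iff.2 k), ← Real.volume_closedBall (ζ ⬝ᵥ e)]
      exact measure_mono fun s hs => hs.2
    · rw [eq_empty_of_forall_notMem (s := (fun s : ℝ => (s, ζ)) ⁻¹' T) fun s hs => k hs.1]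
      simp
  have mF : Measurable ({p : E n × ℝ | 0 < p.2 ∧ p.2 * N p.1 ≤ 1}.indicator
      fun p => ENNReal.ofReal ((n + 1) * p.2 ^ n)) := Measurable.indicator (by fun_prop) mA
  refine ((lintegral_congr e1).trans (lintegral_lintegral_swap mF.aemeasurable)).trans_le
    ((lintegral_mono e2).trans ?_)
  rw [lintegral_const_mul _ (measurable_measure_prodMk_left mT), ← Measure.prod_apply mT,
    Measure.prod_apply_symm mT]
  refine (mul_le_mul_right (lintegral_mono e3) _).trans_eq ?_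
  rw [lintegral_indicator_const measurableSet_closedBall, volume_closedBall_one,
    ← ENNReal.ofReal_mul (by positivity), ← ENNReal.ofReal_mul (by positivity)]
  congr 1
  ring

/-- Take `M, y₀` from `exists_maxdet` for `sec Ω u a 2`. Put `q(x) = grad u x + a.s⁻¹ • a.p` and
`ξ(x) = a.s • Mᵀ q(x)`. The lid points `(y, (2 - a.p·y - a.c)/a.s)`, `y ∈ sec 2`, lie in `cap 2`,
and the difference of `tg u x` at the lid points over `y₀` and `y₀ + M e_i` is `(Mᵀ q)_i`; both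
values lie in `[0, lam x]`. So `‖ξ‖ ≤ a.s lam`. Also `(tgA u x).lin e = a.s⁻¹ - q·e.1`, so
`|1 - ξ·(M⁻¹ e.1)| ≤ δ a.s lam`. The map `ξ` is injective on `Ω` (`injOn_grad`) with Jacobian
`a.sⁿ det M Dt` (`hasFDerivAt_grad'`); `lintegral_image_eq_lintegral_abs_det_fderiv_mul` and
`J_bound`. `C = (n+1) 2^(2n+1)`. -/
theorem polar_bound (hn : 1 ≤ n) : ∃ C : ℝ, 0 < C ∧ ∀ (Ω : Set (E n)) (u : E n → ℝ), Cvx Ω u →
    ∀ a : Af n, CapF Ω u a → (∃ X ∈ epi Ω u, a.ev X ≤ 1) → ∀ e : E n × ℝ, a.lin e = 1 →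
    ∀ δ : ℝ, 0 < δ → ∀ S : Set (E n), MeasurableSet S → S ⊆ Ω → ∀ lam : E n → ℝ,
    (∀ x ∈ S, 0 < lam x) → (∀ x ∈ S, ∀ W ∈ cap Ω u a 2, tg u x W ≤ lam x) →
    (∀ x ∈ S, |(tgA u x).lin e| ≤ δ * lam x) →
    ∫⁻ x in S, ENNReal.ofReal (Dt u x * lam x ^ (-((n : ℝ) + 1))) ≤
      ENNReal.ofReal (C * δ * a.s / volume.real (sec Ω u a 2)) := by
  refine ⟨(n + 1) * 2 ^ (n + 1) * 2 ^ n, by positivity, ?_⟩
  rintro Ω u h a ha ⟨X, hX, hX1⟩ e he δ hδ S mS hS lam l0 l1 l2
  have y0 : X.1 ∈ sec Ω u a 2 := ⟨hX.1, by linarith [ha.on_le_ev hX]⟩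
  have vp := ha.volume_sec_pos h hX (s := 2) (by linarith)
  obtain ⟨M, M0, M1, -, M2, -⟩ := exists_maxdet hn (ha.cpt 2) (ha.convex_sec h 2) y0 vp
  have s0 := ha.spos
  have d0 := abs_pos.2 M0
  have mi : M *ᵥ (M⁻¹ *ᵥ e.1) = e.1 := by
    rw [mulVec_mulVec, mul_nonsing_inv _ (Ne.isUnit M0), one_mulVec]
  set ξ : E n → E n := fun x => Mᵀ *ᵥ (a.s • grad u x + a.p)
  have dξ : ∀ x ∈ S, HasFDerivWithinAt ξ
      (LinearMap.toContinuousLinearMap (Matrix.toLin' (Mᵀ * a.s • Hs u x))) S x := fun x hx => by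
    have k := (LinearMap.toContinuousLinearMap (Matrix.toLin' Mᵀ)).hasFDerivAt.comp x
      (((hasFDerivAt_grad' (h.contDiffAt (hS hx))).const_smul a.s).add_const a.p)
    refine (k.congr_fderiv ?_).hasFDerivWithinAt
    ext1 v
    simp
  have iξ : InjOn ξ S := fun x hx y hy k => h.injOn_grad (hS hx) (hS hy)
    (smul_right_injective _ s0.ne' (add_right_cancel (mulVec_injective_iff_isUnit.2
      ((isUnit_iff_isUnit_det _).2 (by rw [det_transpose]; exact Ne.isUnit M0)) k)))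
  have lid : ∀ y ∈ sec Ω u a 2, (y, (2 - a.p ⬝ᵥ y - a.c) / a.s) ∈ cap Ω u a 2 := fun y hy => by
    have j := hy.2
    refine ⟨⟨hy.1, (le_div_iff₀ s0).2 ?_⟩, ?_⟩
    · simp only [Af.on, Af.ev] at j
      linarith
    · simp only [Af.ev, mul_div_cancel₀ _ s0.ne']
      linarith
  have hN : ∀ x ∈ S, max ‖ξ x‖ (|1 - ξ x ⬝ᵥ (M⁻¹ *ᵥ e.1)| / δ) ≤ a.s * lam x := fun x hx => by
    refine max_le ((pi_norm_le_iff_of_nonneg (mul_pos s0 (l0 x hx)).le).2 fun i => ?_) ?_
    · have k1 := l1 x hx _ (lid _ y0)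
      have k2 := l1 x hx _ (lid _ (M1 i))
      have k3 := h.tg_nonneg (hS hx) (lid _ y0).1
      have k4 := h.tg_nonneg (hS hx) (lid _ (M1 i)).1
      have k5 : ξ x i = a.s * (tg u x (X.1, (2 - a.p ⬝ᵥ X.1 - a.c) / a.s) - tg u x
          (X.1 + fun k => M k i, (2 - a.p ⬝ᵥ (X.1 + fun k => M k i) - a.c) / a.s)) := by
        change (fun k => M k i) ⬝ᵥ (a.s • grad u x + a.p) = _
        rw [dotProduct_comm]
        simp only [tg, add_dotProduct, smul_dotProduct, dotProduct_add, dotProduct_sub,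
          smul_eq_mul]
        field_simp
        ring
      rw [k5, norm_mul, Real.norm_of_nonneg s0.le]
      exact mul_le_mul_of_nonneg_left (abs_le.2 ⟨by linarith, by linarith⟩) s0.le
    · have k : 1 - ξ x ⬝ᵥ (M⁻¹ *ᵥ e.1) = a.s * (tgA u x).lin e := by
        rw [← he, tgA_lin, Af.lin, show ξ x = _ from mulVec_transpose _ _, ← dotProduct_mulVec,
          mi, add_dotProduct, smul_dotProduct, smul_eq_mul]
        ring
      rw [k, abs_mul, abs_of_pos s0, div_le_iff₀ hδ, mul_assoc, mul_comm (lam x)]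
      exact mul_le_mul_of_nonneg_left (l2 x hx) s0.le
  have key := (lintegral_image_eq_lintegral_abs_det_fderiv_mul volume mS dξ iξ fun ζ =>
    ENNReal.ofReal ((max ‖ζ‖ (|1 - ζ ⬝ᵥ (M⁻¹ *ᵥ e.1)| / δ)) ^ (-((n : ℝ) + 1)))).symm.trans_le
    ((setLIntegral_le_lintegral _ _).trans (J_bound _ hδ))
  refine le_trans (setLIntegral_mono' mS fun x hx => ?_) (((lintegral_const_mul' _ _
    (ENNReal.ofReal_ne_top (r := a.s / |M.det|))).trans_le (mul_le_mul_right key _)).trans ?_)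
  · have D0 : 0 < (Hs u x).det := (h.posDef x (hS hx)).det_pos
    rw [← ENNReal.ofReal_mul (abs_nonneg _), ← ENNReal.ofReal_mul (by positivity),
      LinearMap.det_toContinuousLinearMap, LinearMap.det_toLin', det_mul, det_transpose, det_smul,
      Fintype.card_fin, abs_mul, abs_of_pos (a := _ * _) (by positivity)]
    refine ENNReal.ofReal_le_ofReal ?_
    have k := Real.rpow_le_rpow_of_nonpos (polar_pos _ hδ _) (hN x hx)
      (z := -((n : ℝ) + 1)) (neg_nonpos.2 (by positivity))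
    refine le_trans (le_of_eq ?_) (mul_le_mul_of_nonneg_left (mul_le_mul_of_nonneg_left k
      (by positivity)) (by positivity))
    rw [Real.mul_rpow s0.le (l0 x hx).le, Real.rpow_neg s0.le, ← Nat.cast_succ,
      Real.rpow_natCast, Dt, pow_succ]
    field_simp
  · rw [← ENNReal.ofReal_mul (by positivity)]
    refine ENNReal.ofReal_le_ofReal ?_
    have v0 : 0 < volume.real (sec Ω u a 2) :=
      ENNReal.toReal_pos vp.ne' (ha.volume_sec_lt_top 2).ne
    rw [div_mul_eq_mul_div, div_le_div_iff₀ d0 v0]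
    refine (mul_le_mul_of_nonneg_left M2 (by positivity)).trans_eq ?_
    ring

end Vale.Agent.P252b
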