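import Vale.Agent.P252.Defs

/-!
Euclidean completeness of a graph, for the statement of the affine Bernstein theorem.
-/

open MeasureTheory Set Filter Topology
open scoped ENNReal

namespace Vale.Agent.P252b

/-- Length of the curve `γ` on `[0,1]` for the induced metric `g_ij = δ_ij + u_i u_j`. -/
noncomputable def graphLength {n : ℕ} (u : EuclideanSpace ℝ (Fin n) → ℝ)
    (γ : ℝ → EuclideanSpace ℝ (Fin n)) : ℝ≥0∞ :=
  ∫⁻ t in Icc (0 : ℝ) 1,
    ENNReal.ofReal (Real.sqrt (‖deriv γ t‖ ^ 2 + (fderiv ℝ u (γ t) (deriv γ t)) ^ 2))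

/-- Riemannian distance on `Ω` for the induced metric: the infimum of the lengths of the `C¹`
curves in `Ω` from `x` to `y`. -/
noncomputable def graphDist {n : ℕ} (Ω : Set (EuclideanSpace ℝ (Fin n)))
    (u : EuclideanSpace ℝ (Fin n) → ℝ) (x y : EuclideanSpace ℝ (Fin n)) : ℝ≥0∞ :=
  ⨅ (γ : ℝ → EuclideanSpace ℝ (Fin n)) (_ : ContDiff ℝ 1 γ) (_ : MapsTo γ (Icc 0 1) Ω)
    (_ : γ 0 = x) (_ : γ 1 = y), graphLength u γ

/-- The graph of `u` over `Ω` is complete for the induced Euclidean metric: every sequence in `Ω`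
that is Cauchy for the Riemannian distance converges to a point of `Ω` for that distance. -/
def EuclideanComplete {n : ℕ} (Ω : Set (EuclideanSpace ℝ (Fin n)))
    (u : EuclideanSpace ℝ (Fin n) → ℝ) : Prop :=
  ∀ x : ℕ → EuclideanSpace ℝ (Fin n), (∀ k, x k ∈ Ω) →
    (∀ ε : ℝ≥0∞, 0 < ε → ∃ N, ∀ k ≥ N, ∀ l ≥ N, graphDist Ω u (x k) (x l) < ε) →
    ∃ y ∈ Ω, Tendsto (fun k => graphDist Ω u (x k) y) atTop (𝓝 0)

end Vale.Agent.P252b
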