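import Vale.Agent.P252b.Energy
import Vale.Agent.P252b.Poinc
import Vale.Agent.P252b.ABP
import Vale.Agent.P252b.Norm

/-!
Weak Harnack inequality and simultaneous near-infimum points.
-/

open MeasureTheory Metric Set Filter Topology Matrix
open scoped ENNReal ContDiff

noncomputable section

namespace Vale.Agent.P252b

variable {n : ℕ}

/-- `poincare` for `g = log F`, `A` the set of `abp`, `B = {K F x₀ < F}`, `α = log (2 F x₀)`,
`β = log (K F x₀)`, `K = 2 exp (C/(c δ))`. -/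
theorem weak_harnack (hn : 1 ≤ n) {Λ : ℝ} (hΛ : 1 ≤ Λ) : ∃ θ : ℝ, 0 < θ ∧ ∀ δ : ℝ, 0 < δ →
    ∃ K : ℝ, 0 < K ∧ ∀ u F : E n → ℝ, Nrm u Λ → Sup u F → ∀ x₀ : E n, ‖x₀‖ ≤ θ →
      volume {x : E n | ‖x‖ ≤ 1 ∧ K * F x₀ < F x} ≤ ENNReal.ofReal δ := by
  obtain ⟨θ, c, hθ, hc, habp⟩ := abp hn hΛ
  obtain ⟨C₁, hC₁, hP⟩ := poincare n
  obtain ⟨C₂, hC₂, hE⟩ := energy hn Λ
  refine ⟨θ, hθ, fun δ hδ => ⟨2 * Real.exp (C₁ * C₂ / (c * δ)), by positivity,
    fun u F hu hF x₀ hx₀ => ?_⟩⟩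
  have hcont : Continuous F := hF.smooth.continuous
  have h0 := hF.pos x₀
  have hg : ContDiff ℝ 1 fun y => Real.log (F y) :=
    (hF.smooth.of_le (by simp)).log fun y => (hF.pos y).ne'
  have mb : MeasurableSet {x : E n | ‖x‖ ≤ 1} := measurableSet_le measurable_norm measurable_const
  have key := hP _ hg {x : E n | ‖x‖ ≤ 1 ∧ F x ≤ 2 * F x₀}
    {x : E n | ‖x‖ ≤ 1 ∧ 2 * Real.exp (C₁ * C₂ / (c * δ)) * F x₀ < F x}
    (mb.inter (measurableSet_le hcont.measurable measurable_const))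
    (mb.inter (measurableSet_lt measurable_const hcont.measurable))
    (fun x hx => mem_closedBall_zero_iff.2 hx.1) (fun x hx => mem_closedBall_zero_iff.2 hx.1)
    (Real.log (2 * F x₀)) (Real.log (2 * Real.exp (C₁ * C₂ / (c * δ)) * F x₀))
    (fun x hx => Real.log_le_log (hF.pos x) hx.2)
    fun x hx => Real.log_le_log (by positivity) hx.2.le
  have e : Real.log (2 * Real.exp (C₁ * C₂ / (c * δ)) * F x₀) - Real.log (2 * F x₀) =
      C₁ * C₂ / (c * δ) := by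
    rw [mul_right_comm, Real.log_mul (by positivity) (Real.exp_pos _).ne', Real.log_exp]
    ring
  rw [e] at key
  have k1 := (mul_le_mul_left (mul_le_mul_right (habp u F hu hF x₀ hx₀) _) _).trans
    (key.trans (mul_le_mul_right (hE u F hu hF) _))
  have e2 : C₁ * C₂ = C₁ * C₂ / (c * δ) * c * δ := by field_simp
  rw [← ENNReal.ofReal_mul (by positivity), ← ENNReal.ofReal_mul hC₁.le] at k1
  nth_rewrite 3 [e2] at k1
  rw [ENNReal.ofReal_mul (p := C₁ * C₂ / (c * δ) * c) (by positivity)] at k1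
  exact (ENNReal.mul_le_mul_iff_right (ENNReal.ofReal_pos.2 (by positivity)).ne'
    ENNReal.ofReal_ne_top).1 k1

/-- Take `δ = 1/(k+1)` and `t > 0` with `Br u 0 (θ⁻¹ • x j) ≤ t` for all `j`; normalise at height
`t` (`exists_nrm`); then `‖M⁻¹ x j‖ ≤ θ` by `outer`; the unit cube has volume `2ⁿ ≥ 1`. -/
theorem simultaneous (hn : 1 ≤ n) {Λ : ℝ} (hΛ : 1 ≤ Λ) (ι : Type) [Fintype ι] :
    ∃ K : ℝ, 0 < K ∧ ∀ u : E n → ℝ, Cvx univ u → Bal u Λ → ∀ F : ι → E n → ℝ,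
      (∀ j, Sup u (F j)) → ∀ x : ι → E n, ∃ z : E n, ∀ j, F j z ≤ K * F j (x j) := by
  obtain ⟨θ, hθ, hW⟩ := weak_harnack hn hΛ
  obtain ⟨K, hK, hW⟩ := hW (1 / ((Fintype.card ι : ℝ) + 1)) (by positivity)
  refine ⟨K, hK, fun u hu hb F hF x => ?_⟩
  have ht : 0 < 1 + ∑ j, |Br u 0 (θ⁻¹ • x j)| := by positivity
  obtain ⟨M, hM, hN⟩ := exists_nrm hn hu hΛ hb ht
  have inv : ∀ v : E n, M *ᵥ (M⁻¹ *ᵥ v) = v := fun v => by
    rw [mulVec_mulVec, mul_nonsing_inv _ (Ne.isUnit hM), one_mulVec]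
  have small : ∀ j, ‖M⁻¹ *ᵥ x j‖ ≤ θ := fun j => by
    have k := hN.outer (θ⁻¹ • (M⁻¹ *ᵥ x j)) (by
      rw [nz, mulVec_smul, inv, div_le_one ht]
      have := Finset.single_le_sum (f := fun j => |Br u 0 (θ⁻¹ • x j)|)
        (fun _ _ => abs_nonneg _) (Finset.mem_univ j)
      linarith [le_abs_self (Br u 0 (θ⁻¹ • x j))])
    rwa [norm_smul, Real.norm_of_nonneg (inv_nonneg.2 hθ.le), inv_mul_le_iff₀ hθ, mul_one] at k
  by_contra hcon
  push Not at hcon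
  have sub : closedBall (0 : E n) 1 ⊆
      ⋃ j, {ζ : E n | ‖ζ‖ ≤ 1 ∧ K * F j (M *ᵥ (M⁻¹ *ᵥ x j)) < F j (M *ᵥ ζ)} := fun ζ hζ => by
    obtain ⟨j, hj⟩ := hcon (M *ᵥ ζ)
    exact mem_iUnion.2 ⟨j, mem_closedBall_zero_iff.1 hζ, by rwa [inv]⟩
  have k1 := (measure_mono (μ := volume) sub).trans ((measure_iUnion_fintype_le _ _).trans
    (Finset.sum_le_sum fun j _ => hW _ _ hN (sup_nz hu hM ht (hF j)) _ (small j)))
  rw [Real.volume_pi_closedBall _ zero_le_one, Finset.sum_const, Finset.card_univ, nsmul_eq_mul,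
    ← ENNReal.ofReal_natCast, ← ENNReal.ofReal_mul (Nat.cast_nonneg _),
    ENNReal.ofReal_le_ofReal_iff (by positivity), mul_one_div] at k1
  have k2 : (1 : ℝ) ≤ (2 * 1) ^ Fintype.card (Fin n) := one_le_pow₀ (by norm_num)
  have k3 : (Fintype.card ι : ℝ) / (Fintype.card ι + 1) < 1 :=
    (div_lt_one (by positivity)).2 (lt_add_one _)
  exact absurd (k2.trans k1) (not_le.2 k3)

end Vale.Agent.P252b
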